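import Crest.Agent.R227.Defs

/-!
# R227 / Moore: the Moore determinant of an orthogonal family and its Teichmüller inverse

`norm_det_moore`.  Define additive maps `f : ℕ → C →+ C`, `f 0 z = z`,
`f (j+1) z = f j z ^ p - f j (ε (m - j)) ^ (p - 1) * f j z = ∏ c ∈ range p, f j (z - c * ε (m - j))`
(`X ^ p - y ^ (p-1) X = ∏_{c < p} (X - c y)` in characteristic `p`: from
`FiniteField.X_pow_card_sub_X…`/`ZMod` roots, or compare roots when `y ≠ 0`).  Then
`f j z = z ^ p ^ j + ∑_{I < j} L j I * z ^ p ^ I`, `f j (ε t) = 0` for `t > m - j`, and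
`‖f j z‖ = ‖z‖ ^ p ^ j` whenever `‖z + e‖ = ‖z‖` for all `ℕ`-combinations `e` of the `ε t`,
`t > m - j` (induction on `j`; `-c ≡ p - c`); this applies to `z = ε (m - j)` by `Orth` and
`Antitone`.  So `L * M` (with `L` lower unitriangular, `Matrix.det_of_lowerTriangular`) is
anti-triangular: reverse the columns (`Matrix.det_permute'`, `Fin.revPerm`) and use
`det_of_upperTriangular`/`lowerTriangular`.

`exists_moore`.  In `O = Ob C` put `g I = ∏_{I < I'' ≤ m} ε (m - I'') ^ (p ^ I'' - p ^ (I''-1))`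
(`g m = 1`), `A t = g (m - t) * ε t ^ p ^ (m - t)`, `c = ∏ t, ε t ^ p ^ (m - t)`; `A t ∣ c` in `O`.
Key inequality `‖g I * ε t ^ p ^ I‖ ≤ ‖A t‖` for `I ≤ m` (telescoping
`∑_{I < I'' ≤ I'} (p ^ I'' - p ^ (I''-1)) = p ^ I' - p ^ I` and antitonicity; prove it by induction on
`|I - (m - t)|`, one factor at a time: `g (I) = g (I+1) * ε (m - (I+1)) ^ (p ^ (I+1) - p ^ I)`).
So `N I t = g I * ε t ^ p ^ I / A t ∈ O`, `‖det N‖ = 1` by `norm_det_moore`
(`Matrix.det_mul_column/row`; `∏ I, g I = ∏ t, g (m - t)`), so `det N` is a unit of `O`.  The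
matrix `𝐍 = N.map (teichmuller p)` over `𝕎 O` has `constantCoeff (det 𝐍) = det N`
(`RingHom.map_det`), hence is invertible (`WittVector.mkUnit`, `Matrix.isUnit_iff_isUnit_det`).
Put `β t = [c / A t] * 𝐍⁻¹ t m`.  Since `[g I] * ([c / A t] * [ε t ^ p ^ I]) = [c] * [N I t]`, one gets
`[g I] * ∑ t, β t * [ε t ^ p ^ I] = [c] * δ_{I m}`; cancel `[g I]` (nonzero; `𝕎 O` is a domain since
`O` is a domain of characteristic `p`).  For `I > m`:
`‖(c / A t) * ε t ^ p ^ I‖ ≤ ‖c‖ * ‖N m t‖ * ‖ε t‖ ^ (p ^ I - p ^ m) ≤ ‖c * ε 0‖`, so `c * ε 0` divides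
it in `O` (`dvd_of_norm_le`).
-/

set_option autoImplicit false
noncomputable section

namespace Crest.Agent.R227

variable {C : Type*} [NormedField C] [IsUltrametricDist C]

instance charP_Ob (p : ℕ) [CharP C p] : CharP (Ob C) p :=
  CharP.subring C p (Ob C)

theorem dvd_of_norm_le {a b : Ob C} (h : ‖(b : C)‖ ≤ ‖(a : C)‖) : a ∣ b := by
  by_cases ha : (a : C) = 0
  · have hb : (b : C) = 0 := by
      rw [ha, norm_zero] at h
      exact norm_le_zero_iff.1 h
    have : b = 0 := Subtype.ext hb
    rw [this]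
    exact dvd_zero a
  · refine ⟨⟨(b : C) / a, ?_⟩, Subtype.ext ?_⟩
    · rw [mem_Ob, norm_div]
      exact div_le_one_of_le₀ h (norm_nonneg _)
    · show (b : C) = a * (b / a)
      field_simp

theorem isUnit_of_norm_eq_one {a : Ob C} (h : ‖(a : C)‖ = 1) : IsUnit a := by
  exact isUnit_of_dvd_one (dvd_of_norm_le (by simp [h]))

omit [IsUltrametricDist C] in
theorem moore_prod (p : ℕ) [Fact p.Prime] [CharP C p] (z y : C) :
    z ^ p - y ^ (p - 1) * z = ∏ a : ZMod p, (z + (a.val : C) * y) := by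
  have hp : p.Prime := Fact.out
  obtain ⟨k, hk⟩ : ∃ k, p = k + 1 := ⟨p - 1, by have := hp.pos; omega⟩
  have hcard : Fintype.card (ZMod p) = p := ZMod.card p
  have h1 : ∀ w : C, w ^ p - w = ∏ a : ZMod p, (w + (a.val : C)) := by
    intro w
    have hm : (Polynomial.X ^ Fintype.card (ZMod p) - Polynomial.X : Polynomial (ZMod p)).Monic := by
      refine Polynomial.monic_X_pow_sub ?_
      rw [Polynomial.degree_X, hcard]
      exact_mod_cast hp.one_lt
    have h := Polynomial.prod_multiset_X_sub_C_of_monic_of_roots_card_eq hm (by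
      rw [FiniteField.roots_X_pow_card_sub_X, hcard,
        FiniteField.X_pow_card_sub_X_natDegree_eq _ hp.one_lt]
      simp)
    rw [FiniteField.roots_X_pow_card_sub_X, hcard] at h
    have h2 := congrArg (Polynomial.eval₂RingHom (ZMod.castHom (dvd_refl p) C) w) h
    rw [← Finset.prod_eq_multiset_prod, map_prod] at h2
    simp only [Polynomial.coe_eval₂RingHom, Polynomial.eval₂_sub, Polynomial.eval₂_X,
      Polynomial.eval₂_C, Polynomial.eval₂_X_pow] at h2
    rw [← h2, ← Equiv.prod_comp (Equiv.neg (ZMod p))]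
    refine Finset.prod_congr rfl fun a _ => ?_
    rw [Equiv.neg_apply, map_neg, sub_neg_eq_add, ZMod.castHom_apply, ZMod.cast_eq_val]
  by_cases hy : y = 0
  · have : p - 1 ≠ 0 := by have := hp.one_lt; omega
    simp [hy, this, hcard]
  · have h2 : ∀ a : ZMod p, z + (a.val : C) * y = y * (z / y + a.val) := fun a => by
      field_simp
    simp only [h2]
    rw [Finset.prod_mul_distrib, ← h1, Finset.prod_const, Finset.card_univ, hcard, div_pow, hk]
    simp only [Nat.add_sub_cancel]
    field_simp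
    ring

theorem moore_norm_det (p : ℕ) [Fact p.Prime] [CharP C p] (n : ℕ) (ε : Fin n → C)
    (hO : Orth ε) (hanti : Antitone fun t => ‖ε t‖) :
    ‖Matrix.det (Matrix.of fun I t : Fin n => ε t ^ (p ^ (I : ℕ)))‖ =
      ∏ t : Fin n, ‖ε t‖ ^ (p ^ (n - 1 - (t : ℕ))) := by
  have hp : p.Prime := Fact.out
  induction n with
  | zero => simp
  | succ n ih =>
    set y := ε (Fin.last n) with hy
    set φ : C → C := fun z => z ^ p - y ^ (p - 1) * z with hφ
    have hφy : φ y = 0 := by
      simp only [hφ]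
      rw [← pow_succ, Nat.sub_add_cancel hp.pos, sub_self]
    -- lower bound
    have hlow : ∀ (c : Fin n → ℕ) (t : Fin n), (c t : C) ≠ 0 →
        ‖ε t.castSucc‖ ^ p ≤ ‖φ (∑ j, (c j : C) * ε j.castSucc)‖ := by
      intro c t ht
      simp only [hφ]
      rw [moore_prod, norm_prod]
      calc ‖ε t.castSucc‖ ^ p = ∏ _a : ZMod p, ‖ε t.castSucc‖ := by
            rw [Finset.prod_const, Finset.card_univ, ZMod.card]
        _ ≤ _ := by
            refine Finset.prod_le_prod (fun _ _ => norm_nonneg _) fun a _ => ?_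
            have := hO (Fin.snoc c a.val) t.castSucc (by simpa using ht)
            simpa [Fin.sum_univ_castSucc] using this
    have hnorm : ∀ t : Fin n, ‖φ (ε t.castSucc)‖ = ‖ε t.castSucc‖ ^ p := by
      intro t
      refine le_antisymm ?_ ?_
      · simp only [hφ]
        rw [moore_prod, norm_prod]
        calc _ ≤ ∏ _a : ZMod p, ‖ε t.castSucc‖ := by
              refine Finset.prod_le_prod (fun _ _ => norm_nonneg _) fun a _ => ?_
              refine (IsUltrametricDist.norm_add_le_max _ _).trans (max_le le_rfl ?_)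
              rw [norm_mul]
              exact (mul_le_of_le_one_left (norm_nonneg _)
                (IsUltrametricDist.norm_natCast_le_one C _)).trans (hanti (Fin.le_last _))
          _ = _ := by rw [Finset.prod_const, Finset.card_univ, ZMod.card]
      · have := hlow (Pi.single t 1) t (by simp)
        simpa [Pi.single_apply] using this
    have hlin : ∀ c : Fin n → ℕ, φ (∑ j, (c j : C) * ε j.castSucc) =
        ∑ j, (c j : C) * φ (ε j.castSucc) := by
      intro c
      simp only [hφ]
      rw [sum_pow_char, Finset.mul_sum, ← Finset.sum_sub_distrib]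
      refine Finset.sum_congr rfl fun j _ => ?_
      have : (c j : C) ^ p = c j := map_natCast (frobenius C p) (c j)
      rw [mul_pow, this]
      ring
    have hO' : Orth fun t : Fin n => φ (ε t.castSucc) := by
      intro c t ht
      rw [hnorm, ← hlin]
      exact hlow c t ht
    have hanti' : Antitone fun t : Fin n => ‖φ (ε t.castSucc)‖ := by
      intro a b hab
      simp only [hnorm]
      exact pow_le_pow_left₀ (norm_nonneg _) (hanti (Fin.castSucc_le_castSucc_iff.2 hab)) p
    have ih' := ih _ hO' hanti'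
    set B : Matrix (Fin (n + 1)) (Fin (n + 1)) C :=
      Matrix.of fun I t => Fin.cases (motive := fun _ => C) (ε t)
        (fun i : Fin n => φ (ε t) ^ p ^ (i : ℕ)) I with hB
    have hdet : Matrix.det (Matrix.of fun I t : Fin (n + 1) => ε t ^ (p ^ (I : ℕ))) = B.det := by
      refine Matrix.det_eq_of_forall_row_eq_smul_add_pred
        (fun i => (y ^ (p - 1)) ^ p ^ (i : ℕ)) (fun j => by simp [hB]) fun i j => ?_
      simp only [hB, Matrix.of_apply, Fin.cases_succ, Fin.val_succ, Fin.val_castSucc, hφ]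
      rw [sub_pow_char_pow, mul_pow, ← pow_mul (ε j) p, ← pow_succ']
      ring
    rw [hdet, Matrix.det_succ_column B (Fin.last n), Fin.sum_univ_succ]
    have hz : ∑ i : Fin n, (-1 : C) ^ ((i.succ : ℕ) + (Fin.last n : ℕ)) * B i.succ (Fin.last n) *
        Matrix.det (B.submatrix i.succ.succAbove (Fin.last n).succAbove) = 0 := by
      refine Finset.sum_eq_zero fun i _ => ?_
      have : B i.succ (Fin.last n) = 0 := by
        simp only [hB, Matrix.of_apply, Fin.cases_succ]
        rw [← hy, hφy, zero_pow (pow_pos hp.pos _).ne']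
      rw [this, mul_zero, zero_mul]
    have hsub : B.submatrix (0 : Fin (n + 1)).succAbove (Fin.last n).succAbove =
        Matrix.of fun I t : Fin n => φ (ε t.castSucc) ^ (p ^ (I : ℕ)) := by
      ext I t
      simp [hB]
    rw [hz, add_zero, hsub, norm_mul, norm_mul, ih', Fin.prod_univ_castSucc]
    have h00 : B 0 (Fin.last n) = y := by simp [hB, hy]
    rw [h00]
    simp only [norm_pow, norm_neg, norm_one, one_pow, one_mul, Fin.val_last, Nat.add_sub_cancel,
      Nat.sub_self, pow_zero, pow_one, Fin.val_castSucc, hnorm]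
    rw [mul_comm]
    congr 1
    refine Finset.prod_congr rfl fun t _ => ?_
    rw [← pow_mul, ← pow_succ']
    congr 2
    have := t.2
    omega

theorem norm_det_moore (p : ℕ) [Fact p.Prime] [CharP C p] {m : ℕ} (ε : Fin (m + 1) → C)
    (hO : Orth ε) (hanti : Antitone fun t => ‖ε t‖) :
    ‖Matrix.det (Matrix.of fun I t : Fin (m + 1) => ε t ^ (p ^ (I : ℕ)))‖ =
      ∏ t : Fin (m + 1), ‖ε t‖ ^ (p ^ (m - (t : ℕ))) := by
  simpa using moore_norm_det p (m + 1) ε hO hanti

theorem moore_unimodal {H : ℕ → ℝ} {t m : ℕ} (h1 : ∀ s < t, H s ≤ H (s + 1))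
    (h2 : ∀ s, t ≤ s → s < m → H (s + 1) ≤ H s) : ∀ s ≤ m, H s ≤ H t := by
  intro s hs
  rcases le_total s t with h | h
  · clear hs
    induction h using Nat.decreasingInduction with
    | self => exact le_rfl
    | of_succ k hk ih => exact (h1 k hk).trans ih
  · induction s, h using Nat.le_induction with
    | base => exact le_rfl
    | succ k hk ih => exact (h2 k hk (by omega)).trans (ih (by omega))

theorem exists_moore (p : ℕ) [Fact p.Prime] [CharP C p] {m : ℕ} (ε : Fin (m + 1) → Ob C)
    (hO : Orth fun t => (ε t : C)) (hanti : Antitone fun t => ‖(ε t : C)‖)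
    (h0 : ∀ t, ε t ≠ 0) :
    ∃ β : Fin (m + 1) → WittVector p (Ob C),
      (∀ I < m, ∑ t, β t * WittVector.teichmuller p (ε t ^ (p ^ I)) = 0) ∧
      ∑ t, β t * WittVector.teichmuller p (ε t ^ (p ^ m)) =
        WittVector.teichmuller p (∏ t : Fin (m + 1), ε t ^ (p ^ (m - (t : ℕ)))) ∧
      ∀ I > m, WittVector.teichmuller p ((∏ t : Fin (m + 1), ε t ^ (p ^ (m - (t : ℕ)))) * ε 0) ∣
        ∑ t, β t * WittVector.teichmuller p (ε t ^ (p ^ I)) := by
  classical
  have hp : p.Prime := Fact.out
  -- `e` extends `ε` to `ℕ`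
  set e : ℕ → Ob C := fun j => if h : j < m + 1 then ε ⟨j, h⟩ else 1 with he
  have heε : ∀ t : Fin (m + 1), e t = ε t := fun t => by simp only [he, dif_pos t.2]
  have he0 : ∀ j, (e j : C) ≠ 0 := fun j => by
    simp only [he]
    split_ifs with h
    · exact fun h' => h0 _ (Subtype.ext h')
    · simp
  have he1 : ∀ j, ‖(e j : C)‖ ≤ 1 := fun j => (e j).2
  have heanti : ∀ i j, i ≤ j → j ≤ m → ‖(e j : C)‖ ≤ ‖(e i : C)‖ := fun i j hij hj => by
    have := hanti (a := ⟨i, by omega⟩) (b := ⟨j, by omega⟩) hij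
    simp only [← heε] at this
    exact this
  set G : ℕ → Ob C := fun s => ∏ j ∈ Finset.range s, e j ^ (p ^ (m - j) - p ^ (m - j - 1))
    with hG
  have hG0 : ∀ s, (G s : C) ≠ 0 := fun s => by
    simp only [hG]
    push_cast
    exact Finset.prod_ne_zero_iff.2 fun j _ => pow_ne_zero _ (he0 j)
  have hkey : ∀ t ≤ m, ∀ s ≤ m,
      ‖((G s * e t ^ p ^ (m - s) : Ob C) : C)‖ ≤ ‖((G t * e t ^ p ^ (m - t) : Ob C) : C)‖ := by
    intro t ht
    have hstep : ∀ s < m,
        ‖((G (s + 1) * e t ^ p ^ (m - (s + 1)) : Ob C) : C)‖ =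
          ‖(G s : C)‖ * ‖(e t : C)‖ ^ p ^ (m - s - 1) *
            ‖(e s : C)‖ ^ (p ^ (m - s) - p ^ (m - s - 1)) ∧
        ‖((G s * e t ^ p ^ (m - s) : Ob C) : C)‖ =
          ‖(G s : C)‖ * ‖(e t : C)‖ ^ p ^ (m - s - 1) *
            ‖(e t : C)‖ ^ (p ^ (m - s) - p ^ (m - s - 1)) := by
      intro s _
      have hle : p ^ (m - s - 1) ≤ p ^ (m - s) := Nat.pow_le_pow_right hp.pos (by omega)
      constructor
      · simp only [hG, Finset.prod_range_succ]
        push_cast
        simp only [norm_mul, norm_pow, Nat.sub_sub]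
        ring
      · push_cast
        rw [norm_mul, norm_pow, mul_assoc, ← pow_add, Nat.add_sub_cancel' hle]
    refine moore_unimodal (H := fun s => ‖((G s * e t ^ p ^ (m - s) : Ob C) : C)‖) ?_ ?_
    · intro s hs
      obtain ⟨h1, h2⟩ := hstep s (by omega)
      simp only [h1, h2]
      gcongr
      exact heanti s t hs.le ht
    · intro s hs hsm
      obtain ⟨h1, h2⟩ := hstep s hsm
      simp only [h1, h2]
      gcongr
      exact heanti t s hs hsm.le
  set A : Fin (m + 1) → Ob C := fun t => G t * ε t ^ p ^ (m - t) with hA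
  set c : Ob C := ∏ t : Fin (m + 1), ε t ^ (p ^ (m - (t : ℕ))) with hc
  have hA0 : ∀ t, (A t : C) ≠ 0 := fun t => by
    simp only [hA]
    push_cast
    exact mul_ne_zero (hG0 _) (pow_ne_zero _ (heε t ▸ he0 t))
  have hN : ∀ I t : Fin (m + 1), A t ∣ G (m - I) * ε t ^ p ^ (I : ℕ) := by
    intro I t
    refine dvd_of_norm_le ?_
    have := hkey t (by have := t.2; omega) (m - I) (by omega)
    rwa [heε, show m - (m - I) = I by have := I.2; omega] at this
  have hD : ∀ t : Fin (m + 1), A t ∣ c := by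
    intro t
    have h1 : c = ∏ j ∈ Finset.range (m + 1), e j ^ p ^ (m - j) := by
      rw [← Fin.prod_univ_eq_prod_range (fun j => e j ^ p ^ (m - j))]
      simp only [hc, heε]
    have h2 : ∏ j ∈ Finset.range (t + 1), e j ^ p ^ (m - j) ∣ c := by
      rw [h1]
      exact Finset.prod_dvd_prod_of_subset _ _ _ (Finset.range_mono (by have := t.2; omega))
    refine dvd_trans ?_ h2
    rw [Finset.prod_range_succ, heε]
    refine mul_dvd_mul_right ?_ _
    exact Finset.prod_dvd_prod_of_dvd _ _ fun j _ => pow_dvd_pow _ (Nat.sub_le _ _)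
  choose N hN using hN
  choose D hD using hD
  have hdet : IsUnit (Matrix.det (Matrix.of N)) := by
    refine isUnit_of_norm_eq_one ?_
    have h1 : (∏ I : Fin (m + 1), G (m - I)) *
        Matrix.det (Matrix.of fun I t : Fin (m + 1) => ε t ^ p ^ (I : ℕ)) =
        (∏ t, A t) * Matrix.det (Matrix.of N) := by
      rw [← Matrix.det_mul_column, ← Matrix.det_mul_row]
      congr 1
      exact Matrix.ext fun I t => hN I t
    have h2 : ∏ I : Fin (m + 1), G (m - I) = ∏ t : Fin (m + 1), G t := by
      rw [← Equiv.prod_comp Fin.revPerm]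
      refine Finset.prod_congr rfl fun t _ => ?_
      congr 1
      simp only [Fin.revPerm_apply, Fin.val_rev]
      have := t.2
      omega
    have h3 : ∏ t, A t = (∏ t : Fin (m + 1), G t) * c := by
      simp only [hA, hc, Finset.prod_mul_distrib]
    have h4 : ‖((Matrix.det (Matrix.of fun I t : Fin (m + 1) => ε t ^ p ^ (I : ℕ)) : Ob C) : C)‖ =
        ‖(c : C)‖ := by
      have := (Ob C).subtype.map_det (Matrix.of fun I t : Fin (m + 1) => ε t ^ p ^ (I : ℕ))
      rw [Subring.coe_subtype] at this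
      rw [this]
      refine (Eq.trans ?_ (norm_det_moore p _ hO hanti)).trans ?_
      · congr 2
      · simp only [hc]
        push_cast
        simp only [norm_prod, norm_pow]
    have h5 := congrArg (fun x : Ob C => ‖(x : C)‖) h1
    simp only [Subring.coe_mul, norm_mul] at h5
    rw [h4, h2, ← norm_mul, ← Subring.coe_mul, ← h3] at h5
    have h6 : ‖((∏ t, A t : Ob C) : C)‖ ≠ 0 := by
      push_cast
      exact norm_ne_zero_iff.2 (Finset.prod_ne_zero_iff.2 fun t _ => hA0 t)
    exact (mul_eq_left₀ h6).1 h5.symm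
  set NW : Matrix (Fin (m + 1)) (Fin (m + 1)) (WittVector p (Ob C)) :=
    Matrix.of fun I t => WittVector.teichmuller p (N I t) with hNW
  have hdetW : IsUnit NW.det := by
    obtain ⟨u, hu⟩ := hdet
    have h1 : NW.det.coeff 0 = u := by
      rw [hu, ← WittVector.constantCoeff_apply, RingHom.map_det]
      congr 1
    exact (WittVector.mkUnit h1).isUnit
  have hinv : NW * NW⁻¹ = 1 := Matrix.mul_nonsing_inv _ hdetW
  have hmain : ∀ I : Fin (m + 1), WittVector.teichmuller p (G (m - I)) *
      ∑ t, WittVector.teichmuller p (D t) * NW⁻¹ t (Fin.last m) *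
        WittVector.teichmuller p (ε t ^ (p ^ (I : ℕ))) =
      WittVector.teichmuller p c * (1 : Matrix _ _ (WittVector p (Ob C))) I (Fin.last m) := by
    intro I
    rw [← hinv, Matrix.mul_apply, Finset.mul_sum, Finset.mul_sum]
    refine Finset.sum_congr rfl fun t _ => ?_
    have h1 : WittVector.teichmuller p (G (m - I)) * WittVector.teichmuller p (D t) *
        WittVector.teichmuller p (ε t ^ (p ^ (I : ℕ))) =
        WittVector.teichmuller p c * NW I t := by
      simp only [hNW, Matrix.of_apply, ← map_mul]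
      congr 1
      rw [hD t, mul_right_comm, hN I t]
      ring
    rw [← mul_assoc (WittVector.teichmuller p c), ← h1]
    ring
  refine ⟨fun t => WittVector.teichmuller p (D t) * NW⁻¹ t (Fin.last m), ?_, ?_, ?_⟩
  · intro I hI
    have := hmain ⟨I, by omega⟩
    rw [Matrix.one_apply_ne (fun h => hI.ne (congrArg Fin.val h)), mul_zero] at this
    refine (mul_eq_zero.1 this).resolve_left fun h => hG0 (m - I) ?_
    have h' := congrArg (fun x => WittVector.coeff x 0) h
    simp only [WittVector.teichmuller_coeff_zero, WittVector.zero_coeff] at h'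
    rw [h']
    rfl
  · have := hmain (Fin.last m)
    simpa [hG] using this
  · intro I hI
    refine Finset.dvd_sum fun t _ => ?_
    rw [mul_right_comm, ← map_mul]
    refine Dvd.dvd.mul_right (map_dvd _ (dvd_of_norm_le ?_)) _
    have h1 := hkey t (by have := t.2; omega) 0 (Nat.zero_le _)
    rw [heε] at h1
    have h2 : ‖(ε t : C)‖ ^ p ^ m ≤ ‖(A t : C)‖ := by
      refine le_trans (le_of_eq ?_) h1
      simp [hG]
    have h3 : ‖(ε t : C)‖ ^ p ^ I ≤ ‖(ε t : C)‖ ^ (p ^ m + 1) :=
      pow_le_pow_of_le_one (norm_nonneg _) (ε t).2 (Nat.pow_lt_pow_right hp.one_lt hI)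
    have h4 : ‖(ε t : C)‖ ≤ ‖(ε 0 : C)‖ := hanti (Fin.zero_le t)
    rw [hD t]
    push_cast
    simp only [norm_mul, norm_pow]
    calc ‖(D t : C)‖ * ‖(ε t : C)‖ ^ p ^ I ≤ ‖(D t : C)‖ * (‖(ε t : C)‖ ^ p ^ m * ‖(ε t : C)‖) := by
          rw [← pow_succ]
          gcongr
      _ ≤ ‖(D t : C)‖ * (‖(A t : C)‖ * ‖(ε 0 : C)‖) := by gcongr
      _ = _ := by ring

end Crest.Agent.R227
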