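import Crest.Agent.R227.Defs

/-!
# R227 / Eval: evaluation of power series at points of the open unit polydisc

`C` complete ultrametric, `x : R →+* C` with `‖x r‖ ≤ 1`, `‖z i‖ < 1`, finitely many variables.

Recipe.  Let `ρ < 1` bound all `‖z i‖` (finite `σ`).  The term of index `d` has norm
`≤ ρ ^ degree d`, which tends to `0` along `cofinite` (finitely many `d` of bounded degree:
`Finsupp.finite_of_degree_le`), so the family is summable
(`NonarchimedeanAddGroup.summable_iff_tendsto_cofinite_zero`), and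
`IsUltrametricDist.norm_tsum_le_of_forall_le_of_nonneg` (or similar) gives `norm_ev_le`.
Everything else can be reduced to polynomials: `f = truncTotal N f + (order ≥ N)`, the second
part has `‖ev‖ ≤ ρ ^ N` (`norm_ev_le_pow`), and `ev` of a polynomial is `MvPolynomial.eval₂`
(`ev_coe`).  So an identity `a = b` is proved by `‖a - b‖ ≤ ρ ^ N` for all `N`.
For `ev_mul` and `ev_subst` compare truncations (`truncTotal_subst…` in
`Mathlib/RingTheory/MvPowerSeries/Substitution.lean`), or use `ev_eq_of_ringHom` (uniqueness: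
a bounded ring hom out of `MvPowerSeries σ R` small on the variables is `ev`), which makes
`ev_subst`, `ev_rescale`, `ev_pow_char` three-liners: apply it to the composite ring hom.
For `ev_eq_of_ringHom`: a series of order `≥ N` lies in `(span (range X)) ^ N` or, directly,
is `∑_{degree e = N} monomial e 1 * g_e` (send each `d` of degree `≥ N` to a chosen `e ≤ d` of
degree `N`); alternatively induct on `N` with `f = C (f 0) + ∑ i, X i * f_i`.
-/

set_option autoImplicit false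
noncomputable section
open Crest.LubinTate

namespace Crest.Agent.R227

section General
variable {σ τ R R' C : Type*} [CommRing R] [CommRing R'] [NormedField C]

theorem ev_map (x : R' →+* C) (φ : R →+* R') (z : σ → C) (f : MvPowerSeries σ R) :
    ev x z (MvPowerSeries.map φ f) = ev (x.comp φ) z f := by
  simp [ev]

theorem ev1_map (x : R' →+* C) (φ : R →+* R') (z : C) (f : PowerSeries R) :
    ev1 x z (PowerSeries.map φ f) = ev1 (x.comp φ) z f :=
  ev_map x φ _ f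

/-- `ev` only depends on the values `x (coeff d f)`. -/
theorem ev_congr (x : R →+* C) (x' : R' →+* C) (z : σ → C) (f : MvPowerSeries σ R)
    (f' : MvPowerSeries σ R')
    (h : ∀ d, x (MvPowerSeries.coeff d f) = x' (MvPowerSeries.coeff d f')) :
    ev x z f = ev x' z f' := by
  simp [ev, h]

end General

variable {σ τ R R' C : Type*} [Fintype σ] [Fintype τ] [CommRing R] [CommRing R'] [NormedField C]
  [IsUltrametricDist C] [CompleteSpace C]

omit [IsUltrametricDist C] [CompleteSpace C] in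
theorem Eval_def (x : R →+* C) (z : σ → C) (f : MvPowerSeries σ R) :
    ev x z f = ∑' d : σ →₀ ℕ, x (MvPowerSeries.coeff d f) * ∏ i, z i ^ d i :=
  tsum_congr fun d => by rw [Finsupp.prod_fintype _ _ fun _ => pow_zero _]

omit [IsUltrametricDist C] [CompleteSpace C] in
theorem Eval_rho (z : σ → C) (hz : ∀ i, ‖z i‖ < 1) :
    ∃ ρ : ℝ, 0 ≤ ρ ∧ ρ < 1 ∧ ∀ i, ‖z i‖ ≤ ρ :=
  ⟨‖z‖, norm_nonneg _, (pi_norm_lt_iff one_pos).2 hz, norm_le_pi_norm z⟩

omit [IsUltrametricDist C] [CompleteSpace C] in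
theorem Eval_prod_le (z : σ → C) {ρ : ℝ} (hz : ∀ i, ‖z i‖ ≤ ρ) (d : σ →₀ ℕ) :
    ∏ i, ‖z i‖ ^ d i ≤ ρ ^ d.degree := by
  rw [Finsupp.degree_eq_sum, ← Finset.prod_pow_eq_pow_sum]
  exact Finset.prod_le_prod (fun i _ => by positivity) fun i _ =>
    pow_le_pow_left₀ (norm_nonneg _) (hz i) _

omit [IsUltrametricDist C] [CompleteSpace C] in
theorem Eval_prod_le_one (z : σ → C) (hz : ∀ i, ‖z i‖ < 1) (d : σ →₀ ℕ) :
    ∏ i, ‖z i‖ ^ d i ≤ 1 :=
  (Eval_prod_le z (fun i => (hz i).le) d).trans_eq (one_pow _)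

omit [IsUltrametricDist C] [CompleteSpace C] in
theorem Eval_norm_term (c : C) (z : σ → C) (d : σ →₀ ℕ) :
    ‖c * ∏ i, z i ^ d i‖ = ‖c‖ * ∏ i, ‖z i‖ ^ d i := by
  simp only [norm_mul, norm_prod, norm_pow]

omit [IsUltrametricDist C] [CompleteSpace C] in
theorem Eval_eq_of_pow {ρ : ℝ} (h0 : 0 ≤ ρ) (h1 : ρ < 1) {a b : C} (h : ∀ N, ‖a - b‖ ≤ ρ ^ N) :
    a = b := by
  rw [← sub_eq_zero, ← norm_le_zero_iff]
  exact ge_of_tendsto' (tendsto_pow_atTop_nhds_zero_of_lt_one h0 h1) h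

omit [CompleteSpace C] in
theorem Eval_prod_sub {ι : Type*} (s : Finset ι) (a b : ι → C) {δ : ℝ} (hδ : 0 ≤ δ)
    (ha : ∀ i, ‖a i‖ ≤ 1) (hb : ∀ i, ‖b i‖ ≤ 1) (h : ∀ i, ‖a i - b i‖ ≤ δ) :
    ‖∏ i ∈ s, a i - ∏ i ∈ s, b i‖ ≤ δ := by
  classical
  induction s using Finset.induction_on with
  | empty => simpa using hδ
  | insert j s hj ih =>
    rw [Finset.prod_insert hj, Finset.prod_insert hj]
    have e : a j * ∏ i ∈ s, a i - b j * ∏ i ∈ s, b i =
        a j * (∏ i ∈ s, a i - ∏ i ∈ s, b i) + (a j - b j) * ∏ i ∈ s, b i := by ring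
    rw [e]
    refine (IsUltrametricDist.norm_add_le_max _ _).trans (max_le ?_ ?_)
    · rw [norm_mul]
      exact (mul_le_mul (ha j) ih (norm_nonneg _) zero_le_one).trans_eq (one_mul _)
    · rw [norm_mul, norm_prod]
      exact (mul_le_mul (h j) (Finset.prod_le_one (fun i _ => norm_nonneg _) fun i _ => hb i)
        (by positivity) hδ).trans_eq (mul_one _)

/-- a series without constant term is a combination of the variables -/
theorem Eval_split (f : MvPowerSeries σ R) (N : ℕ)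
    (hf : ∀ d : σ →₀ ℕ, d.degree < N + 1 → MvPowerSeries.coeff d f = 0) :
    ∃ g : σ → MvPowerSeries σ R, f = ∑ i, MvPowerSeries.X i * g i ∧
      ∀ i, ∀ d : σ →₀ ℕ, d.degree < N → MvPowerSeries.coeff d (g i) = 0 := by
  classical
  have hs : ∀ d : σ →₀ ℕ, ∃ o : Option σ, d ≠ 0 → ∃ i, o = some i ∧ d i ≠ 0 := by
    intro d
    by_cases hd : d = 0
    · exact ⟨none, fun h => absurd hd h⟩
    · obtain ⟨i, hi⟩ := Finsupp.ne_iff.1 hd
      exact ⟨some i, fun _ => ⟨i, rfl, hi⟩⟩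
  choose s hs using hs
  let g : σ → MvPowerSeries σ R := fun i e =>
    if s (e + Finsupp.single i 1) = some i then MvPowerSeries.coeff (e + Finsupp.single i 1) f else 0
  have hg : ∀ i e, MvPowerSeries.coeff e (g i) = if s (e + Finsupp.single i 1) = some i then
      MvPowerSeries.coeff (e + Finsupp.single i 1) f else 0 := fun _ _ => rfl
  refine ⟨g, MvPowerSeries.ext fun d => ?_, fun i d hd => ?_⟩
  · rw [map_sum]
    simp only [MvPowerSeries.X_def, MvPowerSeries.coeff_monomial_mul, one_mul, hg]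
    by_cases hd : d = 0
    · subst hd
      rw [hf 0 (by simp)]
      refine (Finset.sum_eq_zero fun i _ => if_neg ?_).symm
      simp
    · obtain ⟨j, hj, hj'⟩ := hs d hd
      have hle : Finsupp.single j 1 ≤ d := Finsupp.single_le_iff.2 (Nat.one_le_iff_ne_zero.2 hj')
      rw [Finset.sum_eq_single j]
      · rw [if_pos hle, tsub_add_cancel_of_le hle, if_pos hj]
      · intro i _ hi
        by_cases h : Finsupp.single i 1 ≤ d
        · rw [if_pos h, tsub_add_cancel_of_le h, hj, if_neg]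
          exact fun h' => hi (Option.some.inj h').symm
        · rw [if_neg h]
      · exact fun h => absurd (Finset.mem_univ j) h
  · rw [hg, hf _ (by rw [map_add, Finsupp.degree_single]; omega), ite_self]

omit [CompleteSpace C] in
theorem Eval_ringHom_le (y : MvPowerSeries σ R →+* C) (hy : ∀ f, ‖y f‖ ≤ 1) {ρ : ℝ} (h0 : 0 ≤ ρ)
    (hX : ∀ i, ‖y (MvPowerSeries.X i)‖ ≤ ρ) (N : ℕ) (f : MvPowerSeries σ R)
    (hf : ∀ d : σ →₀ ℕ, d.degree < N → MvPowerSeries.coeff d f = 0) : ‖y f‖ ≤ ρ ^ N := by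
  induction N generalizing f with
  | zero => simpa using hy f
  | succ N ih =>
    obtain ⟨g, rfl, hg⟩ := Eval_split f N hf
    rw [map_sum]
    refine IsUltrametricDist.norm_sum_le_of_forall_le_of_nonneg (by positivity) fun i _ => ?_
    rw [map_mul, norm_mul, pow_succ']
    exact mul_le_mul (hX i) (ih _ (hg i)) (norm_nonneg _) h0

theorem hasSum_ev (x : R →+* C) (hx : ∀ r, ‖x r‖ ≤ 1) (z : σ → C) (hz : ∀ i, ‖z i‖ < 1)
    (f : MvPowerSeries σ R) :
    HasSum (fun d : σ →₀ ℕ => x (MvPowerSeries.coeff d f) * ∏ i, z i ^ d i) (ev x z f) := by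
  rw [Eval_def]
  refine Summable.hasSum (NonarchimedeanAddGroup.summable_of_tendsto_cofinite_zero ?_)
  obtain ⟨ρ, h0, h1, hρ⟩ := Eval_rho z hz
  rw [NormedAddGroup.tendsto_nhds_zero]
  intro ε hε
  obtain ⟨N, hN⟩ := exists_pow_lt_of_lt_one hε h1
  rw [Filter.eventually_cofinite]
  refine (Finsupp.finite_of_degree_lt (σ := σ) N).subset fun d hd => ?_
  by_contra hd'
  refine hd ?_
  rw [Eval_norm_term]
  calc _ ≤ 1 * ρ ^ d.degree := mul_le_mul (hx _) (Eval_prod_le z hρ d) (by positivity) zero_le_one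
    _ ≤ ρ ^ N := by
      rw [one_mul]
      exact pow_le_pow_of_le_one h0 h1.le (not_lt.1 hd')
    _ < ε := hN

/-- Ultrametric bound (no summability needed: a divergent `tsum` is `0`). -/
theorem norm_ev_le (x : R →+* C) (z : σ → C) (f : MvPowerSeries σ R) {B : ℝ} (hB : 0 ≤ B)
    (h : ∀ d : σ →₀ ℕ, ‖x (MvPowerSeries.coeff d f)‖ * ∏ i, ‖z i‖ ^ d i ≤ B) :
    ‖ev x z f‖ ≤ B := by
  rw [Eval_def]
  refine IsUltrametricDist.norm_tsum_le_of_forall_le_of_nonneg hB fun d => ?_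
  rw [Eval_norm_term]
  exact h d

theorem norm_ev_le_of_coeff (x : R →+* C) (z : σ → C) (hz : ∀ i, ‖z i‖ < 1)
    (f : MvPowerSeries σ R) {B : ℝ} (h : ∀ d : σ →₀ ℕ, ‖x (MvPowerSeries.coeff d f)‖ ≤ B) :
    ‖ev x z f‖ ≤ B := by
  have hB : 0 ≤ B := (norm_nonneg _).trans (h 0)
  refine norm_ev_le x z f hB fun d => ?_
  exact (mul_le_mul (h d) (Eval_prod_le_one z hz d) (by positivity) hB).trans_eq (mul_one B)

theorem norm_ev_le_one (x : R →+* C) (hx : ∀ r, ‖x r‖ ≤ 1) (z : σ → C) (hz : ∀ i, ‖z i‖ < 1)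
    (f : MvPowerSeries σ R) : ‖ev x z f‖ ≤ 1 :=
  norm_ev_le_of_coeff x z hz f fun _ => hx _

theorem norm_ev_le_pow (x : R →+* C) (hx : ∀ r, ‖x r‖ ≤ 1) (z : σ → C) {ρ : ℝ}
    (hρ0 : 0 ≤ ρ) (hρ1 : ρ ≤ 1) (hz : ∀ i, ‖z i‖ ≤ ρ) (f : MvPowerSeries σ R) (N : ℕ)
    (h : ∀ d : σ →₀ ℕ, d.degree < N → x (MvPowerSeries.coeff d f) = 0) :
    ‖ev x z f‖ ≤ ρ ^ N := by
  refine norm_ev_le x z f (by positivity) fun d => ?_
  by_cases hd : d.degree < N
  · rw [h d hd, norm_zero, zero_mul]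
    positivity
  · calc _ ≤ 1 * ρ ^ d.degree := mul_le_mul (hx _) (Eval_prod_le z hz d) (by positivity) zero_le_one
      _ ≤ ρ ^ N := by
        rw [one_mul]
        exact pow_le_pow_of_le_one hρ0 hρ1 (not_lt.1 hd)

theorem norm_ev_lt_one (x : R →+* C) (hx : ∀ r, ‖x r‖ ≤ 1) (z : σ → C) (hz : ∀ i, ‖z i‖ < 1)
    (f : MvPowerSeries σ R) (h : ‖x (MvPowerSeries.constantCoeff f)‖ < 1) :
    ‖ev x z f‖ < 1 := by
  obtain ⟨ρ, h0, h1, hρ⟩ := Eval_rho z hz
  refine (norm_ev_le x z f (B := max ‖x (MvPowerSeries.constantCoeff f)‖ ρ)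
    (le_max_of_le_right h0) fun d => ?_).trans_lt (max_lt h h1)
  by_cases hd : d = 0
  · subst hd
    simp
  · refine le_max_of_le_right ?_
    calc _ ≤ 1 * ρ ^ d.degree := mul_le_mul (hx _) (Eval_prod_le z hρ d) (by positivity) zero_le_one
      _ ≤ ρ := by
        rw [one_mul]
        exact pow_le_of_le_one h0 h1.le fun h' => hd ((Finsupp.degree_eq_zero_iff d).1 h')

theorem Eval_sub_le (x : R →+* C) (hx : ∀ r, ‖x r‖ ≤ 1) (x' : R' →+* C)
    (hx' : ∀ r, ‖x' r‖ ≤ 1) (z z' : σ → C) (hz : ∀ i, ‖z i‖ < 1) (hz' : ∀ i, ‖z' i‖ < 1)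
    (f : MvPowerSeries σ R) (f' : MvPowerSeries σ R') {B : ℝ} (hB : 0 ≤ B)
    (h : ∀ d : σ →₀ ℕ, ‖x (MvPowerSeries.coeff d f) * ∏ i, z i ^ d i -
      x' (MvPowerSeries.coeff d f') * ∏ i, z' i ^ d i‖ ≤ B) :
    ‖ev x z f - ev x' z' f'‖ ≤ B := by
  rw [← ((hasSum_ev x hx z hz f).sub (hasSum_ev x' hx' z' hz' f')).tsum_eq]
  exact IsUltrametricDist.norm_tsum_le_of_forall_le_of_nonneg hB h

theorem Eval_approx (x : R →+* C) (hx : ∀ r, ‖x r‖ ≤ 1) (z : σ → C) (hz : ∀ i, ‖z i‖ < 1) {ρ : ℝ}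
    (h0 : 0 ≤ ρ) (h1 : ρ ≤ 1) (hρ : ∀ i, ‖z i‖ ≤ ρ) (f g : MvPowerSeries σ R) (N : ℕ)
    (h : ∀ d : σ →₀ ℕ, d.degree < N → MvPowerSeries.coeff d f = MvPowerSeries.coeff d g) :
    ‖ev x z f - ev x z g‖ ≤ ρ ^ N := by
  refine Eval_sub_le x hx x hx z z hz hz f g (by positivity) fun d => ?_
  rw [← sub_mul, ← map_sub, Eval_norm_term]
  by_cases hd : d.degree < N
  · rw [h d hd, sub_self, map_zero, norm_zero, zero_mul]
    positivity
  · calc _ ≤ 1 * ρ ^ d.degree := mul_le_mul (hx _) (Eval_prod_le z hρ d) (by positivity) zero_le_one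
      _ ≤ ρ ^ N := by
        rw [one_mul]
        exact pow_le_pow_of_le_one h0 h1 (not_lt.1 hd)

theorem Eval_trunc (x : R →+* C) (hx : ∀ r, ‖x r‖ ≤ 1) (z : σ → C) (hz : ∀ i, ‖z i‖ < 1) {ρ : ℝ}
    (h0 : 0 ≤ ρ) (h1 : ρ ≤ 1) (hρ : ∀ i, ‖z i‖ ≤ ρ) (f : MvPowerSeries σ R) (N : ℕ) :
    ‖ev x z f - ev x z (MvPowerSeries.truncTotal N f : MvPolynomial σ R)‖ ≤ ρ ^ N :=
  Eval_approx x hx z hz h0 h1 hρ _ _ N fun d hd => by
    rw [MvPolynomial.coeff_coe, MvPowerSeries.coeff_truncTotal _ hd]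

theorem ev_coe (x : R →+* C) (z : σ → C) (P : MvPolynomial σ R) :
    ev x z (P : MvPowerSeries σ R) = MvPolynomial.eval₂ x z P := by
  rw [Eval_def, MvPolynomial.eval₂_eq', tsum_eq_sum (s := P.support)]
  · simp only [MvPolynomial.coeff_coe]
  · intro d hd
    rw [MvPolynomial.coeff_coe, MvPolynomial.notMem_support_iff.1 hd, map_zero, zero_mul]

theorem ev_add (x : R →+* C) (hx : ∀ r, ‖x r‖ ≤ 1) (z : σ → C) (hz : ∀ i, ‖z i‖ < 1)
    (f g : MvPowerSeries σ R) : ev x z (f + g) = ev x z f + ev x z g := by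
  refine (hasSum_ev x hx z hz (f + g)).unique ?_
  simpa only [map_add, add_mul] using (hasSum_ev x hx z hz f).add (hasSum_ev x hx z hz g)

theorem ev_mul (x : R →+* C) (hx : ∀ r, ‖x r‖ ≤ 1) (z : σ → C) (hz : ∀ i, ‖z i‖ < 1)
    (f g : MvPowerSeries σ R) : ev x z (f * g) = ev x z f * ev x z g := by
  obtain ⟨ρ, h0, h1, hρ⟩ := Eval_rho z hz
  refine Eval_eq_of_pow h0 h1 fun N => ?_
  have e1 := Eval_trunc x hx z hz h0 h1.le hρ f N
  have e2 := Eval_trunc x hx z hz h0 h1.le hρ g N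
  have e3 := Eval_approx x hx z hz h0 h1.le hρ (f * g)
    ((MvPowerSeries.truncTotal N f * MvPowerSeries.truncTotal N g : MvPolynomial σ R)) N
    fun d hd => by
      rw [MvPolynomial.coeff_coe, MvPowerSeries.coeff_truncTotal_mul_truncTotal_eq_coeff_mul _ _ hd]
  rw [ev_coe, MvPolynomial.eval₂_mul, ← ev_coe, ← ev_coe] at e3
  have b1 := norm_ev_le_one x hx z hz g
  have b2 := norm_ev_le_one x hx z hz (MvPowerSeries.truncTotal N f : MvPolynomial σ R)
  generalize ev x z (f * g) = c at *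
  generalize ev x z f = a at *
  generalize ev x z g = b at *
  generalize ev x z (MvPowerSeries.truncTotal N f : MvPolynomial σ R) = a' at *
  generalize ev x z (MvPowerSeries.truncTotal N g : MvPolynomial σ R) = b' at *
  have e : c - a * b = (c - a' * b') + -((a - a') * b + a' * (b - b')) := by ring
  rw [e]
  refine (IsUltrametricDist.norm_add_le_max _ _).trans (max_le e3 ?_)
  rw [norm_neg]
  refine (IsUltrametricDist.norm_add_le_max _ _).trans (max_le ?_ ?_)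
  · rw [norm_mul]
    exact (mul_le_mul e1 b1 (norm_nonneg _) (by positivity)).trans_eq (mul_one _)
  · rw [norm_mul]
    exact (mul_le_mul b2 e2 (norm_nonneg _) zero_le_one).trans_eq (one_mul _)

theorem ev_C (x : R →+* C) (z : σ → C) (r : R) : ev x z (MvPowerSeries.C r) = x r := by
  rw [← MvPolynomial.coe_C, ev_coe, MvPolynomial.eval₂_C]

theorem ev_X (x : R →+* C) (z : σ → C) (i : σ) :
    ev x z (MvPowerSeries.X i : MvPowerSeries σ R) = z i := by
  rw [← MvPolynomial.coe_X, ev_coe, MvPolynomial.eval₂_X]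

/-- Evaluation as a ring homomorphism. -/
def evHom (x : R →+* C) (hx : ∀ r, ‖x r‖ ≤ 1) (z : σ → C) (hz : ∀ i, ‖z i‖ < 1) :
    MvPowerSeries σ R →+* C where
  toFun := ev x z
  map_one' := by simpa using ev_C x z 1
  map_mul' := ev_mul x hx z hz
  map_zero' := by simpa using ev_C x z 0
  map_add' := ev_add x hx z hz

@[simp] theorem evHom_apply (x : R →+* C) (hx : ∀ r, ‖x r‖ ≤ 1) (z : σ → C)
    (hz : ∀ i, ‖z i‖ < 1) (f : MvPowerSeries σ R) : evHom x hx z hz f = ev x z f := rfl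

/-- Evaluation with values in the unit ball. -/
def evO (x : R →+* C) (hx : ∀ r, ‖x r‖ ≤ 1) (z : σ → C) (hz : ∀ i, ‖z i‖ < 1) :
    MvPowerSeries σ R →+* Ob C :=
  (evHom x hx z hz).codRestrict (Ob C) fun f => norm_ev_le_one x hx z hz f

@[simp] theorem evO_apply (x : R →+* C) (hx : ∀ r, ‖x r‖ ≤ 1) (z : σ → C)
    (hz : ∀ i, ‖z i‖ < 1) (f : MvPowerSeries σ R) : (evO x hx z hz f : C) = ev x z f := rfl

theorem ev_sub (x : R →+* C) (hx : ∀ r, ‖x r‖ ≤ 1) (z : σ → C) (hz : ∀ i, ‖z i‖ < 1)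
    (f g : MvPowerSeries σ R) : ev x z (f - g) = ev x z f - ev x z g :=
  map_sub (evHom x hx z hz) f g

theorem ev_pow (x : R →+* C) (hx : ∀ r, ‖x r‖ ≤ 1) (z : σ → C) (hz : ∀ i, ‖z i‖ < 1)
    (f : MvPowerSeries σ R) (m : ℕ) : ev x z (f ^ m) = ev x z f ^ m :=
  map_pow (evHom x hx z hz) f m

/-- A bounded ring homomorphism which is small on the variables is an evaluation. -/
theorem ev_eq_of_ringHom (y : MvPowerSeries σ R →+* C) (hy : ∀ f, ‖y f‖ ≤ 1)
    (hX : ∀ i, ‖y (MvPowerSeries.X i)‖ < 1) (f : MvPowerSeries σ R) :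
    y f = ev (y.comp MvPowerSeries.C) (fun i => y (MvPowerSeries.X i)) f := by
  obtain ⟨ρ, h0, h1, hρ⟩ := Eval_rho (fun i => y (MvPowerSeries.X i)) hX
  refine Eval_eq_of_pow h0 h1 fun N => ?_
  have e1 := Eval_trunc (y.comp MvPowerSeries.C) (fun _ => hy _) _ hX h0 h1.le hρ f N
  have e2 := Eval_ringHom_le y hy h0 hρ N (f - (MvPowerSeries.truncTotal N f : MvPolynomial σ R))
    fun d hd => by
      rw [map_sub, MvPolynomial.coeff_coe, MvPowerSeries.coeff_truncTotal _ hd, sub_self]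
  have e3 : y.comp MvPolynomial.coeToMvPowerSeries.ringHom =
      MvPolynomial.eval₂Hom (y.comp MvPowerSeries.C) (fun i => y (MvPowerSeries.X i)) := by
    refine MvPolynomial.ringHom_ext (fun r => ?_) fun i => ?_
    · simp
    · simp
  have e4 : y (MvPowerSeries.truncTotal N f : MvPolynomial σ R) =
      ev (y.comp MvPowerSeries.C) (fun i => y (MvPowerSeries.X i))
        (MvPowerSeries.truncTotal N f : MvPolynomial σ R) := by
    rw [ev_coe]
    exact DFunLike.congr_fun e3 _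
  rw [map_sub, e4] at e2
  rw [norm_sub_rev] at e1
  rw [← sub_add_sub_cancel _ (ev (y.comp MvPowerSeries.C) (fun i => y (MvPowerSeries.X i))
    (MvPowerSeries.truncTotal N f : MvPolynomial σ R))]
  exact (IsUltrametricDist.norm_add_le_max _ _).trans (max_le e2 e1)

theorem ev_subst (x : R →+* C) (hx : ∀ r, ‖x r‖ ≤ 1) (z : τ → C) (hz : ∀ i, ‖z i‖ < 1)
    (a : σ → MvPowerSeries τ R) (ha : ∀ s, MvPowerSeries.constantCoeff (a s) = 0)
    (f : MvPowerSeries σ R) :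
    ev x z (MvPowerSeries.subst a f) = ev x (fun s => ev x z (a s)) f := by
  have hs : MvPowerSeries.HasSubst a := MvPowerSeries.hasSubst_of_constantCoeff_zero ha
  let y : MvPowerSeries σ R →+* C :=
    (evHom x hx z hz).comp (MvPowerSeries.substAlgHom (R := R) hs).toRingHom
  have hy : ∀ g, y g = ev x z (MvPowerSeries.subst a g) := fun g => by
    simp [y]
  have hyX : ∀ s, y (MvPowerSeries.X s) = ev x z (a s) := fun s => by
    rw [hy, MvPowerSeries.subst_X hs]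
  have hyC : y.comp MvPowerSeries.C = x := by
    ext r
    rw [RingHom.comp_apply, hy, MvPowerSeries.subst_C, ev_C]
  have h := ev_eq_of_ringHom y (fun g => by rw [hy]; exact norm_ev_le_one x hx z hz _)
    (fun s => by
      rw [hyX]
      exact norm_ev_lt_one x hx z hz _ (by rw [ha, map_zero, norm_zero]; exact one_pos)) f
  rw [hy, hyC] at h
  simpa only [hyX] using h

theorem ev_psubst (x : R →+* C) (hx : ∀ r, ‖x r‖ ≤ 1) (z : τ → C) (hz : ∀ i, ‖z i‖ < 1)
    (a : MvPowerSeries τ R) (ha : MvPowerSeries.constantCoeff a = 0) (f : PowerSeries R) :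
    ev x z (PowerSeries.subst a f) = ev1 x (ev x z a) f :=
  ev_subst x hx z hz (fun _ => a) (fun _ => ha) f

theorem ev_rescale (x : R →+* C) (hx : ∀ r, ‖x r‖ ≤ 1) (z : σ → C) (hz : ∀ i, ‖z i‖ < 1)
    (a : σ → R) (f : MvPowerSeries σ R) :
    ev x z (MvPowerSeries.rescale a f) = ev x (fun i => x (a i) * z i) f := by
  rw [Eval_def, Eval_def]
  refine tsum_congr fun d => ?_
  rw [MvPowerSeries.coeff_rescale, Finsupp.prod_fintype _ _ (fun _ => pow_zero _), map_mul, map_prod]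
  simp only [map_pow, mul_pow, Finset.prod_mul_distrib]
  ring

/-- Frobenius commutes with evaluation. -/
theorem ev_pow_char (p : ℕ) [ExpChar C p] (x : R →+* C) (hx : ∀ r, ‖x r‖ ≤ 1) (z : σ → C)
    (hz : ∀ i, ‖z i‖ < 1) (e : ℕ) (f : MvPowerSeries σ R) :
    ev x z f ^ (p ^ e) =
      ev ((iterateFrobenius C p e).comp x) (fun i => z i ^ (p ^ e)) f := by
  have hp : p ^ e ≠ 0 := pow_ne_zero _ (expChar_ne_zero C p)
  let y : MvPowerSeries σ R →+* C := (iterateFrobenius C p e).comp (evHom x hx z hz)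
  have hy : ∀ g, y g = ev x z g ^ (p ^ e) := fun g => rfl
  have hyX : ∀ s, y (MvPowerSeries.X s) = z s ^ (p ^ e) := fun s => by rw [hy, ev_X]
  have hyC : y.comp MvPowerSeries.C = (iterateFrobenius C p e).comp x := by
    ext r
    rw [RingHom.comp_apply, hy, ev_C]
    rfl
  have h := ev_eq_of_ringHom y
    (fun g => by
      rw [hy, norm_pow]
      exact pow_le_one₀ (norm_nonneg _) (norm_ev_le_one x hx z hz _))
    (fun s => by
      rw [hyX, norm_pow]
      exact pow_lt_one₀ (norm_nonneg _) (hz s) hp) f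
  rw [hy, hyC] at h
  simpa only [hyX] using h

/-- Evaluation is `1`-Lipschitz in the point. -/
theorem norm_ev_sub_point (x : R →+* C) (hx : ∀ r, ‖x r‖ ≤ 1) (z z' : σ → C)
    (hz : ∀ i, ‖z i‖ < 1) (hz' : ∀ i, ‖z' i‖ < 1) {δ : ℝ} (hδ : 0 ≤ δ)
    (h : ∀ i, ‖z i - z' i‖ ≤ δ) (f : MvPowerSeries σ R) :
    ‖ev x z f - ev x z' f‖ ≤ δ := by
  refine Eval_sub_le x hx x hx z z' hz hz' f f hδ fun d => ?_
  rw [← mul_sub, norm_mul]
  refine (mul_le_mul (hx _) ?_ (norm_nonneg _) zero_le_one).trans_eq (one_mul δ)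
  refine Eval_prod_sub _ _ _ hδ (fun i => ?_) (fun i => ?_) fun i => ?_
  · rw [norm_pow]
    exact pow_le_one₀ (norm_nonneg _) (hz i).le
  · rw [norm_pow]
    exact pow_le_one₀ (norm_nonneg _) (hz' i).le
  · have h1 := Eval_prod_sub (Finset.range (d i)) (fun _ => z i) (fun _ => z' i) hδ
      (fun _ => (hz i).le) (fun _ => (hz' i).le) fun _ => h i
    simpa only [Finset.prod_const, Finset.card_range] using h1

/-- Comparison of two series with close coefficients (general form). -/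
theorem norm_ev_sub_le (x : R →+* C) (hx : ∀ r, ‖x r‖ ≤ 1) (x' : R' →+* C)
    (hx' : ∀ r, ‖x' r‖ ≤ 1) (z : σ → C) (hz : ∀ i, ‖z i‖ < 1) (f : MvPowerSeries σ R)
    (f' : MvPowerSeries σ R') {B : ℝ} (hB : 0 ≤ B)
    (h : ∀ d : σ →₀ ℕ, ‖x (MvPowerSeries.coeff d f) - x' (MvPowerSeries.coeff d f')‖ *
      ∏ i, ‖z i‖ ^ d i ≤ B) :
    ‖ev x z f - ev x' z f'‖ ≤ B := by
  refine Eval_sub_le x hx x' hx' z z hz hz f f' hB fun d => ?_
  rw [← sub_mul, Eval_norm_term]
  exact h d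

theorem norm_ev_sub_coeff (x : R →+* C) (hx : ∀ r, ‖x r‖ ≤ 1) (x' : R' →+* C)
    (hx' : ∀ r, ‖x' r‖ ≤ 1) (z : σ → C) (hz : ∀ i, ‖z i‖ < 1) (f : MvPowerSeries σ R)
    (f' : MvPowerSeries σ R') {δ : ℝ}
    (h : ∀ d : σ →₀ ℕ, ‖x (MvPowerSeries.coeff d f) - x' (MvPowerSeries.coeff d f')‖ ≤ δ) :
    ‖ev x z f - ev x' z f'‖ ≤ δ := by
  have hB : 0 ≤ δ := (norm_nonneg _).trans (h 0)
  refine norm_ev_sub_le x hx x' hx' z hz f f' hB fun d => ?_
  exact (mul_le_mul (h d) (Eval_prod_le_one z hz d) (by positivity) hB).trans_eq (mul_one δ)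

/-! ### One variable -/

theorem hasSum_ev1 (x : R →+* C) (hx : ∀ r, ‖x r‖ ≤ 1) (z : C) (hz : ‖z‖ < 1)
    (f : PowerSeries R) :
    HasSum (fun d : ℕ => x (PowerSeries.coeff d f) * z ^ d) (ev1 x z f) := by
  have h := hasSum_ev x hx (fun _ : Unit => z) (fun _ => hz) f
  rw [← (Finsupp.uniqueEquiv (M := ℕ) ()).symm.hasSum_iff] at h
  unfold ev1
  convert h using 2 with d
  simp [PowerSeries.coeff]

theorem ev1_coe (x : R →+* C) (z : C) (P : Polynomial R) :
    ev1 x z (P : PowerSeries R) = P.eval₂ x z := by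
  rw [ev1, Eval_def, ← (Finsupp.uniqueEquiv (M := ℕ) ()).symm.tsum_eq, Polynomial.eval₂_eq_sum,
    Polynomial.sum_def, tsum_eq_sum (s := P.support)]
  · refine Finset.sum_congr rfl fun d _ => ?_
    rw [← Polynomial.coeff_coe]
    simp [PowerSeries.coeff]
  · intro d hd
    have h : MvPowerSeries.coeff ((Finsupp.uniqueEquiv (M := ℕ) ()).symm d) (P : PowerSeries R) =
        0 := by
      rw [← Polynomial.notMem_support_iff.1 hd, ← Polynomial.coeff_coe]
      simp [PowerSeries.coeff]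
    rw [h, map_zero, zero_mul]

theorem ev1_X (x : R →+* C) (z : C) : ev1 x z (PowerSeries.X : PowerSeries R) = z :=
  ev_X x (fun _ : Unit => z) ()

theorem ev1_C (x : R →+* C) (z : C) (r : R) : ev1 x z (PowerSeries.C r) = x r :=
  ev_C x (fun _ : Unit => z) r

theorem norm_ev1_le (x : R →+* C) (z : C) (f : PowerSeries R) {B : ℝ} (hB : 0 ≤ B)
    (h : ∀ d : ℕ, ‖x (PowerSeries.coeff d f)‖ * ‖z‖ ^ d ≤ B) : ‖ev1 x z f‖ ≤ B := by
  refine norm_ev_le x _ f hB fun d => ?_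
  have h1 := h (d ())
  rw [PowerSeries.coeff_def rfl] at h1
  simpa using h1

theorem norm_ev1_sub_le (x : R →+* C) (hx : ∀ r, ‖x r‖ ≤ 1) (x' : R' →+* C)
    (hx' : ∀ r, ‖x' r‖ ≤ 1) (z : C) (hz : ‖z‖ < 1) (f : PowerSeries R) (f' : PowerSeries R')
    {B : ℝ} (hB : 0 ≤ B)
    (h : ∀ d : ℕ, ‖x (PowerSeries.coeff d f) - x' (PowerSeries.coeff d f')‖ * ‖z‖ ^ d ≤ B) :
    ‖ev1 x z f - ev1 x' z f'‖ ≤ B := by
  refine norm_ev_sub_le x hx x' hx' _ (fun _ => hz) f f' hB fun d => ?_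
  have h1 := h (d ())
  rw [PowerSeries.coeff_def rfl, PowerSeries.coeff_def rfl] at h1
  simpa using h1

/-- A series without constant term does not increase norms. -/
theorem norm_ev1_le_self (x : R →+* C) (hx : ∀ r, ‖x r‖ ≤ 1) (z : C) (hz : ‖z‖ < 1)
    (f : PowerSeries R) (hf : PowerSeries.constantCoeff f = 0) : ‖ev1 x z f‖ ≤ ‖z‖ := by
  refine norm_ev1_le x z f (norm_nonneg _) fun d => ?_
  rcases eq_or_ne d 0 with rfl | hd
  · simp [hf]
  · exact (mul_le_mul (hx _) (pow_le_of_le_one (norm_nonneg _) hz.le hd) (by positivity)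
      zero_le_one).trans_eq (one_mul _)

theorem ev1_expand (x : R →+* C) (hx : ∀ r, ‖x r‖ ≤ 1) (z : C) (hz : ‖z‖ < 1) (m : ℕ)
    (hm : m ≠ 0) (f : PowerSeries R) :
    ev1 x z (PowerSeries.expand m hm f) = ev1 x (z ^ m) f := by
  rw [PowerSeries.expand_apply, ev1, ev_psubst x hx _ (fun _ => hz) _ (by
    rw [map_pow]
    exact (congrArg (· ^ m) (PowerSeries.constantCoeff_X (R := R))).trans (zero_pow hm)),
    ev_pow x hx _ fun _ => hz]
  congr 2
  exact ev1_X x z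

/-- The value of a unit has norm one. -/
theorem norm_ev_of_isUnit (x : R →+* C) (hx : ∀ r, ‖x r‖ ≤ 1) (z : σ → C) (hz : ∀ i, ‖z i‖ < 1)
    (f : MvPowerSeries σ R) (hf : IsUnit f) : ‖ev x z f‖ = 1 := by
  obtain ⟨g, hg⟩ := hf.exists_right_inv
  have h1 : ‖ev x z f‖ * ‖ev x z g‖ = 1 := by
    rw [← norm_mul, ← ev_mul x hx z hz, hg, ← evHom_apply x hx z hz, map_one, norm_one]
  have h2 := norm_ev_le_one x hx z hz f
  have h3 := norm_ev_le_one x hx z hz g
  refine le_antisymm h2 ?_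
  calc 1 = ‖ev x z f‖ * ‖ev x z g‖ := h1.symm
    _ ≤ ‖ev x z f‖ * 1 := mul_le_mul_of_nonneg_left h3 (norm_nonneg _)
    _ = _ := mul_one _

end Crest.Agent.R227
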