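import Crest.Agent.R227.Defs

/-!
# R227 / LT1: commutative algebra of `E₀ = W(k)[[u]]`

Recipe.
* `exists_eq_sum_X_mul`: if the coefficients of `f` at exponents supported outside `s` vanish then
  `f = ∑ i ∈ s, X i * g i`: choose for every exponent `d` with some `i ∈ s`, `d i ≠ 0` such an
  index `c d`; `g i` has coefficient `coeff (e + single i 1) f` at `e` if `c (e + single i 1) = i`,
  else `0`.  Primality of `span (X '' s)`: it is the kernel of `MvPowerSeries.rescale a`
  (`a i = if i ∈ s then 0 else 1`) into a domain (`RingHom.ker_isPrime`).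
* `mm = ker residue` is maximal (`RingHom.ker_isMaximal_of_surjective`), so it is
  `maximalIdeal` (`IsLocalRing.eq_maximalIdeal`); `WittVector.ker_constantCoeff` /
  `WittVector.mem_span_p_iff_coeff_zero_eq_zero` describe `ker resW = (p)`.
* `mem_mm_pow_iff`: `f ∈ 𝔪 ^ N ↔ ∀ d, p ^ (N - degree d) ∣ coeff d f`.  (⇒) induction on `N` with
  `Submodule.mul_induction_on` and `coeff_mul`; (⇐) induction on `N`: write
  `f = C (f 0) + ∑ X i * g i` with the explicit `g i` above (their coefficients are coefficients
  of `f` or `0`; `exists_eq_sum_X_mul` records this).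
* `isAdicComplete_mm`: Hausdorff by Krull (`IsHausdorff` instance for Noetherian local rings, or
  from `mem_mm_pow_iff`), precomplete coefficientwise: for a Cauchy sequence `f N`, the sequence
  `coeff d (f (N + degree d))` is `p`-adically Cauchy in `W(k)`
  (`WittVector.isAdicCompleteIdealSpanP`).
* `exists_poly_approx`: induction on `L`; `𝔪 ^ (L+1)`-step: the set of `f` having an approximation
  modulo `I ⊔ 𝔪 ^ L` is a subring containing constants; `f = c + i + ∑ a_j ω_j` with `c` constant
  (`sub_teich_mem`), approximate the `a_j` modulo `I ⊔ 𝔪 ^ L`.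
-/

set_option autoImplicit false
noncomputable section
open Crest.LubinTate

namespace Crest.Agent.R227

section General
variable {σ A : Type*} [CommRing A]

theorem exists_eq_sum_X_mul (s : Finset σ) (f : MvPowerSeries σ A)
    (h : ∀ d : σ →₀ ℕ, (∀ i ∈ s, d i = 0) → MvPowerSeries.coeff d f = 0) :
    ∃ g : σ → MvPowerSeries σ A, f = ∑ i ∈ s, MvPowerSeries.X i * g i ∧
      ∀ i e, MvPowerSeries.coeff e (g i) = 0 ∨
        MvPowerSeries.coeff e (g i) = MvPowerSeries.coeff (e + Finsupp.single i 1) f := by
  classical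
  have hs : ∀ d : σ →₀ ℕ, ∃ o : Option σ, (∃ i ∈ s, d i ≠ 0) → ∃ i ∈ s, o = some i ∧ d i ≠ 0 := by
    intro d
    by_cases hd : ∃ i ∈ s, d i ≠ 0
    · obtain ⟨i, hi, hi'⟩ := hd
      exact ⟨some i, fun _ => ⟨i, hi, rfl, hi'⟩⟩
    · exact ⟨none, fun h => absurd h hd⟩
  choose c hc using hs
  let g : σ → MvPowerSeries σ A := fun i e =>
    if c (e + Finsupp.single i 1) = some i then MvPowerSeries.coeff (e + Finsupp.single i 1) f else 0
  have hg : ∀ i e, MvPowerSeries.coeff e (g i) = if c (e + Finsupp.single i 1) = some i then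
      MvPowerSeries.coeff (e + Finsupp.single i 1) f else 0 := fun _ _ => rfl
  refine ⟨g, MvPowerSeries.ext fun d => ?_, fun i e => ?_⟩
  · rw [map_sum]
    simp only [MvPowerSeries.X_def, MvPowerSeries.coeff_monomial_mul, one_mul, hg]
    by_cases hd : ∃ i ∈ s, d i ≠ 0
    · obtain ⟨j, hjs, hj, hj'⟩ := hc d hd
      have hle : Finsupp.single j 1 ≤ d := Finsupp.single_le_iff.2 (Nat.one_le_iff_ne_zero.2 hj')
      rw [Finset.sum_eq_single j]
      · rw [if_pos hle, tsub_add_cancel_of_le hle, if_pos hj]
      · intro i _ hi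
        by_cases h : Finsupp.single i 1 ≤ d
        · rw [if_pos h, tsub_add_cancel_of_le h, hj, if_neg]
          exact fun h' => hi (Option.some.inj h').symm
        · rw [if_neg h]
      · exact fun h => absurd hjs h
    · push Not at hd
      rw [h d hd]
      refine (Finset.sum_eq_zero fun i hi => if_neg ?_).symm
      rw [Finsupp.single_le_iff, hd i hi]
      omega
  · rw [hg]
    split_ifs
    · exact Or.inr rfl
    · exact Or.inl rfl

theorem mem_span_X_iff (s : Finset σ) (f : MvPowerSeries σ A) :
    f ∈ Ideal.span ((fun i => (MvPowerSeries.X i : MvPowerSeries σ A)) '' (s : Set σ)) ↔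
      ∀ d : σ →₀ ℕ, (∀ i ∈ s, d i = 0) → MvPowerSeries.coeff d f = 0 := by
  constructor
  · intro hf
    refine Submodule.span_induction (p := fun f _ =>
      ∀ d : σ →₀ ℕ, (∀ i ∈ s, d i = 0) → MvPowerSeries.coeff d f = 0) ?_ ?_ ?_ ?_ hf
    · rintro _ ⟨i, hi, rfl⟩ d hd
      exact MvPowerSeries.X_dvd_iff.1 dvd_rfl d (hd i hi)
    · intro d _
      simp
    · intro a b _ _ ha hb d hd
      rw [map_add, ha d hd, hb d hd, add_zero]
    · intro a b _ hb d hd
      classical
      rw [smul_eq_mul, MvPowerSeries.coeff_mul]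
      refine Finset.sum_eq_zero fun x hx => ?_
      rw [hb x.2, mul_zero]
      intro i hi
      have h1 := congrArg (fun e : σ →₀ ℕ => e i) (Finset.HasAntidiagonal.mem_antidiagonal.1 hx)
      simp only [Finsupp.coe_add, Pi.add_apply, hd i hi] at h1
      omega
  · intro h
    obtain ⟨g, hg, -⟩ := exists_eq_sum_X_mul s f h
    rw [hg]
    exact Ideal.sum_mem _ fun i hi =>
      Ideal.mul_mem_right _ _ (Ideal.subset_span ⟨i, hi, rfl⟩)

theorem span_X_isPrime [IsDomain A] (s : Finset σ) :
    (Ideal.span ((fun i => (MvPowerSeries.X i : MvPowerSeries σ A)) '' (s : Set σ))).IsPrime := by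
  classical
  have key : Ideal.span ((fun i => (MvPowerSeries.X i : MvPowerSeries σ A)) '' (s : Set σ)) =
      RingHom.ker (MvPowerSeries.rescale (fun i => if i ∈ s then (0 : A) else 1)) := by
    ext f
    rw [mem_span_X_iff, RingHom.mem_ker, MvPowerSeries.ext_iff]
    have hprod : ∀ d : σ →₀ ℕ, (∀ i ∈ s, d i = 0) →
        (d.prod fun i m => (if i ∈ s then (0 : A) else 1) ^ m) = 1 := by
      intro d hd
      refine Finset.prod_eq_one fun i hi => ?_
      show (if i ∈ s then (0 : A) else 1) ^ d i = 1
      rw [if_neg, one_pow]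
      exact fun his => Finsupp.mem_support_iff.1 hi (hd i his)
    constructor
    · intro h d
      rw [MvPowerSeries.coeff_rescale, map_zero]
      by_cases hd : ∀ i ∈ s, d i = 0
      · rw [h d hd, mul_zero]
      · push Not at hd
        obtain ⟨i, hi, hi'⟩ := hd
        rw [Finsupp.prod, Finset.prod_eq_zero (Finsupp.mem_support_iff.2 hi'), zero_mul]
        rw [if_pos hi, zero_pow hi']
    · intro h d hd
      have := h d
      rwa [MvPowerSeries.coeff_rescale, map_zero, hprod d hd, one_mul] at this
  rw [key]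
  have : IsDomain (MvPowerSeries σ A) := NoZeroDivisors.to_isDomain _
  exact RingHom.ker_isPrime _

end General

variable (p : ℕ) [Fact p.Prime] (n : ℕ)

theorem residue_algebraMap (w : WW p n) :
    LTRing.residue p n (algebraMap (WW p n) (LTRing p n) w) = resW p n w := by
  rw [← MvPowerSeries.c_eq_algebraMap]
  simp [LTRing.residue]

theorem residue_comp_algebraMap :
    (LTRing.residue p n).comp (algebraMap (WW p n) (LTRing p n)) = WittVector.constantCoeff :=
  RingHom.ext (residue_algebraMap p n)

theorem residue_surjective : Function.Surjective (LTRing.residue p n) := by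
  intro a
  refine ⟨algebraMap (WW p n) (LTRing p n) (WittVector.teichmuller p a), ?_⟩
  rw [residue_algebraMap]
  simp

theorem mem_mm {a : LTRing p n} : a ∈ mm p n ↔ LTRing.residue p n a = 0 := Iff.rfl

theorem mm_eq_maximalIdeal : mm p n = IsLocalRing.maximalIdeal (LTRing p n) := by
  exact IsLocalRing.eq_maximalIdeal
    (RingHom.ker_isMaximal_of_surjective _ (residue_surjective p n))

theorem natCast_mem_mm : (p : LTRing p n) ∈ mm p n := by
  rw [mem_mm, map_natCast]
  exact CharP.cast_eq_zero _ p

theorem X_mem_mm (i : Fin (n - 1)) : (MvPowerSeries.X i : LTRing p n) ∈ mm p n := by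
  rw [mem_mm]
  simp [LTRing.residue]

theorem mm_eq_span : mm p n =
    Ideal.span {(p : LTRing p n)} ⊔ Ideal.span (Set.range (MvPowerSeries.X : _ → LTRing p n)) := by
  apply le_antisymm
  · intro f hf
    have h0 : MvPowerSeries.constantCoeff f ∈ Ideal.span {(p : WW p n)} := by
      rw [← WittVector.ker_constantCoeff]
      exact hf
    obtain ⟨w, hw⟩ := Ideal.mem_span_singleton.1 h0
    have h1 : f - MvPowerSeries.C (MvPowerSeries.constantCoeff f) ∈
        Ideal.span (Set.range (MvPowerSeries.X : _ → LTRing p n)) := by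
      have := (mem_span_X_iff Finset.univ
        (f - MvPowerSeries.C (MvPowerSeries.constantCoeff f))).2 (fun d hd => by
          have : d = 0 := Finsupp.ext fun i => hd i (Finset.mem_univ i)
          subst this
          simp)
      simpa using this
    have h2 : (MvPowerSeries.C (MvPowerSeries.constantCoeff f) : LTRing p n) ∈
        Ideal.span {(p : LTRing p n)} := by
      rw [hw, map_mul, map_natCast]
      exact Ideal.mul_mem_right _ _ (Ideal.mem_span_singleton_self _)
    have := add_mem (Ideal.mem_sup_left h2) (Ideal.mem_sup_right h1)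
    simpa using this
  · refine sup_le ?_ ?_
    · rw [Ideal.span_singleton_le_iff_mem]
      exact natCast_mem_mm p n
    · rw [Ideal.span_le]
      rintro _ ⟨i, rfl⟩
      exact X_mem_mm p n i

theorem isUnit_of_residue_ne_zero {a : LTRing p n} (ha : LTRing.residue p n a ≠ 0) :
    IsUnit a := by
  by_contra h
  apply ha
  rw [← mem_mm, mm_eq_maximalIdeal]
  exact h

theorem isUnit_natCast_LT {d : ℕ} (hd : ¬ p ∣ d) : IsUnit (d : LTRing p n) := by
  apply isUnit_of_residue_ne_zero
  rw [map_natCast]
  exact fun h => hd ((CharP.cast_eq_zero_iff _ p d).1 h)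

theorem sub_teich_mem (a : LTRing p n) :
    a - algebraMap (WW p n) (LTRing p n)
      (WittVector.teichmuller p (LTRing.residue p n a)) ∈ mm p n := by
  rw [mem_mm, map_sub, residue_algebraMap]
  simp

theorem mem_mm_pow_iff (N : ℕ) (f : LTRing p n) :
    f ∈ mm p n ^ N ↔ ∀ d, (p : WW p n) ^ (N - d.degree) ∣ MvPowerSeries.coeff d f := by
  classical
  constructor
  · induction N generalizing f with
    | zero => intro _ d; simp
    | succ N ih =>
      intro hf
      rw [pow_succ] at hf
      refine Submodule.mul_induction_on hf ?_ ?_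
      · intro a ha b hb d
        rw [MvPowerSeries.coeff_mul]
        refine Finset.dvd_sum fun x hx => ?_
        have hdeg : x.1.degree + x.2.degree = d.degree := by
          rw [← map_add, Finset.HasAntidiagonal.mem_antidiagonal.1 hx]
        have h1 := ih a ha x.1
        by_cases h0 : x.2 = 0
        · have h2 : (p : WW p n) ∣ MvPowerSeries.coeff x.2 b := by
            rw [h0, ← Ideal.mem_span_singleton, ← WittVector.ker_constantCoeff]
            exact hb
          have h3 := mul_dvd_mul h1 h2
          rw [← pow_succ] at h3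
          refine (pow_dvd_pow _ ?_).trans h3
          omega
        · have h2 : x.2.degree ≠ 0 := fun h => h0 ((Finsupp.degree_eq_zero_iff _).1 h)
          refine Dvd.dvd.mul_right ((pow_dvd_pow _ ?_).trans h1) _
          omega
      · intro a b ha hb d
        rw [map_add]
        exact dvd_add (ha d) (hb d)
  · induction N generalizing f with
    | zero => intro _; simp
    | succ N ih =>
      intro hf
      obtain ⟨g, hg, hg'⟩ := exists_eq_sum_X_mul Finset.univ
        (f - MvPowerSeries.C (MvPowerSeries.constantCoeff f)) (fun d hd => by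
          have : d = 0 := Finsupp.ext fun i => hd i (Finset.mem_univ i)
          subst this
          simp)
      have hgm : ∀ i, g i ∈ mm p n ^ N := by
        intro i
        refine ih _ fun e => ?_
        rcases hg' i e with h | h
        · rw [h]; exact dvd_zero _
        · have hne : e + Finsupp.single i 1 ≠ 0 := by
            intro h0
            have := congrArg (fun e : Fin (n - 1) →₀ ℕ => e i) h0
            simp at this
          rw [h, map_sub, MvPowerSeries.coeff_C_of_ne_zero hne, sub_zero]
          have := hf (e + Finsupp.single i 1)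
          rwa [map_add, Finsupp.degree_single, Nat.add_sub_add_right] at this
      have h1 : f - MvPowerSeries.C (MvPowerSeries.constantCoeff f) ∈ mm p n ^ (N + 1) := by
        rw [hg, pow_succ']
        exact Ideal.sum_mem _ fun i _ => Ideal.mul_mem_mul (X_mem_mm p n i) (hgm i)
      have h2 : (MvPowerSeries.C (MvPowerSeries.constantCoeff f) : LTRing p n) ∈
          mm p n ^ (N + 1) := by
        obtain ⟨w, hw⟩ := hf 0
        rw [map_zero, Nat.sub_zero, MvPowerSeries.coeff_zero_eq_constantCoeff_apply] at hw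
        rw [hw, map_mul, map_pow, map_natCast]
        exact Ideal.mul_mem_right _ _ (Ideal.pow_mem_pow (natCast_mem_mm p n) _)
      simpa using add_mem h1 h2

theorem isAdicComplete_mm :
    IsAdicComplete (IsLocalRing.maximalIdeal (LTRing p n)) (LTRing p n) := by
  rw [← mm_eq_maximalIdeal]
  have hW : ∀ (N : ℕ) (a b : WW p n),
      a ≡ b [SMOD (Ideal.span {(p : WW p n)} ^ N • ⊤ : Submodule (WW p n) (WW p n))] ↔
        (p : WW p n) ^ N ∣ a - b := by
    intro N a b
    rw [SModEq.sub_mem, smul_eq_mul, Ideal.mul_top, Ideal.span_singleton_pow,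
      Ideal.mem_span_singleton]
  have hE : ∀ (N : ℕ) (a b : LTRing p n),
      a ≡ b [SMOD (mm p n ^ N • ⊤ : Submodule (LTRing p n) (LTRing p n))] ↔
        ∀ d, (p : WW p n) ^ (N - d.degree) ∣
          MvPowerSeries.coeff d a - MvPowerSeries.coeff d b := by
    intro N a b
    rw [SModEq.sub_mem, smul_eq_mul, Ideal.mul_top, mem_mm_pow_iff]
    simp only [map_sub]
  have hC : IsAdicComplete (Ideal.span {(p : WW p n)}) (WW p n) :=
    WittVector.isAdicCompleteIdealSpanP
  refine { haus' := ?_, prec' := ?_ }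
  · intro x hx
    refine MvPowerSeries.ext fun d => ?_
    rw [map_zero]
    refine hC.toIsHausdorff.haus _ fun N => (hW _ _ _).2 ?_
    have := (hE _ _ _).1 (hx (N + d.degree)) d
    rwa [Nat.add_sub_cancel, map_zero] at this
  · intro f hf
    have key : ∀ d : Fin (n - 1) →₀ ℕ, ∃ L : WW p n, ∀ N,
        (p : WW p n) ^ N ∣ MvPowerSeries.coeff d (f (N + d.degree)) - L := by
      intro d
      obtain ⟨L, hL⟩ := hC.toIsPrecomplete.prec
        (f := fun N => MvPowerSeries.coeff d (f (N + d.degree))) (fun {a b} hab => by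
          refine (hW _ _ _).2 ?_
          have := (hE _ _ _).1 (hf (Nat.add_le_add_right hab d.degree)) d
          rwa [Nat.add_sub_cancel] at this)
      exact ⟨L, fun N => (hW _ _ _).1 (hL N)⟩
    choose L hL using key
    refine ⟨L, fun N => (hE _ _ _).2 fun d => ?_⟩
    have h1 := (hE _ _ _).1 (hf (Nat.le_add_right N d.degree)) d
    have h2 := (pow_dvd_pow (p : WW p n) (Nat.sub_le N d.degree)).trans (hL d N)
    have h3 := dvd_add h1 h2
    rw [sub_add_sub_cancel] at h3
    exact h3

theorem exists_poly_approx {ι : Type*} [Finite ι] (I : Ideal (LTRing p n)) (ω : ι → LTRing p n)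
    (hω : ∀ i, ω i ∈ mm p n) (h : mm p n ≤ I ⊔ Ideal.span (Set.range ω)) (f : LTRing p n)
    (L : ℕ) : ∃ Ψ : MvPolynomial ι (WW p n), f - MvPolynomial.aeval ω Ψ ∈ I ⊔ mm p n ^ L := by
  classical
  have := Fintype.ofFinite ι
  induction L generalizing f with
  | zero => exact ⟨0, Ideal.mem_sup_right (by simp)⟩
  | succ L ih =>
    obtain ⟨y, hy, z, hz, hyz⟩ := Submodule.mem_sup.1 (h (sub_teich_mem p n f))
    obtain ⟨a, rfl⟩ := Ideal.mem_span_range_iff_exists_fun.1 hz
    choose Ψ hΨ using fun j => ih (a j)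
    refine ⟨MvPolynomial.C (WittVector.teichmuller p (LTRing.residue p n f)) +
      ∑ j, Ψ j * MvPolynomial.X j, ?_⟩
    have e : f - MvPolynomial.aeval ω
        (MvPolynomial.C (WittVector.teichmuller p (LTRing.residue p n f)) +
          ∑ j, Ψ j * MvPolynomial.X j) =
        y + ∑ j, (a j - MvPolynomial.aeval ω (Ψ j)) * ω j := by
      rw [map_add, MvPolynomial.aeval_C, map_sum, ← sub_sub, ← hyz]
      simp only [map_mul, MvPolynomial.aeval_X, sub_mul, Finset.sum_sub_distrib]
      ring
    rw [e]
    refine add_mem (Ideal.mem_sup_left hy) (Ideal.sum_mem _ fun j _ => ?_)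
    obtain ⟨u, hu, v, hv, huv⟩ := Submodule.mem_sup.1 (hΨ j)
    rw [← huv, add_mul]
    refine add_mem (Ideal.mem_sup_left (Ideal.mul_mem_right _ _ hu)) (Ideal.mem_sup_right ?_)
    rw [pow_succ]
    exact Ideal.mul_mem_mul hv (hω j)

/-- A series over `k` lifts to `W(k)` keeping the vanishing of the constant term. -/
theorem exists_lift_series (g : PowerSeries (kk p n)) (hg : PowerSeries.constantCoeff g = 0) :
    ∃ g' : PowerSeries (LTRing p n), PowerSeries.constantCoeff g' = 0 ∧
      PowerSeries.map (LTRing.residue p n) g' = g := by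
  refine ⟨PowerSeries.mk fun i => algebraMap (WW p n) (LTRing p n)
    (WittVector.teichmuller p (PowerSeries.coeff i g)), ?_, ?_⟩
  · rw [← PowerSeries.coeff_zero_eq_constantCoeff_apply, PowerSeries.coeff_mk,
      PowerSeries.coeff_zero_eq_constantCoeff_apply, hg, WittVector.teichmuller_zero, map_zero]
  · ext i
    rw [PowerSeries.coeff_map, PowerSeries.coeff_mk, residue_algebraMap]
    simp

/-! ### Points of `E₀` -/

variable {p n} {C : Type*} [NormedField C] [IsUltrametricDist C]

theorem exists_rho (x : LTRing p n →+* C) (hx : ∀ a, ‖x a‖ ≤ 1)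
    (hxm : ∀ a ∈ mm p n, ‖x a‖ < 1) :
    ∃ ρ : ℝ, 0 < ρ ∧ ρ < 1 ∧ ∀ a ∈ mm p n, ‖x a‖ ≤ ρ := by
  set z : Fin (n - 1) → C := fun i => x (MvPowerSeries.X i) with hz
  have hz1 : ‖z‖ < 1 := (pi_norm_lt_iff one_pos).2 fun i => hxm _ (X_mem_mm p n i)
  set ρ : ℝ := max (1 / 2) (max ‖x p‖ ‖z‖) with hρ
  have hρ0 : 0 < ρ := lt_max_of_lt_left (by norm_num)
  refine ⟨ρ, hρ0, max_lt (by norm_num) (max_lt (hxm _ (natCast_mem_mm p n)) hz1), ?_⟩
  let B : Ideal (LTRing p n) :=
    { carrier := {a | ‖x a‖ ≤ ρ}
      add_mem' := fun {a b} ha hb => by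
        show ‖x (a + b)‖ ≤ ρ
        rw [map_add]
        exact (IsUltrametricDist.norm_add_le_max _ _).trans (max_le ha hb)
      zero_mem' := by
        show ‖x 0‖ ≤ ρ
        rw [map_zero, norm_zero]
        exact hρ0.le
      smul_mem' := fun c a ha => by
        show ‖x (c * a)‖ ≤ ρ
        rw [map_mul, norm_mul]
        exact (mul_le_mul (hx c) ha (norm_nonneg _) zero_le_one).trans_eq (one_mul _) }
  have hB : mm p n ≤ B := by
    rw [mm_eq_span]
    refine sup_le ?_ ?_
    · rw [Ideal.span_singleton_le_iff_mem]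
      show ‖x p‖ ≤ ρ
      exact le_max_of_le_right (le_max_left _ _)
    · rw [Ideal.span_le]
      rintro _ ⟨i, rfl⟩
      show ‖z i‖ ≤ ρ
      exact le_max_of_le_right (le_max_of_le_right (norm_le_pi_norm z i))
  exact fun a ha => hB ha

theorem norm_le_pow_of_mem_pow {R : Type*} [CommRing R] (x : R →+* C) (hx : ∀ a, ‖x a‖ ≤ 1)
    {I : Ideal R} {ρ : ℝ} (hρ : ∀ a ∈ I, ‖x a‖ ≤ ρ) (L : ℕ) :
    ∀ a ∈ I ^ L, ‖x a‖ ≤ ρ ^ L := by
  have h0 : 0 ≤ ρ := by simpa using hρ 0 I.zero_mem
  induction L with
  | zero => intro a _; simpa using hx a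
  | succ L ih =>
    intro a ha
    rw [pow_succ] at ha
    refine Submodule.mul_induction_on ha ?_ ?_
    · intro b hb c hc
      rw [map_mul, norm_mul, pow_succ]
      exact mul_le_mul (ih b hb) (hρ c hc) (norm_nonneg _) (pow_nonneg h0 _)
    · intro b c hb hc
      rw [map_add]
      exact (IsUltrametricDist.norm_add_le_max _ _).trans (max_le hb hc)

/-- In characteristic `p` a point restricts to an embedding of `k`. -/
theorem exists_kmap (x : LTRing p n →+* C) (hp : x p = 0) :
    ∃ ι : kk p n →+* C, ∀ w : WW p n, x (algebraMap (WW p n) (LTRing p n) w) = ι (resW p n w) := by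
  have hker : RingHom.ker (resW p n) ≤
      RingHom.ker (x.comp (algebraMap (WW p n) (LTRing p n))) := by
    rw [show RingHom.ker (resW p n) = Ideal.span {(p : WW p n)} from WittVector.ker_constantCoeff,
      Ideal.span_singleton_le_iff_mem, RingHom.mem_ker, map_natCast, ← map_natCast x, hp]
  refine ⟨RingHom.liftOfSurjective (resW p n) (WittVector.constantCoeff_surjective p) ⟨_, hker⟩,
    fun w => ?_⟩
  rw [RingHom.liftOfRightInverse_comp_apply]
  rfl

omit [IsUltrametricDist C] in
theorem LT1_norm_kmap (ι : kk p n →+* C) {a : kk p n} (ha : a ≠ 0) : ‖ι a‖ = 1 := by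
  have := Fintype.ofFinite (kk p n)
  have h1 := FiniteField.pow_card_sub_one_eq_one a ha
  have h2 : ‖ι a‖ ^ (Fintype.card (kk p n) - 1) = 1 := by
    rw [← norm_pow, ← map_pow, h1, map_one, norm_one]
  have h3 : Fintype.card (kk p n) - 1 ≠ 0 := by
    have := Fintype.one_lt_card (α := kk p n)
    omega
  exact (pow_eq_one_iff_of_nonneg (norm_nonneg _) h3).1 h2

omit [IsUltrametricDist C] in
/-- Elements of `k` have norm `≤ 1` (nonzero ones are roots of unity). -/
theorem norm_kmap_le (ι : kk p n →+* C) (a : kk p n) : ‖ι a‖ ≤ 1 := by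
  by_cases ha : a = 0
  · simp [ha]
  · exact (LT1_norm_kmap ι ha).le

omit [IsUltrametricDist C] in
theorem norm_kmap_eq (ι : kk p n →+* C) {a : kk p n} (ha : a ≠ 0) : ‖ι a‖ = 1 := by
  exact LT1_norm_kmap ι ha

omit [IsUltrametricDist C] in
theorem norm_sub_kmap_le (x : LTRing p n →+* C) (ι : kk p n →+* C)
    (hι : ∀ w : WW p n, x (algebraMap (WW p n) (LTRing p n) w) = ι (resW p n w)) {ρ : ℝ}
    (hρ : ∀ a ∈ mm p n, ‖x a‖ ≤ ρ) (a : LTRing p n) :
    ‖x a - ι (LTRing.residue p n a)‖ ≤ ρ := by
  have := hρ _ (sub_teich_mem p n a)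
  rw [map_sub, hι] at this
  simpa using this

end Crest.Agent.R227
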