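import Crest.Agent.R227.Height
import Crest.Agent.R227.LT1
import Crest.Agent.R227.Eval

/-!
# R227 / Weier: the Weierstrass polynomial of the iterated Verschiebung

Recipe.  `e = p ^ (h M)`, `V = mk fun d => coeff (e * d) [p ^ M]_H ∈ E₀⟦X⟧`.  Its reduction along
`residue` is `X ^ p ^ ((n - h) M)` since `[p ^ M]_G = X ^ q ^ M` (`mulSeries_pow_of_eq`, `S.pser`,
`S.redH`, `mulSeries_map`).  `PowerSeries.exists_isWeierstrassFactorization` (with
`isAdicComplete_mm`, `mm_eq_maximalIdeal`; the map to `IsLocalRing.residue` of a coefficient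
vanishes iff the coefficient is in `mm`) gives `V = W * U`, `W` distinguished of degree
`p ^ ((n - h) M)` (`natDegree_eq_toNat_order_map`, `PowerSeries.order_eq_nat`), `U` a unit.
Let `I = hId p H h` (`I ≤ mm` since `vv i` reduces to a coefficient of `X ^ q`; `p ∈ I` as `h ≥ 1`),
`R = E₀ ⧸ I` of characteristic `p`, `π` the projection, `hId p (H.map π) h = ⊥` (`hId_map`,
`Ideal.map_quotient_self`).  `exists_versch` gives `V'`, and `V' = V.map π` (compare coefficients
with `coeff_expand_mul`).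
* generation: apply `S.rigid M 𝔟` to `𝔟 = I ⊔ span (coeff W i)`: for `d < q ^ M`, either `e ∤ d` and the
  coefficient lies in `I` (`coeff_expand_of_not_dvd`), or `d = e * d'`, `d' < deg W`, and
  `coeff d' (W * U) ∈ span` (`coeff_mul`).
* points: `y` factors as `y' ∘ π` (`Ideal.Quotient.lift`), `ev1 y z [p ^ M] = ev1 y' (z ^ e) V'
  = ev1 y (z ^ e) V = W(z ^ e) * U(z ^ e)` (`ev1_map`, `ev1_expand`, `ev_mul`, `ev1_coe`,
  `norm_ev_of_isUnit`).
* roots have norm `< 1`: if `‖s‖ ≥ 1` the leading term dominates.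
* separability: `hom_deriv` for `V'` evaluated at a root `s` gives `ev1 y s (derivative V) ≠ 0`
  (`omega` is a unit: `dF_mul_omega`); `derivative V = W' * U + W * U'` (`Derivation.leibniz`,
  `PowerSeries.derivative_coe`), so `W'(s) ≠ 0`; conclude with
  `Polynomial.nodup_roots_iff…`/`one_lt_rootMultiplicity_iff_isRoot` (`Multiset.nodup_iff_count_le_one`).
`card_torsion`: `z ↦ z ^ e` is a bijection of `C` (perfect field), roots of `W.map y`:
`IsAlgClosed.card_roots_eq_natDegree`/`splits`, `Multiset.toFinset_card_of_nodup`;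
`M = 0` separately (`mulSeries_one`).
-/

set_option autoImplicit false
noncomputable section
open Crest.LubinTate

namespace Crest.Agent.R227

variable {p : ℕ} [Fact p.Prime] {n : ℕ}

theorem Setup.vv_mem_mm (S : Setup p n) {i : ℕ} (hi : i < n) : vv p S.H i ∈ mm p n := by
  have h := congrArg (PowerSeries.coeff (p ^ i))
    (show PowerSeries.map (LTRing.residue p n) (mulSeries S.H p) = PowerSeries.X ^ (p ^ n) by
      rw [← mulSeries_map, S.redH, S.pser])
  rw [PowerSeries.coeff_map, PowerSeries.coeff_X_pow, if_neg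
    (Nat.pow_lt_pow_right (Fact.out : p.Prime).one_lt hi).ne] at h
  exact (mem_mm p n).2 h

theorem Setup.hId_le_mm (S : Setup p n) {h : ℕ} (hh : h ≤ n) : hId p S.H h ≤ mm p n := by
  exact (hId_le_iff p S.H h _).2 fun i hi => S.vv_mem_mm (lt_of_lt_of_le hi hh)

/-- `[p ^ M]_H ≡ X ^ (q ^ M)` modulo `𝔪`. -/
theorem Setup.map_mulSeries (S : Setup p n) (M : ℕ) :
    PowerSeries.map (LTRing.residue p n) (mulSeries S.H (p ^ M)) =
      PowerSeries.X ^ ((p ^ n) ^ M) := by
  rw [← mulSeries_map, S.redH]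
  exact mulSeries_pow_of_eq S.G (pow_ne_zero _ (Fact.out : p.Prime).ne_zero) S.pser M

theorem Weier_root_lt {C : Type*} [NormedField C] [IsUltrametricDist C] {P : Polynomial C}
    (hP : P.Monic) (hc : ∀ i < P.natDegree, ‖P.coeff i‖ < 1) {s : C} (hs : P.eval s = 0) :
    ‖s‖ < 1 := by
  by_contra hlt
  have h1 : 1 ≤ ‖s‖ := not_lt.1 hlt
  have h0 : 0 < ‖s‖ ^ P.natDegree := pow_pos (by linarith) _
  have e : s ^ P.natDegree = -∑ i ∈ Finset.range P.natDegree, P.coeff i * s ^ i := by
    rw [hP.as_sum, Polynomial.eval_add, Polynomial.eval_finsetSum] at hs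
    simp only [Polynomial.eval_pow, Polynomial.eval_X, Polynomial.eval_mul, Polynomial.eval_C] at hs
    exact eq_neg_of_add_eq_zero_left hs
  have h2 : ‖∑ i ∈ Finset.range P.natDegree, P.coeff i * s ^ i‖ < ‖s‖ ^ P.natDegree := by
    refine Finset.sum_induction _ (fun x => ‖x‖ < ‖s‖ ^ P.natDegree) (fun a b ha hb => ?_)
      (by simpa using h0) fun i hi => ?_
    · exact (IsUltrametricDist.norm_add_le_max a b).trans_lt (max_lt ha hb)
    · have hi' := Finset.mem_range.1 hi
      rw [norm_mul, norm_pow]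
      calc ‖P.coeff i‖ * ‖s‖ ^ i < 1 * ‖s‖ ^ i :=
            mul_lt_mul_of_pos_right (hc i hi') (pow_pos (by linarith) _)
        _ = ‖s‖ ^ i := one_mul _
        _ ≤ _ := pow_le_pow_right₀ h1 hi'.le
  rw [← norm_pow, e, norm_neg] at h2
  exact lt_irrefl _ h2

theorem Weier_ev1_mul {R C : Type*} [CommRing R] [NormedField C] [IsUltrametricDist C]
    [CompleteSpace C] (x : R →+* C) (hx : ∀ r, ‖x r‖ ≤ 1) (z : C) (hz : ‖z‖ < 1)
    (f g : PowerSeries R) : ev1 x z (f * g) = ev1 x z f * ev1 x z g :=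
  ev_mul x hx _ (fun _ => hz) f g

theorem Weier_ev1_add {R C : Type*} [CommRing R] [NormedField C] [IsUltrametricDist C]
    [CompleteSpace C] (x : R →+* C) (hx : ∀ r, ‖x r‖ ≤ 1) (z : C) (hz : ‖z‖ < 1)
    (f g : PowerSeries R) : ev1 x z (f + g) = ev1 x z f + ev1 x z g :=
  ev_add x hx _ (fun _ => hz) f g

theorem Weier_ev1_unit {R C : Type*} [CommRing R] [NormedField C] [IsUltrametricDist C]
    [CompleteSpace C] (x : R →+* C) (hx : ∀ r, ‖x r‖ ≤ 1) (z : C) (hz : ‖z‖ < 1)
    (f : PowerSeries R) (hf : IsUnit f) : ev1 x z f ≠ 0 := by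
  have := norm_ev_of_isUnit x hx (fun _ : Unit => z) (fun _ => hz) f hf
  intro h
  rw [ev1] at h
  rw [h, norm_zero] at this
  exact zero_ne_one this

theorem Weier_deriv_map {R R' : Type*} [CommRing R] [CommRing R'] (φ : R →+* R')
    (f : PowerSeries R) : PowerSeries.derivative R' (PowerSeries.map φ f) =
      PowerSeries.map φ (PowerSeries.derivative R f) := by
  ext d
  simp [PowerSeries.coeff_derivative]

/-- the derivative of a homomorphism with invertible linear coefficient does not vanish -/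
theorem Weier_deriv_ne {R C : Type*} [CommRing R] [NormedField C] [IsUltrametricDist C]
    [CompleteSpace C] (x : R →+* C) (hx : ∀ r, ‖x r‖ ≤ 1) (z : C) (hz : ‖z‖ < 1)
    {F G : FormalGroup R} {f : PowerSeries R} (hf : IsFGHom F G f)
    (h1 : x (PowerSeries.coeff 1 f) ≠ 0) : ev1 x z (PowerSeries.derivative R f) ≠ 0 := by
  have h := congrArg (ev1 x z) (hom_deriv hf)
  rw [Weier_ev1_mul x hx z hz, Weier_ev1_mul x hx z hz, ev1_C] at h
  have hu : IsUnit (omega F) := IsUnit.of_mul_eq_one_right _ (dF_mul_omega F)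
  intro h0
  rw [h0, mul_zero] at h
  exact mul_ne_zero h1 (Weier_ev1_unit x hx z hz _ hu) h.symm

theorem exists_weier (S : Setup p n) {h : ℕ} (h1 : 1 ≤ h) (hn : h < n) {M : ℕ} (hM : 1 ≤ M) :
    ∃ W : Polynomial (LTRing p n), W.Monic ∧ W.natDegree = p ^ ((n - h) * M) ∧
      (∀ i < p ^ ((n - h) * M), W.coeff i ∈ mm p n) ∧
      mm p n ≤ hId p S.H h ⊔
        Ideal.span (Set.range fun i : Fin (p ^ ((n - h) * M)) => W.coeff i) ∧
      ∀ {C : Type} [NormedField C] [IsUltrametricDist C] [CompleteSpace C]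
        (y : LTRing p n →+* C), (∀ a, ‖y a‖ ≤ 1) → (∀ a ∈ mm p n, ‖y a‖ < 1) →
        (∀ a ∈ hId p S.H h, y a = 0) →
        (∀ z : C, ‖z‖ < 1 → (ev1 y z (mulSeries S.H (p ^ M)) = 0 ↔
          (W.map y).eval (z ^ (p ^ (h * M))) = 0)) ∧
        (∀ s : C, (W.map y).eval s = 0 → ‖s‖ < 1) ∧
        (y (vv p S.H h) ≠ 0 → (W.map y).roots.Nodup) := by
  have hp : p.Prime := Fact.out
  have he : p ^ (h * M) ≠ 0 := pow_ne_zero _ hp.ne_zero
  have heD : p ^ (h * M) * p ^ ((n - h) * M) = (p ^ n) ^ M := by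
    rw [← pow_add, ← pow_mul, ← add_mul, Nat.add_sub_cancel' hn.le]
  set V : PowerSeries (LTRing p n) :=
    PowerSeries.mk fun d => PowerSeries.coeff (p ^ (h * M) * d) (mulSeries S.H (p ^ M)) with hV
  have hres : ∀ d, PowerSeries.coeff d V ∈ IsLocalRing.maximalIdeal (LTRing p n) ↔
      d ≠ p ^ ((n - h) * M) := by
    intro d
    have h0 := congrArg (PowerSeries.coeff (p ^ (h * M) * d)) (S.map_mulSeries M)
    rw [PowerSeries.coeff_map, PowerSeries.coeff_X_pow, ← heD] at h0
    rw [← mm_eq_maximalIdeal, mem_mm, hV, PowerSeries.coeff_mk, h0]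
    simp only [mul_right_inj' he]
    split_ifs with hd <;> simp [hd]
  have hord : (V.map (IsLocalRing.residue (LTRing p n))).order = (p ^ ((n - h) * M) : ℕ) := by
    rw [PowerSeries.order_eq_nat]
    refine ⟨?_, fun i hi => ?_⟩
    · rw [PowerSeries.coeff_map, Ne, IsLocalRing.residue_eq_zero_iff, hres]
      simp
    · rw [PowerSeries.coeff_map, IsLocalRing.residue_eq_zero_iff, hres]
      exact hi.ne
  have hne : V.map (IsLocalRing.residue (LTRing p n)) ≠ 0 := by
    intro h0
    rw [h0, PowerSeries.order_zero] at hord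
    exact ENat.top_ne_natCast _ hord
  have := isAdicComplete_mm p n
  obtain ⟨W, U, hWU⟩ := PowerSeries.exists_isWeierstrassFactorization hne
  have hdeg : W.natDegree = p ^ ((n - h) * M) := by
    rw [hWU.natDegree_eq_toNat_order_map, hord, ENat.toNat_natCast]
  have hWc : ∀ i < p ^ ((n - h) * M), W.coeff i ∈ mm p n := fun i hi => by
    rw [mm_eq_maximalIdeal]
    exact hWU.isDistinguishedAt.mem (hdeg ▸ hi)
  have hmon : W.Monic := hWU.isDistinguishedAt.monic
  have hpI : (p : LTRing p n) ∈ hId p S.H h := by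
    rw [← vv_zero p S.H]
    exact vv_mem_hId p S.H h1
  have hI : hId p S.H h ≠ ⊤ := by
    intro h0
    have := S.hId_le_mm hn.le
    rw [h0, top_le_iff, mm_eq_maximalIdeal] at this
    exact (IsLocalRing.maximalIdeal.isMaximal _).ne_top this
  have : Nontrivial (LTRing p n ⧸ hId p S.H h) := Ideal.Quotient.nontrivial_iff.2 hI
  have : CharP (LTRing p n ⧸ hId p S.H h) p := by
    refine (CharP.charP_iff_prime_eq_zero hp).2 ?_
    rw [← map_natCast (Ideal.Quotient.mk (hId p S.H h)), Ideal.Quotient.eq_zero_iff_mem]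
    exact hpI
  obtain ⟨V', N, hV1, hV2, hV3⟩ := exists_versch p (S.H.map (Ideal.Quotient.mk (hId p S.H h))) h
    (by rw [hId_map, Ideal.map_quotient_self]) M
  rw [mulSeries_map] at hV2
  have hVV : V' = PowerSeries.map (Ideal.Quotient.mk (hId p S.H h)) V := by
    ext d
    have := congrArg (PowerSeries.coeff (p ^ (h * M) * d)) hV2
    rw [PowerSeries.coeff_expand_mul, PowerSeries.coeff_map] at this
    rw [← this, PowerSeries.coeff_map, hV, PowerSeries.coeff_mk]
  refine ⟨W, hmon, hdeg, hWc, ?_, ?_⟩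
  · refine S.rigid M _ hM (Ideal.mem_sup_left hpI) fun d hd => ?_
    by_cases hdv : p ^ (h * M) ∣ d
    · obtain ⟨d', rfl⟩ := hdv
      rw [← heD] at hd
      have hd' : d' < p ^ ((n - h) * M) := lt_of_mul_lt_mul_left hd (Nat.zero_le _)
      have e : PowerSeries.coeff (p ^ (h * M) * d') (mulSeries S.H (p ^ M)) =
          PowerSeries.coeff d' V := by rw [hV, PowerSeries.coeff_mk]
      rw [e, hWU.eq_mul, PowerSeries.coeff_mul]
      refine Ideal.mem_sup_right (Ideal.sum_mem _ fun ij hij => Ideal.mul_mem_right _ _ ?_)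
      have hi : ij.1 < p ^ ((n - h) * M) := by
        have := Finset.HasAntidiagonal.mem_antidiagonal.1 hij
        omega
      rw [Polynomial.coeff_coe]
      exact Ideal.subset_span ⟨⟨ij.1, hi⟩, rfl⟩
    · have := congrArg (PowerSeries.coeff d) hV2
      rw [PowerSeries.coeff_expand_of_not_dvd _ _ _ hdv, PowerSeries.coeff_map,
        Ideal.Quotient.eq_zero_iff_mem] at this
      exact Ideal.mem_sup_left this
  · intro C _ _ _ y hy hym hyI
    set y' := Ideal.Quotient.lift (hId p S.H h) y hyI with hy'def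
    have hy' : ∀ r, ‖y' r‖ ≤ 1 := fun r => by
      obtain ⟨a, rfl⟩ := Ideal.Quotient.mk_surjective r
      exact hy a
    have hcomp : y'.comp (Ideal.Quotient.mk (hId p S.H h)) = y := RingHom.ext fun a => rfl
    have hW : ∀ (P : Polynomial (LTRing p n)) (s : C),
        ev1 y s (P : PowerSeries (LTRing p n)) = (P.map y).eval s := fun P s => by
      rw [ev1_coe, Polynomial.eval_map]
    have hroot : ∀ s : C, (W.map y).eval s = 0 → ‖s‖ < 1 := fun s hs => by
      refine Weier_root_lt (hmon.map y) (fun i hi => ?_) hs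
      rw [hmon.natDegree_map, hdeg] at hi
      rw [Polynomial.coeff_map]
      exact hym _ (hWc i hi)
    refine ⟨fun z hz => ?_, hroot, fun hv => ?_⟩
    · have hze : ‖z ^ (p ^ (h * M))‖ < 1 := by
        rw [norm_pow]
        exact pow_lt_one₀ (norm_nonneg _) hz he
      have e : ev1 y z (mulSeries S.H (p ^ M)) =
          (W.map y).eval (z ^ (p ^ (h * M))) * ev1 y (z ^ (p ^ (h * M))) U := by
        rw [← hW, ← Weier_ev1_mul y hy _ hze, ← hWU.eq_mul, ← hcomp, ← ev1_map, ← ev1_map, hV2,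
          ev1_expand y' hy' z hz, hVV]
      rw [e, mul_eq_zero, or_iff_left (Weier_ev1_unit y hy _ hze U hWU.isUnit)]
    · classical
      rw [Multiset.nodup_iff_count_le_one]
      intro s
      rw [Polynomial.count_roots]
      by_contra hlt
      have hm := (Polynomial.one_lt_rootMultiplicity_iff_isRoot (hmon.map y).ne_zero).1
        (not_le.1 hlt)
      have hs := hroot s hm.1
      have h1' : y' (PowerSeries.coeff 1 V') ≠ 0 := by
        rw [hV3, vv_map, map_pow]
        exact pow_ne_zero _ hv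
      have h2 := Weier_deriv_ne y' hy' s hs hV1 h1'
      rw [hVV, Weier_deriv_map, ev1_map, hcomp, hWU.eq_mul, Derivation.leibniz, smul_eq_mul,
        smul_eq_mul, Weier_ev1_add y hy s hs, Weier_ev1_mul y hy s hs, Weier_ev1_mul y hy s hs,
        PowerSeries.derivative_coe, hW, hW, ← Polynomial.derivative_map, hm.1.eq_zero,
        hm.2.eq_zero, zero_mul, mul_zero, add_zero] at h2
      exact h2 rfl

theorem card_torsion (S : Setup p n) {h : ℕ} (h1 : 1 ≤ h) (hn : h < n) {C : Type} [NormedField C]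
    [IsUltrametricDist C] [CompleteSpace C] [IsAlgClosed C] [CharP C p] (y : LTRing p n →+* C)
    (hy : ∀ a, ‖y a‖ ≤ 1) (hym : ∀ a ∈ mm p n, ‖y a‖ < 1) (hyI : ∀ a ∈ hId p S.H h, y a = 0)
    (hv : y (vv p S.H h) ≠ 0) (M : ℕ) :
    Nat.card {z : C // ‖z‖ < 1 ∧ ev1 y z (mulSeries S.H (p ^ M)) = 0} = p ^ ((n - h) * M) := by
  classical
  have hp : p.Prime := Fact.out
  rcases Nat.eq_zero_or_pos M with rfl | hM
  · rw [pow_zero, mulSeries_one, mul_zero, pow_zero, Nat.card_eq_one_iff_exists]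
    refine ⟨⟨0, by simp, ev1_X y 0⟩, ?_⟩
    rintro ⟨z, hz, hz'⟩
    rw [ev1_X] at hz'
    exact Subtype.ext hz'
  · obtain ⟨W, hmon, hdeg, -, -, hW⟩ := exists_weier S h1 hn hM
    obtain ⟨a1, a2, a3⟩ := hW y hy hym hyI
    have hne : W.map y ≠ 0 := (hmon.map y).ne_zero
    have hcard : (W.map y).roots.toFinset.card = p ^ ((n - h) * M) := by
      rw [Multiset.toFinset_card_of_nodup (a3 hv), IsAlgClosed.card_roots_eq_natDegree,
        hmon.natDegree_map, hdeg]
    rw [← hcard, ← Nat.card_eq_finsetCard]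
    refine Nat.card_eq_of_bijective (fun z => ⟨z.1 ^ (p ^ (h * M)), ?_⟩) ⟨?_, ?_⟩
    · rw [Multiset.mem_toFinset, Polynomial.mem_roots hne]
      exact (a1 z.1 z.2.1).1 z.2.2
    · intro z z' hzz
      refine Subtype.ext ((iterateFrobenius C p (h * M)).injective ?_)
      rw [iterateFrobenius_def, iterateFrobenius_def]
      exact congrArg Subtype.val hzz
    · rintro ⟨s, hs⟩
      have hs' : (W.map y).eval s = 0 := by
        rw [Multiset.mem_toFinset, Polynomial.mem_roots hne] at hs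
        exact hs
      obtain ⟨z, rfl⟩ := IsAlgClosed.exists_pow_nat_eq s (pow_pos hp.pos (h * M))
      have hz : ‖z‖ < 1 := by
        have := a2 _ hs'
        rw [norm_pow] at this
        exact (pow_lt_one_iff_of_nonneg (norm_nonneg _) (pow_ne_zero _ hp.ne_zero)).1 this
      exact ⟨⟨z, hz, (a1 z hz).2 hs'⟩, rfl⟩

end Crest.Agent.R227
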