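import Crest.Agent.R227.Cong
import Crest.Agent.R227.Weier
import Crest.Agent.R227.Moore

/-!
# R227 / Chart: a closed polydisc containing the orbit (characteristic zero)

`chart x hx ϖ : E₀ → O[[y]]`, `u_i ↦ ϖ y_i`, coefficients mapped by `x`.

* `exists_chart_point`: `σ i = y (X i) / ϖ`; `ev_rescale`, `ev_map`, `ev_eq_of_ringHom` for `y`
  (`algebraMap W E₀ = C`: `MvPowerSeries.c_eq_algebraMap`/`algebraMap_apply`).
* `exists_chart_normalise`: `x` is injective on `W(k)` (a nonzero Witt vector is `unit * p ^ m`: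
  `WittVector.exists_eq_pow_p_mul'`; `x p = p ≠ 0`).  The coefficients of `chart f` have norm
  `≤ ‖ϖ‖ ^ degree d → 0`, not all zero, so one of maximal norm exists
  (finitely many `d` with norm `≥` a given positive one: `Finsupp.finite_of_degree_le`,
  `Set.Finite.exists_maximalFor`/`exists_max_image`); divide by it (`dvd_of_norm_le`).
* `exists_chart_log`: `A = O[[y]]`, `K = C[[y]]`, `j = MvPowerSeries.map subtype` (injective),
  `F = H.map (chart ..)`, `𝔞 = span {C ϖ}`; `chart` maps `mm` into `𝔞` (`mm_eq_span`, `ϖ ∣ p` in `O`),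
  `𝔞 ^ (N+1) ≤ (p)` when `‖ϖ‖ ^ (N+1) ≤ ‖p‖`.  With `l = logS j F` and `log_coeff_step` for `z = X`
  (`PowerSeries.X_subst`, `expand_X`): `p ^ N (p l_{q d} - l_d) ∈ j A`.  Write `α = p ^ v α'`; then
  `p ^ v l_α ∈ j A` (`natCast_mul_coeff_logS`, `α'` a unit), so by induction on `m`,
  `p ^ (N + v) p ^ m l_{q ^ m α} = j b`.  Multiply by `d = q ^ m α` to get the identity
  `d * b = p ^ (N+v) p ^ m * ω_{d-1}` in `A` (injectivity of `j`), apply `evHom`, and use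
  `natCast_mul_coeff_logS`, `omega_map` for the evaluated law; cancel `d ≠ 0`.
-/

set_option autoImplicit false
set_option linter.unusedSectionVars false
noncomputable section
open Crest.LubinTate

namespace Crest.Agent.R227

variable {p : ℕ} [Fact p.Prime] {n : ℕ} {C : Type*} [NormedField C] [IsUltrametricDist C]
  [CompleteSpace C] [CharZero C]

/-- The chart `u_i ↦ ϖ y_i`. -/
def chart (x : LTRing p n →+* C) (hx : ∀ a, ‖x a‖ ≤ 1) (ϖ : Ob C) :
    LTRing p n →+* MvPowerSeries (Fin (n - 1)) (Ob C) :=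
  (MvPowerSeries.rescale fun _ => ϖ).comp
    (MvPowerSeries.map ((x.codRestrict (Ob C) hx).comp (algebraMap (WW p n) (LTRing p n))))

theorem Chart_coeff (x : LTRing p n →+* C) (hx : ∀ a, ‖x a‖ ≤ 1) (ϖ : Ob C) (f : LTRing p n)
    (d : Fin (n - 1) →₀ ℕ) : MvPowerSeries.coeff d (chart x hx ϖ f) = ϖ ^ d.degree *
      x.codRestrict (Ob C) hx (algebraMap (WW p n) (LTRing p n) (MvPowerSeries.coeff d f)) := by
  rw [chart, RingHom.comp_apply, MvPowerSeries.coeff_rescale, MvPowerSeries.coeff_map,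
    Finsupp.prod, Finset.prod_pow_eq_pow_sum]
  rfl

theorem Chart_mm (x : LTRing p n →+* C) (hx : ∀ a, ‖x a‖ ≤ 1) (ϖ : Ob C)
    (hpϖ : ‖(p : C)‖ ≤ ‖(ϖ : C)‖) {a : LTRing p n} (ha : a ∈ mm p n) :
    chart x hx ϖ a ∈ Ideal.span {(MvPowerSeries.C ϖ : MvPowerSeries (Fin (n - 1)) (Ob C))} := by
  rw [Ideal.mem_span_singleton, ← mem_cI_span_singleton, mem_cI]
  intro d
  rw [Ideal.mem_span_singleton, Chart_coeff]
  rcases Nat.eq_zero_or_pos d.degree with h | h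
  · obtain ⟨w, hw⟩ := (mem_mm_pow_iff p n 1 a).1 (by rwa [pow_one]) d
    rw [hw, h, Nat.sub_zero, pow_one, map_mul, map_mul, map_natCast, map_natCast]
    exact ((dvd_of_norm_le (b := (p : Ob C)) hpϖ).mul_right _).mul_left _
  · exact (dvd_pow_self ϖ h.ne').mul_right _

theorem exists_chart_point (x : LTRing p n →+* C) (hx : ∀ a, ‖x a‖ ≤ 1) (ϖ : Ob C)
    (hϖ : ϖ ≠ 0) {ρ' : ℝ} (hρ' : ρ' < 1) (y : LTRing p n →+* C) (hy : ∀ a, ‖y a‖ ≤ 1)
    (hym : ∀ a ∈ mm p n, ‖y a‖ ≤ ρ' * ‖(ϖ : C)‖)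
    (hyx : ∀ w : WW p n, y (algebraMap (WW p n) (LTRing p n) w) =
      x (algebraMap (WW p n) (LTRing p n) w)) :
    ∃ σ : Fin (n - 1) → C, (∀ i, ‖σ i‖ ≤ ρ') ∧
      ∀ a, ev (Ob C).subtype σ (chart x hx ϖ a) = y a := by
  have h0 : (ϖ : C) ≠ 0 := fun h => hϖ (Subtype.ext h)
  have h1 : ∀ i, ‖y (MvPowerSeries.X i) / ϖ‖ ≤ ρ' := fun i => by
    rw [norm_div, div_le_iff₀ (norm_pos_iff.2 h0)]
    exact hym _ (X_mem_mm p n i)
  have h2 : ∀ i, (ϖ : C) * (y (MvPowerSeries.X i) / ϖ) = y (MvPowerSeries.X i) := fun i =>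
    mul_div_cancel₀ _ h0
  have h3 : ∀ i, ‖y (MvPowerSeries.X i)‖ < 1 := fun i => by
    rw [← h2, norm_mul]
    exact (mul_le_of_le_one_left (norm_nonneg _) ϖ.2).trans_lt ((h1 i).trans_lt hρ')
  refine ⟨fun i => y (MvPowerSeries.X i) / ϖ, h1, fun a => ?_⟩
  rw [chart, RingHom.comp_apply, ev_rescale _ Ob_le_one _ fun i => (h1 i).trans_lt hρ', ev_map,
    ev_eq_of_ringHom y hy h3 a]
  simp only [Subring.subtype_apply, h2]
  exact ev_congr _ _ _ _ _ fun d => (hyx _).symm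

theorem exists_chart_normalise (x : LTRing p n →+* C) (hx : ∀ a, ‖x a‖ ≤ 1) (ϖ : Ob C)
    (hϖ : ϖ ≠ 0) (hϖ1 : ‖(ϖ : C)‖ < 1) {f : LTRing p n} (hf : f ≠ 0) :
    ∃ (φ : MvPowerSeries (Fin (n - 1)) (Ob C)) (c : Ob C) (d : Fin (n - 1) →₀ ℕ), c ≠ 0 ∧
      chart x hx ϖ f = MvPowerSeries.C c * φ ∧ ‖((MvPowerSeries.coeff d φ : Ob C) : C)‖ = 1 := by
  have h0 : (ϖ : C) ≠ 0 := fun h => hϖ (Subtype.ext h)
  obtain ⟨g, hg⟩ : ∃ g : (Fin (n - 1) →₀ ℕ) → ℝ, ∀ d,
    g d = ‖((MvPowerSeries.coeff d (chart x hx ϖ f) : Ob C) : C)‖ := ⟨_, fun _ => rfl⟩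
  have h1 : ∀ d, g d = ‖(ϖ : C)‖ ^ d.degree *
      ‖x (algebraMap (WW p n) (LTRing p n) (MvPowerSeries.coeff d f))‖ := fun d => by
    rw [hg, Chart_coeff, Subring.coe_mul, Subring.coe_pow, norm_mul, norm_pow]
    rfl
  obtain ⟨d₀, hd₀⟩ : ∃ d, MvPowerSeries.coeff d f ≠ 0 := by
    by_contra h
    exact hf (MvPowerSeries.ext fun d => by simpa using not_not.1 (not_exists.1 h d))
  have h2 : 0 < g d₀ := by
    obtain ⟨m, b, hb⟩ := WittVector.exists_eq_pow_p_mul' _ hd₀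
    rw [h1, hb]
    refine mul_pos (pow_pos (norm_pos_iff.2 h0) _) (norm_pos_iff.2 ?_)
    rw [map_mul, map_mul, map_pow, map_pow, map_natCast, map_natCast]
    exact mul_ne_zero (pow_ne_zero _ (Nat.cast_ne_zero.2 (Fact.out : p.Prime).ne_zero))
      ((b.isUnit.map _).map x).ne_zero
  obtain ⟨N, hN⟩ := exists_pow_lt_of_lt_one h2 hϖ1
  have h3 : ∀ d : Fin (n - 1) →₀ ℕ, ¬ d.degree ≤ N → g d < g d₀ := fun d hd => by
    rw [h1]
    exact ((mul_le_of_le_one_right (by positivity) (hx _)).trans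
      (pow_le_pow_of_le_one (norm_nonneg _) hϖ1.le (not_le.1 hd).le)).trans_lt hN
  have h4 : d₀.degree ≤ N := not_not.1 fun h => lt_irrefl _ (h3 _ h)
  obtain ⟨d₁, -, hd₁⟩ := Set.exists_max_image _ g (Finsupp.finite_of_degree_le N) ⟨d₀, h4⟩
  have h5 : ∀ d, g d ≤ g d₁ := fun d => by
    by_cases h : d.degree ≤ N
    · exact hd₁ d h
    · exact (h3 d h).le.trans (hd₁ d₀ h4)
  have h6 : MvPowerSeries.coeff d₁ (chart x hx ϖ f) ≠ 0 := fun h => by
    have := h2.trans_le (h5 d₀)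
    rw [hg, h] at this
    simp at this
  obtain ⟨φ, hφ⟩ := mem_cI_span_singleton.1 (mem_cI.2 fun d => Ideal.mem_span_singleton.2
    (dvd_of_norm_le (a := MvPowerSeries.coeff d₁ (chart x hx ϖ f))
      (b := MvPowerSeries.coeff d (chart x hx ϖ f)) (by rw [← hg, ← hg]; exact h5 d)))
  refine ⟨φ, _, d₁, h6, hφ, ?_⟩
  have h7 := congrArg (MvPowerSeries.coeff d₁) hφ
  rw [MvPowerSeries.coeff_C_mul] at h7
  rw [← mul_left_cancel₀ h6 ((mul_one _).trans h7)]
  simp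

theorem exists_chart_log (hn : 1 ≤ n) (S : Setup p n) (x : LTRing p n →+* C)
    (hx : ∀ a, ‖x a‖ ≤ 1) (ϖ : Ob C) (hϖ1 : ‖(ϖ : C)‖ < 1) (hpϖ : ‖(p : C)‖ ≤ ‖(ϖ : C)‖)
    {α : ℕ} (hα : α ≠ 0) :
    ∃ e : ℕ, ∀ m : ℕ, ∃ b : MvPowerSeries (Fin (n - 1)) (Ob C),
      ∀ (σ : Fin (n - 1) → C) (_ : ∀ i, ‖σ i‖ < 1) (y : LTRing p n →+* C),
        (∀ a, ev (Ob C).subtype σ (chart x hx ϖ a) = y a) →
        ev (Ob C).subtype σ b =
          (p : C) ^ e * ((p : C) ^ m * PowerSeries.coeff ((p ^ n) ^ m * α) (logS y S.H)) := by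
  have hp : p.Prime := Fact.out
  have hp0 : (p : C) ≠ 0 := Nat.cast_ne_zero.2 hp.ne_zero
  obtain ⟨j, hj⟩ : ∃ j : MvPowerSeries (Fin (n - 1)) (Ob C) →+* MvPowerSeries (Fin (n - 1)) C,
      Function.Injective j := ⟨MvPowerSeries.map (Ob C).subtype, fun a b h =>
    MvPowerSeries.ext fun d => Subtype.ext (by simpa using congrArg (MvPowerSeries.coeff d) h)⟩
  have hA : ∀ d : ℕ, ¬ p ∣ d → IsUnit (d : MvPowerSeries (Fin (n - 1)) (Ob C)) := fun d hd => by
    simpa using (isUnit_natCast_LT p n hd).map (chart x hx ϖ)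
  have hF : mulSeries (S.H.map (chart x hx ϖ)) p - PowerSeries.X ^ (p ^ n) ∈
      cI Unit (Ideal.span {(MvPowerSeries.C ϖ : MvPowerSeries (Fin (n - 1)) (Ob C))}) := by
    have e1 : mulSeries (S.H.map (chart x hx ϖ)) p - PowerSeries.X ^ (p ^ n) =
        PowerSeries.map (chart x hx ϖ) (mulSeries S.H p - PowerSeries.X ^ (p ^ n)) := by
      rw [map_sub, map_pow, PowerSeries.map_X, mulSeries_map]
    have e2 : PowerSeries.map (LTRing.residue p n)
        (mulSeries S.H p - PowerSeries.X ^ (p ^ n)) = 0 := by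
      rw [map_sub, map_pow, PowerSeries.map_X, ← mulSeries_map, S.redH, S.pser, sub_self]
    rw [e1, mem_cI]
    exact fun d => Chart_mm x hx ϖ hpϖ (congrArg (MvPowerSeries.coeff d) e2)
  obtain ⟨N, hN⟩ := exists_pow_lt_of_lt_one (norm_pos_iff.2 hp0) hϖ1
  have hN' : Ideal.span {(MvPowerSeries.C ϖ : MvPowerSeries (Fin (n - 1)) (Ob C))} ^ (N + 1) ≤
      Ideal.span {(p : MvPowerSeries (Fin (n - 1)) (Ob C))} := by
    rw [Ideal.span_singleton_pow, Ideal.span_singleton_le_span_singleton, ← map_pow,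
      ← map_natCast MvPowerSeries.C]
    refine map_dvd _ ((dvd_of_norm_le (a := (p : Ob C)) (b := ϖ ^ N) ?_).trans
      (pow_dvd_pow _ N.le_succ))
    rw [Subring.coe_pow, norm_pow]
    exact hN.le
  have step := log_coeff_step p hn j hA _ hF hN' (z := PowerSeries.X) PowerSeries.constantCoeff_X
    (by rw [PowerSeries.expand_X, sub_self]; exact zero_mem _)
  simp only [PowerSeries.map_X, PowerSeries.X_subst] at step
  obtain ⟨v, α', hα', rfl⟩ := Nat.exists_eq_pow_mul_and_not_dvd hα p hp.ne_one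
  have key : ∀ m : ℕ, ∃ b, j b = (p : MvPowerSeries (Fin (n - 1)) C) ^ (N + v) *
      ((p : MvPowerSeries (Fin (n - 1)) C) ^ m * PowerSeries.coeff ((p ^ n) ^ m * (p ^ v * α'))
        (logS j (S.H.map (chart x hx ϖ)))) := by
    intro m
    induction m with
    | zero =>
      obtain ⟨u, hu⟩ := (hA α' hα').exists_left_inv
      have h1 := natCast_mul_coeff_logS j (S.H.map (chart x hx ϖ)) _ hα
      have h2 := congrArg j hu
      rw [map_mul, map_natCast, map_one] at h2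
      refine ⟨(p : MvPowerSeries (Fin (n - 1)) (Ob C)) ^ N * u *
        PowerSeries.coeff (p ^ v * α' - 1) (omega (S.H.map (chart x hx ϖ))), ?_⟩
      rw [map_mul, map_mul, map_pow, map_natCast, ← h1, pow_zero, pow_zero, one_mul, one_mul,
        Nat.cast_mul, Nat.cast_pow]
      linear_combination (p : MvPowerSeries (Fin (n - 1)) C) ^ (N + v) *
        PowerSeries.coeff (p ^ v * α') (logS j (S.H.map (chart x hx ϖ))) * h2
    | succ m ih =>
      obtain ⟨b, hb⟩ := ih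
      obtain ⟨c, hc⟩ := step ((p ^ n) ^ m * (p ^ v * α'))
      refine ⟨(p : MvPowerSeries (Fin (n - 1)) (Ob C)) ^ (v + m) * (p * c) + b, ?_⟩
      rw [map_add, map_mul, map_mul, map_pow, map_natCast, ← hc, hb, pow_succ' (p ^ n),
        mul_assoc (p ^ n)]
      ring
  refine ⟨N + v, fun m => ?_⟩
  obtain ⟨b, hb⟩ := key m
  refine ⟨b, fun σ hσ y hy => ?_⟩
  obtain ⟨d, hd⟩ : ∃ d, d = (p ^ n) ^ m * (p ^ v * α') := ⟨_, rfl⟩
  rw [← hd] at hb ⊢
  have hd0 : d ≠ 0 := hd ▸ mul_ne_zero (pow_ne_zero _ (pow_ne_zero _ hp.ne_zero)) hα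
  have h1 : (d : MvPowerSeries (Fin (n - 1)) (Ob C)) * b =
      (p : MvPowerSeries (Fin (n - 1)) (Ob C)) ^ (N + v + m) *
        PowerSeries.coeff (d - 1) (omega (S.H.map (chart x hx ϖ))) := hj (by
    rw [map_mul, map_mul, map_pow, map_natCast, map_natCast, hb,
      ← natCast_mul_coeff_logS j _ d hd0]
    ring)
  have h2 := congrArg (evHom (Ob C).subtype Ob_le_one σ hσ) h1
  rw [map_mul, map_mul, map_pow, map_natCast, map_natCast, omega_map, PowerSeries.coeff_map,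
    evHom_apply, evHom_apply, hy, ← natCast_mul_coeff_logS y _ d hd0] at h2
  refine mul_left_cancel₀ (Nat.cast_ne_zero.2 hd0 : (d : C) ≠ 0) (h2.trans ?_)
  ring

end Crest.Agent.R227
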