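import Crest.Agent.R227.FG2

/-!
# R227 / Cong: congruences of power series modulo an ideal of coefficients

`cI τ I` is the ideal of series with all coefficients in `I` (`mem_cI`).

Recipe.  `cI_mul_le`: `Ideal.mul_le` and `coeff_mul`.  `psubst_cong_left/right`: apply
`MvPowerSeries.map (mk I)` and `map_subst`.  `psubst_cong_mul`: the coefficient of
`r(a) - r(b)` is a finite sum `∑ r_d * coeff (a ^ d - b ^ d)` (`coeff_subst`, `finsum_mem…`,
or: `Submodule.sum_mem` after `finsum_eq_sum_of_support_subset`), `a - b ∣ a ^ d - b ^ d`.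
`pow_char_cong`: `a = b + c`, `add_pow_prime_eq` / `exists_add_pow_prime_eq`-style:
`(b + c) ^ p = b ^ p + c ^ p + p * c * r`, with `c ^ p ∈ J ^ p ≤ J * 𝔞`; iterate for `p ^ n`.
`mul_cong`: `[p] = X ^ q + r` with `r ∈ cI 𝔞`; `p ∈ 𝔞` from the linear coefficient (`q ≥ 2`).
`dlog_cong`: the coefficient is a finite sum of `l_d * j (coeff (a ^ d - b ^ d))`; write
`d = p ^ v * d'`, `a ^ d - b ^ d = p ^ (v + 1) * c` (`dvd_sub_pow_of_dvd_sub`), `d'` a unit of `A`,
so `l_d * p ^ (v+1) = p * (d l_d) * d'⁻¹`.  The set of `y` with `∃ c, y = p * j c` is an additive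
subgroup.
`log_bdd`: `p ^ N * l(a) = l([p ^ N] a)` by `logS_comp_hom` with `hom_mulSeries`,
`coeff_one_mulSeries`; then `mul_cong_iter` and `dlog_cong` with `natCast_mul_coeff_logS`.
-/

set_option autoImplicit false
noncomputable section
open Crest.LubinTate

namespace Crest.Agent.R227

variable {A K : Type*} [CommRing A] [CommRing K] {σ τ : Type*}

theorem cI_mono {I J : Ideal A} (h : I ≤ J) : cI τ I ≤ cI τ J := by
  intro f hf
  rw [mem_cI] at hf ⊢
  exact fun d => h (hf d)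

theorem cI_mul_le (I J : Ideal A) : cI τ I * cI τ J ≤ cI τ (I * J) := by
  classical
  refine Ideal.mul_le.2 fun f hf g hg => ?_
  rw [mem_cI] at hf hg ⊢
  intro d
  rw [MvPowerSeries.coeff_mul]
  exact Ideal.sum_mem _ fun x _ => Ideal.mul_mem_mul (hf _) (hg _)

theorem C_mem_cI {I : Ideal A} {a : A} (ha : a ∈ I) : (MvPowerSeries.C a) ∈ cI τ I := by
  rw [cI, RingHom.mem_ker, MvPowerSeries.map_C, Ideal.Quotient.eq_zero_iff_mem.2 ha, map_zero]

theorem mem_cI_span_singleton {a : A} {f : MvPowerSeries τ A} :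
    f ∈ cI τ (Ideal.span {a}) ↔ MvPowerSeries.C a ∣ f := by
  rw [mem_cI]
  constructor
  · intro h
    choose g hg using fun d => Ideal.mem_span_singleton.1 (h d)
    refine ⟨fun d => g d, ?_⟩
    ext d
    rw [MvPowerSeries.coeff_C_mul, hg d]
    rfl
  · rintro ⟨g, rfl⟩ d
    rw [MvPowerSeries.coeff_C_mul]
    exact Ideal.mem_span_singleton.2 (dvd_mul_right _ _)

theorem sub_mem_cI_iff {I : Ideal A} {f g : MvPowerSeries τ A} :
    f - g ∈ cI τ I ↔
      MvPowerSeries.map (Ideal.Quotient.mk I) f = MvPowerSeries.map (Ideal.Quotient.mk I) g := by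
  rw [cI, RingHom.mem_ker, map_sub, sub_eq_zero]

theorem subst_cong {I : Ideal A} [Finite σ] {a b : σ → MvPowerSeries τ A}
    (ha : ∀ s, MvPowerSeries.constantCoeff (a s) = 0)
    (hb : ∀ s, MvPowerSeries.constantCoeff (b s) = 0) (hab : ∀ s, a s - b s ∈ cI τ I)
    {f g : MvPowerSeries σ A} (hfg : f - g ∈ cI σ I) :
    MvPowerSeries.subst a f - MvPowerSeries.subst b g ∈ cI τ I := by
  rw [sub_mem_cI_iff, MvPowerSeries.map_subst (MvPowerSeries.hasSubst_of_constantCoeff_zero ha),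
    MvPowerSeries.map_subst (MvPowerSeries.hasSubst_of_constantCoeff_zero hb),
    sub_mem_cI_iff.1 hfg]
  congr 1
  funext s
  exact sub_mem_cI_iff.1 (hab s)

theorem coeff_psubst_sub_mem (S : AddSubgroup A) {a b : MvPowerSeries τ A}
    (ha : PowerSeries.HasSubst a) (hb : PowerSeries.HasSubst b) (r : PowerSeries A) (e : τ →₀ ℕ)
    (h : ∀ d, PowerSeries.coeff d r * MvPowerSeries.coeff e (a ^ d - b ^ d) ∈ S) :
    MvPowerSeries.coeff e (PowerSeries.subst a r - PowerSeries.subst b r) ∈ S := by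
  rw [map_sub, PowerSeries.coeff_subst ha, PowerSeries.coeff_subst hb,
    ← finsum_sub_distrib (PowerSeries.coeff_subst_finite ha r e)
      (PowerSeries.coeff_subst_finite hb r e)]
  refine finsum_induction (· ∈ S) S.zero_mem (fun _ _ => S.add_mem) fun d => ?_
  simpa [mul_sub] using h d

theorem psubst_mem_cI {I : Ideal A} {a : MvPowerSeries τ A} (ha : PowerSeries.HasSubst a)
    {r : PowerSeries A} (hr : r ∈ cI Unit I) : PowerSeries.subst a r ∈ cI τ I := by
  rw [mem_cI] at hr ⊢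
  intro e
  rw [PowerSeries.coeff_subst ha]
  exact finsum_induction (· ∈ I) I.zero_mem (fun _ _ => I.add_mem) fun d =>
    I.mul_mem_right _ (hr _)

theorem psubst_cong_mul {I J : Ideal A} {a b : MvPowerSeries τ A}
    (ha : MvPowerSeries.constantCoeff a = 0) (hb : MvPowerSeries.constantCoeff b = 0)
    (hab : a - b ∈ cI τ J) {r : PowerSeries A} (hr : r ∈ cI Unit I) :
    PowerSeries.subst a r - PowerSeries.subst b r ∈ cI τ (I * J) := by
  rw [mem_cI] at hr ⊢
  intro e
  refine coeff_psubst_sub_mem (I * J).toAddSubgroup (.of_constantCoeff_zero ha)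
    (.of_constantCoeff_zero hb) r e fun d => Ideal.mul_mem_mul (hr _) ?_
  exact mem_cI.1 (Ideal.mem_of_dvd _ (sub_dvd_pow_sub_pow a b d) hab) e

theorem pow_char_cong {B : Type*} [CommRing B] (p : ℕ) [Fact p.Prime] {𝔞 J : Ideal B}
    (hp : (p : B) ∈ 𝔞) (hJ : J ≤ 𝔞) {a b : B} (hab : a - b ∈ J) {n : ℕ} (hn : 1 ≤ n) :
    a ^ (p ^ n) - b ^ (p ^ n) ∈ 𝔞 * J := by
  obtain ⟨m, rfl⟩ : ∃ m, n = m + 1 := ⟨n - 1, by omega⟩
  have hp' : p.Prime := Fact.out
  have h1 : a ^ p ^ m - b ^ p ^ m ∈ J := Ideal.mem_of_dvd _ (sub_dvd_pow_sub_pow a b _) hab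
  rw [pow_succ, pow_mul, pow_mul]
  generalize a ^ p ^ m = x at *
  generalize b ^ p ^ m = y at *
  obtain ⟨c, rfl⟩ : ∃ c, x = y + c := ⟨x - y, by ring⟩
  rw [add_sub_cancel_left] at h1
  obtain ⟨r, hr⟩ := exists_add_pow_prime_eq hp' y c
  obtain ⟨k, hk⟩ : ∃ k, p = k + 2 := ⟨p - 2, by have := hp'.two_le; omega⟩
  have h2 : (y + c) ^ p - y ^ p = c * c * c ^ k + (p : B) * c * (y * r) := by
    rw [hr]
    conv_lhs => enter [1, 1, 2]; rw [hk]
    ring
  rw [h2]
  exact Ideal.add_mem _ (Ideal.mul_mem_right _ _ (Ideal.mul_mem_mul (hJ h1) h1))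
    (Ideal.mul_mem_right _ _ (Ideal.mul_mem_mul hp h1))

variable (p : ℕ) [Fact p.Prime] {n : ℕ}

theorem natCast_mem_of_mulSeries (hn : 1 ≤ n) (F : FormalGroup A) {𝔞 : Ideal A}
    (hF : mulSeries F p - PowerSeries.X ^ (p ^ n) ∈ cI Unit 𝔞) : (p : A) ∈ 𝔞 := by
  have h1 : PowerSeries.coeff 1 (mulSeries F p - PowerSeries.X ^ (p ^ n)) ∈ 𝔞 := mem_cI.1 hF _
  have h2 : 1 < p ^ n := Nat.one_lt_pow (by omega) (Fact.out : p.Prime).one_lt
  rwa [map_sub, coeff_one_mulSeries, PowerSeries.coeff_X_pow, if_neg h2.ne, sub_zero] at h1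

theorem mul_cong (hn : 1 ≤ n) (F : FormalGroup A) {𝔞 : Ideal A}
    (hF : mulSeries F p - PowerSeries.X ^ (p ^ n) ∈ cI Unit 𝔞) {a b : MvPowerSeries τ A}
    (ha : MvPowerSeries.constantCoeff a = 0) (hb : MvPowerSeries.constantCoeff b = 0) {j : ℕ}
    (hab : a - b ∈ cI τ (𝔞 ^ (j + 1))) :
    PowerSeries.subst a (mulSeries F p) - PowerSeries.subst b (mulSeries F p) ∈
      cI τ (𝔞 ^ (j + 2)) := by
  have ha' : PowerSeries.HasSubst a := .of_constantCoeff_zero ha
  have hb' : PowerSeries.HasSubst b := .of_constantCoeff_zero hb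
  have hp : (p : MvPowerSeries τ A) ∈ cI τ 𝔞 := by
    rw [← map_natCast (MvPowerSeries.C (σ := τ) (R := A))]
    exact C_mem_cI (natCast_mem_of_mulSeries p hn F hF)
  have h1 := cI_mul_le _ _ (pow_char_cong p hp (cI_mono (Ideal.pow_le_self (by omega))) hab hn)
  have h2 := psubst_cong_mul ha hb hab hF
  rw [PowerSeries.subst_sub ha', PowerSeries.subst_sub hb', PowerSeries.subst_pow ha',
    PowerSeries.subst_pow hb', PowerSeries.subst_X ha', PowerSeries.subst_X hb'] at h2
  have h3 := Ideal.add_mem _ h1 h2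
  rw [← pow_succ'] at h3
  convert h3 using 1
  ring

theorem mul_cong_iter (hn : 1 ≤ n) (F : FormalGroup A) {𝔞 : Ideal A}
    (hF : mulSeries F p - PowerSeries.X ^ (p ^ n) ∈ cI Unit 𝔞) {a b : MvPowerSeries τ A}
    (ha : MvPowerSeries.constantCoeff a = 0) (hb : MvPowerSeries.constantCoeff b = 0)
    (hab : a - b ∈ cI τ 𝔞) (N : ℕ) :
    PowerSeries.subst a (mulSeries F (p ^ N)) - PowerSeries.subst b (mulSeries F (p ^ N)) ∈
      cI τ (𝔞 ^ (N + 1)) := by
  have ha' : PowerSeries.HasSubst a := .of_constantCoeff_zero ha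
  have hb' : PowerSeries.HasSubst b := .of_constantCoeff_zero hb
  induction N with
  | zero =>
    rwa [pow_zero, mulSeries_one, PowerSeries.subst_X ha', PowerSeries.subst_X hb', zero_add,
      pow_one]
  | succ N ih =>
    have h0 := constantCoeff_mulSeries F (p ^ N)
    have h1 : PowerSeries.HasSubst (mulSeries F (p ^ N)) := .of_constantCoeff_zero' h0
    rw [pow_succ' p, mulSeries_mul, PowerSeries.subst_comp_subst_apply h1 ha',
      PowerSeries.subst_comp_subst_apply h1 hb']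
    exact mul_cong p hn F hF ((constantCoeff_psubst ha).trans h0)
      ((constantCoeff_psubst hb).trans h0) ih

theorem dlog_cong (j : A →+* K) (hA : ∀ d : ℕ, ¬ p ∣ d → IsUnit (d : A)) (hpK : IsUnit (p : K))
    (l : PowerSeries K) (hl : ∀ d : ℕ, d ≠ 0 → ∃ c : A, (d : K) * PowerSeries.coeff d l = j c)
    {a b : MvPowerSeries τ A} (ha : MvPowerSeries.constantCoeff a = 0)
    (hb : MvPowerSeries.constantCoeff b = 0) (hab : a - b ∈ cI τ (Ideal.span {(p : A)}))
    (e : τ →₀ ℕ) :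
    ∃ c : A, MvPowerSeries.coeff e (PowerSeries.subst (MvPowerSeries.map j a) l -
      PowerSeries.subst (MvPowerSeries.map j b) l) = (p : K) * j c := by
  let S : AddSubgroup K :=
    { carrier := {y | ∃ c : A, y = (p : K) * j c}
      zero_mem' := ⟨0, by simp⟩
      add_mem' := by
        rintro _ _ ⟨c, rfl⟩ ⟨c', rfl⟩
        exact ⟨c + c', by rw [map_add, mul_add]⟩
      neg_mem' := by
        rintro _ ⟨c, rfl⟩
        exact ⟨-c, by rw [map_neg, mul_neg]⟩ }
  refine coeff_psubst_sub_mem S (.of_constantCoeff_zero (by simp [ha]))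
    (.of_constantCoeff_zero (by simp [hb])) l e fun d => ?_
  rcases eq_or_ne d 0 with rfl | hd
  · simpa using S.zero_mem
  obtain ⟨c₀, hc₀⟩ := hl d hd
  obtain ⟨v, d', hd', rfl⟩ := Nat.exists_eq_pow_mul_and_not_dvd hd p (Fact.out : p.Prime).ne_one
  obtain ⟨u, hu⟩ := (hA d' hd').exists_right_inv
  have hu' : (d' : K) * j u = 1 := by rw [← map_natCast j, ← map_mul, hu, map_one]
  have h1 : (p : MvPowerSeries τ A) ∣ a - b := by
    rw [← map_natCast (MvPowerSeries.C (σ := τ) (R := A))]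
    exact mem_cI_span_singleton.1 hab
  obtain ⟨c, hc⟩ := (dvd_sub_pow_of_dvd_sub h1 v).trans (sub_dvd_pow_sub_pow _ _ d')
  rw [← pow_mul, ← pow_mul, ← map_natCast (MvPowerSeries.C (σ := τ) (R := A)), ← map_pow] at hc
  rw [← map_pow, ← map_pow, ← map_sub, hc, MvPowerSeries.coeff_map, MvPowerSeries.coeff_C_mul]
  refine ⟨u * c₀ * MvPowerSeries.coeff e c, ?_⟩
  rw [map_mul, map_mul, map_mul, map_pow, map_natCast, ← hc₀]
  push_cast
  linear_combination
    (-(p : K) ^ (v + 1) * PowerSeries.coeff (p ^ v * d') l * j (MvPowerSeries.coeff e c)) * hu' 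

theorem log_mulSeries [Algebra ℚ K] (j : A →+* K) (F : FormalGroup A) [F.IsComm]
    {a : MvPowerSeries τ A} (ha : MvPowerSeries.constantCoeff a = 0) (m : ℕ) :
    PowerSeries.subst (MvPowerSeries.map j (PowerSeries.subst a (mulSeries F m))) (logS j F) =
      MvPowerSeries.C (m : K) * PowerSeries.subst (MvPowerSeries.map j a) (logS j F) := by
  have ha' : PowerSeries.HasSubst (MvPowerSeries.map j a) := .of_constantCoeff_zero (by simp [ha])
  have hm : PowerSeries.HasSubst (PowerSeries.map j (mulSeries F m)) :=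
    hom_hasSubst (hom_map (hom_mulSeries F m) j)
  rw [PowerSeries.map_subst (.of_constantCoeff_zero ha),
    ← PowerSeries.subst_comp_subst_apply hm ha', logS_comp_hom j (hom_mulSeries F m),
    coeff_one_mulSeries, map_natCast, PowerSeries.subst_mul ha', PowerSeries.subst_C]

theorem log_bdd [Algebra ℚ K] (hn : 1 ≤ n) (j : A →+* K)
    (hA : ∀ d : ℕ, ¬ p ∣ d → IsUnit (d : A)) (F : FormalGroup A) [F.IsComm] {𝔞 : Ideal A}
    (hF : mulSeries F p - PowerSeries.X ^ (p ^ n) ∈ cI Unit 𝔞) {N : ℕ}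
    (hN : 𝔞 ^ (N + 1) ≤ Ideal.span {(p : A)}) {a b : MvPowerSeries τ A}
    (ha : MvPowerSeries.constantCoeff a = 0) (hb : MvPowerSeries.constantCoeff b = 0)
    (hab : a - b ∈ cI τ 𝔞) (e : τ →₀ ℕ) :
    ∃ c : A, (p : K) ^ N * MvPowerSeries.coeff e
      (PowerSeries.subst (MvPowerSeries.map j a) (logS j F) -
        PowerSeries.subst (MvPowerSeries.map j b) (logS j F)) = (p : K) * j c := by
  have h0 := constantCoeff_mulSeries F (p ^ N)
  have hpK : IsUnit (p : K) := by
    rw [← map_natCast (algebraMap ℚ K)]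
    exact (IsUnit.mk0 _ (Nat.cast_ne_zero.2 (Fact.out : p.Prime).ne_zero)).map _
  obtain ⟨c, hc⟩ := dlog_cong p j hA hpK (logS j F)
    (fun d hd => ⟨_, natCast_mul_coeff_logS j F d hd⟩) ((constantCoeff_psubst ha).trans h0)
    ((constantCoeff_psubst hb).trans h0) (cI_mono hN (mul_cong_iter p hn F hF ha hb hab N)) e
  refine ⟨c, ?_⟩
  rw [log_mulSeries j F ha, log_mulSeries j F hb, ← mul_sub, MvPowerSeries.coeff_C_mul] at hc
  rw [← hc, Nat.cast_pow]

/-- The key estimate `p l_{q d} ≡ l_d` for `l = log ∘ z`: compare `[p] z` and `z(X ^ q)`, which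
are congruent modulo `𝔞` when `z ^ q ≡ z (X ^ q)`. -/
theorem log_coeff_step [Algebra ℚ K] (hn : 1 ≤ n) (j : A →+* K)
    (hA : ∀ d : ℕ, ¬ p ∣ d → IsUnit (d : A)) (F : FormalGroup A) [F.IsComm] {𝔞 : Ideal A}
    (hF : mulSeries F p - PowerSeries.X ^ (p ^ n) ∈ cI Unit 𝔞) {N : ℕ}
    (hN : 𝔞 ^ (N + 1) ≤ Ideal.span {(p : A)}) {z : PowerSeries A}
    (hz : PowerSeries.constantCoeff z = 0)
    (hzq : z ^ (p ^ n) - PowerSeries.expand (p ^ n)
      (pow_ne_zero _ (Fact.out : p.Prime).ne_zero) z ∈ cI Unit 𝔞) (d : ℕ) :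
    ∃ c : A, (p : K) ^ N *
      ((p : K) * PowerSeries.coeff (p ^ n * d)
          (PowerSeries.subst (PowerSeries.map j z) (logS j F)) -
        PowerSeries.coeff d (PowerSeries.subst (PowerSeries.map j z) (logS j F))) =
      (p : K) * j c := by
  have hq := pow_ne_zero n (Fact.out : p.Prime).ne_zero
  have hz' : PowerSeries.HasSubst z := .of_constantCoeff_zero' hz
  have hzj : PowerSeries.HasSubst (PowerSeries.map j z) :=
    .of_constantCoeff_zero (by
      have : MvPowerSeries.constantCoeff z = 0 := hz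
      simp [PowerSeries.map, this])
  have h1 := psubst_mem_cI hz' hF
  rw [PowerSeries.subst_sub hz', PowerSeries.subst_pow hz', PowerSeries.subst_X hz'] at h1
  have h2 := Ideal.add_mem _ h1 hzq
  rw [sub_add_sub_cancel] at h2
  obtain ⟨c, hc⟩ := log_bdd p hn j hA F hF hN
    ((constantCoeff_psubst hz).trans (constantCoeff_mulSeries F p))
    ((PowerSeries.constantCoeff_expand _ hq z).trans hz) h2 (Finsupp.single () (p ^ n * d))
  refine ⟨c, ?_⟩
  have h3 : PowerSeries.subst (MvPowerSeries.map j (PowerSeries.expand (p ^ n) hq z)) (logS j F) =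
      PowerSeries.expand (p ^ n) hq (PowerSeries.subst (PowerSeries.map j z) (logS j F)) := by
    rw [PowerSeries.expand_apply _ hq (PowerSeries.subst _ _),
      PowerSeries.subst_comp_subst_apply hzj (.X_pow hq), ← PowerSeries.expand_apply _ hq,
      ← PowerSeries.map_expand]
    rfl
  rw [log_mulSeries j F hz, h3, map_sub, MvPowerSeries.coeff_C_mul] at hc
  rw [← hc, ← PowerSeries.coeff_expand_mul (p ^ n) hq _ d]
  rfl

end Crest.Agent.R227
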