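import Crest.Agent.R227.Eval

/-!
# R227 / Count: the counting lemma

Let `j₀` be minimal for `MonomialOrder.degLex` (any well-founded, addition compatible linear
order refining the degree) among the exponents `d` with `‖x (coeff d φ)‖ = 1`; `degree j₀ ≤ Q`.
`B = {d ∈ [0,N)^r | ¬ j₀ ≤ d}` has `card B * N ≤ degree j₀ * N ^ r` (`card_box_le`).
If `card S > card B` there is `c : S → C`, `c ≠ 0`, with `D d := ∑ s, c s * ∏ i, σ s i ^ d i = 0` for
all `d ∈ B` (`LinearMap.ker` nontrivial by dimension: `LinearMap.ker_ne_bot_of_finrank_lt`, or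
`exists_ne_zero…`); normalise `max ‖c s‖ = 1`, attained at `s₀`.  For any series `f`,
`HasSum (fun d => x (coeff d f) * D d) (∑ s, c s * ev x (σ s) f)` (`hasSum_ev`, `hasSum_sum`).
With `f = ℓ s₀` the value has norm `‖ev (σ s₀) (ℓ s₀)‖ ≥ η`, so some `‖D d‖ ≥ η > ρ ^ N`.  As
`‖D d‖ ≤ ρ ^ degree d`, the exponents with `‖D d‖ > ρ ^ N` lie in the box; let `μ ≥ η` be the
maximum of `‖D d‖` on the box and `j*` the degLex-largest exponent attaining it.  `j* ∉ B`, so
`j* = j₀ + i`.  In `∑ s, c s * σ s ^ i * ev (σ s) φ = ∑' d, x (coeff d φ) * D (i + d)` the term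
`d = j₀` has norm `μ`; all the others have norm `≤ μ' < μ` for one `μ'` (finitely many `i + d` in
the box: if `d < j₀` then `‖x (coeff d φ)‖ < 1`, if `d > j₀` then `i + d > j*`; outside the box
`≤ ρ ^ N`).  So the sum has norm `μ ≥ η`, but it is `< η` by `hφs`.
-/

set_option autoImplicit false
noncomputable section

namespace Crest.Agent.R227

theorem Count_lt {ι C : Type*} [NormedField C] [IsUltrametricDist C] {f : ι → C} {a : C}
    (hf : HasSum f a) {μ : ℝ} (hμ : 0 < μ) (h : ∀ d, ‖f d‖ < μ) : ‖a‖ < μ := by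
  classical
  have ht := hf.summable.tendsto_cofinite_zero
  rw [NormedAddGroup.tendsto_nhds_zero] at ht
  have hfin := Filter.eventually_cofinite.1 (ht (μ / 2) (by positivity))
  obtain ⟨B, hB0, hBμ, hB⟩ : ∃ B : ℝ, 0 ≤ B ∧ B < μ ∧ ∀ d, ‖f d‖ ≤ B := by
    by_cases hne : {d | ¬ ‖f d‖ < μ / 2}.Nonempty
    · obtain ⟨j, hj, hmax⟩ := Set.exists_max_image _ (fun d => ‖f d‖) hfin hne
      refine ⟨‖f j‖, norm_nonneg _, h j, fun d => ?_⟩
      by_cases hd : ‖f d‖ < μ / 2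
      · exact hd.le.trans (not_lt.1 hj)
      · exact hmax d hd
    · refine ⟨μ / 2, by positivity, by linarith, fun d => ?_⟩
      by_contra hd
      exact hne ⟨d, fun h' => hd h'.le⟩
  rw [← hf.tsum_eq]
  exact (IsUltrametricDist.norm_tsum_le_of_forall_le_of_nonneg hB0 hB).trans_lt hBμ

theorem Count_term_lt {ι C : Type*} [NormedField C] [IsUltrametricDist C] {f : ι → C} {a : C}
    (hf : HasSum f a) {μ : ℝ} (j : ι) (h : ∀ d, d ≠ j → ‖f d‖ < μ) (ha : ‖a‖ < μ) :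
    ‖f j‖ < μ := by
  classical
  have hμ : 0 < μ := (norm_nonneg _).trans_lt ha
  have h1 := Count_lt (hasSum_ite_sub_hasSum hf j) hμ fun d => by
    by_cases hd : d = j
    · simpa [hd] using hμ
    · simpa [hd] using h d hd
  have e : f j = a + -(a - f j) := by ring
  rw [e]
  refine (IsUltrametricDist.norm_add_le_max _ _).trans_lt (max_lt ha ?_)
  rwa [norm_neg]

theorem card_box_le {r : ℕ} (j₀ : Fin r → ℕ) (N : ℕ) :
    ((Fintype.piFinset fun _ : Fin r => Finset.range N).filter fun d => ¬ ∀ i, j₀ i ≤ d i).card * N ≤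
      (∑ i, j₀ i) * N ^ r := by
  classical
  have hsub : ((Fintype.piFinset fun _ : Fin r => Finset.range N).filter
      fun d => ¬ ∀ i, j₀ i ≤ d i) ⊆ Finset.univ.biUnion fun i : Fin r =>
        Fintype.piFinset fun k => if k = i then Finset.range (j₀ i) else Finset.range N := by
    intro d hd
    rw [Finset.mem_filter, Fintype.mem_piFinset] at hd
    obtain ⟨h1, h2⟩ := hd
    obtain ⟨i, hi⟩ := not_forall.1 h2
    refine Finset.mem_biUnion.2 ⟨i, Finset.mem_univ _, Fintype.mem_piFinset.2 fun k => ?_⟩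
    by_cases hk : k = i
    · rw [if_pos hk, hk]
      exact Finset.mem_range.2 (not_le.1 hi)
    · rw [if_neg hk]
      exact h1 k
  have hone : ∀ i : Fin r, (Fintype.piFinset fun k =>
      if k = i then Finset.range (j₀ i) else Finset.range N).card * N = j₀ i * N ^ r := by
    intro i
    rw [Fintype.card_piFinset, ← Finset.mul_prod_erase _ _ (Finset.mem_univ i), if_pos rfl,
      Finset.card_range]
    have h1 : ∏ k ∈ Finset.univ.erase i,
        (if k = i then Finset.range (j₀ i) else Finset.range N).card =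
          ∏ _k ∈ Finset.univ.erase i, N :=
      Finset.prod_congr rfl fun k hk => by
        rw [if_neg (Finset.ne_of_mem_erase hk), Finset.card_range]
    have h2 : N * ∏ _k ∈ Finset.univ.erase i, N = N ^ r := by
      rw [Finset.mul_prod_erase Finset.univ (fun _ => N) (Finset.mem_univ i)]
      simp
    rw [h1, ← h2]
    ring
  calc _ ≤ (∑ i : Fin r, (Fintype.piFinset fun k =>
        if k = i then Finset.range (j₀ i) else Finset.range N).card) * N :=
        Nat.mul_le_mul_right _ ((Finset.card_le_card hsub).trans Finset.card_biUnion_le)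
    _ = _ := by
        rw [Finset.sum_mul, Finset.sum_mul]
        exact Finset.sum_congr rfl fun i _ => hone i

/-- A normalised linear relation between the points on a small set of exponents. -/
theorem Count_rel {C : Type*} [NormedField C] {r : ℕ} {S : Type*} [Fintype S]
    (σ : S → Fin r → C) (B : Finset (Fin r → ℕ)) (hB : B.card < Fintype.card S) :
    ∃ (c : S → C) (s₀ : S), c s₀ = 1 ∧ (∀ s, ‖c s‖ ≤ 1) ∧
      ∀ d ∈ B, ∑ s, c s * ∏ i, σ s i ^ d i = 0 := by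
  classical
  have hker : LinearMap.ker (Matrix.of fun (d : B) (s : S) => ∏ i, σ s i ^ d.1 i).mulVecLin ≠ ⊥ :=
    LinearMap.ker_ne_bot_of_finrank_lt (by
      simpa [Module.finrank_fintype_fun_eq_card] using hB)
  obtain ⟨c, hc, hc0⟩ := Submodule.exists_mem_ne_zero_of_ne_bot hker
  obtain ⟨s₁, hs₁⟩ := Function.ne_iff.1 hc0
  obtain ⟨s₀, -, hmax⟩ := Finset.exists_max_image Finset.univ (fun s => ‖c s‖)
    ⟨s₁, Finset.mem_univ _⟩
  have hpos : 0 < ‖c s₀‖ := (norm_pos_iff.2 hs₁).trans_le (hmax s₁ (Finset.mem_univ _))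
  have hne : c s₀ ≠ 0 := norm_pos_iff.1 hpos
  refine ⟨fun s => c s / c s₀, s₀, div_self hne, fun s => ?_, fun d hd => ?_⟩
  · rw [norm_div]
    exact (div_le_one hpos).2 (hmax s (Finset.mem_univ _))
  · have h := congrFun (LinearMap.mem_ker.1 hc) ⟨d, hd⟩
    simp only [Matrix.mulVecLin_apply, Matrix.mulVec, dotProduct, Matrix.of_apply,
      Pi.zero_apply] at h
    calc _ = (∑ s, (∏ i, σ s i ^ d i) * c s) / c s₀ := by
          rw [Finset.sum_div]
          exact Finset.sum_congr rfl fun s _ => by ring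
      _ = 0 := by rw [h, zero_div]

/-- The evaluation of a series against a linear combination of shifted points. -/
theorem Count_hasSum {C R : Type*} [NormedField C] [IsUltrametricDist C] [CompleteSpace C]
    [CommRing R] (x : R →+* C) (hx : ∀ a, ‖x a‖ ≤ 1) {r : ℕ} {S : Type*} [Fintype S]
    (σ : S → Fin r → C) (hσ : ∀ s i, ‖σ s i‖ < 1) (c : S → C) (e : Fin r →₀ ℕ)
    (f : MvPowerSeries (Fin r) R) :
    HasSum (fun d : Fin r →₀ ℕ => x (MvPowerSeries.coeff d f) *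
        ∑ s, c s * ∏ i, σ s i ^ (e + d) i)
      (∑ s, (c s * ∏ i, σ s i ^ e i) * ev x (σ s) f) := by
  have h := hasSum_sum (s := Finset.univ) fun s _ =>
    (hasSum_ev x hx (σ s) (hσ s) f).mul_left (c s * ∏ i, σ s i ^ e i)
  refine (congrArg (fun g => HasSum g _) (funext fun d => ?_)).mp h
  symm
  rw [Finset.mul_sum]
  refine Finset.sum_congr rfl fun s _ => ?_
  simp only [Finsupp.add_apply, pow_add, Finset.prod_mul_distrib]
  ring

theorem count_le {C R R' : Type*} [NormedField C] [IsUltrametricDist C] [CompleteSpace C]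
    [CommRing R] [CommRing R'] (x : R →+* C) (hx : ∀ a, ‖x a‖ ≤ 1) (x' : R' →+* C)
    (hx' : ∀ a, ‖x' a‖ ≤ 1) {r : ℕ} {S : Type*} [Fintype S] (σ : S → Fin r → C) {ρ η : ℝ}
    (hρ0 : 0 ≤ ρ) (hρ1 : ρ < 1) (hσ : ∀ s i, ‖σ s i‖ ≤ ρ) (φ : MvPowerSeries (Fin r) R) (Q : ℕ)
    (hφ : ∃ d : Fin r →₀ ℕ, d.degree ≤ Q ∧ ‖x (MvPowerSeries.coeff d φ)‖ = 1)
    (hφs : ∀ s, ‖ev x (σ s) φ‖ < η) (ℓ : S → MvPowerSeries (Fin r) R')
    (hℓ : ∀ s, η ≤ ‖ev x' (σ s) (ℓ s)‖)
    (hℓ' : ∀ s s', s' ≠ s → ‖ev x' (σ s') (ℓ s)‖ < ‖ev x' (σ s) (ℓ s)‖)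
    (N : ℕ) (hN : ρ ^ N < η) : Fintype.card S * N ≤ Q * N ^ r := by
  classical
  have hη : 0 < η := (pow_nonneg hρ0 N).trans_lt hN
  have hσ1 : ∀ s i, ‖σ s i‖ < 1 := fun s i => (hσ s i).trans_lt hρ1
  -- the minimal exponent with a unit coefficient
  obtain ⟨j₀, hj₀, hj₀Q, hmin⟩ : ∃ j₀ : Fin r →₀ ℕ, ‖x (MvPowerSeries.coeff j₀ φ)‖ = 1 ∧
      j₀.degree ≤ Q ∧ ∀ d : Fin r →₀ ℕ, toDegLex d < toDegLex j₀ →
        ‖x (MvPowerSeries.coeff d φ)‖ < 1 := by
    obtain ⟨d₀, hd₀Q, hd₀⟩ := hφ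
    obtain ⟨j, hj, hjmin⟩ := (wellFounded_lt (α := DegLex (Fin r →₀ ℕ))).has_min
      {d | ‖x (MvPowerSeries.coeff (ofDegLex d) φ)‖ = 1} ⟨toDegLex d₀, hd₀⟩
    refine ⟨ofDegLex j, hj, ?_, fun d hd => ?_⟩
    · exact (Finsupp.DegLex.monotone_degree (not_lt.1 (hjmin (toDegLex d₀) hd₀))).trans hd₀Q
    · exact lt_of_le_of_ne (hx _) fun h => hjmin (toDegLex d) h hd
  by_contra hcon
  set B := (Fintype.piFinset fun _ : Fin r => Finset.range N).filter fun d => ¬ ∀ i, j₀ i ≤ d i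
    with hBdef
  have hB : B.card < Fintype.card S := by
    by_contra hle
    refine hcon ?_
    calc _ ≤ B.card * N := Nat.mul_le_mul_right _ (not_lt.1 hle)
      _ ≤ (∑ i, j₀ i) * N ^ r := card_box_le j₀ N
      _ ≤ Q * N ^ r := Nat.mul_le_mul_right _ (by rwa [← Finsupp.degree_eq_sum])
  obtain ⟨c, s₀, hc₀, hc, hrel⟩ := Count_rel σ B hB
  obtain ⟨D, hD⟩ : ∃ D : (Fin r →₀ ℕ) → C, ∀ d, D d = ∑ s, c s * ∏ i, σ s i ^ d i :=
    ⟨_, fun _ => rfl⟩
  have hterm : ∀ (d : Fin r →₀ ℕ) s, ‖c s * ∏ i, σ s i ^ d i‖ ≤ ρ ^ d.degree := by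
    intro d s
    rw [Eval_norm_term]
    exact (mul_le_mul (hc s) (Eval_prod_le (σ s) (hσ s) d) (by positivity) zero_le_one).trans_eq
      (one_mul _)
  have hDle : ∀ d : Fin r →₀ ℕ, ‖D d‖ ≤ ρ ^ d.degree := fun d => by
    rw [hD]
    exact IsUltrametricDist.norm_sum_le_of_forall_le_of_nonneg (by positivity) fun s _ => hterm d s
  have hdeg : ∀ d : Fin r →₀ ℕ, η ≤ ‖D d‖ → d.degree < N := by
    intro d hd
    by_contra hlt
    have := pow_le_pow_of_le_one hρ0 hρ1.le (not_lt.1 hlt)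
    linarith [hDle d]
  have hfin : {d : Fin r →₀ ℕ | η ≤ ‖D d‖}.Finite :=
    (Finsupp.finite_of_degree_lt (σ := Fin r) N).subset fun d hd => hdeg d hd
  have hne : {d : Fin r →₀ ℕ | η ≤ ‖D d‖}.Nonempty := by
    by_contra hne
    have hall : ∀ d, ‖D d‖ < η := fun d => not_le.1 fun h => hne ⟨d, h⟩
    have h1 := Count_lt (Count_hasSum x' hx' σ hσ1 c 0 (ℓ s₀)) hη fun d => by
      rw [zero_add, ← hD, norm_mul]
      exact (mul_le_of_le_one_left (norm_nonneg _) (hx' _)).trans_lt (hall d)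
    have h2 := Count_term_lt
      (hasSum_fintype fun s => (c s * ∏ i, σ s i ^ (0 : Fin r →₀ ℕ) i) * ev x' (σ s) (ℓ s₀))
      (μ := ‖ev x' (σ s₀) (ℓ s₀)‖) s₀ (fun s hs => by
        rw [norm_mul]
        refine (mul_le_of_le_one_left (norm_nonneg _) ?_).trans_lt (hℓ' s₀ s hs)
        simpa using hc s) (h1.trans_le (hℓ s₀))
    simp [hc₀] at h2
  obtain ⟨j₁, hj₁, hmax₁⟩ := Set.exists_max_image _ (fun d => ‖D d‖) hfin hne
  have hμ : ∀ d, ‖D d‖ ≤ ‖D j₁‖ := fun d => by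
    by_cases hd : η ≤ ‖D d‖
    · exact hmax₁ d hd
    · exact (not_le.1 hd).le.trans hj₁
  have hfin' : {d : Fin r →₀ ℕ | ‖D d‖ = ‖D j₁‖}.Finite :=
    hfin.subset fun d hd => le_of_le_of_eq hj₁ hd.symm
  obtain ⟨j, hj, hmax⟩ := Set.exists_max_image _ (fun d : Fin r →₀ ℕ => toDegLex d) hfin'
    ⟨j₁, rfl⟩
  have hj' : ‖D j‖ = ‖D j₁‖ := hj
  have hηj : η ≤ ‖D j‖ := le_of_le_of_eq hj₁ hj'.symm
  have hpos : 0 < ‖D j‖ := hη.trans_le hηj
  have hle : j₀ ≤ j := by
    by_contra hnle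
    have hmem : (j : Fin r → ℕ) ∈ B := by
      rw [hBdef, Finset.mem_filter, Fintype.mem_piFinset]
      exact ⟨fun i => Finset.mem_range.2 ((Finsupp.le_degree i j).trans_lt (hdeg j hηj)), hnle⟩
    have h0 : D j = 0 := by rw [hD]; exact hrel _ hmem
    rw [h0, norm_zero] at hpos
    exact lt_irrefl _ hpos
  obtain ⟨e, rfl⟩ : ∃ e, j = e + j₀ := ⟨j - j₀, (tsub_add_cancel_of_le hle).symm⟩
  have h1 : ‖∑ s, (c s * ∏ i, σ s i ^ e i) * ev x (σ s) φ‖ < ‖D (e + j₀)‖ := by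
    refine (Count_lt (hasSum_fintype _) hη fun s => ?_).trans_le hηj
    rw [norm_mul]
    refine (mul_le_of_le_one_left (norm_nonneg _) ?_).trans_lt (hφs s)
    exact (hterm e s).trans (pow_le_one₀ hρ0 hρ1.le)
  have h2 := Count_term_lt (Count_hasSum x hx σ hσ1 c e φ) j₀ (fun d hd => by
    rw [← hD, norm_mul]
    rcases lt_or_gt_of_ne (fun h : toDegLex d = toDegLex j₀ => hd (toDegLex_injective h)) with
      hlt | hgt
    · calc _ ≤ ‖x (MvPowerSeries.coeff d φ)‖ * ‖D (e + j₀)‖ :=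
            mul_le_mul_of_nonneg_left ((hμ _).trans_eq hj'.symm) (norm_nonneg _)
        _ < _ := mul_lt_of_lt_one_left hpos (hmin d hlt)
    · refine (mul_le_of_le_one_left (norm_nonneg _) (hx _)).trans_lt ?_
      refine lt_of_le_of_ne ((hμ _).trans_eq hj'.symm) fun h => ?_
      have h3 : toDegLex (e + d) ≤ toDegLex (e + j₀) := hmax (e + d) (h.trans hj')
      rw [toDegLex_add, toDegLex_add] at h3
      exact absurd (le_of_add_le_add_left h3) (not_le.2 hgt)) h1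
  rw [← hD, norm_mul, hj₀, one_mul] at h2
  exact lt_irrefl _ h2

end Crest.Agent.R227
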