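import Crest.Prelude.Def_LubinTate

/-!
# R227 (S0351): definitions shared by all files

See `Blueprint.lean` for the whole proof.  Owner: helper83.
Throughout `q = p ^ n`, `k = kk p n`, `W = WW p n`, `E₀ = LTRing p n`, `𝔪 = mm p n`.
-/

set_option autoImplicit false
noncomputable section
open Crest.LubinTate

namespace Crest.Agent.R227

/-- Evaluation of a power series with coefficients in `R` along `x : R →+* C` at the point `z`
(meaningful when `‖x r‖ ≤ 1` and `‖z i‖ < 1`, `C` complete and ultrametric). -/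
def ev {σ R C : Type*} [CommRing R] [NormedField C] (x : R →+* C) (z : σ → C)
    (f : MvPowerSeries σ R) : C :=
  ∑' d : σ →₀ ℕ, x (MvPowerSeries.coeff d f) * d.prod (fun i e => z i ^ e)

/-- One-variable evaluation. -/
def ev1 {R C : Type*} [CommRing R] [NormedField C] (x : R →+* C) (z : C) (f : PowerSeries R) : C :=
  ev x (fun _ : Unit => z) f

/-- The closed unit ball of an ultrametric normed field, as a subring. -/
def Ob (C : Type*) [NormedField C] [IsUltrametricDist C] : Subring C where
  carrier := {z | ‖z‖ ≤ 1}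
  mul_mem' := fun {a b} ha hb => by
    simp only [Set.mem_ofPred_eq, norm_mul] at *
    exact mul_le_one₀ ha (norm_nonneg _) hb
  one_mem' := by simp
  add_mem' := fun {a b} ha hb =>
    (IsUltrametricDist.norm_add_le_max a b).trans (max_le ha hb)
  zero_mem' := by simp
  neg_mem' := fun {a} ha => by simpa using ha

theorem mem_Ob {C : Type*} [NormedField C] [IsUltrametricDist C] {z : C} :
    z ∈ Ob C ↔ ‖z‖ ≤ 1 := Iff.rfl

theorem Ob_le_one {C : Type*} [NormedField C] [IsUltrametricDist C] (z : Ob C) :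
    ‖(Ob C).subtype z‖ ≤ 1 := z.2

/-- Power series all of whose coefficients lie in `I`. -/
def cI (σ : Type*) {R : Type*} [CommRing R] (I : Ideal R) : Ideal (MvPowerSeries σ R) :=
  RingHom.ker (MvPowerSeries.map (σ := σ) (Ideal.Quotient.mk I))

theorem mem_cI {σ R : Type*} [CommRing R] {I : Ideal R} {f : MvPowerSeries σ R} :
    f ∈ cI σ I ↔ ∀ d, MvPowerSeries.coeff d f ∈ I := by
  simp [cI, RingHom.mem_ker, MvPowerSeries.ext_iff, Ideal.Quotient.eq_zero_iff_mem]

/-- Height ideals of an arbitrary formal group law. -/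
def hId {R : Type*} [CommRing R] (p : ℕ) (F : FormalGroup R) : ℕ → Ideal R
  | 0 => ⊥
  | h + 1 => hId p F h ⊔ Ideal.span {PowerSeries.coeff (p ^ h) (mulSeries F p)}

/-- `v_h`, the coefficient of `X ^ (p ^ h)` in the `p`-series. -/
def vv {R : Type*} [CommRing R] (p : ℕ) (F : FormalGroup R) (h : ℕ) : R :=
  PowerSeries.coeff (p ^ h) (mulSeries F p)

/-- `∂F/∂X (0, T)`. -/
def dF {R : Type*} [CommRing R] (F : FormalGroup R) : PowerSeries R :=
  PowerSeries.mk fun i =>
    MvPowerSeries.coeff (Finsupp.single 0 1 + Finsupp.single 1 i) F.toPowerSeries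

/-- The normalised invariant differential `ω(T) dT`, `ω = 1 / (∂F/∂X (0, T))`. -/
def omega {R : Type*} [CommRing R] (F : FormalGroup R) : PowerSeries R :=
  PowerSeries.invOfUnit (dF F) 1

/-- The logarithm of `F` after base change along `j` to a `ℚ`-algebra. -/
def logS {R K : Type*} [CommRing R] [CommRing K] [Algebra ℚ K] (j : R →+* K)
    (F : FormalGroup R) : PowerSeries K :=
  PowerSeries.mk fun d => (d : ℚ)⁻¹ • j (PowerSeries.coeff (d - 1) (omega F))

/-- The variable `X i` as a point of `F`. -/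
def varPt {R : Type*} [CommRing R] (F : FormalGroup R) {σ : Type*} (i : σ) : F.Point σ :=
  ⟨MvPowerSeries.X i, PowerSeries.HasSubst.X i⟩

/-- The formal linear combination `α₁ X₁ +_F ⋯ +_F α_r X_r`. -/
def linS {R : Type*} [CommRing R] (F : FormalGroup R) [F.IsComm] {r : ℕ} (α : Fin r → ℕ) :
    MvPowerSeries (Fin r) R :=
  (∑ i, α i • varPt F i).val

/-- The point `a X ^ (p ^ e)` of `F`. -/
def monoPt {R : Type*} [CommRing R] (F : FormalGroup R) (p : ℕ) [Fact p.Prime] (a : R) (e : ℕ) :
    F.Point Unit :=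
  ⟨(PowerSeries.C a * PowerSeries.X ^ (p ^ e) : PowerSeries R),
    PowerSeries.HasSubst.of_constantCoeff_zero' (by
      simp [zero_pow (pow_pos (Fact.out : p.Prime).pos e).ne'])⟩

/-- The series `X +_F ∑^F_{I < m} b_I X ^ (p ^ (i₀ + I))`. -/
def gSer {R : Type*} [CommRing R] (F : FormalGroup R) [F.IsComm] (p : ℕ) [Fact p.Prime]
    (i₀ : ℕ) {m : ℕ} (b : Fin m → R) : PowerSeries R :=
  (varPt F () + ∑ I : Fin m, monoPt F p (b I) (i₀ + I)).val

/-- A finite family is `𝔽_p`-orthogonal. -/
def Orth {C : Type*} [NormedField C] {s : ℕ} (ε : Fin s → C) : Prop :=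
  ∀ (c : Fin s → ℕ) (t : Fin s), (c t : C) ≠ 0 → ‖ε t‖ ≤ ‖∑ j, (c j : C) * ε j‖

/-- `∑_{i ≤ J} p ^ (J - i) a ^ (q ^ i)`: `p ^ J` times the truncated Honda logarithm. -/
def PJ (p n J : ℕ) {A : Type*} [CommRing A] (a : A) : A :=
  ∑ i ∈ Finset.range (J + 1), (p : A) ^ (J - i) * a ^ ((p ^ n) ^ i)

section LT

variable (p : ℕ) [Fact p.Prime] (n : ℕ)

/-- The residue field `k`. -/
abbrev kk : Type := GaloisField p n

/-- The Witt vectors `W(k)`. -/
abbrev WW : Type := WittVector p (GaloisField p n)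

/-- The reduction `W(k) → k`. -/
abbrev resW : WW p n →+* kk p n := WittVector.constantCoeff

/-- The maximal ideal of `E₀`. -/
def mm : Ideal (LTRing p n) := RingHom.ker (LTRing.residue p n)

/-- `F` has logarithm `∑ X ^ (q ^ i) / p ^ i` (integral form of the statement). -/
def IsHonda (F : FormalGroup (WW p n)) : Prop :=
  ∀ (J : ℕ) (d : Fin 2 →₀ ℕ), d.degree < (p ^ n) ^ (J + 1) →
    MvPowerSeries.coeff d (PJ p n J F.toPowerSeries) =
      MvPowerSeries.coeff d (PJ p n J (MvPowerSeries.X 0 : MvPowerSeries (Fin 2) (WW p n)) +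
        PJ p n J (MvPowerSeries.X 1))

/-- A Honda formal group law over `W(k)`, with its reduction `Γ₀` over `k`. -/
structure Honda where
  F : FormalGroup (WW p n)
  comm : F.IsComm
  honda : IsHonda p n F
  G : FormalGroup (kk p n)
  commG : G.IsComm
  red : F.map (resW p n) = G
  pser : mulSeries G p = PowerSeries.X ^ (p ^ n)
  smul : ∀ a : kk p n, IsFGHom G G (PowerSeries.C a * PowerSeries.X)
  frob : IsFGHom G G (PowerSeries.X ^ p)

attribute [instance] Honda.comm Honda.commG

/-- The data used by the two main theorems: a deformation `H` of the Honda law `G` over `E₀`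
with the rigidity consequence of universality. -/
structure Setup extends Honda p n where
  H : FormalGroup (LTRing p n)
  commH : H.IsComm
  redH : H.map (LTRing.residue p n) = G
  rigid : ∀ (M : ℕ) (𝔟 : Ideal (LTRing p n)), 1 ≤ M → (p : LTRing p n) ∈ 𝔟 →
    (∀ d < (p ^ n) ^ M, PowerSeries.coeff d (mulSeries H (p ^ M)) ∈ 𝔟) → mm p n ≤ 𝔟

attribute [instance] Setup.commH

variable {p n}

/-- `f` vanishes on the orbit of the point `x` under the endomorphisms `≡ X mod X ^ M`. -/
def Orb (S : Setup p n) (M : ℕ) {C : Type*} [CommRing C] (x : LTRing p n →+* C)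
    (f : LTRing p n) : Prop :=
  ∀ g : PowerSeries (kk p n), IsFGHom S.G S.G g →
    (∀ i < M, PowerSeries.coeff i g = PowerSeries.coeff i PowerSeries.X) →
    ∃ φ : LTRing p n →ₐ[WW p n] LTRing p n, IsStabilizerMap p n S.H g φ ∧ x (φ f) = 0

end LT

end Crest.Agent.R227
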