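import Crest.Agent.R227.Theta

/-!
# R227 / Digit: digit functions

Notation: `T t = ev ι w (linS G (α t))`, `ε t = T t ^ p ^ i₀ ∈ O`, `c = ∏ t, ε t ^ p ^ (m - t)`,
`σ b i = ev1 ι (w i) (gSer G p i₀ b)`, `β` from `exists_moore`,
`B I = ∑ t, β t * [ε t ^ p ^ I]` (`= 0` for `I < m`, `[c]` for `I = m`, divisible by `[c * ε 0]` for
`I > m`).  Choose `c₀ ∈ O` among the `T t` with the largest norm (`< 1`) and `J` with
`‖c₀‖ ^ q ^ (J+1) ≤ ‖c * ε 0‖`, so `𝓘 = ([c₀ ^ q ^ (J+1)], p ^ (J+1)) ≤ 𝓙 = ([c * ε 0], p ^ (J+1))`.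
Let `y b t = ev ι (σ b) (linS G (α t)) = ev1 ι (T t) (gSer G p i₀ b)` (`ev1_ev_linS`, `hom_gSer`
with `D.smul`, `D.frob`) `= (T t + ∑_I ι (b I) * T t ^ p ^ (i₀ + I)).val` (`ev1_gSer`).  By
`Theta_add`, `Theta_sum`, `Theta_smul` (`a ^ q = a` in `k`):
`Θ (y b t) ≡ Θ (T t) + ∑_I [ι (b I)] * Θ (ε t ^ p ^ I)` mod `𝓘`.  Hence
`Δ b = ∑ t, β t * (Θ (y b t) - Θ (y a t)) ≡ ∑_I ([ι (b I)] - [ι (a I)]) * Ξ I` mod `𝓙`, where
`Ξ I = ∑ t, β t * Θ (ε t ^ p ^ I) = ∑_{i ≤ J} p ^ (J - i) * B (I + n i)` (`Theta_eq`).  Every `Ξ I` is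
divisible by `[c]`; `Ξ I ∈ 𝓙` for `I > m`; `Ξ m - p ^ J * [c] ∈ 𝓙` (`n ≥ 1`).  So
`Δ b = [c] * y + p ^ (J+1) * y'` and `(Δ b).coeff J = c ^ p ^ J * y.coeff J` (`coeff_add_of_dvd`,
`coeff_teich_mul`); when `b I = a I` for `I < m` one can take
`y = p ^ J * ([ι (b m)] - [ι (a m)]) + [ε 0] * y''`, with `y.coeff J ≡ ι (b m - a m) ^ p ^ J` mod `ε 0`
(`dvd_coeff_add_teich_mul`, `coeff_p_pow_mul`; the `0`-th coefficient is `constantCoeff`, a ring hom).
The function: `γ t` with `frobenius^[J] (γ t) = β t` (`WittVector.frobeniusEquiv`, `perfectRing_Ob`),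
`Y = (∑ t, map C (γ t) * (thetaF (map ιO (linS G (α t))) - thetaF (C (y a t)))).coeff J`.
Apply `WittVector.map (evO subtype _ (σ b) _)` (`WittVector.map_coeff`, `map_thetaF`, `ev_map`,
`ev_C`): `ev (σ b) Y = (∑ t, γ t * (thetaF (y b t) - thetaF (y a t))).coeff J`, whose `p ^ J`-th power
is `(Δ b).coeff J` (`iterate_frobenius_coeff`, `frobenius_iter_thetaF`; the iterate of a ring hom is
a ring hom: `RingHom.coe_pow`).  Take `p ^ J`-th roots of the norms (`pow_le_pow_left₀` converse,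
`sub_pow_char_pow`).
-/

set_option autoImplicit false
noncomputable section
open Crest.LubinTate

namespace Crest.Agent.R227

variable {p : ℕ} [Fact p.Prime] {n : ℕ} {C : Type*} [NormedField C] [IsUltrametricDist C]
  [CompleteSpace C] [IsAlgClosed C] [CharP C p]

section Core

variable {A : Type*} [CommRing A]

local notation "τ" => WittVector.teichmuller p

theorem dg_Xi_eq (n J : ℕ) {m : ℕ} (ε : Fin (m + 1) → A) (β : Fin (m + 1) → WittVector p A) (I : ℕ) :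
    ∑ t, β t * Theta p n J (ε t ^ (p ^ I)) =
      ∑ i ∈ Finset.range (J + 1), (p : WittVector p A) ^ (J - i) *
        ∑ t, β t * τ (ε t ^ (p ^ (I + n * i))) := by
  simp only [Theta_eq, Finset.mul_sum]
  rw [Finset.sum_comm]
  refine Finset.sum_congr rfl fun i _ => Finset.sum_congr rfl fun t _ => ?_
  rw [← pow_mul, ← pow_add]
  ring

theorem dg_Xi (hn : 1 ≤ n) (J : ℕ) {m : ℕ} (ε : Fin (m + 1) → A) (β : Fin (m + 1) → WittVector p A)
    (c : A) (h1 : ∀ I < m, ∑ t, β t * τ (ε t ^ (p ^ I)) = 0)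
    (h2 : ∑ t, β t * τ (ε t ^ (p ^ m)) = τ c)
    (h3 : ∀ I > m, τ (c * ε 0) ∣ ∑ t, β t * τ (ε t ^ (p ^ I))) :
    (∀ I, τ c ∣ ∑ t, β t * Theta p n J (ε t ^ (p ^ I))) ∧
    (∀ I > m, τ (c * ε 0) ∣ ∑ t, β t * Theta p n J (ε t ^ (p ^ I))) ∧
    τ (c * ε 0) ∣ ∑ t, β t * Theta p n J (ε t ^ (p ^ m)) - (p : WittVector p A) ^ J * τ c := by
  refine ⟨fun I => ?_, fun I hI => ?_, ?_⟩
  · rw [dg_Xi_eq]
    refine Finset.dvd_sum fun i _ => Dvd.dvd.mul_left ?_ _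
    rcases lt_trichotomy (I + n * i) m with h | h | h
    · rw [h1 _ h]; exact dvd_zero _
    · rw [h, h2]
    · refine Dvd.dvd.trans ?_ (h3 _ h)
      rw [map_mul]
      exact dvd_mul_right _ _
  · rw [dg_Xi_eq]
    exact Finset.dvd_sum fun i _ => Dvd.dvd.mul_left (h3 _ (by omega)) _
  · rw [dg_Xi_eq, Finset.sum_range_succ']
    simp only [Nat.sub_zero, mul_zero, add_zero]
    rw [h2, add_sub_cancel_right]
    refine Finset.dvd_sum fun i _ => Dvd.dvd.mul_left (h3 _ ?_) _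
    have : 0 < n * (i + 1) := Nat.mul_pos hn (Nat.succ_pos i)
    omega

theorem dg_core [CharP A p] [PerfectRing A p] (hn : 1 ≤ n) (J : ℕ) {m m' : ℕ} (hm : m < m')
    (ε : Fin (m + 1) → A) (β : Fin (m + 1) → WittVector p A)
    (c : A) (h1 : ∀ I < m, ∑ t, β t * τ (ε t ^ (p ^ I)) = 0)
    (h2 : ∑ t, β t * τ (ε t ^ (p ^ m)) = τ c)
    (h3 : ∀ I > m, τ (c * ε 0) ∣ ∑ t, β t * τ (ε t ^ (p ^ I)))
    (T ya yb : Fin (m + 1) → A) (ka kb : Fin m' → A)
    (ha : ∀ t, Theta p n J (ya t) - (Theta p n J (T t) +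
      ∑ I : Fin m', τ (ka I) * Theta p n J (ε t ^ (p ^ (I : ℕ)))) ∈
        Ideal.span {τ (c * ε 0), (p : WittVector p A) ^ (J + 1)})
    (hb : ∀ t, Theta p n J (yb t) - (Theta p n J (T t) +
      ∑ I : Fin m', τ (kb I) * Theta p n J (ε t ^ (p ^ (I : ℕ)))) ∈
        Ideal.span {τ (c * ε 0), (p : WittVector p A) ^ (J + 1)}) :
    (∃ e, (∑ t, β t * (Theta p n J (yb t) - Theta p n J (ya t))).coeff J = c ^ (p ^ J) * e) ∧
    ((∀ I : Fin m', (I : ℕ) < m → kb I = ka I) →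
      ∃ e, (∑ t, β t * (Theta p n J (yb t) - Theta p n J (ya t))).coeff J =
        c ^ (p ^ J) * ((kb ⟨m, hm⟩ - ka ⟨m, hm⟩) ^ (p ^ J) + ε 0 * e)) := by
  obtain ⟨x1, x2, x3⟩ := dg_Xi hn J ε β c h1 h2 h3
  set Ξ : ℕ → WittVector p A := fun I => ∑ t, β t * Theta p n J (ε t ^ (p ^ I)) with hΞ
  have hΔ : ∑ t, β t * (Theta p n J (yb t) - Theta p n J (ya t)) -
      ∑ I : Fin m', (τ (kb I) - τ (ka I)) * Ξ I ∈
        Ideal.span {τ (c * ε 0), (p : WittVector p A) ^ (J + 1)} := by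
    have e : ∑ t, β t * (Theta p n J (yb t) - Theta p n J (ya t)) -
        ∑ I : Fin m', (τ (kb I) - τ (ka I)) * Ξ I =
        ∑ t, β t * ((Theta p n J (yb t) - (Theta p n J (T t) +
          ∑ I : Fin m', τ (kb I) * Theta p n J (ε t ^ (p ^ (I : ℕ))))) -
          (Theta p n J (ya t) - (Theta p n J (T t) +
          ∑ I : Fin m', τ (ka I) * Theta p n J (ε t ^ (p ^ (I : ℕ)))))) := by
      simp only [hΞ, Finset.mul_sum]
      rw [Finset.sum_comm, ← Finset.sum_sub_distrib]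
      refine Finset.sum_congr rfl fun t _ => ?_
      have e1 : ∑ I : Fin m', (τ (kb I) - τ (ka I)) * (β t * Theta p n J (ε t ^ (p ^ (I : ℕ)))) =
          β t * (∑ I : Fin m', τ (kb I) * Theta p n J (ε t ^ (p ^ (I : ℕ))) -
            ∑ I : Fin m', τ (ka I) * Theta p n J (ε t ^ (p ^ (I : ℕ)))) := by
        rw [← Finset.sum_sub_distrib, Finset.mul_sum]
        exact Finset.sum_congr rfl fun I _ => by ring
      rw [e1]
      ring
    rw [e]
    exact Ideal.sum_mem _ fun t _ => Ideal.mul_mem_left _ _ (Ideal.sub_mem _ (hb t) (ha t))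
  obtain ⟨u, v, huv⟩ := Ideal.mem_span_pair.1 hΔ
  have hΔ' : ∑ t, β t * (Theta p n J (yb t) - Theta p n J (ya t)) =
      (∑ I : Fin m', (τ (kb I) - τ (ka I)) * Ξ I + u * τ (c * ε 0)) +
        v * (p : WittVector p A) ^ (J + 1) := by
    rw [add_assoc, huv]; ring
  rw [hΔ', coeff_add_of_dvd p _ _ J (dvd_mul_left _ _)]
  constructor
  · have hd : τ c ∣ ∑ I : Fin m', (τ (kb I) - τ (ka I)) * Ξ I + u * τ (c * ε 0) := by
      refine dvd_add (Finset.dvd_sum fun I _ => Dvd.dvd.mul_left (x1 I) _) (Dvd.dvd.mul_left ?_ _)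
      rw [map_mul]
      exact dvd_mul_right _ _
    obtain ⟨y, hy⟩ := hd
    exact ⟨_, by rw [hy, coeff_teich_mul]⟩
  · intro hI
    have hd : τ (c * ε 0) ∣ ∑ I : Fin m', (τ (kb I) - τ (ka I)) * Ξ I -
        (τ (kb ⟨m, hm⟩) - τ (ka ⟨m, hm⟩)) * ((p : WittVector p A) ^ J * τ c) := by
      rw [← Finset.add_sum_erase Finset.univ _ (Finset.mem_univ (⟨m, hm⟩ : Fin m'))]
      have e : (τ (kb ⟨m, hm⟩) - τ (ka ⟨m, hm⟩)) * Ξ ((⟨m, hm⟩ : Fin m') : ℕ) +
          ∑ I ∈ Finset.univ.erase (⟨m, hm⟩ : Fin m'), (τ (kb I) - τ (ka I)) * Ξ I -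
          (τ (kb ⟨m, hm⟩) - τ (ka ⟨m, hm⟩)) * ((p : WittVector p A) ^ J * τ c) =
          (τ (kb ⟨m, hm⟩) - τ (ka ⟨m, hm⟩)) * (Ξ m - (p : WittVector p A) ^ J * τ c) +
          ∑ I ∈ Finset.univ.erase (⟨m, hm⟩ : Fin m'), (τ (kb I) - τ (ka I)) * Ξ I := by
        ring
      rw [e]
      refine dvd_add (Dvd.dvd.mul_left x3 _) (Finset.dvd_sum fun I hI' => ?_)
      have hne : (I : ℕ) ≠ m := fun h => (Finset.ne_of_mem_erase hI') (Fin.ext h)
      rcases lt_or_gt_of_ne hne with h | h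
      · rw [hI I h, sub_self, zero_mul]; exact dvd_zero _
      · exact Dvd.dvd.mul_left (x2 _ h) _
    obtain ⟨y, hy⟩ := hd
    have e : ∑ I : Fin m', (τ (kb I) - τ (ka I)) * Ξ I + u * τ (c * ε 0) =
        τ c * ((p : WittVector p A) ^ J * (τ (kb ⟨m, hm⟩) - τ (ka ⟨m, hm⟩)) + τ (ε 0) * (y + u)) := by
      rw [sub_eq_iff_eq_add] at hy
      rw [hy, map_mul]
      ring
    obtain ⟨e', he'⟩ := dvd_coeff_add_teich_mul p
      ((p : WittVector p A) ^ J * (τ (kb ⟨m, hm⟩) - τ (ka ⟨m, hm⟩))) (y + u) (ε 0) J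
    refine ⟨e', ?_⟩
    rw [e, coeff_teich_mul, sub_eq_iff_eq_add.1 he', coeff_p_pow_mul]
    have e0 : (τ (kb ⟨m, hm⟩) - τ (ka ⟨m, hm⟩)).coeff 0 = kb ⟨m, hm⟩ - ka ⟨m, hm⟩ :=
      map_sub (WittVector.constantCoeff (p := p) (R := A)) _ _
    rw [e0]
    ring

theorem dg_frob [CharP A p] (hn : 1 ≤ n) (J : ℕ) {s : ℕ} (β γ : Fin s → WittVector p A)
    (hγ : ∀ t, (WittVector.frobenius : WittVector p A → WittVector p A)^[J] (γ t) = β t)
    (ya yb : Fin s → A) :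
    (∑ t, γ t * (thetaF p n J (yb t) - thetaF p n J (ya t))).coeff J ^ (p ^ J) =
      (∑ t, β t * (Theta p n J (yb t) - Theta p n J (ya t))).coeff J := by
  rw [← WittVector.iterate_frobenius_coeff]
  congr 1
  have hF : ∀ x : WittVector p A, (WittVector.frobenius : WittVector p A → WittVector p A)^[J] x =
      ((WittVector.frobenius : WittVector p A →+* WittVector p A) ^ J) x := fun x => by
    rw [RingHom.coe_pow]
  rw [hF, map_sum]
  refine Finset.sum_congr rfl fun t _ => ?_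
  rw [map_mul, map_sub, ← hF, ← hF, ← hF, hγ, frobenius_iter_thetaF p hn, frobenius_iter_thetaF p hn]

end Core

theorem dg_pow_card (hn : 1 ≤ n) (a : kk p n) : a ^ (p ^ n) = a := by
  let _ : Fintype (kk p n) := Fintype.ofFinite _
  have h := GaloisField.card p n (by omega)
  rw [Nat.card_eq_fintype_card] at h
  rw [← h]
  exact FiniteField.pow_card a

/-- linearisation of `gSer` -/
theorem dg_lin (hn : 1 ≤ n) (D : Honda p n) (ι : kk p n →+* C) (J i₀ : ℕ) {m' : ℕ}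
    (b : Fin m' → kk p n) (T y d : Ob C) (hT : ‖(T : C)‖ < 1)
    (hy : (y : C) = ev1 ι (T : C) (gSer D.G p i₀ b))
    (hd : ‖(T : C)‖ ^ ((p ^ n) ^ (J + 1)) ≤ ‖(d : C)‖) :
    Theta p n J y - (Theta p n J T + ∑ I : Fin m',
      WittVector.teichmuller p (ι.codRestrict (Ob C) (norm_kmap_le ι) (b I)) *
        Theta p n J ((T ^ (p ^ i₀)) ^ (p ^ (I : ℕ)))) ∈
      Ideal.span {WittVector.teichmuller p d, (p : WittVector p (Ob C)) ^ (J + 1)} := by
  have hle : Ideal.span {WittVector.teichmuller p (T ^ ((p ^ n) ^ (J + 1))),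
      (p : WittVector p (Ob C)) ^ (J + 1)} ≤
      Ideal.span {WittVector.teichmuller p d, (p : WittVector p (Ob C)) ^ (J + 1)} := by
    rw [Ideal.span_le]
    rintro z (rfl | rfl)
    · have h1 : d ∣ T ^ ((p ^ n) ^ (J + 1)) := dvd_of_norm_le (by simpa using hd)
      obtain ⟨e, he⟩ := map_dvd (WittVector.teichmuller p) h1
      rw [he]
      exact Ideal.mul_mem_right _ _ (Ideal.subset_span (by simp))
    · exact Ideal.subset_span (by simp)
  set P : Fin m' → Pts D.G ι (norm_kmap_le ι) := fun I =>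
    Pts.mk D.G (norm_kmap_le ι) (ι (b I) * (T : C) ^ (p ^ (i₀ + I)))
      (norm_mono_lt (norm_kmap_le ι) hT (b I) (pow_ne_zero _ (Fact.out : p.Prime).ne_zero)) with hP
  have hPn : ∀ I, ‖(P I).val‖ ≤ ‖(T : C)‖ := fun I => by
    simp only [hP, Pts.mk_val, norm_mul, norm_pow]
    exact (mul_le_of_le_one_left (by positivity) (norm_kmap_le ι _)).trans
      (pow_le_of_le_one (norm_nonneg _) hT.le (pow_ne_zero _ (Fact.out : p.Prime).ne_zero))
  have hy' : y = (Pts.mk D.G (norm_kmap_le ι) (T : C) hT + ∑ I, P I).toO :=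
    Subtype.ext (by rw [hy, ev1_gSer (norm_kmap_le ι) p i₀ b _ hT]; rfl)
  have h1 := Theta_add hn D ι J T (Pts.mk D.G (norm_kmap_le ι) (T : C) hT) (∑ I, P I) le_rfl
    (Pts.norm_sum_le _ _ (norm_nonneg _) fun I _ => hPn I)
  have h2 := Theta_sum hn D ι J T Finset.univ P fun I _ => hPn I
  have e1 : (Pts.mk D.G (norm_kmap_le ι) (T : C) hT).toO = T := rfl
  have e2 : ∀ I, Theta p n J (P I).toO =
      WittVector.teichmuller p (ι.codRestrict (Ob C) (norm_kmap_le ι) (b I)) *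
        Theta p n J ((T ^ (p ^ i₀)) ^ (p ^ (I : ℕ))) := fun I => by
    rw [← Theta_smul p n J (by rw [← map_pow, dg_pow_card hn])]
    congr 1
    refine Subtype.ext ?_
    simp only [hP, Pts.coe_toO, Pts.mk_val]
    rw [pow_add, pow_mul]
    rfl
  rw [e1, ← hy'] at h1
  simp only [e2] at h2
  have h3 := hle (Ideal.add_mem _ h1 h2)
  convert h3 using 1
  ring

theorem exists_digit (hn : 1 ≤ n) (D : Honda p n) (ι : kk p n →+* C) {r : ℕ} (w : Fin r → C)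
    (hw : ∀ i, ‖w i‖ < 1) (i₀ : ℕ) {m m' : ℕ} (hm : m < m') (α : Fin (m + 1) → Fin r → ℕ)
    (hO : Orth fun t => ev ι w (linS D.G (α t)) ^ (p ^ i₀))
    (hanti : Antitone fun t => ‖ev ι w (linS D.G (α t)) ^ (p ^ i₀)‖)
    (h0 : ∀ t, ev ι w (linS D.G (α t)) ≠ 0) (a : Fin m' → kk p n) (c : C)
    (hc : c = ∏ t : Fin (m + 1), (ev ι w (linS D.G (α t)) ^ (p ^ i₀)) ^ (p ^ (m - (t : ℕ)))) :
    ∃ Y : MvPowerSeries (Fin r) (Ob C), ∀ b : Fin m' → kk p n,
      ‖ev (Ob C).subtype (fun i => ev1 ι (w i) (gSer D.G p i₀ b)) Y‖ ≤ ‖c‖ ∧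
      ((∀ I : Fin m', (I : ℕ) < m → b I = a I) →
        ‖ev (Ob C).subtype (fun i => ev1 ι (w i) (gSer D.G p i₀ b)) Y -
          c * ι (b ⟨m, hm⟩ - a ⟨m, hm⟩)‖ < ‖c‖) := by
  have hx := norm_kmap_le ι
  have hp : p.Prime := Fact.out
  have hTlt : ∀ t, ‖ev ι w (linS D.G (α t))‖ < 1 := fun t =>
    norm_ev_lt_one ι hx w hw _ (by rw [constantCoeff_linS, map_zero, norm_zero]; exact one_pos)
  let T : Fin (m + 1) → Ob C := fun t => ⟨ev ι w (linS D.G (α t)), (hTlt t).le⟩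
  let ε : Fin (m + 1) → Ob C := fun t => T t ^ (p ^ i₀)
  have hε : ∀ t, (ε t : C) = ev ι w (linS D.G (α t)) ^ (p ^ i₀) := fun t => rfl
  have hε0 : ∀ t, ε t ≠ 0 := fun t h => by
    have h' := hε t
    rw [h] at h'
    exact pow_ne_zero _ (h0 t) h'.symm
  obtain ⟨β, h1, h2, h3⟩ := exists_moore p ε hO hanti hε0
  set cO : Ob C := ∏ t : Fin (m + 1), ε t ^ (p ^ (m - (t : ℕ))) with hcO
  have hcc : (cO : C) = c := by
    rw [hc, hcO]
    push_cast
    rfl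
  have hc0 : c ≠ 0 := by
    rw [hc]
    exact Finset.prod_ne_zero_iff.2 fun t _ => pow_ne_zero _ (pow_ne_zero _ (h0 t))
  have hε1 : ‖(ε 0 : C)‖ < 1 := by
    rw [hε, norm_pow]
    exact pow_lt_one₀ (norm_nonneg _) (hTlt 0) (pow_ne_zero _ hp.ne_zero)
  have hdpos : 0 < ‖((cO * ε 0 : Ob C) : C)‖ := by
    rw [norm_pos_iff]
    push_cast
    rw [hcc]
    exact mul_ne_zero hc0 (fun h => hε0 0 (Subtype.ext h))
  obtain ⟨ρ, hρ0, hρ1, hρ⟩ := Eval_rho (fun t => (T t : C)) hTlt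
  obtain ⟨J, hJ⟩ := exists_pow_lt_of_lt_one hdpos hρ1
  have hJ' : ∀ t, ‖(T t : C)‖ ^ ((p ^ n) ^ (J + 1)) ≤ ‖((cO * ε 0 : Ob C) : C)‖ := fun t => by
    have hq : 1 < p ^ n := Nat.one_lt_pow (by omega) hp.one_lt
    have hN : J ≤ (p ^ n) ^ (J + 1) := (Nat.le_succ J).trans (Nat.lt_pow_self hq).le
    exact (pow_le_pow_left₀ (norm_nonneg _) (hρ t) _).trans
      ((pow_le_pow_of_le_one hρ0 hρ1.le hN).trans hJ.le)
  let ιO : kk p n →+* Ob C := ι.codRestrict (Ob C) hx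
  have hg : ∀ b : Fin m' → kk p n, IsFGHom D.G D.G (gSer D.G p i₀ b) := fun b =>
    hom_gSer D.G p i₀ b D.smul D.frob
  have hσ : ∀ (b : Fin m' → kk p n) (i : Fin r), ‖ev1 ι (w i) (gSer D.G p i₀ b)‖ < 1 := fun b i =>
    (norm_ev1_le_self ι hx _ (hw i) _ (hg b).1).trans_lt (hw i)
  let y : (Fin m' → kk p n) → Fin (m + 1) → Ob C := fun b t =>
    evO ι hx _ (hσ b) (linS D.G (α t))
  have hy : ∀ b t, (y b t : C) = ev1 ι (T t : C) (gSer D.G p i₀ b) := fun b t =>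
    (ev1_ev_linS hx (hg b) w hw (α t)).symm
  have hlin := fun b t => dg_lin hn D ι J i₀ b (T t) (y b t) (cO * ε 0) (hTlt t) (hy b t) (hJ' t)
  choose γ hγ using fun t => ((WittVector.frobenius_bijective p (Ob C)).surjective.iterate J) (β t)
  refine ⟨(∑ t, WittVector.map (MvPowerSeries.C (σ := Fin r) (R := Ob C)) (γ t) *
    (thetaF p n J (MvPowerSeries.map ιO (linS D.G (α t))) -
      thetaF p n J (MvPowerSeries.C (σ := Fin r) (y a t)))).coeff J, fun b => ?_⟩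
  set φ := evO (Ob C).subtype Ob_le_one _ (hσ b) with hφ
  have hφC : ∀ z : Ob C, φ (MvPowerSeries.C (σ := Fin r) z) = z := fun z =>
    Subtype.ext (ev_C _ _ z)
  have hφm : ∀ t, φ (MvPowerSeries.map ιO (linS D.G (α t))) = y b t := fun t =>
    Subtype.ext (ev_map _ ιO _ _)
  have hφγ : ∀ g : WittVector p (Ob C),
      WittVector.map φ (WittVector.map (MvPowerSeries.C (σ := Fin r) (R := Ob C)) g) = g := fun g => by
    ext k
    rw [WittVector.map_coeff, WittVector.map_coeff, hφC]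
  set E : Ob C := (∑ t, γ t * (thetaF p n J (y b t) - thetaF p n J (y a t))).coeff J with hE
  have hev : ev (Ob C).subtype (fun i => ev1 ι (w i) (gSer D.G p i₀ b))
      ((∑ t, WittVector.map (MvPowerSeries.C (σ := Fin r) (R := Ob C)) (γ t) *
        (thetaF p n J (MvPowerSeries.map ιO (linS D.G (α t))) -
          thetaF p n J (MvPowerSeries.C (σ := Fin r) (y a t)))).coeff J) = (E : C) := by
    rw [← evO_apply (Ob C).subtype Ob_le_one _ (hσ b), ← hφ, ← WittVector.map_coeff, map_sum]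
    simp only [map_mul, map_sub, map_thetaF, hφC, hφm, hφγ, hE]
  rw [hev]
  have hfr := dg_frob hn J β γ hγ (y a) (y b)
  rw [← hE] at hfr
  obtain ⟨k1, k2⟩ := dg_core hn J hm ε β cO h1 h2 h3 T (y a) (y b) (fun I => ιO (a I))
    (fun I => ιO (b I)) (hlin a) (hlin b)
  rw [← hfr] at k1 k2
  have hpJ : p ^ J ≠ 0 := pow_ne_zero _ hp.ne_zero
  constructor
  · obtain ⟨e, he⟩ := k1
    have he' : (E : C) ^ (p ^ J) = c ^ (p ^ J) * (e : C) := by
      rw [← hcc]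
      exact_mod_cast congrArg (fun z : Ob C => (z : C)) he
    refine le_of_pow_le_pow_left₀ hpJ (norm_nonneg _) ?_
    rw [← norm_pow, he', norm_mul, norm_pow]
    exact mul_le_of_le_one_right (by positivity) e.2
  · intro hI
    obtain ⟨e, he⟩ := k2 fun I h => by rw [hI I h]
    have he' : (E : C) ^ (p ^ J) =
        c ^ (p ^ J) * ((ι (b ⟨m, hm⟩ - a ⟨m, hm⟩)) ^ (p ^ J) + (ε 0 : C) * (e : C)) := by
      rw [← hcc, map_sub]
      have h' := congrArg (Ob C).subtype he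
      simp only [map_mul, map_pow, map_add, map_sub] at h'
      exact h'
    refine lt_of_pow_lt_pow_left₀ (p ^ J) (norm_nonneg _) ?_
    rw [← norm_pow, sub_pow_char_pow, he', mul_pow, mul_add, add_sub_cancel_left, norm_mul, norm_pow,
      norm_mul]
    have hcp : 0 < ‖c‖ ^ (p ^ J) := pow_pos (norm_pos_iff.2 hc0) _
    have : ‖(ε 0 : C)‖ * ‖(e : C)‖ < 1 :=
      (mul_le_of_le_one_right (norm_nonneg _) e.2).trans_lt hε1
    exact mul_lt_of_lt_one_right hcp this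

end Crest.Agent.R227
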