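import Crest.Agent.R227.Defs

/-!
# R227 / FG1: homomorphisms of formal group laws (formal calculus)

Recipe.  Everything is associativity of substitution
(`MvPowerSeries.subst_comp_subst_apply`, `PowerSeries.subst_comp_subst_apply`, `subst_X`,
`map_subst`) plus `fin_cases` on `![a, b]`.  Prove `hom_subst_add` first (substitute `![a, b]`
in the defining identity), it makes `f` an additive map `F.Point τ → G.Point τ` (`homPt`); then
`IsFGHom F G f` is `hom_subst_add` at `a = X 0`, `b = X 1`, and `hom_comp`, `hom_add`,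
`hom_mulSeries_comm` are computations in the monoids `F.Point τ`
(`add_add_add_comm`, `map_nsmul`).
`exists_conj`: put `v = u.substInvOfIsUnit hu`, `G(X,Y) = v (F (u X, u Y))`; linear coefficients
via `coeff_subst` (or: `G(X,0) = X` and `coeff (single 0 1)` only sees `G(X,0)`); associativity:
both sides are `v (F (F (u X, u Y), u Z))`, resp. `v (F (u X, F (u Y, u Z)))`, using
`u ∘ v = X`, and `F.assoc'`.
-/

set_option autoImplicit false
noncomputable section
open Crest.LubinTate

namespace Crest.Agent.R227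

variable {R S : Type*} [CommRing R] [CommRing S] {τ : Type*}

theorem fg1_hs2 {a b : MvPowerSeries τ R} (ha : PowerSeries.HasSubst a)
    (hb : PowerSeries.HasSubst b) : MvPowerSeries.HasSubst ![a, b] :=
  MvPowerSeries.hasSubst_of_constantCoeff_nilpotent fun s => by
    fin_cases s
    · exact ha
    · exact hb

theorem fg1_mv_p {σ : Type*} {c : σ → MvPowerSeries τ R} (hc : MvPowerSeries.HasSubst c)
    {a : MvPowerSeries σ R} (ha : PowerSeries.HasSubst a) (f : PowerSeries R) :
    MvPowerSeries.subst c (PowerSeries.subst a f) =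
      PowerSeries.subst (MvPowerSeries.subst c a) f :=
  MvPowerSeries.subst_comp_subst_apply ha.const hc f

theorem fg1_mv_2 {σ : Type*} {c : σ → MvPowerSeries τ R} (hc : MvPowerSeries.HasSubst c)
    {a b : MvPowerSeries σ R} (ha : PowerSeries.HasSubst a) (hb : PowerSeries.HasSubst b)
    (G : MvPowerSeries (Fin 2) R) :
    MvPowerSeries.subst c (G.subst ![a, b]) =
      G.subst ![MvPowerSeries.subst c a, MvPowerSeries.subst c b] := by
  rw [MvPowerSeries.subst_comp_subst_apply (fg1_hs2 ha hb) hc]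
  congr 1
  funext s
  fin_cases s <;> rfl

theorem fg1_p_2 {c : MvPowerSeries τ R} (hc : PowerSeries.HasSubst c)
    {a b : PowerSeries R} (ha : PowerSeries.HasSubst a) (hb : PowerSeries.HasSubst b)
    (G : MvPowerSeries (Fin 2) R) :
    PowerSeries.subst c (G.subst ![a, b] : PowerSeries R) =
      G.subst ![PowerSeries.subst c a, PowerSeries.subst c b] :=
  fg1_mv_2 hc.const ha hb G

theorem fg1_subst_XX (G : MvPowerSeries (Fin 2) R) :
    G.subst ![(MvPowerSeries.X 0 : MvPowerSeries (Fin 2) R), MvPowerSeries.X 1] = G := by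
  have : ![(MvPowerSeries.X 0 : MvPowerSeries (Fin 2) R), MvPowerSeries.X 1] =
      MvPowerSeries.X := by
    funext s
    fin_cases s <;> rfl
  rw [this, MvPowerSeries.subst_self]
  rfl

theorem fg1_hasSubst_fg (F : FormalGroup R) : PowerSeries.HasSubst F.toPowerSeries :=
  PowerSeries.HasSubst.of_constantCoeff_zero F.zero_constantCoeff

theorem fg1_hasSubst_2 (F : FormalGroup R) {a b : MvPowerSeries τ R}
    (ha : PowerSeries.HasSubst a) (hb : PowerSeries.HasSubst b) :
    PowerSeries.HasSubst (F.toPowerSeries.subst ![a, b]) :=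
  MvPowerSeries.IsNilpotent_subst (fg1_hs2 ha hb) (F.zero_constantCoeff ▸ IsNilpotent.zero)

theorem fg1_map_2 (φ : R →+* S) {a b : MvPowerSeries τ R} (ha : PowerSeries.HasSubst a)
    (hb : PowerSeries.HasSubst b) (G : MvPowerSeries (Fin 2) R) :
    MvPowerSeries.map φ (G.subst ![a, b]) =
      (MvPowerSeries.map φ G).subst ![MvPowerSeries.map φ a, MvPowerSeries.map φ b] := by
  rw [MvPowerSeries.map_subst (fg1_hs2 ha hb)]
  congr 1
  funext s
  fin_cases s <;> rfl

theorem fg1_coeff_X0 (G : MvPowerSeries (Fin 2) R) (m : ℕ) :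
    PowerSeries.coeff m (G.subst ![(PowerSeries.X : PowerSeries R), 0] : PowerSeries R) =
      MvPowerSeries.coeff (Finsupp.single 0 m) G := by
  rw [PowerSeries.coeff, MvPowerSeries.coeff_subst
    (fg1_hs2 PowerSeries.HasSubst.X' PowerSeries.HasSubst.zero'),
    finsum_eq_single _ (Finsupp.single 0 m)]
  · have : MvPowerSeries.coeff (Finsupp.single () m) ((PowerSeries.X : PowerSeries R) ^ m) = 1 :=
      PowerSeries.coeff_X_pow_self m
    simp [Finsupp.prod_fintype, Fin.prod_univ_two, this]
  · intro d hd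
    by_cases hd₁ : d 1 = 0
    · have hm : m ≠ d 0 := by
        rintro rfl
        apply hd
        ext i
        fin_cases i <;> simp [hd₁]
      have : MvPowerSeries.coeff (Finsupp.single () m)
          ((PowerSeries.X : PowerSeries R) ^ (d 0)) = 0 := by
        have := PowerSeries.coeff_X_pow (R := R) m (d 0)
        rwa [if_neg hm] at this
      simp [Finsupp.prod_fintype, Fin.prod_univ_two, hd₁, this]
    · simp [Finsupp.prod_fintype, Fin.prod_univ_two, hd₁]

theorem fg1_coeff_0X (G : MvPowerSeries (Fin 2) R) (m : ℕ) :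
    PowerSeries.coeff m (G.subst ![0, (PowerSeries.X : PowerSeries R)] : PowerSeries R) =
      MvPowerSeries.coeff (Finsupp.single 1 m) G := by
  rw [PowerSeries.coeff, MvPowerSeries.coeff_subst
    (fg1_hs2 PowerSeries.HasSubst.zero' PowerSeries.HasSubst.X'),
    finsum_eq_single _ (Finsupp.single 1 m)]
  · have : MvPowerSeries.coeff (Finsupp.single () m) ((PowerSeries.X : PowerSeries R) ^ m) = 1 :=
      PowerSeries.coeff_X_pow_self m
    simp [Finsupp.prod_fintype, Fin.prod_univ_two, this]
  · intro d hd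
    by_cases hd₁ : d 0 = 0
    · have hm : m ≠ d 1 := by
        rintro rfl
        apply hd
        ext i
        fin_cases i <;> simp [hd₁]
      have : MvPowerSeries.coeff (Finsupp.single () m)
          ((PowerSeries.X : PowerSeries R) ^ (d 1)) = 0 := by
        have := PowerSeries.coeff_X_pow (R := R) m (d 1)
        rwa [if_neg hm] at this
      simp [Finsupp.prod_fintype, Fin.prod_univ_two, hd₁, this]
    · simp [Finsupp.prod_fintype, Fin.prod_univ_two, hd₁]

theorem fg_map_map {T : Type*} [CommRing T] (F : FormalGroup R) (φ : R →+* S) (ψ : S →+* T) :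
    (F.map φ).map ψ = F.map (ψ.comp φ) := by
  apply FormalGroup.ext
  ext d
  simp

theorem fg_map_id (F : FormalGroup R) : F.map (RingHom.id R) = F := by
  apply FormalGroup.ext
  ext d
  simp

instance isComm_map (F : FormalGroup R) [F.IsComm] (φ : R →+* S) : (F.map φ).IsComm := by
  refine ⟨?_⟩
  have h : F.toPowerSeries = F.toPowerSeries.subst
      ![(MvPowerSeries.X 1 : MvPowerSeries (Fin 2) R), MvPowerSeries.X 0] :=
    FormalGroup.IsComm.comm
  have h2 := congrArg (MvPowerSeries.map φ) h
  rw [fg1_map_2 φ (PowerSeries.HasSubst.X _) (PowerSeries.HasSubst.X _), MvPowerSeries.map_X,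
    MvPowerSeries.map_X] at h2
  exact h2

/-- `F(X,Y) ≡ X + Y` modulo `XY`. -/
theorem fg_coeff_of_zero (F : FormalGroup R) (d : Fin 2 →₀ ℕ) (hd : d 0 = 0 ∨ d 1 = 0) :
    MvPowerSeries.coeff d F.toPowerSeries =
      MvPowerSeries.coeff d (MvPowerSeries.X 0 + MvPowerSeries.X 1 : MvPowerSeries (Fin 2) R) := by
  rcases hd with hd | hd
  · have : d = Finsupp.single 1 (d 1) := by
      ext i
      fin_cases i <;> simp [hd]
    have hs := fg1_hs2 (PowerSeries.HasSubst.zero' (R := R)) (PowerSeries.HasSubst.X' (R := R))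
    rw [this, ← fg1_coeff_0X, ← fg1_coeff_0X, F.zero_add PowerSeries.HasSubst.X',
      MvPowerSeries.subst_add hs, MvPowerSeries.subst_X hs, MvPowerSeries.subst_X hs]
    simp
  · have : d = Finsupp.single 0 (d 0) := by
      ext i
      fin_cases i <;> simp [hd]
    have hs := fg1_hs2 (PowerSeries.HasSubst.X' (R := R)) (PowerSeries.HasSubst.zero' (R := R))
    rw [this, ← fg1_coeff_X0, ← fg1_coeff_X0, F.add_zero PowerSeries.HasSubst.X',
      MvPowerSeries.subst_add hs, MvPowerSeries.subst_X hs, MvPowerSeries.subst_X hs]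
    simp

theorem constantCoeff_fg_subst (F : FormalGroup R) {a b : MvPowerSeries τ R}
    (ha : MvPowerSeries.constantCoeff a = 0) (hb : MvPowerSeries.constantCoeff b = 0) :
    MvPowerSeries.constantCoeff (F.toPowerSeries.subst ![a, b]) = 0 := by
  refine MvPowerSeries.constantCoeff_subst_eq_zero
    (fg1_hs2 (.of_constantCoeff_zero ha) (.of_constantCoeff_zero hb)) (fun s => ?_)
    F.zero_constantCoeff
  fin_cases s
  · exact ha
  · exact hb

/-- `F(a,b) ≡ a + b` modulo `a b`. -/
theorem fg_subst_sub_dvd (F : FormalGroup R) {a b : MvPowerSeries τ R}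
    (ha : PowerSeries.HasSubst a) (hb : PowerSeries.HasSubst b) :
    a * b ∣ F.toPowerSeries.subst ![a, b] - (a + b) := by
  have h0 : (MvPowerSeries.X 0 : MvPowerSeries (Fin 2) R) ∣
      F.toPowerSeries - (MvPowerSeries.X 0 + MvPowerSeries.X 1) := by
    rw [MvPowerSeries.X_dvd_iff]
    intro m hm
    rw [map_sub, fg_coeff_of_zero F m (Or.inl hm), sub_self]
  obtain ⟨H, hH⟩ := h0
  have h1 : (MvPowerSeries.X 1 : MvPowerSeries (Fin 2) R) ∣ H := by
    rw [MvPowerSeries.X_dvd_iff]
    intro m hm
    have h := congrArg (MvPowerSeries.coeff (Finsupp.single 0 1 + m)) hH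
    rw [map_sub, fg_coeff_of_zero F _ (Or.inr (by simp [hm])), sub_self, MvPowerSeries.X_def 0,
      MvPowerSeries.coeff_add_monomial_mul, one_mul] at h
    exact h.symm
  obtain ⟨K, rfl⟩ := h1
  have hs := fg1_hs2 ha hb
  have h := congrArg (MvPowerSeries.subst ![a, b]) hH
  rw [MvPowerSeries.subst_sub hs, MvPowerSeries.subst_add hs, MvPowerSeries.subst_mul hs,
    MvPowerSeries.subst_mul hs, MvPowerSeries.subst_X hs, MvPowerSeries.subst_X hs] at h
  refine ⟨MvPowerSeries.subst ![a, b] K, ?_⟩
  simpa [mul_assoc] using h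

theorem coeff_one_psubst {f g : PowerSeries R} (hf : PowerSeries.constantCoeff f = 0) :
    PowerSeries.coeff 1 (PowerSeries.subst f g) = PowerSeries.coeff 1 g * PowerSeries.coeff 1 f := by
  rw [PowerSeries.coeff_subst' (.of_constantCoeff_zero' hf), finsum_eq_single _ 1]
  · simp
  · intro d hd
    obtain ⟨f', rfl⟩ : PowerSeries.X ∣ f := by rwa [PowerSeries.X_dvd_iff]
    rcases d with _ | _ | d
    · simp [PowerSeries.coeff_one]
    · exact absurd rfl hd
    · rw [mul_pow, PowerSeries.coeff_X_pow_mul', if_neg (by omega), smul_zero]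

theorem constantCoeff_psubst {a : MvPowerSeries τ R} {g : PowerSeries R}
    (ha : MvPowerSeries.constantCoeff a = 0) :
    MvPowerSeries.constantCoeff (PowerSeries.subst a g) = PowerSeries.constantCoeff g := by
  rw [PowerSeries.constantCoeff_subst (.of_constantCoeff_zero ha), finsum_eq_single _ 0]
  · simp
  · intro d hd
    simp [ha, hd]

theorem fg1_X_sub_dvd (g : PowerSeries R) :
    (MvPowerSeries.X 0 - MvPowerSeries.X 1 : MvPowerSeries (Fin 2) R) ∣
      PowerSeries.subst (MvPowerSeries.X 0 : MvPowerSeries (Fin 2) R) g -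
        PowerSeries.subst (MvPowerSeries.X 1 : MvPowerSeries (Fin 2) R) g := by
  let K : MvPowerSeries (Fin 2) R := fun d => PowerSeries.coeff (d 0 + d 1 + 1) g
  have hK : ∀ d, MvPowerSeries.coeff d K = PowerSeries.coeff (d 0 + d 1 + 1) g := fun _ => rfl
  refine ⟨K, ?_⟩
  ext d
  have e0 : d = Finsupp.single 0 (d 0) ↔ d 1 = 0 := by
    constructor
    · intro h
      rw [h]
      simp
    · intro h
      ext i
      fin_cases i <;> simp [h]
  have e1 : d = Finsupp.single 1 (d 1) ↔ d 0 = 0 := by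
    constructor
    · intro h
      rw [h]
      simp
    · intro h
      ext i
      fin_cases i <;> simp [h]
  rw [map_sub, sub_mul, map_sub, PowerSeries.coeff_subst_single, PowerSeries.coeff_subst_single,
    MvPowerSeries.X_def 0, MvPowerSeries.X_def 1, MvPowerSeries.coeff_monomial_mul,
    MvPowerSeries.coeff_monomial_mul, hK, hK]
  simp only [e0, e1, Finsupp.single_le_iff, one_mul, Finsupp.coe_tsub, Pi.sub_apply,
    Finsupp.single_eq_same]
  have a1 : (Finsupp.single (0 : Fin 2) 1 : Fin 2 →₀ ℕ) 1 = 0 := by simp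
  have a2 : (Finsupp.single (1 : Fin 2) 1 : Fin 2 →₀ ℕ) 0 = 0 := by simp
  rw [a1, a2]
  generalize d 0 = x
  generalize d 1 = y
  rcases x with _ | x <;> rcases y with _ | y
  · simp
  · simp
  · simp
  · have : x + (y + 1) + 1 = x + 1 + y + 1 := by ring
    simp [this]

/-- `a - b ∣ g(a) - g(b)`. -/
theorem sub_dvd_psubst_sub {a b : MvPowerSeries τ R} (ha : PowerSeries.HasSubst a)
    (hb : PowerSeries.HasSubst b) (g : PowerSeries R) :
    a - b ∣ PowerSeries.subst a g - PowerSeries.subst b g := by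
  have hs := fg1_hs2 ha hb
  obtain ⟨K, hK⟩ := fg1_X_sub_dvd g
  have h := congrArg (MvPowerSeries.subst ![a, b]) hK
  rw [MvPowerSeries.subst_sub hs, MvPowerSeries.subst_mul hs, MvPowerSeries.subst_sub hs,
    fg1_mv_p hs (PowerSeries.HasSubst.X _), fg1_mv_p hs (PowerSeries.HasSubst.X _),
    MvPowerSeries.subst_X hs, MvPowerSeries.subst_X hs] at h
  exact ⟨_, h⟩

/-- If `g ≡ g'` modulo `X ^ N` then `g(a) ≡ g'(a)` modulo `a ^ N`. -/
theorem pow_dvd_psubst_sub {a : MvPowerSeries τ R} (ha : PowerSeries.HasSubst a)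
    {g g' : PowerSeries R} {N : ℕ} (h : PowerSeries.X ^ N ∣ g - g') :
    a ^ N ∣ PowerSeries.subst a g - PowerSeries.subst a g' := by
  obtain ⟨K, hK⟩ := h
  rw [← PowerSeries.subst_sub ha, hK, PowerSeries.subst_mul ha, PowerSeries.subst_pow ha,
    PowerSeries.subst_X ha]
  exact dvd_mul_right _ _

theorem hom_hasSubst {F G : FormalGroup R} {f : PowerSeries R} (hf : IsFGHom F G f) :
    PowerSeries.HasSubst f :=
  PowerSeries.HasSubst.of_constantCoeff_zero' hf.1

theorem fg1_hasSubst_psubst {a : MvPowerSeries τ R} (ha : PowerSeries.HasSubst a)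
    {f : PowerSeries R} (hf : PowerSeries.constantCoeff f = 0) :
    PowerSeries.HasSubst (PowerSeries.subst a f) :=
  MvPowerSeries.IsNilpotent_subst ha.const (by
    have : MvPowerSeries.constantCoeff f = 0 := hf
    rw [this]
    exact IsNilpotent.zero)

theorem hom_subst_add {F G : FormalGroup R} {f : PowerSeries R} (hf : IsFGHom F G f)
    {a b : MvPowerSeries τ R} (ha : PowerSeries.HasSubst a) (hb : PowerSeries.HasSubst b) :
    PowerSeries.subst (F.toPowerSeries.subst ![a, b]) f =
      G.toPowerSeries.subst ![PowerSeries.subst a f, PowerSeries.subst b f] := by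
  have hs := fg1_hs2 ha hb
  have h := congrArg (MvPowerSeries.subst ![a, b]) hf.2
  rw [fg1_mv_p hs (fg1_hasSubst_fg F),
    fg1_mv_2 hs (fg1_hasSubst_psubst (PowerSeries.HasSubst.X _) hf.1)
      (fg1_hasSubst_psubst (PowerSeries.HasSubst.X _) hf.1),
    fg1_mv_p hs (PowerSeries.HasSubst.X _), fg1_mv_p hs (PowerSeries.HasSubst.X _),
    MvPowerSeries.subst_X hs, MvPowerSeries.subst_X hs] at h
  exact h

theorem hasSubst_psubst {a : MvPowerSeries τ R} (ha : PowerSeries.HasSubst a) {f : PowerSeries R}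
    (hf : PowerSeries.constantCoeff f = 0) : PowerSeries.HasSubst (PowerSeries.subst a f) := by
  exact fg1_hasSubst_psubst ha hf

/-- A homomorphism acts additively on formal points. -/
def homPt {F G : FormalGroup R} {f : PowerSeries R} (hf : IsFGHom F G f) (τ : Type*) :
    F.Point τ →+ G.Point τ where
  toFun a := ⟨PowerSeries.subst a.val f, hasSubst_psubst a.prop hf.1⟩
  map_zero' := Subtype.ext (PowerSeries.subst_zero_of_constantCoeff_zero hf.1)
  map_add' a b := Subtype.ext (hom_subst_add hf a.prop b.prop)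

@[simp] theorem homPt_val {F G : FormalGroup R} {f : PowerSeries R} (hf : IsFGHom F G f)
    (a : F.Point τ) : (homPt hf τ a).val = PowerSeries.subst a.val f := rfl

theorem hom_X (F : FormalGroup R) : IsFGHom F F PowerSeries.X := by
  refine ⟨by simp, ?_⟩
  rw [PowerSeries.subst_X (fg1_hasSubst_fg F), PowerSeries.subst_X (PowerSeries.HasSubst.X _),
    PowerSeries.subst_X (PowerSeries.HasSubst.X _), fg1_subst_XX]

theorem fg1_psubst_zero {a : MvPowerSeries τ R} (ha : PowerSeries.HasSubst a) :
    PowerSeries.subst a (0 : PowerSeries R) = 0 := by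
  rw [← PowerSeries.coe_substAlgHom ha, map_zero]

theorem hom_zero (F G : FormalGroup R) : IsFGHom F G 0 := by
  refine ⟨by simp, ?_⟩
  rw [fg1_psubst_zero (fg1_hasSubst_fg F), fg1_psubst_zero (PowerSeries.HasSubst.X _),
    fg1_psubst_zero (PowerSeries.HasSubst.X _), G.add_zero PowerSeries.HasSubst.zero]

theorem hom_comp {F G H : FormalGroup R} {f g : PowerSeries R} (hf : IsFGHom F G f)
    (hg : IsFGHom G H g) : IsFGHom F H (PowerSeries.subst f g) := by
  have hf' := hom_hasSubst hf
  refine ⟨(constantCoeff_psubst hf.1).trans hg.1, ?_⟩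
  rw [PowerSeries.subst_comp_subst_apply hf' (fg1_hasSubst_fg F),
    PowerSeries.subst_comp_subst_apply hf' (PowerSeries.HasSubst.X _),
    PowerSeries.subst_comp_subst_apply hf' (PowerSeries.HasSubst.X _), hf.2,
    hom_subst_add hg (hasSubst_psubst (PowerSeries.HasSubst.X _) hf.1)
      (hasSubst_psubst (PowerSeries.HasSubst.X _) hf.1)]

theorem fg1_right_inv {f : PowerSeries R} (hf : PowerSeries.constantCoeff f = 0)
    (hu : IsUnit (PowerSeries.coeff 1 f)) {c : MvPowerSeries τ R} (hc : PowerSeries.HasSubst c) :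
    PowerSeries.subst (PowerSeries.subst c (f.substInvOfIsUnit hu)) f = c := by
  rw [← PowerSeries.subst_comp_subst_apply (PowerSeries.HasSubst.substInvOfIsUnit f hu) hc,
    PowerSeries.subst_substInvOfIsUnit_right f hf hu, PowerSeries.subst_X hc]

theorem fg1_left_inv {f : PowerSeries R} (hf : PowerSeries.constantCoeff f = 0)
    (hu : IsUnit (PowerSeries.coeff 1 f)) {c : MvPowerSeries τ R} (hc : PowerSeries.HasSubst c) :
    PowerSeries.subst (PowerSeries.subst c f) (f.substInvOfIsUnit hu) = c := by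
  rw [← PowerSeries.subst_comp_subst_apply (.of_constantCoeff_zero' hf) hc,
    PowerSeries.subst_substInvOfIsUnit_left f hf hu, PowerSeries.subst_X hc]

theorem hom_inv {F G : FormalGroup R} {f : PowerSeries R} (hf : IsFGHom F G f)
    (hu : IsUnit (PowerSeries.coeff 1 f)) : IsFGHom G F (f.substInvOfIsUnit hu) := by
  have hv0 := PowerSeries.constantCoeff_substInvOfIsUnit f hu
  refine ⟨hv0, ?_⟩
  have h0 := hasSubst_psubst (PowerSeries.HasSubst.X (S := R) (0 : Fin 2)) hv0
  have h1 := hasSubst_psubst (PowerSeries.HasSubst.X (S := R) (1 : Fin 2)) hv0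
  have h := hom_subst_add hf h0 h1
  rw [fg1_right_inv hf.1 hu (PowerSeries.HasSubst.X _),
    fg1_right_inv hf.1 hu (PowerSeries.HasSubst.X _), fg1_subst_XX] at h
  rw [← h, fg1_left_inv hf.1 hu (fg1_hasSubst_2 F h0 h1)]

theorem hom_map {F G : FormalGroup R} {f : PowerSeries R} (hf : IsFGHom F G f) (ψ : R →+* S) :
    IsFGHom (F.map ψ) (G.map ψ) (PowerSeries.map ψ f) := by
  refine ⟨by rw [← PowerSeries.coeff_zero_eq_constantCoeff_apply, PowerSeries.coeff_map,
    PowerSeries.coeff_zero_eq_constantCoeff_apply, hf.1, map_zero], ?_⟩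
  have h := congrArg (MvPowerSeries.map ψ) hf.2
  rw [PowerSeries.map_subst (fg1_hasSubst_fg F),
    fg1_map_2 ψ (hasSubst_psubst (PowerSeries.HasSubst.X _) hf.1)
      (hasSubst_psubst (PowerSeries.HasSubst.X _) hf.1),
    PowerSeries.map_subst (PowerSeries.HasSubst.X _),
    PowerSeries.map_subst (PowerSeries.HasSubst.X _), MvPowerSeries.map_X,
    MvPowerSeries.map_X] at h
  exact h

theorem hom_add {F G : FormalGroup R} [G.IsComm] {f g : PowerSeries R} (hf : IsFGHom F G f)
    (hg : IsFGHom F G g) : IsFGHom F G (G.toPowerSeries.subst ![f, g]) := by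
  have hf' := hom_hasSubst hf
  have hg' := hom_hasSubst hg
  refine ⟨constantCoeff_fg_subst G hf.1 hg.1, ?_⟩
  rw [fg1_p_2 (fg1_hasSubst_fg F) hf' hg', fg1_p_2 (PowerSeries.HasSubst.X _) hf' hg',
    fg1_p_2 (PowerSeries.HasSubst.X _) hf' hg', hf.2, hg.2]
  let A : G.Point (Fin 2) := ⟨_, hasSubst_psubst (PowerSeries.HasSubst.X 0) hf.1⟩
  let B : G.Point (Fin 2) := ⟨_, hasSubst_psubst (PowerSeries.HasSubst.X 1) hf.1⟩
  let C : G.Point (Fin 2) := ⟨_, hasSubst_psubst (PowerSeries.HasSubst.X 0) hg.1⟩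
  let D : G.Point (Fin 2) := ⟨_, hasSubst_psubst (PowerSeries.HasSubst.X 1) hg.1⟩
  exact congrArg Subtype.val (add_add_add_comm A B C D)

/-- The homomorphisms `F → G` as an additive submonoid of the one-variable points of `G`. -/
def homs (F G : FormalGroup R) [G.IsComm] : AddSubmonoid (G.Point Unit) where
  carrier := {f | IsFGHom F G f.val}
  zero_mem' := hom_zero F G
  add_mem' := fun hf hg => hom_add hf hg

theorem mem_homs {F G : FormalGroup R} [G.IsComm] {f : G.Point Unit} :
    f ∈ homs F G ↔ IsFGHom F G f.val := Iff.rfl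

/-- An invertible series determines the source from the target. -/
theorem hom_source_unique {F G G' : FormalGroup R} {u : PowerSeries R} (h : IsFGHom G F u)
    (h' : IsFGHom G' F u) (hu : IsUnit (PowerSeries.coeff 1 u)) : G = G' := by
  apply FormalGroup.ext
  rw [← fg1_left_inv h.1 hu (fg1_hasSubst_fg G), ← fg1_left_inv h.1 hu (fg1_hasSubst_fg G'),
    h.2, h'.2]

theorem isComm_of_hom {F G : FormalGroup R} [F.IsComm] {u : PowerSeries R} (h : IsFGHom G F u)
    (hu : IsUnit (PowerSeries.coeff 1 u)) : G.IsComm := by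
  refine ⟨?_⟩
  have hX0 := PowerSeries.HasSubst.X (S := R) (0 : Fin 2)
  have hX1 := PowerSeries.HasSubst.X (S := R) (1 : Fin 2)
  have e := hom_subst_add h hX1 hX0
  rw [F.comm' (hasSubst_psubst hX1 h.1) (hasSubst_psubst hX0 h.1), ← h.2] at e
  have e2 := congrArg (fun c => PowerSeries.subst c (u.substInvOfIsUnit hu)) e
  rw [fg1_left_inv h.1 hu (fg1_hasSubst_fg G), fg1_left_inv h.1 hu (fg1_hasSubst_2 G hX1 hX0)]
    at e2
  exact e2.symm

/-- Transport of a formal group law along an invertible series. -/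
theorem exists_conj (F : FormalGroup R) {u : PowerSeries R}
    (hu0 : PowerSeries.constantCoeff u = 0) (hu : IsUnit (PowerSeries.coeff 1 u)) :
    ∃ G : FormalGroup R, IsFGHom G F u := by
  have hv0 := PowerSeries.constantCoeff_substInvOfIsUnit u hu
  have hX0 := PowerSeries.HasSubst.X (S := R) (0 : Fin 2)
  have hX1 := PowerSeries.HasSubst.X (S := R) (1 : Fin 2)
  have hu' : PowerSeries.HasSubst u := .of_constantCoeff_zero' hu0
  set G₀ : MvPowerSeries (Fin 2) R := PowerSeries.subst (F.toPowerSeries.subst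
    ![PowerSeries.subst (MvPowerSeries.X 0 : MvPowerSeries (Fin 2) R) u,
      PowerSeries.subst (MvPowerSeries.X 1 : MvPowerSeries (Fin 2) R) u])
    (u.substInvOfIsUnit hu) with hG₀
  have key : ∀ {σ : Type} {a b : MvPowerSeries σ R}, PowerSeries.HasSubst a →
      PowerSeries.HasSubst b → G₀.subst ![a, b] = PowerSeries.subst (F.toPowerSeries.subst
        ![PowerSeries.subst a u, PowerSeries.subst b u]) (u.substInvOfIsUnit hu) := by
    intro σ a b ha hb
    have hs := fg1_hs2 ha hb
    rw [hG₀, fg1_mv_p hs (fg1_hasSubst_2 F (hasSubst_psubst hX0 hu0) (hasSubst_psubst hX1 hu0)),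
      fg1_mv_2 hs (hasSubst_psubst hX0 hu0) (hasSubst_psubst hX1 hu0), fg1_mv_p hs hX0,
      fg1_mv_p hs hX1, MvPowerSeries.subst_X hs, MvPowerSeries.subst_X hs]
    rfl
  have hc : MvPowerSeries.constantCoeff G₀ = 0 := by
    rw [hG₀, constantCoeff_psubst, hv0]
    apply constantCoeff_fg_subst
    · rw [constantCoeff_psubst (by simp), hu0]
    · rw [constantCoeff_psubst (by simp), hu0]
  refine ⟨⟨G₀, hc, ?_, ?_, ?_⟩, hu0, ?_⟩
  · rw [← fg1_coeff_X0, key PowerSeries.HasSubst.X' PowerSeries.HasSubst.zero',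
      PowerSeries.subst_zero_of_constantCoeff_zero hu0,
      F.add_zero (hasSubst_psubst PowerSeries.HasSubst.X' hu0),
      fg1_left_inv hu0 hu PowerSeries.HasSubst.X', PowerSeries.coeff_one_X]
  · rw [← fg1_coeff_0X, key PowerSeries.HasSubst.zero' PowerSeries.HasSubst.X',
      PowerSeries.subst_zero_of_constantCoeff_zero hu0,
      F.zero_add (hasSubst_psubst PowerSeries.HasSubst.X' hu0),
      fg1_left_inv hu0 hu PowerSeries.HasSubst.X', PowerSeries.coeff_one_X]
  · have hY : ∀ i : Fin 3, PowerSeries.HasSubst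
        (MvPowerSeries.X i : MvPowerSeries (Fin 3) R) := fun i => PowerSeries.HasSubst.X i
    have huY := fun i => hasSubst_psubst (hY i) hu0
    have h01 := fg1_hasSubst_2 F (huY 0) (huY 1)
    have h12 := fg1_hasSubst_2 F (huY 1) (huY 2)
    rw [key (hY 0) (hY 1), key (hY 1) (hY 2), key (hasSubst_psubst h01 hv0) (hY 2),
      key (hY 0) (hasSubst_psubst h12 hv0), fg1_right_inv hu0 hu h01, fg1_right_inv hu0 hu h12,
      F.assoc' (huY 0) (huY 1) (huY 2)]
  · exact fg1_right_inv hu0 hu
      (fg1_hasSubst_2 F (hasSubst_psubst hX0 hu0) (hasSubst_psubst hX1 hu0))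

end Crest.Agent.R227
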