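import Crest.Agent.R227.FG1

/-!
# R227 / FG1b: the series `[m]`, base change of formal points, `linS`, `gSer`

Recipe.  `nsmul_val` by induction on `m` (`succ_nsmul`, `FormalGroup.add_apply`,
`subst_comp_subst_apply`); afterwards work in the monoids `F.Point τ` with `homPt`, `mapPt`
(`map_nsmul`, `map_sum`, `mul_smul`), and membership in the submonoid `homs F F`
(`nsmul_mem`, `sum_mem`).  Congruences modulo `X ^ N`: `PowerSeries.X_pow_dvd_iff`,
`fg_subst_sub_dvd`, `sub_dvd_psubst_sub`, `pow_dvd_psubst_sub` from `FG1`.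
-/

set_option autoImplicit false
noncomputable section
open Crest.LubinTate

namespace Crest.Agent.R227

variable {R S : Type*} [CommRing R] [CommRing S] {τ : Type*}

/-! ### The series `[m]` -/

theorem fg1b_hs {a b : MvPowerSeries τ R} (ha : PowerSeries.HasSubst a)
    (hb : PowerSeries.HasSubst b) : MvPowerSeries.HasSubst ![a, b] :=
  MvPowerSeries.hasSubst_of_constantCoeff_nilpotent fun s => by fin_cases s <;> simpa

theorem fg1b_map_subst (F : FormalGroup R) (ψ : R →+* S) {a b : MvPowerSeries τ R}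
    (ha : PowerSeries.HasSubst a) (hb : PowerSeries.HasSubst b) :
    MvPowerSeries.map ψ (F.toPowerSeries.subst ![a, b]) =
      (F.map ψ).toPowerSeries.subst ![MvPowerSeries.map ψ a, MvPowerSeries.map ψ b] := by
  rw [MvPowerSeries.map_subst (fg1b_hs ha hb), FormalGroup.map_toPowerSeries]
  congr 1
  funext s
  fin_cases s <;> rfl

theorem fg1b_dvd_iff {g g' : PowerSeries R} {M : ℕ} : PowerSeries.X ^ M ∣ g - g' ↔
    ∀ i < M, PowerSeries.coeff i g = PowerSeries.coeff i g' := by
  simp only [PowerSeries.X_pow_dvd_iff, map_sub, sub_eq_zero]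

theorem constantCoeff_mulSeries (F : FormalGroup R) (m : ℕ) :
    PowerSeries.constantCoeff (mulSeries F m) = 0 := by
  induction m with
  | zero => exact map_zero _
  | succ m ih => exact constantCoeff_fg_subst F ih PowerSeries.constantCoeff_X

theorem coeff_one_mulSeries (F : FormalGroup R) (m : ℕ) :
    PowerSeries.coeff 1 (mulSeries F m) = (m : R) := by
  induction m with
  | zero => simp [mulSeries]
  | succ m ih =>
    have h0 := constantCoeff_mulSeries F m
    have h1 : mulSeries F m * PowerSeries.X ∣ mulSeries F (m + 1) - (mulSeries F m + PowerSeries.X) :=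
      fg_subst_sub_dvd F (PowerSeries.HasSubst.of_constantCoeff_zero' h0) PowerSeries.HasSubst.X'
    have h2 : (PowerSeries.X : PowerSeries R) ^ 2 ∣ mulSeries F m * PowerSeries.X := by
      rw [sq]
      exact mul_dvd_mul_right (PowerSeries.X_dvd_iff.2 h0) _
    rw [fg1b_dvd_iff.1 (h2.trans h1) 1 (by norm_num), map_add, ih]
    simp

theorem mulSeries_map (F : FormalGroup R) (ψ : R →+* S) (m : ℕ) :
    mulSeries (F.map ψ) m = PowerSeries.map ψ (mulSeries F m) := by
  induction m with
  | zero => exact (map_zero _).symm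
  | succ m ih =>
    have h := fg1b_map_subst F ψ
      (PowerSeries.HasSubst.of_constantCoeff_zero' (constantCoeff_mulSeries F m))
      PowerSeries.HasSubst.X'
    refine Eq.trans ?_ h.symm
    rw [mulSeries, ih, ← PowerSeries.map_X ψ]
    rfl

theorem nsmul_val (F : FormalGroup R) (m : ℕ) (a : F.Point τ) :
    (m • a).val = PowerSeries.subst a.val (mulSeries F m) := by
  induction m with
  | zero =>
    rw [zero_nsmul, mulSeries, ← PowerSeries.coe_substAlgHom a.prop, map_zero]
    rfl
  | succ m ih =>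
    rw [succ_nsmul, FormalGroup.add_apply, ih, mulSeries, PowerSeries.subst_def _ (MvPowerSeries.subst _ _),
      MvPowerSeries.subst_comp_subst_apply (fg1b_hs
        (PowerSeries.HasSubst.of_constantCoeff_zero' (constantCoeff_mulSeries F m))
        PowerSeries.HasSubst.X') a.prop.const]
    congr 1
    funext s
    fin_cases s
    · rfl
    · exact (PowerSeries.subst_X a.prop).symm

theorem mulSeries_eq_val (F : FormalGroup R) (m : ℕ) :
    mulSeries F m = (m • varPt F ()).val := by
  rw [nsmul_val]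
  exact (PowerSeries.X_subst _).symm

theorem mulSeries_one (F : FormalGroup R) : mulSeries F 1 = PowerSeries.X := by
  rw [mulSeries_eq_val, one_nsmul]
  rfl

theorem mulSeries_mul (F : FormalGroup R) (a b : ℕ) :
    mulSeries F (a * b) = PowerSeries.subst (mulSeries F b) (mulSeries F a) := by
  rw [mulSeries_eq_val, mul_smul, nsmul_val, ← mulSeries_eq_val]

theorem hom_mulSeries (F : FormalGroup R) [F.IsComm] (m : ℕ) : IsFGHom F F (mulSeries F m) := by
  rw [mulSeries_eq_val]
  exact mem_homs.1 (nsmul_mem (show varPt F () ∈ homs F F from hom_X F) m)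

theorem hom_mulSeries_comm {F G : FormalGroup R} {f : PowerSeries R} (hf : IsFGHom F G f)
    (m : ℕ) : PowerSeries.subst (mulSeries F m) f = PowerSeries.subst f (mulSeries G m) := by
  have h := congrArg Subtype.val (map_nsmul (homPt hf Unit) m (varPt F ()))
  rw [homPt_val, ← mulSeries_eq_val, nsmul_val, homPt_val] at h
  rw [h]
  congr 1
  exact PowerSeries.X_subst f

/-- If `[p] = X ^ q` then `[p ^ M] = X ^ (q ^ M)`. -/
theorem mulSeries_pow_of_eq (F : FormalGroup R) {p q : ℕ} (hq : q ≠ 0)
    (h : mulSeries F p = PowerSeries.X ^ q) (M : ℕ) :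
    mulSeries F (p ^ M) = PowerSeries.X ^ (q ^ M) := by
  induction M with
  | zero => rw [pow_zero, pow_zero, pow_one, mulSeries_one]
  | succ M ih =>
    have h1 := PowerSeries.HasSubst.X_pow (R := R) hq
    rw [pow_succ, mulSeries_mul, ih, h, PowerSeries.subst_pow h1, PowerSeries.subst_X h1, ← pow_mul,
      ← pow_succ']

/-! ### Base change of points, `linS`, `gSer` -/

/-- Base change of formal points. -/
def mapPt (F : FormalGroup R) (ψ : R →+* S) (τ : Type*) :
    F.Point τ →+ (F.map ψ).Point τ where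
  toFun a := ⟨MvPowerSeries.map ψ a.val, by
    simpa [PowerSeries.HasSubst, MvPowerSeries.constantCoeff_map] using a.prop.map ψ⟩
  map_zero' := Subtype.ext (map_zero _)
  map_add' a b := Subtype.ext (fg1b_map_subst F ψ a.prop b.prop)

@[simp] theorem mapPt_val (F : FormalGroup R) (ψ : R →+* S) (a : F.Point τ) :
    (mapPt F ψ τ a).val = MvPowerSeries.map ψ a.val := rfl

theorem constantCoeff_linS (F : FormalGroup R) [F.IsComm] {r : ℕ} (α : Fin r → ℕ) :
    MvPowerSeries.constantCoeff (linS F α) = 0 := by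
  refine Finset.sum_induction _ (fun x : F.Point (Fin r) => MvPowerSeries.constantCoeff x.val = 0)
    (fun a b ha hb => constantCoeff_fg_subst F ha hb) (map_zero _) fun i _ => ?_
  rw [nsmul_val]
  exact (constantCoeff_psubst (MvPowerSeries.constantCoeff_X i)).trans (constantCoeff_mulSeries F _)

theorem linS_map (F : FormalGroup R) [F.IsComm] (ψ : R →+* S) {r : ℕ} (α : Fin r → ℕ) :
    linS (F.map ψ) α = MvPowerSeries.map ψ (linS F α) := by
  have h : ∀ i : Fin r, mapPt F ψ (Fin r) (varPt F i) = varPt (F.map ψ) i := fun i =>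
    Subtype.ext (MvPowerSeries.map_X ψ i)
  rw [linS, linS, ← mapPt_val, map_sum]
  simp only [map_nsmul, h]

/-- `a X ^ (p ^ e)` is an endomorphism when `a X` and `X ^ p` are. -/
theorem hom_monoPt (F : FormalGroup R) (p : ℕ) [Fact p.Prime] (a : R) (e : ℕ)
    (ha : IsFGHom F F (PowerSeries.C a * PowerSeries.X))
    (hp : IsFGHom F F (PowerSeries.X ^ p)) : IsFGHom F F (monoPt F p a e).val := by
  have h0 : p ≠ 0 := (Fact.out : p.Prime).ne_zero
  have h1 : ∀ e : ℕ, IsFGHom F F (PowerSeries.X ^ (p ^ e)) := fun e => by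
    induction e with
    | zero =>
      rw [pow_zero, pow_one]
      exact hom_X F
    | succ e ih =>
      have h2 := PowerSeries.HasSubst.X_pow (R := R) h0
      have := hom_comp hp ih
      rwa [PowerSeries.subst_pow h2, PowerSeries.subst_X h2, ← pow_mul, ← pow_succ'] at this
  have h2 := PowerSeries.HasSubst.X_pow (R := R) (pow_ne_zero e h0)
  have := hom_comp (h1 e) ha
  rwa [PowerSeries.subst_mul h2, PowerSeries.subst_X h2, PowerSeries.subst_C] at this

theorem hom_gSer (F : FormalGroup R) [F.IsComm] (p : ℕ) [Fact p.Prime] (i₀ : ℕ) {m : ℕ}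
    (b : Fin m → R) (ha : ∀ a : R, IsFGHom F F (PowerSeries.C a * PowerSeries.X))
    (hp : IsFGHom F F (PowerSeries.X ^ p)) : IsFGHom F F (gSer F p i₀ b) := by
  exact mem_homs.1 (add_mem (show varPt F () ∈ homs F F from hom_X F)
    (sum_mem fun I _ => mem_homs.2 (hom_monoPt F p _ _ (ha _) hp)))

/-- Formal points divisible by `X ^ N` form a submonoid, and adding one does not change the
class modulo `X ^ N` (use `fg_subst_sub_dvd`). -/
theorem X_pow_dvd_add_sub (F : FormalGroup R) (a b : F.Point Unit) {N : ℕ}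
    (hb : (PowerSeries.X : PowerSeries R) ^ N ∣ b.val) :
    (PowerSeries.X : PowerSeries R) ^ N ∣ (a + b).val - a.val := by
  have h := (dvd_mul_of_dvd_right hb a.val).trans (fg_subst_sub_dvd F a.prop b.prop)
  have h' := dvd_add h hb
  rwa [← sub_sub, sub_add_cancel] at h'

theorem gSer_coeff (F : FormalGroup R) [F.IsComm] (p : ℕ) [Fact p.Prime] (i₀ : ℕ) {m : ℕ}
    (b : Fin m → R) (i : ℕ) (hi : i < p ^ i₀) :
    PowerSeries.coeff i (gSer F p i₀ b) = PowerSeries.coeff i (PowerSeries.X : PowerSeries R) := by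
  refine fg1b_dvd_iff.1 (X_pow_dvd_add_sub F (varPt F ()) _ (N := p ^ i₀) ?_) i hi
  refine Finset.sum_induction _
    (fun x : F.Point Unit => (PowerSeries.X : PowerSeries R) ^ (p ^ i₀) ∣ x.val)
    (fun a b ha hb => ?_) (dvd_zero _) fun I _ => ?_
  · have := dvd_add (X_pow_dvd_add_sub F a b hb) ha
    rwa [sub_add_cancel] at this
  · exact dvd_mul_of_dvd_right (pow_dvd_pow _
      (Nat.pow_le_pow_right (Fact.out : p.Prime).pos (Nat.le_add_right _ _))) _

/-- The inverse of a series `≡ X mod X ^ M` is `≡ X mod X ^ M`. -/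
theorem substInv_coeff {g : PowerSeries R} (hg0 : PowerSeries.constantCoeff g = 0)
    (hu : IsUnit (PowerSeries.coeff 1 g)) {M : ℕ}
    (h : ∀ i < M, PowerSeries.coeff i g = PowerSeries.coeff i (PowerSeries.X : PowerSeries R)) :
    ∀ i < M, PowerSeries.coeff i (g.substInvOfIsUnit hu) =
      PowerSeries.coeff i (PowerSeries.X : PowerSeries R) := by
  have hv := PowerSeries.HasSubst.substInvOfIsUnit g hu
  have h1 := pow_dvd_psubst_sub hv (fg1b_dvd_iff.2 h)
  rw [PowerSeries.subst_substInvOfIsUnit_right g hg0 hu, PowerSeries.subst_X hv] at h1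
  have h2 := (pow_dvd_pow_of_dvd (PowerSeries.X_dvd_iff.2
    (PowerSeries.constantCoeff_substInvOfIsUnit g hu)) M).trans h1
  exact fun i hi => (fg1b_dvd_iff.1 h2 i hi).symm

/-- Conjugation preserves the congruence `≡ X mod X ^ M`: if `v ∘ u = X`, resp. `u ∘ v = X`. -/
theorem conj_coeff {g u v : PowerSeries R} (hg0 : PowerSeries.constantCoeff g = 0)
    (hu0 : PowerSeries.constantCoeff u = 0) (hvu : PowerSeries.subst u v = PowerSeries.X) {M : ℕ}
    (h : ∀ i < M, PowerSeries.coeff i g = PowerSeries.coeff i (PowerSeries.X : PowerSeries R)) :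
    ∀ i < M, PowerSeries.coeff i (PowerSeries.subst (PowerSeries.subst u g) v) =
      PowerSeries.coeff i (PowerSeries.X : PowerSeries R) := by
  have hu := PowerSeries.HasSubst.of_constantCoeff_zero' hu0
  have h1 := pow_dvd_psubst_sub hu (fg1b_dvd_iff.2 h)
  rw [PowerSeries.subst_X hu] at h1
  have h2 := sub_dvd_psubst_sub (hasSubst_psubst hu hg0) hu v
  rw [hvu] at h2
  exact fg1b_dvd_iff.1 ((pow_dvd_pow_of_dvd (PowerSeries.X_dvd_iff.2 hu0) M).trans (h1.trans h2))

end Crest.Agent.R227
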