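import Crest.Agent.R227.FG1b

/-!
# R227 / FG2: invariant differential, logarithm, factorisation through Frobenius

Recipe.
* `pderiv_subst`: chain rule for `MvPowerSeries.subst` with finitely many variables.  Prove it for
  polynomials (`MvPolynomial.induction_on`, `Derivation.leibniz`, or `Derivation.comp_aeval_eq`
  style) and pass to series coefficientwise by truncation (see the proof of
  `PowerSeries.derivative_subst` in Mathlib): the coefficient of degree `e` on both sides only
  depends on `truncTotal (deg e + 2) f`.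
* `dF F = (pderiv 0 F).subst ![0, X]`.  Differentiate associativity `F(F(X,Y),Z) = F(X,F(Y,Z))`
  in `X` and put `X = 0`: `F₁(Y,Z) * c(Y) = c(F(Y,Z))`, `c = dF F` (`dF_invariant`).
* `hom_deriv`: differentiate `f(F(X,Y)) = G(f X, f Y)` in `X`, put `X = 0`, `Y = T`:
  `f'(T) c_F(T) = f'(0) c_G(f T)`; multiply by the inverses (`PowerSeries.mul_invOfUnit`).
* `logS`: its derivative is `map j (omega F) = omega (F.map j)`.  For `logS_add` put
  `D = l(F(X0,X1)) - l(X0)`; `pderiv 0 D = 0` by `dF_invariant`, so all coefficients `d` with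
  `d 0 ≠ 0` vanish (ℚ-algebra), and those with `d 0 = 0` are seen after `X0 ↦ 0`, giving `l(X1)`.
  For `logS_comp_hom` both sides have the same derivative and no constant term.
* `hom_frob_step`: `hom_deriv` with `f'(0) = 0` gives `f' = 0`, so `d * f_d = 0`, so `f_d = 0`
  unless `p ∣ d` (`d` is a unit in characteristic `p`); `f' := mk (fun d => f_{p d})`.
  Homomorphism property: `F ^ p = expand p (F.map frobenius)`
  (`MvPowerSeries.map_frobenius_expand`, `map_expand`), apply `expand p` (injective by
  `coeff_expand_smul`) to the wanted identity and use `expand_subst`.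
-/

set_option autoImplicit false
noncomputable section
open Crest.LubinTate

namespace Crest.Agent.R227

variable {R S K : Type*} [CommRing R] [CommRing S] [CommRing K] {σ τ : Type*}

theorem FG2_subst_zero {a : σ → MvPowerSeries τ R} (ha : MvPowerSeries.HasSubst a) :
    MvPowerSeries.subst a (0 : MvPowerSeries σ R) = 0 := by
  rw [← MvPowerSeries.substAlgHom_apply ha, map_zero]

theorem FG2_subst_one {a : σ → MvPowerSeries τ R} (ha : MvPowerSeries.HasSubst a) :
    MvPowerSeries.subst a (1 : MvPowerSeries σ R) = 1 := by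
  rw [← MvPowerSeries.substAlgHom_apply ha, map_one]

theorem FG2_hasSubst_zero {a : MvPowerSeries τ R} (ha : PowerSeries.HasSubst a) :
    MvPowerSeries.HasSubst ![0, a] :=
  MvPowerSeries.hasSubst_of_constantCoeff_nilpotent fun s => by
    fin_cases s
    · simp
    · exact ha

theorem FG2_hasSubst_two {a b : MvPowerSeries τ R} (ha : PowerSeries.HasSubst a)
    (hb : PowerSeries.HasSubst b) : MvPowerSeries.HasSubst ![a, b] :=
  MvPowerSeries.hasSubst_of_constantCoeff_nilpotent fun s => by
    fin_cases s
    · exact ha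
    · exact hb

theorem FG2_order_subst [Finite σ] (a : σ → MvPowerSeries τ R)
    (ha : ∀ s, MvPowerSeries.constantCoeff (a s) = 0) (g : MvPowerSeries σ R) :
    g.order ≤ (MvPowerSeries.subst a g).order := by
  refine le_trans ?_
    (MvPowerSeries.le_order_subst (MvPowerSeries.hasSubst_of_constantCoeff_zero ha) g)
  have h1 : (1 : ℕ∞) ≤ ⨅ i, (a i).order :=
    le_iInf fun i => MvPowerSeries.one_le_order_iff_constCoeff_eq_zero.mpr (ha i)
  calc g.order = 1 * g.order := (one_mul _).symm
    _ ≤ _ := by gcongr

theorem FG2_order_pderiv (g : MvPowerSeries σ R) (s : σ) (N : ℕ) (h : ((N + 1 : ℕ) : ℕ∞) ≤ g.order) :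
    (N : ℕ∞) ≤ (MvPowerSeries.pderiv R s g).order := by
  refine MvPowerSeries.nat_le_order fun d hd => ?_
  rw [MvPowerSeries.coeff_pderiv, MvPowerSeries.coeff_of_lt_order, zero_mul]
  refine lt_of_lt_of_le ?_ h
  rw [map_add, Finsupp.degree_single]
  exact_mod_cast Nat.succ_lt_succ hd

theorem FG2_pderiv_subst_coe [Fintype σ] (a : σ → MvPowerSeries τ R)
    (ha : MvPowerSeries.HasSubst a) (f : MvPolynomial σ R) (i : τ) :
    MvPowerSeries.pderiv R i (MvPowerSeries.subst a (f : MvPowerSeries σ R)) =
      ∑ s, MvPowerSeries.subst a (MvPowerSeries.pderiv R s (f : MvPowerSeries σ R)) *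
        MvPowerSeries.pderiv R i (a s) := by
  classical
  induction f using MvPolynomial.induction_on with
  | C r =>
    simp [MvPolynomial.coe_C, MvPowerSeries.subst_C, FG2_subst_zero ha]
  | add f g hf hg =>
    simp only [MvPolynomial.coe_add, MvPowerSeries.subst_add ha, map_add, hf, hg, add_mul,
      Finset.sum_add_distrib]
  | mul_X f j hf =>
    simp only [MvPolynomial.coe_mul, MvPolynomial.coe_X, MvPowerSeries.subst_mul ha,
      Derivation.leibniz, smul_eq_mul, hf, MvPowerSeries.subst_add ha, MvPowerSeries.subst_X ha,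
      add_mul, Finset.sum_add_distrib, Finset.mul_sum]
    congr 1
    · rw [Finset.sum_eq_single j]
      · simp [FG2_subst_one ha]
      · intro s _ hs
        rw [MvPowerSeries.pderiv_X_of_ne (Ne.symm hs)]
        simp [FG2_subst_zero ha]
      · simp
    · exact Finset.sum_congr rfl fun s _ => by ring

theorem pderiv_subst [Fintype σ] [Finite τ] (a : σ → MvPowerSeries τ R)
    (ha : ∀ s, MvPowerSeries.constantCoeff (a s) = 0) (f : MvPowerSeries σ R) (i : τ) :
    MvPowerSeries.pderiv R i (MvPowerSeries.subst a f) =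
      ∑ s, MvPowerSeries.subst a (MvPowerSeries.pderiv R s f) * MvPowerSeries.pderiv R i (a s) := by
  have hs := MvPowerSeries.hasSubst_of_constantCoeff_zero ha
  ext e
  set N := e.degree + 1 with hN
  set g : MvPowerSeries σ R :=
    f - ((MvPowerSeries.truncTotal (N + 1) f : MvPolynomial σ R) : MvPowerSeries σ R) with hg
  have hfg : f = ((MvPowerSeries.truncTotal (N + 1) f : MvPolynomial σ R) : MvPowerSeries σ R) + g := by
    rw [hg]; ring
  have hord : ((N + 1 : ℕ) : ℕ∞) ≤ g.order := by
    refine MvPowerSeries.nat_le_order fun d hd => ?_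
    rw [hg, map_sub, MvPolynomial.coeff_coe, MvPowerSeries.coeff_truncTotal _ hd, sub_self]
  have he : ((e.degree : ℕ) : ℕ∞) < (N : ℕ∞) := by exact_mod_cast Nat.lt_succ_self _
  have h1 : MvPowerSeries.coeff e (MvPowerSeries.pderiv R i (MvPowerSeries.subst a g)) = 0 :=
    MvPowerSeries.coeff_of_lt_order (he.trans_le
      (FG2_order_pderiv _ i N (hord.trans (FG2_order_subst a ha g))))
  have h2 : ∀ s, MvPowerSeries.coeff e (MvPowerSeries.subst a (MvPowerSeries.pderiv R s g) *
      MvPowerSeries.pderiv R i (a s)) = 0 := fun s =>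
    MvPowerSeries.coeff_of_lt_order (he.trans_le
      (((FG2_order_pderiv g s N hord).trans (FG2_order_subst a ha _)).trans
        (le_self_add.trans MvPowerSeries.le_order_mul)))
  rw [hfg]
  simp only [MvPowerSeries.subst_add hs, map_add, add_mul, Finset.sum_add_distrib, h1,
    FG2_pderiv_subst_coe a hs, map_sum, h2, Finset.sum_const_zero]

theorem FG2_pderiv_psubst [Finite τ] {a : MvPowerSeries τ R}
    (ha : MvPowerSeries.constantCoeff a = 0) (f : PowerSeries R) (i : τ) :
    MvPowerSeries.pderiv R i (PowerSeries.subst a f) =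
      PowerSeries.subst a (PowerSeries.derivative R f) * MvPowerSeries.pderiv R i a := by
  have := pderiv_subst (fun _ : Unit => a) (fun _ => ha) f i
  rw [Fintype.sum_unique] at this
  exact this

theorem FG2_coeff_subst_zero_X (g : MvPowerSeries (Fin 2) R) (i : ℕ) :
    PowerSeries.coeff i (MvPowerSeries.subst ![0, (PowerSeries.X : PowerSeries R)] g) =
      MvPowerSeries.coeff (Finsupp.single 1 i) g := by
  rw [PowerSeries.coeff, MvPowerSeries.coeff_subst, finsum_eq_single _ (Finsupp.single 1 i)]
  · rw [Finsupp.prod_fintype _ _ (by simp)]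
    simp [← PowerSeries.coeff_def, PowerSeries.coeff_X_pow]
  · intro d hd
    rw [Finsupp.prod_fintype _ _ (by simp)]
    by_cases hd₁ : d 0 = 0
    · have : d 1 ≠ i := by
        intro h
        apply hd
        ext s
        fin_cases s <;> simp [hd₁, h]
      simp [hd₁, ← PowerSeries.coeff_def, PowerSeries.coeff_X_pow, this.symm]
    · simp [hd₁]
  · exact MvPowerSeries.HasSubst.zero_X

theorem FG2_dF_eq (F : FormalGroup R) :
    dF F = MvPowerSeries.subst ![0, (PowerSeries.X : PowerSeries R)]
      (MvPowerSeries.pderiv R 0 F.toPowerSeries) := by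
  ext i
  rw [FG2_coeff_subst_zero_X, MvPowerSeries.coeff_pderiv, dF, PowerSeries.coeff_mk, add_comm]
  simp

theorem FG2_subst_dF (F : FormalGroup R) {a : MvPowerSeries τ R} (ha : PowerSeries.HasSubst a) :
    PowerSeries.subst a (dF F) =
      MvPowerSeries.subst ![0, a] (MvPowerSeries.pderiv R 0 F.toPowerSeries) := by
  rw [FG2_dF_eq, PowerSeries.subst_def,
    MvPowerSeries.subst_comp_subst_apply (FG2_hasSubst_zero PowerSeries.HasSubst.X') ha.const]
  congr 1
  funext s
  fin_cases s
  · simpa using FG2_subst_zero ha.const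
  · simpa [← PowerSeries.subst_def] using PowerSeries.subst_X ha

theorem constantCoeff_dF (F : FormalGroup R) : PowerSeries.constantCoeff (dF F) = 1 := by
  rw [← PowerSeries.coeff_zero_eq_constantCoeff_apply, dF, PowerSeries.coeff_mk]
  simpa using F.lin_coeff_X

theorem dF_mul_omega (F : FormalGroup R) : dF F * omega F = 1 :=
  PowerSeries.mul_invOfUnit _ _ (by simpa using constantCoeff_dF F)

theorem constantCoeff_omega (F : FormalGroup R) : PowerSeries.constantCoeff (omega F) = 1 := by
  have := congrArg PowerSeries.constantCoeff (dF_mul_omega F)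
  simpa [constantCoeff_dF] using this

theorem FG2_dF_map (F : FormalGroup R) (ψ : R →+* S) :
    dF (F.map ψ) = PowerSeries.map ψ (dF F) := by
  ext i
  simp [dF]

theorem omega_map (F : FormalGroup R) (ψ : R →+* S) :
    omega (F.map ψ) = PowerSeries.map ψ (omega F) := by
  have h1 := dF_mul_omega (F.map ψ)
  have h2 : dF (F.map ψ) * PowerSeries.map ψ (omega F) = 1 := by
    rw [FG2_dF_map, ← map_mul, dF_mul_omega, map_one]
  calc omega (F.map ψ) = omega (F.map ψ) * (dF (F.map ψ) * PowerSeries.map ψ (omega F)) := by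
        rw [h2, mul_one]
    _ = (dF (F.map ψ) * omega (F.map ψ)) * PowerSeries.map ψ (omega F) := by ring
    _ = _ := by rw [h1, one_mul]

theorem FG2_pderiv_two [Finite τ] (G : MvPowerSeries (Fin 2) R) {a b : MvPowerSeries τ R}
    (ha : MvPowerSeries.constantCoeff a = 0) (hb : MvPowerSeries.constantCoeff b = 0) (i : τ) :
    MvPowerSeries.pderiv R i (MvPowerSeries.subst ![a, b] G) =
      MvPowerSeries.subst ![a, b] (MvPowerSeries.pderiv R 0 G) * MvPowerSeries.pderiv R i a +
        MvPowerSeries.subst ![a, b] (MvPowerSeries.pderiv R 1 G) * MvPowerSeries.pderiv R i b := by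
  rw [pderiv_subst ![a, b] (fun s => by fin_cases s <;> simpa) G i, Fin.sum_univ_two]
  rfl

theorem FG2_subst_two {υ : Type*} (G : MvPowerSeries (Fin 2) R) {a b : MvPowerSeries τ R}
    (ha : PowerSeries.HasSubst a) (hb : PowerSeries.HasSubst b) {u : τ → MvPowerSeries υ R}
    (hu : MvPowerSeries.HasSubst u) :
    MvPowerSeries.subst u (MvPowerSeries.subst ![a, b] G) =
      MvPowerSeries.subst ![MvPowerSeries.subst u a, MvPowerSeries.subst u b] G := by
  rw [MvPowerSeries.subst_comp_subst_apply (FG2_hasSubst_two ha hb) hu]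
  congr 1
  funext s
  fin_cases s <;> rfl

theorem FG2_subst_psubst {υ : Type*} (g : PowerSeries R) {a : MvPowerSeries τ R}
    (ha : PowerSeries.HasSubst a) {u : τ → MvPowerSeries υ R}
    (hu : MvPowerSeries.HasSubst u) :
    MvPowerSeries.subst u (PowerSeries.subst a g) =
      PowerSeries.subst (MvPowerSeries.subst u a) g := by
  rw [PowerSeries.subst_def, MvPowerSeries.subst_comp_subst_apply ha.const hu]
  rfl

theorem FG2_subst_X_X (G : MvPowerSeries (Fin 2) R) :
    MvPowerSeries.subst ![(MvPowerSeries.X 0 : MvPowerSeries (Fin 2) R), MvPowerSeries.X 1] G = G := by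
  have : ![(MvPowerSeries.X 0 : MvPowerSeries (Fin 2) R), MvPowerSeries.X 1] = MvPowerSeries.X := by
    funext s
    fin_cases s <;> rfl
  rw [this, MvPowerSeries.subst_self]
  rfl

theorem dF_invariant (F : FormalGroup R) :
    MvPowerSeries.pderiv R 0 F.toPowerSeries *
        PowerSeries.subst (MvPowerSeries.X 0 : MvPowerSeries (Fin 2) R) (dF F) =
      PowerSeries.subst F.toPowerSeries (dF F) := by
  have hX : ∀ i : Fin 3, PowerSeries.HasSubst (MvPowerSeries.X i : MvPowerSeries (Fin 3) R) :=
    fun i => PowerSeries.HasSubst.X i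
  have hc : ∀ i j : Fin 3, MvPowerSeries.constantCoeff (F.toPowerSeries.subst
      ![(MvPowerSeries.X i : MvPowerSeries (Fin 3) R), MvPowerSeries.X j]) = 0 :=
    fun i j => constantCoeff_fg_subst F (by simp) (by simp)
  have hF : PowerSeries.HasSubst F.toPowerSeries :=
    PowerSeries.HasSubst.of_constantCoeff_zero F.zero_constantCoeff
  have h := congrArg (MvPowerSeries.pderiv R (2 : Fin 3)) (F.assoc' (hX 2) (hX 0) (hX 1))
  rw [FG2_pderiv_two _ (hc 2 0) (by simp), FG2_pderiv_two _ (by simp) (by simp),
    FG2_pderiv_two _ (by simp) (hc 0 1), FG2_pderiv_two _ (by simp) (by simp),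
    MvPowerSeries.pderiv_X_self, MvPowerSeries.pderiv_X_of_ne (by decide : (0 : Fin 3) ≠ 2),
    MvPowerSeries.pderiv_X_of_ne (by decide : (1 : Fin 3) ≠ 2)] at h
  simp only [mul_zero, add_zero, mul_one] at h
  have hu : MvPowerSeries.HasSubst
      ![(MvPowerSeries.X 0 : MvPowerSeries (Fin 2) R), MvPowerSeries.X 1, 0] :=
    MvPowerSeries.hasSubst_of_constantCoeff_zero fun s => by fin_cases s <;> simp
  have h' := congrArg (MvPowerSeries.subst
    ![(MvPowerSeries.X 0 : MvPowerSeries (Fin 2) R), MvPowerSeries.X 1, 0]) h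
  rw [MvPowerSeries.subst_mul hu,
    FG2_subst_two _ (PowerSeries.HasSubst.of_constantCoeff_zero (hc 2 0)) (hX 1) hu,
    FG2_subst_two _ (hX 2) (hX 0) hu, FG2_subst_two _ (hX 2) (hX 0) hu,
    FG2_subst_two _ (hX 2) (PowerSeries.HasSubst.of_constantCoeff_zero (hc 0 1)) hu,
    FG2_subst_two _ (hX 0) (hX 1) hu] at h'
  simp only [MvPowerSeries.subst_X hu, Matrix.cons_val_zero, Matrix.cons_val_one,
    Matrix.cons_val] at h'
  rw [F.zero_add (PowerSeries.HasSubst.X 0), FG2_subst_X_X, FG2_subst_X_X] at h'
  rw [FG2_subst_dF F hF, FG2_subst_dF F (PowerSeries.HasSubst.X 0)]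
  exact h'

theorem FG2_hom_dF {F G : FormalGroup R} {f : PowerSeries R} (hf : IsFGHom F G f) :
    PowerSeries.derivative R f * dF F =
      PowerSeries.subst f (dF G) * PowerSeries.C (PowerSeries.coeff 1 f) := by
  have hX : ∀ i : Fin 2, PowerSeries.HasSubst (MvPowerSeries.X i : MvPowerSeries (Fin 2) R) :=
    fun i => PowerSeries.HasSubst.X i
  have hc : ∀ i : Fin 2, MvPowerSeries.constantCoeff
      (PowerSeries.subst (MvPowerSeries.X i : MvPowerSeries (Fin 2) R) f) = 0 :=
    fun i => by rw [constantCoeff_psubst (by simp), hf.1]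
  have hF : PowerSeries.HasSubst F.toPowerSeries :=
    PowerSeries.HasSubst.of_constantCoeff_zero F.zero_constantCoeff
  have h := congrArg (MvPowerSeries.pderiv R (0 : Fin 2)) hf.2
  rw [FG2_pderiv_psubst F.zero_constantCoeff, FG2_pderiv_two _ (hc 0) (hc 1),
    FG2_pderiv_psubst (by simp), FG2_pderiv_psubst (by simp),
    MvPowerSeries.pderiv_X_self, MvPowerSeries.pderiv_X_of_ne (by decide : (1 : Fin 2) ≠ 0)] at h
  simp only [mul_zero, add_zero, mul_one] at h
  have hu : MvPowerSeries.HasSubst ![0, (PowerSeries.X : PowerSeries R)] :=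
    FG2_hasSubst_zero PowerSeries.HasSubst.X'
  have h' := congrArg (MvPowerSeries.subst ![0, (PowerSeries.X : PowerSeries R)]) h
  rw [MvPowerSeries.subst_mul hu, MvPowerSeries.subst_mul hu, FG2_subst_psubst _ hF hu,
    FG2_subst_two _ (PowerSeries.HasSubst.of_constantCoeff_zero (hc 0))
      (PowerSeries.HasSubst.of_constantCoeff_zero (hc 1)) hu,
    FG2_subst_psubst _ (hX 0) hu, FG2_subst_psubst _ (hX 1) hu, FG2_subst_psubst _ (hX 0) hu,
    F.zero_add PowerSeries.HasSubst.X', ← FG2_dF_eq] at h'
  simp only [MvPowerSeries.subst_X hu, Matrix.cons_val_zero, Matrix.cons_val_one,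
    Matrix.cons_val_fin_one] at h'
  rw [PowerSeries.X_subst, PowerSeries.X_subst,
    PowerSeries.subst_zero_of_constantCoeff_zero hf.1, ← FG2_subst_dF G (hom_hasSubst hf),
    PowerSeries.subst_zero_eq_C_constantCoeff] at h'
  rw [h']
  congr 1
  rw [← PowerSeries.coeff_zero_eq_constantCoeff_apply, PowerSeries.coeff_derivative]
  simp [PowerSeries.C]

/-- `ω_G(f) f' = f'(0) ω_F`. -/
theorem hom_deriv {F G : FormalGroup R} {f : PowerSeries R} (hf : IsFGHom F G f) :
    PowerSeries.subst f (omega G) * PowerSeries.derivative R f =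
      PowerSeries.C (PowerSeries.coeff 1 f) * omega F := by
  have h1 := FG2_hom_dF hf
  have h2 := dF_mul_omega F
  have h3 : (PowerSeries.subst f (dF G) * PowerSeries.subst f (omega G) : PowerSeries R) = 1 := by
    rw [← PowerSeries.subst_mul (hom_hasSubst hf), dF_mul_omega,
      ← PowerSeries.coe_substAlgHom (hom_hasSubst hf), map_one]
  set A : PowerSeries R := PowerSeries.subst f (dF G)
  set B : PowerSeries R := PowerSeries.subst f (omega G)
  calc B * PowerSeries.derivative R f
      = B * (PowerSeries.derivative R f * dF F) * omega F := by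
        rw [mul_assoc B, mul_assoc, h2, mul_one]
    _ = (A * B) * (PowerSeries.C (PowerSeries.coeff 1 f) * omega F) := by rw [h1]; ring
    _ = _ := by rw [h3, one_mul]

section Log
variable [Algebra ℚ K]

theorem constantCoeff_logS (j : R →+* K) (F : FormalGroup R) :
    PowerSeries.constantCoeff (logS j F) = 0 := by
  rw [← PowerSeries.coeff_zero_eq_constantCoeff_apply, logS, PowerSeries.coeff_mk]
  simp

theorem coeff_one_logS (j : R →+* K) (F : FormalGroup R) :
    PowerSeries.coeff 1 (logS j F) = 1 := by
  rw [logS, PowerSeries.coeff_mk]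
  simp [constantCoeff_omega]

theorem natCast_mul_coeff_logS (j : R →+* K) (F : FormalGroup R) (d : ℕ) (hd : d ≠ 0) :
    (d : K) * PowerSeries.coeff d (logS j F) = j (PowerSeries.coeff (d - 1) (omega F)) := by
  rw [logS, PowerSeries.coeff_mk, ← nsmul_eq_mul, ← Nat.cast_smul_eq_nsmul ℚ, smul_smul,
    mul_inv_cancel₀ (by exact_mod_cast hd), one_smul]

theorem logS_map (j : S →+* K) (ψ : R →+* S) (F : FormalGroup R) :
    logS j (F.map ψ) = logS (j.comp ψ) F := by
  ext d
  simp [logS, omega_map]

theorem derivative_logS (j : R →+* K) (F : FormalGroup R) :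
    PowerSeries.derivative K (logS j F) = PowerSeries.map j (omega F) := by
  ext n
  have := natCast_mul_coeff_logS j F (n + 1) (Nat.succ_ne_zero n)
  rw [PowerSeries.coeff_derivative, PowerSeries.coeff_map, mul_comm]
  simpa using this

theorem FG2_eq_zero_of_pderiv (E : MvPowerSeries (Fin 2) K) (h0 : MvPowerSeries.pderiv K 0 E = 0)
    (h1 : MvPowerSeries.subst ![0, (PowerSeries.X : PowerSeries K)] E = 0) : E = 0 := by
  have : IsAddTorsionFree K := IsAddTorsionFree.of_module_rat K
  ext d
  by_cases hd : d 0 = 0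
  · have hd' : d = Finsupp.single 1 (d 1) := by
      ext s
      fin_cases s <;> simp [hd]
    rw [hd', ← FG2_coeff_subst_zero_X, h1]
    simp
  · have hle : Finsupp.single (0 : Fin 2) 1 ≤ d := by
      rw [Finsupp.single_le_iff]; omega
    have e := congrArg (MvPowerSeries.coeff (d - Finsupp.single 0 1)) h0
    rw [MvPowerSeries.coeff_pderiv, tsub_add_cancel_of_le hle, mul_comm,
      ← Nat.cast_succ, ← nsmul_eq_mul] at e
    have e' : ((d - Finsupp.single (0 : Fin 2) 1 : Fin 2 →₀ ℕ) 0).succ •
        MvPowerSeries.coeff d E = 0 := by simpa using e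
    rw [map_zero]
    exact (nsmul_eq_zero_iff.mp e').resolve_right (Nat.succ_ne_zero _)

theorem FG2_logS_univ (j : R →+* K) (F : FormalGroup R) :
    PowerSeries.subst (F.map j).toPowerSeries (logS j F) =
      PowerSeries.subst (MvPowerSeries.X 0 : MvPowerSeries (Fin 2) K) (logS j F) +
        PowerSeries.subst (MvPowerSeries.X 1 : MvPowerSeries (Fin 2) K) (logS j F) := by
  have hX : ∀ i : Fin 2, PowerSeries.HasSubst (MvPowerSeries.X i : MvPowerSeries (Fin 2) K) :=
    fun i => PowerSeries.HasSubst.X i
  set G := F.map j with hG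
  have hF : PowerSeries.HasSubst G.toPowerSeries :=
    PowerSeries.HasSubst.of_constantCoeff_zero G.zero_constantCoeff
  have hu : MvPowerSeries.HasSubst ![0, (PowerSeries.X : PowerSeries K)] :=
    FG2_hasSubst_zero PowerSeries.HasSubst.X'
  rw [← sub_eq_zero]
  apply FG2_eq_zero_of_pderiv
  · rw [map_sub, map_add, FG2_pderiv_psubst G.zero_constantCoeff, FG2_pderiv_psubst (by simp),
      FG2_pderiv_psubst (by simp), MvPowerSeries.pderiv_X_self,
      MvPowerSeries.pderiv_X_of_ne (by decide : (1 : Fin 2) ≠ 0), derivative_logS, ← omega_map,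
      ← hG, mul_zero, add_zero, mul_one, sub_eq_zero]
    have h1 := dF_invariant G
    have h2 : ∀ a : MvPowerSeries (Fin 2) K, PowerSeries.HasSubst a →
        PowerSeries.subst a (dF G) * PowerSeries.subst a (omega G) = 1 := fun a ha => by
      rw [← PowerSeries.subst_mul ha, dF_mul_omega, ← PowerSeries.coe_substAlgHom ha, map_one]
    have h3 := h2 _ hF
    have h4 := h2 _ (hX 0)
    calc PowerSeries.subst G.toPowerSeries (omega G) * MvPowerSeries.pderiv K 0 G.toPowerSeries
        = PowerSeries.subst G.toPowerSeries (omega G) * (MvPowerSeries.pderiv K 0 G.toPowerSeries *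
            PowerSeries.subst (MvPowerSeries.X 0 : MvPowerSeries (Fin 2) K) (dF G)) *
            PowerSeries.subst (MvPowerSeries.X 0 : MvPowerSeries (Fin 2) K) (omega G) := by
          rw [mul_assoc, mul_assoc, h4, mul_one]
      _ = _ := by rw [h1, mul_comm (PowerSeries.subst G.toPowerSeries (omega G)), h3, one_mul]
  · rw [MvPowerSeries.subst_sub hu, MvPowerSeries.subst_add hu, FG2_subst_psubst _ hF hu,
      FG2_subst_psubst _ (hX 0) hu, FG2_subst_psubst _ (hX 1) hu,
      G.zero_add PowerSeries.HasSubst.X']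
    simp only [MvPowerSeries.subst_X hu, Matrix.cons_val_zero, Matrix.cons_val_one,
      Matrix.cons_val_fin_one]
    rw [PowerSeries.subst_zero_of_constantCoeff_zero (constantCoeff_logS j F), zero_add, sub_self]

theorem logS_add (j : R →+* K) (F : FormalGroup R) {a b : MvPowerSeries τ K}
    (ha : PowerSeries.HasSubst a) (hb : PowerSeries.HasSubst b) :
    PowerSeries.subst ((F.map j).toPowerSeries.subst ![a, b]) (logS j F) =
      PowerSeries.subst a (logS j F) + PowerSeries.subst b (logS j F) := by
  have hu := FG2_hasSubst_two ha hb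
  have hF : PowerSeries.HasSubst (F.map j).toPowerSeries :=
    PowerSeries.HasSubst.of_constantCoeff_zero (F.map j).zero_constantCoeff
  have h := congrArg (MvPowerSeries.subst ![a, b]) (FG2_logS_univ j F)
  rw [MvPowerSeries.subst_add hu, FG2_subst_psubst _ hF hu,
    FG2_subst_psubst _ (PowerSeries.HasSubst.X 0) hu,
    FG2_subst_psubst _ (PowerSeries.HasSubst.X 1) hu] at h
  simpa only [MvPowerSeries.subst_X hu, Matrix.cons_val_zero, Matrix.cons_val_one,
    Matrix.cons_val_fin_one] using h

theorem logS_comp_hom (j : R →+* K) {F G : FormalGroup R} {f : PowerSeries R}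
    (hf : IsFGHom F G f) :
    PowerSeries.subst (PowerSeries.map j f) (logS j G) =
      PowerSeries.C (j (PowerSeries.coeff 1 f)) * logS j F := by
  have : IsAddTorsionFree K := IsAddTorsionFree.of_module_rat K
  have hf' := hom_map hf j
  have h := hom_deriv hf'
  apply PowerSeries.derivative.ext
  · rw [PowerSeries.derivative_subst (hom_hasSubst hf'), derivative_logS, ← omega_map, h,
      Derivation.leibniz, PowerSeries.derivative_C, derivative_logS, omega_map]
    simp
  · rw [map_mul, constantCoeff_logS, mul_zero]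
    exact PowerSeries.constantCoeff_subst_eq_zero hf'.1 _ (constantCoeff_logS j G)

end Log

section Frob
variable (p : ℕ) [Fact p.Prime] [CharP R p]

theorem FG2_psubst_expand {q : ℕ} (hq : q ≠ 0) {a : MvPowerSeries τ R}
    (ha : PowerSeries.HasSubst a) (g : PowerSeries R) :
    PowerSeries.subst a (PowerSeries.expand q hq g) = PowerSeries.subst (a ^ q) g := by
  rw [PowerSeries.expand_apply,
    PowerSeries.subst_comp_subst_apply (PowerSeries.HasSubst.X_pow hq) ha,
    PowerSeries.subst_pow ha, PowerSeries.subst_X ha]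

theorem FG2_expand_inj {q : ℕ} (hq : q ≠ 0) {a b : MvPowerSeries τ R}
    (h : MvPowerSeries.expand q hq a = MvPowerSeries.expand q hq b) : a = b := by
  ext d
  rw [← MvPowerSeries.coeff_expand_smul q hq a, h, MvPowerSeries.coeff_expand_smul]

theorem FG2_hom_frob_iff (F G : FormalGroup R) (g : PowerSeries R) :
    IsFGHom (F.map (frobenius R p)) G g ↔
      IsFGHom F G (PowerSeries.expand p (Fact.out : p.Prime).ne_zero g) := by
  have hp : p ≠ 0 := (Fact.out : p.Prime).ne_zero
  unfold IsFGHom
  rw [PowerSeries.constantCoeff_expand]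
  refine and_congr_right fun hg => ?_
  have hX : ∀ i : Fin 2, PowerSeries.HasSubst (MvPowerSeries.X i : MvPowerSeries (Fin 2) R) :=
    fun i => PowerSeries.HasSubst.X i
  have hF : PowerSeries.HasSubst F.toPowerSeries :=
    PowerSeries.HasSubst.of_constantCoeff_zero F.zero_constantCoeff
  have hF' : PowerSeries.HasSubst (F.map (frobenius R p)).toPowerSeries :=
    PowerSeries.HasSubst.of_constantCoeff_zero (F.map (frobenius R p)).zero_constantCoeff
  have hc : ∀ i : Fin 2, PowerSeries.HasSubst
      (PowerSeries.subst (MvPowerSeries.X i : MvPowerSeries (Fin 2) R) g) :=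
    fun i => PowerSeries.HasSubst.of_constantCoeff_zero
      (PowerSeries.constantCoeff_subst_eq_zero (by simp) _ hg)
  have e1 : MvPowerSeries.expand p hp (PowerSeries.subst (F.map (frobenius R p)).toPowerSeries g) =
      PowerSeries.subst F.toPowerSeries (PowerSeries.expand p hp g) := by
    rw [PowerSeries.expand_subst p hp hF', FG2_psubst_expand hp hF, FormalGroup.map_toPowerSeries,
      ← MvPowerSeries.map_expand, MvPowerSeries.map_frobenius_expand]
  have e2 : MvPowerSeries.expand p hp (G.toPowerSeries.subst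
      ![PowerSeries.subst (MvPowerSeries.X 0 : MvPowerSeries (Fin 2) R) g,
        PowerSeries.subst (MvPowerSeries.X 1 : MvPowerSeries (Fin 2) R) g]) =
      G.toPowerSeries.subst
        ![PowerSeries.subst (MvPowerSeries.X 0 : MvPowerSeries (Fin 2) R)
            (PowerSeries.expand p hp g),
          PowerSeries.subst (MvPowerSeries.X 1 : MvPowerSeries (Fin 2) R)
            (PowerSeries.expand p hp g)] := by
    rw [MvPowerSeries.expand_subst p hp (FG2_hasSubst_two (hc 0) (hc 1))]
    congr 1
    funext s
    fin_cases s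
    · simp [PowerSeries.expand_subst p hp (hX 0), FG2_psubst_expand hp (hX 0)]
    · simp [PowerSeries.expand_subst p hp (hX 1), FG2_psubst_expand hp (hX 1)]
  rw [← e1, ← e2]
  exact ⟨fun h => by rw [h], fun h => FG2_expand_inj hp h⟩

theorem hom_frob_step {F G : FormalGroup R} {f : PowerSeries R} (hf : IsFGHom F G f)
    (h1 : PowerSeries.coeff 1 f = 0) :
    ∃ f' : PowerSeries R, IsFGHom (F.map (frobenius R p)) G f' ∧
      f = PowerSeries.expand p (Fact.out : p.Prime).ne_zero f' := by
  have hd : PowerSeries.derivative R f = 0 := by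
    have h := FG2_hom_dF hf
    rw [h1, map_zero, mul_zero] at h
    rw [← mul_one (PowerSeries.derivative R f), ← dF_mul_omega F, ← mul_assoc, h, zero_mul]
  have he : f = PowerSeries.expand p (Fact.out : p.Prime).ne_zero
      (PowerSeries.mk fun d => PowerSeries.coeff (p * d) f) := by
    ext n
    rw [PowerSeries.coeff_expand]
    split_ifs with h
    · rw [PowerSeries.coeff_mk, Nat.mul_div_cancel' h]
    · obtain ⟨m, rfl⟩ : ∃ m, n = m + 1 := by
        refine Nat.exists_eq_succ_of_ne_zero ?_
        rintro rfl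
        exact h (dvd_zero p)
      have e := congrArg (PowerSeries.coeff m) hd
      rw [PowerSeries.coeff_derivative, map_zero, ← Nat.cast_succ] at e
      have hu : IsUnit ((m + 1 : ℕ) : R) :=
        (CharP.isUnit_natCast_iff (Fact.out : p.Prime)).mpr h
      exact (hu.mul_left_eq_zero).mp e
  exact ⟨_, (FG2_hom_frob_iff p F G _).mpr (he ▸ hf), he⟩

/-- Iteration (`expand_mul`, `coeff_expand_mul`, `iterateFrobenius_add`, `fg_map_map`). -/
theorem hom_frob_iter {F G : FormalGroup R} {f : PowerSeries R} (hf : IsFGHom F G f) (e : ℕ)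
    (h : ∀ i < e, PowerSeries.coeff (p ^ i) f = 0) :
    ∃ f' : PowerSeries R, IsFGHom (F.map (iterateFrobenius R p e)) G f' ∧
      f = PowerSeries.expand (p ^ e) (pow_ne_zero e (Fact.out : p.Prime).ne_zero) f' := by
  induction e with
  | zero =>
    refine ⟨f, by rwa [iterateFrobenius_zero, fg_map_id], ?_⟩
    exact (PowerSeries.expand_one_apply f).symm
  | succ e ih =>
    obtain ⟨g, hg, hfg⟩ := ih fun i hi => h i (Nat.lt_succ_of_lt hi)
    have h1 : PowerSeries.coeff 1 g = 0 := by
      have := h e (Nat.lt_succ_self e)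
      have h2 := PowerSeries.coeff_expand_mul (p ^ e)
        (pow_ne_zero e (Fact.out : p.Prime).ne_zero) g 1
      rw [mul_one, ← hfg] at h2
      rw [← h2, this]
    obtain ⟨g', hg', hgg⟩ := hom_frob_step p hg h1
    refine ⟨g', ?_, ?_⟩
    · rwa [fg_map_map, ← iterateFrobenius_one, ← iterateFrobenius_add, add_comm] at hg'
    · rw [hfg, hgg]
      exact (PowerSeries.expand_mul (p ^ e) _ p _ g').symm

/-- If `X ^ p` is an endomorphism of `F` then `F` is Frobenius invariant
(`X ^ p` is also a homomorphism `F → F.map frobenius`; compare, `expand` is injective). -/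
theorem map_frobenius_eq_of_hom (F : FormalGroup R) (h : IsFGHom F F (PowerSeries.X ^ p)) :
    F.map (frobenius R p) = F := by
  rw [← PowerSeries.expand_X p (Fact.out : p.Prime).ne_zero, ← FG2_hom_frob_iff] at h
  exact hom_source_unique h (hom_X F) (by simp)

theorem hom_X_pow_of_map_frobenius (F : FormalGroup R) (h : F.map (frobenius R p) = F) :
    IsFGHom F F (PowerSeries.X ^ p) := by
  rw [← PowerSeries.expand_X p (Fact.out : p.Prime).ne_zero, ← FG2_hom_frob_iff, h]
  exact hom_X F

end Frob

end Crest.Agent.R227
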