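import Crest.Agent.R227.LT1

/-!
# R227 / LT3: generators of the maximal ideal generate prime ideals

Recipe.
* `bijective_subst_of_span`: `A = k[[u_1..u_d]]`, `τ = substAlgHom` with `u_i ↦ v_i` (zero constant
  terms).  `𝔪_A = span (range X)` (`mem_span_X_iff`, `s = univ`); `f ∈ 𝔪_A ^ N` iff the coefficients
  of degree `< N` vanish (induction with `exists_eq_sum_X_mul`), so `A` is `𝔪_A`-adically
  complete.  Surjective: `surjective_of_mk_map_comp_surjective` (Mathlib,
  `RingTheory/AdicCompletion/Functoriality.lean`; `𝔪_A.map τ = span (range v) = 𝔪_A`), or by hand.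
  Injective: a surjective endomorphism of a Noetherian ring is injective (the chain
  `ker (τ ^ N)` stabilises; search `injective_of_surjective`/`IsNoetherianRing`, else 15 lines with
  `monotone_stabilizes_iff_noetherian`).
* `isPrime_span_of_span_eq`: the ideal is the image of `span (X '' s)` (`span_X_isPrime`) under the
  ring isomorphism `τ` (`Ideal.map_span`, `Ideal.map_isPrime_of_equiv`).
* `isPrime_span_LT`: `h = 0`: `E₀` is a domain.  `h ≥ 1`: let `π = MvPowerSeries.map (resW p n)`,
  surjective with kernel `(p)` (`C p ∣ f` coefficientwise, `WittVector.ker_constantCoeff`), and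
  `v 0 = p`; the ideal contains `ker π`, so it is the comap of its image
  (`Ideal.comap_map_of_surjective`), which is `span (π v_{i+1}, i + 1 < h)`; index
  `Fin (n - 1)` by `i ↦ π (v (i + 1))`.
-/

set_option autoImplicit false
noncomputable section
open Crest.LubinTate

namespace Crest.Agent.R227

theorem LT3_mem_span_X {σ A : Type*} [Fintype σ] [CommRing A] (f : MvPowerSeries σ A) :
    f ∈ Ideal.span (Set.range (MvPowerSeries.X : σ → MvPowerSeries σ A)) ↔
      MvPowerSeries.constantCoeff f = 0 := by
  have h := mem_span_X_iff (Finset.univ : Finset σ) f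
  rw [Finset.coe_univ, Set.image_univ] at h
  rw [h]
  constructor
  · intro H
    simpa using H 0 (fun _ _ => rfl)
  · intro H d hd
    have : d = 0 := Finsupp.ext fun i => hd i (Finset.mem_univ i)
    subst this
    simpa using H

theorem LT3_injective {A : Type*} [CommRing A] [IsNoetherianRing A] (τ : A →+* A)
    (hs : Function.Surjective τ) : Function.Injective τ := by
  let K : ℕ →o Ideal A :=
    ⟨fun N => RingHom.ker (τ ^ N), monotone_nat_of_le_succ fun N x hx => by
      rw [RingHom.mem_ker] at hx ⊢
      rw [pow_succ', RingHom.mul_def, RingHom.comp_apply, hx, map_zero]⟩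
  obtain ⟨N, hN⟩ := monotone_stabilizes_iff_noetherian.2 (inferInstance : IsNoetherian A A) K
  rw [injective_iff_map_eq_zero]
  intro x hx
  have hsN : Function.Surjective (τ ^ N) := by
    rw [RingHom.coe_pow]; exact hs.iterate N
  obtain ⟨y, rfl⟩ := hsN x
  have h1 : y ∈ K (N + 1) := by
    change (τ ^ (N + 1)) y = 0
    rw [pow_succ', RingHom.mul_def, RingHom.comp_apply, hx]
  rw [← hN (N + 1) (Nat.le_succ N)] at h1
  exact h1

theorem bijective_subst_of_span {k : Type*} [Field k] {d : ℕ} (v : Fin d → MvPowerSeries (Fin d) k)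
    (hv0 : ∀ i, MvPowerSeries.constantCoeff (v i) = 0)
    (hv : ∀ i, (MvPowerSeries.X i : MvPowerSeries (Fin d) k) ∈ Ideal.span (Set.range v)) :
    Function.Bijective (fun f : MvPowerSeries (Fin d) k => MvPowerSeries.subst v f) := by
  have ha : MvPowerSeries.HasSubst v := MvPowerSeries.hasSubst_of_constantCoeff_zero hv0
  let τ : MvPowerSeries (Fin d) k →+* MvPowerSeries (Fin d) k :=
    (MvPowerSeries.substAlgHom (R := k) ha).toRingHom
  have hτ : (fun f : MvPowerSeries (Fin d) k => MvPowerSeries.subst v f) = τ := by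
    ext1 f; simp [τ]
  rw [hτ]
  have hmap : (Ideal.span (Set.range (MvPowerSeries.X : Fin d → MvPowerSeries (Fin d) k))).map τ =
      Ideal.span (Set.range (MvPowerSeries.X : Fin d → MvPowerSeries (Fin d) k)) := by
    rw [Ideal.map_span, ← Set.range_comp]
    have : (τ ∘ (MvPowerSeries.X : Fin d → MvPowerSeries (Fin d) k)) = v := by
      ext1 i; simp [τ, MvPowerSeries.subst_X ha]
    rw [this]
    refine le_antisymm (Ideal.span_le.2 ?_) (Ideal.span_le.2 ?_)
    · rintro _ ⟨i, rfl⟩
      exact (LT3_mem_span_X _).2 (hv0 i)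
    · rintro _ ⟨i, rfl⟩
      exact hv i
  have hs : Function.Surjective τ := by
    have hH : IsHausdorff
        ((Ideal.span (Set.range (MvPowerSeries.X : Fin d → MvPowerSeries (Fin d) k))).map τ)
        (MvPowerSeries (Fin d) k) := by
      rw [hmap]; infer_instance
    refine surjective_of_mk_map_comp_surjective
      (I := Ideal.span (Set.range (MvPowerSeries.X : Fin d → MvPowerSeries (Fin d) k))) τ ?_
    intro y
    obtain ⟨y, rfl⟩ := Ideal.Quotient.mk_surjective y
    refine ⟨MvPowerSeries.C (MvPowerSeries.constantCoeff y), ?_⟩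
    rw [RingHom.comp_apply, Ideal.Quotient.eq, hmap, LT3_mem_span_X]
    simp [τ]
  exact ⟨LT3_injective τ hs, hs⟩

theorem isPrime_span_of_span_eq {k : Type*} [Field k] {d : ℕ}
    (v : Fin d → MvPowerSeries (Fin d) k) (hv0 : ∀ i, MvPowerSeries.constantCoeff (v i) = 0)
    (hv : ∀ i, (MvPowerSeries.X i : MvPowerSeries (Fin d) k) ∈ Ideal.span (Set.range v))
    (s : Finset (Fin d)) : (Ideal.span (v '' (s : Set (Fin d)))).IsPrime := by
  have ha : MvPowerSeries.HasSubst v := MvPowerSeries.hasSubst_of_constantCoeff_zero hv0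
  let τ : MvPowerSeries (Fin d) k →+* MvPowerSeries (Fin d) k :=
    (MvPowerSeries.substAlgHom (R := k) ha).toRingHom
  have hτ : (fun f : MvPowerSeries (Fin d) k => MvPowerSeries.subst v f) = τ := by
    ext1 f; simp [τ]
  have hb := bijective_subst_of_span v hv0 hv
  rw [hτ] at hb
  have hP := span_X_isPrime (A := k) s
  have := Ideal.map_isPrime_of_surjective hb.2 (I := Ideal.span
    ((fun i => (MvPowerSeries.X i : MvPowerSeries (Fin d) k)) '' (s : Set (Fin d))))
    (by rw [(RingHom.injective_iff_ker_eq_bot τ).1 hb.1]; exact bot_le)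
  rw [Ideal.map_span, Set.image_image] at this
  have e : (fun i => τ (MvPowerSeries.X i)) = v := by
    ext1 i; simp [τ, MvPowerSeries.subst_X ha]
  rwa [e] at this

theorem isPrime_span_LT (p : ℕ) [Fact p.Prime] (n : ℕ) (hn : 1 ≤ n) (v : ℕ → LTRing p n)
    (hv0 : v 0 = p) (hv : Ideal.span (Set.range fun i : Fin n => v i) = mm p n) (h : ℕ)
    (hh : h ≤ n) : (Ideal.span (Set.range fun i : Fin h => v i)).IsPrime := by
  classical
  rcases h with _ | h
  · rw [Set.range_eq_empty, Ideal.span_empty]
    exact Ideal.isPrime_bot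
  let π : LTRing p n →+* MvPowerSeries (Fin (n - 1)) (kk p n) := MvPowerSeries.map (resW p n)
  have hres : Function.Surjective (resW p n) := fun a =>
    ⟨WittVector.teichmuller p a, by simp [resW]⟩
  have hπ : Function.Surjective π := by
    intro g
    choose c hc using fun e => hres (MvPowerSeries.coeff e g)
    refine ⟨c, ?_⟩
    ext e
    rw [MvPowerSeries.coeff_map]
    exact hc e
  have hp0 : π (p : LTRing p n) = 0 := by
    rw [map_natCast, ← map_natCast (MvPowerSeries.C (σ := Fin (n - 1)) (R := kk p n)),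
      CharP.cast_eq_zero, map_zero]
  have hker : ∀ f : LTRing p n, π f = 0 → (p : LTRing p n) ∣ f := by
    intro f hf
    have h1 : ∀ e, (p : WW p n) ∣ MvPowerSeries.coeff e f := by
      intro e
      rw [← Ideal.mem_span_singleton, ← WittVector.ker_constantCoeff, RingHom.mem_ker]
      have := congrArg (MvPowerSeries.coeff e) hf
      rwa [MvPowerSeries.coeff_map, map_zero] at this
    choose c hc using h1
    refine ⟨c, ?_⟩
    ext1 e
    rw [← map_natCast (MvPowerSeries.C (σ := Fin (n - 1)) (R := WW p n)),
      MvPowerSeries.coeff_C_mul]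
    exact hc e
  let w : Fin (n - 1) → MvPowerSeries (Fin (n - 1)) (kk p n) := fun i => π (v (i + 1))
  have hw0 : ∀ i, MvPowerSeries.constantCoeff (w i) = 0 := by
    intro i
    have : v (i + 1) ∈ mm p n := by
      rw [← hv]
      exact Ideal.subset_span ⟨⟨i + 1, by omega⟩, rfl⟩
    rw [mem_mm] at this
    simpa [w, π, LTRing.residue] using this
  have hw : ∀ i, (MvPowerSeries.X i : MvPowerSeries (Fin (n - 1)) (kk p n)) ∈
      Ideal.span (Set.range w) := by
    intro i
    have h1 : mm p n ≤ (Ideal.span (Set.range w)).comap π := by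
      rw [← hv, Ideal.span_le]
      rintro _ ⟨⟨j, hj⟩, rfl⟩
      rcases j with _ | j
      · change π (v 0) ∈ Ideal.span (Set.range w)
        rw [hv0, hp0]; exact zero_mem _
      · exact Ideal.subset_span ⟨⟨j, by omega⟩, rfl⟩
    have h2 := h1 (X_mem_mm p n i)
    rwa [Ideal.mem_comap, MvPowerSeries.map_X] at h2
  have hP := isPrime_span_of_span_eq w hw0 hw (Finset.univ.filter fun i => (i : ℕ) < h)
  have key : Ideal.span (Set.range fun i : Fin (h + 1) => v i) =
      (Ideal.span (w '' ((Finset.univ.filter fun i : Fin (n - 1) => (i : ℕ) < h : Finset _) :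
        Set (Fin (n - 1))))).comap π := by
    refine le_antisymm (Ideal.span_le.2 ?_) ?_
    · rintro _ ⟨⟨j, hj⟩, rfl⟩
      rcases j with _ | j
      · change π (v 0) ∈ Ideal.span _
        rw [hv0, hp0]; exact zero_mem _
      · exact Ideal.subset_span ⟨⟨j, by omega⟩, by simpa using hj, rfl⟩
    · have h1 : Ideal.span (w '' ((Finset.univ.filter fun i : Fin (n - 1) => (i : ℕ) < h :
          Finset _) : Set (Fin (n - 1)))) ≤
          (Ideal.span (Set.range fun i : Fin (h + 1) => v i)).map π := by
        rw [Ideal.span_le]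
        rintro _ ⟨j, hj, rfl⟩
        have hj' : (j : ℕ) < h := by simpa using hj
        exact Ideal.mem_map_of_mem π (Ideal.subset_span ⟨⟨j + 1, by omega⟩, rfl⟩)
      refine (Ideal.comap_mono h1).trans ?_
      rw [Ideal.comap_map_of_surjective π hπ]
      refine sup_le le_rfl fun f hf => ?_
      obtain ⟨c, rfl⟩ := hker f (by simpa using hf)
      refine Ideal.mul_mem_right _ _ (Ideal.subset_span ⟨0, ?_⟩)
      simpa using hv0
  rw [key]
  exact Ideal.comap_isPrime π _

end Crest.Agent.R227
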