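import Crest.Agent.R227.Height
import Crest.Agent.R227.LT1

/-!
# R227 / LT2: consequences of universality

Recipe.
* `eq_of_star_iso`: uniqueness clause of `hH.2` applied to `G = H.map φ₁`: both `φ₁` (with
  `θ = X`, `hom_X`) and `φ₂` qualify (`fg_map_map` shows `G.map r = Γ`).
* `rigid_of_universal`.  By Nakayama (`Submodule.le_of_le_smul_of_le_jacobson_bot`, `𝔪` f.g.)
  it is enough to prove `𝔪 ≤ 𝔟 ⊔ 𝔪 ^ 2`; if `𝔟 = ⊤` trivial, else `𝔟 ≤ 𝔪`.  Let
  `B = E₀ ⧸ (𝔟 ⊔ 𝔪 ^ 2)`: local (`IsLocalRing.of_surjective'`), Noetherian, maximal ideal of square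
  zero hence adically complete (prove `IsAdicComplete` by hand: `𝔪_B ^ N = ⊥` for `N ≥ 2`),
  `r = Ideal.Quotient.lift _ residue _`, `CharP B p`.  With `π` the projection and `G = H.map π`,
  all coefficients of `[p ^ M]_G` below `q ^ M = p ^ (n M)` vanish, so `hom_frob_iter` gives
  `V : G.map (iterateFrobenius B p (n M)) → G` with `[p ^ M]_G = expand V`; reducing along `r`,
  `expand (V.map r) = X ^ (q ^ M)` (`mulSeries_pow_of_eq`), so `V.map r = X`.  The ring hom
  `Fr ∘ π` is a `W(k)`-algebra hom: `w = [a] + p w'`, `π [a] ^ (q ^ M) = π [a ^ (q ^ M)] = π [a]`;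
  it is compatible with `r` because `c ^ q = c` in `k`.  So `eq_of_star_iso` gives
  `π a ^ (q ^ M) = π a`, and for `a ∈ 𝔪` the left side is `0`.
* `hId_top`: `≤` because `vv H i` reduces to the coefficient of `X ^ (p ^ i)` in `X ^ q`;
  `≥` by `rigid_of_universal` with `M = 1` and `hId_le_iff_coeff`.
* `exists_stabilizerMap`: lift `g` to `g'` (`exists_lift_series`, unit linear coefficient by
  `isUnit_of_residue_ne_zero`), `G` from `exists_conj H g'`, `G.map residue = Γ` by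
  `hom_source_unique`; universality with `B = E₀` (`isAdicComplete_mm`) gives `φ`, `θ₀`; take
  `θ = g' ∘ θ₀`.
* `hId_stable`: `map φ I_h = I_h` by `hId_map`, `hId_eq_of_iso`.  Let `φ', θ'` realise
  `g⁻¹ = g.substInvOfIsUnit`; `θ' ∘ φ'(θ) : H.map (φ' ∘ φ) → H` reduces to `g⁻¹ ∘ g = X`, so
  `φ' ∘ φ = id` by `eq_of_star_iso` (`fg_map_id`); hence `φ a ∈ I_h ⇒ a = φ' (φ a) ∈ I_h`.
-/

set_option autoImplicit false
noncomputable section
open Crest.LubinTate

namespace Crest.Agent.R227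

variable {p : ℕ} [Fact p.Prime] {n : ℕ}

theorem eq_of_star_iso {Γ : FormalGroup (kk p n)} {H : FormalGroup (LTRing p n)}
    (hH : IsUniversalDeformation p n Γ H) {B : Type} [CommRing B] [IsLocalRing B]
    [IsNoetherianRing B] [Algebra (WW p n) B]
    (hc : IsAdicComplete (IsLocalRing.maximalIdeal B) B) (r : B →+* kk p n)
    (hr : Function.Surjective r) (hk : RingHom.ker r = IsLocalRing.maximalIdeal B)
    (hra : r.comp (algebraMap (WW p n) B) = WittVector.constantCoeff)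
    (φ₁ φ₂ : LTRing p n →ₐ[WW p n] B) (h₁ : r.comp φ₁.toRingHom = LTRing.residue p n)
    (h₂ : r.comp φ₂.toRingHom = LTRing.residue p n) {θ : PowerSeries B}
    (hθ : IsFGHom (H.map φ₂.toRingHom) (H.map φ₁.toRingHom) θ)
    (hθr : PowerSeries.map r θ = PowerSeries.X) : φ₂ = φ₁ := by
  have hG : (H.map φ₁.toRingHom).map r = Γ := by rw [fg_map_map, h₁, hH.1]
  exact (hH.2 B hc r hr hk hra _ hG).unique ⟨h₂, θ, hθ, hθr⟩
    ⟨h₁, PowerSeries.X, hom_X _, PowerSeries.map_X r⟩

theorem LT2_pow_k (hn : 1 ≤ n) (M : ℕ) (c : kk p n) : c ^ (p ^ (n * M)) = c := by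
  let _ : Fintype (kk p n) := Fintype.ofFinite _
  have hc : Fintype.card (kk p n) = p ^ n := by
    rw [← Nat.card_eq_fintype_card]; exact GaloisField.card p n (by omega)
  rw [pow_mul, ← hc]
  exact FiniteField.pow_card_pow M c

theorem LT2_pow_W (hn : 1 ≤ n) (M : ℕ) {B : Type} [CommRing B] [CharP B p] (j : WW p n →+* B)
    (w : WW p n) : j w ^ (p ^ (n * M)) = j w := by
  have h1 : w - WittVector.teichmuller p (WittVector.constantCoeff w) ∈
      Ideal.span {(p : WW p n)} := by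
    rw [← WittVector.ker_constantCoeff, RingHom.mem_ker, map_sub]
    simp
  obtain ⟨w', hw'⟩ := Ideal.mem_span_singleton'.1 h1
  have h2 : j w = j (WittVector.teichmuller p (WittVector.constantCoeff w)) := by
    rw [← sub_eq_zero, ← map_sub, ← hw', map_mul, map_natCast, CharP.cast_eq_zero, mul_zero]
  rw [h2, ← map_pow, ← map_pow, LT2_pow_k hn]

theorem LT2_complete {B : Type} [CommRing B] (I : Ideal B) (hI : I ^ 2 = ⊥) :
    IsAdicComplete I B := by
  have hI' : ∀ N, 2 ≤ N → (I ^ N • ⊤ : Submodule B B) = ⊥ := fun N hN => by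
    have : I ^ N = ⊥ := le_bot_iff.1 (hI ▸ Ideal.pow_le_pow_right hN)
    rw [this, Submodule.bot_smul]
  refine { haus' := fun x hx => ?_, prec' := fun f hf => ⟨f 2, fun N => ?_⟩ }
  · have := hx 2
    rwa [hI' 2 le_rfl, SModEq.bot] at this
  · rcases le_total N 2 with h | h
    · exact hf h
    · have := hf h
      rw [hI' 2 le_rfl, SModEq.bot] at this
      rw [this]

theorem LT2_frob_fix (hn : 1 ≤ n) {Γ : FormalGroup (kk p n)}
    (hΓ : mulSeries Γ p = PowerSeries.X ^ (p ^ n)) {H : FormalGroup (LTRing p n)} [H.IsComm]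
    (hH : IsUniversalDeformation p n Γ H) {B : Type} [CommRing B] [IsLocalRing B]
    [IsNoetherianRing B] [Algebra (WW p n) B] [CharP B p]
    (hc : IsAdicComplete (IsLocalRing.maximalIdeal B) B) (r : B →+* kk p n)
    (hr : Function.Surjective r) (hk : RingHom.ker r = IsLocalRing.maximalIdeal B)
    (hra : r.comp (algebraMap (WW p n) B) = WittVector.constantCoeff)
    (π : LTRing p n →ₐ[WW p n] B) (hπ : r.comp π.toRingHom = LTRing.residue p n) (M : ℕ)
    (h : ∀ d < (p ^ n) ^ M, π (PowerSeries.coeff d (mulSeries H (p ^ M))) = 0) (a : LTRing p n) :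
    π a ^ (p ^ (n * M)) = π a := by
  have hp : p.Prime := Fact.out
  have hG : (H.map π.toRingHom).map r = Γ := by rw [fg_map_map, hπ, hH.1]
  obtain ⟨V, hV, hVe⟩ := hom_frob_iter p (hom_mulSeries (H.map π.toRingHom) (p ^ M)) (n * M)
    (fun i hi => by
      rw [mulSeries_map, PowerSeries.coeff_map]
      refine h _ ?_
      rw [← pow_mul]
      exact Nat.pow_lt_pow_right hp.one_lt hi)
  have hVr : PowerSeries.map r V = PowerSeries.X := by
    have h1 := congrArg (PowerSeries.map r) hVe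
    rw [← mulSeries_map, hG, mulSeries_pow_of_eq Γ (pow_ne_zero n hp.ne_zero) hΓ M,
      PowerSeries.map_expand, ← pow_mul,
      ← PowerSeries.expand_X (p ^ (n * M)) (pow_ne_zero _ hp.ne_zero)] at h1
    ext m
    rw [← PowerSeries.coeff_expand_mul (p ^ (n * M)) (pow_ne_zero _ hp.ne_zero), ← h1,
      PowerSeries.coeff_expand_mul]
  let φ₂ : LTRing p n →ₐ[WW p n] B :=
    { (iterateFrobenius B p (n * M)).comp π.toRingHom with
      commutes' := fun w => by
        change iterateFrobenius B p (n * M) (π (algebraMap _ _ w)) = _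
        rw [π.commutes, iterateFrobenius_def, LT2_pow_W hn] }
  have hφ₂ : φ₂.toRingHom = (iterateFrobenius B p (n * M)).comp π.toRingHom := rfl
  have h₂ : r.comp φ₂.toRingHom = LTRing.residue p n := by
    rw [hφ₂, ← hπ]
    refine RingHom.ext fun x => ?_
    simp only [RingHom.comp_apply, iterateFrobenius_def, map_pow]
    exact LT2_pow_k hn M _
  have hθ : IsFGHom (H.map φ₂.toRingHom) (H.map π.toRingHom) V := by
    rw [hφ₂, ← fg_map_map]; exact hV
  have key := eq_of_star_iso hH hc r hr hk hra π φ₂ hπ h₂ hθ hVr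
  have := congrArg (fun φ : LTRing p n →ₐ[WW p n] B => φ a) key
  rw [← iterateFrobenius_def]
  exact this

theorem rigid_of_universal (hn : 1 ≤ n) {Γ : FormalGroup (kk p n)} [Γ.IsComm]
    (hΓ : mulSeries Γ p = PowerSeries.X ^ (p ^ n)) {H : FormalGroup (LTRing p n)} [H.IsComm]
    (hH : IsUniversalDeformation p n Γ H) (M : ℕ) (𝔟 : Ideal (LTRing p n)) (hM : 1 ≤ M)
    (hp : (p : LTRing p n) ∈ 𝔟)
    (h : ∀ d < (p ^ n) ^ M, PowerSeries.coeff d (mulSeries H (p ^ M)) ∈ 𝔟) : mm p n ≤ 𝔟 := by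
  have hpp : p.Prime := Fact.out
  by_cases htop : 𝔟 = ⊤
  · rw [htop]; exact le_top
  have hb : 𝔟 ≤ mm p n := by
    rw [mm_eq_maximalIdeal]; exact IsLocalRing.le_maximalIdeal htop
  have hc : 𝔟 ⊔ mm p n ^ 2 ≤ mm p n := sup_le hb (Ideal.pow_le_self two_ne_zero)
  have hne : 𝔟 ⊔ mm p n ^ 2 ≠ ⊤ := fun h => by
    have h1 : (1 : LTRing p n) ∈ mm p n := hc (h ▸ Submodule.mem_top)
    rw [mem_mm, map_one] at h1
    exact one_ne_zero h1
  have : Nontrivial (LTRing p n ⧸ (𝔟 ⊔ mm p n ^ 2)) := Ideal.Quotient.nontrivial_iff.2 hne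
  have : IsLocalRing (LTRing p n ⧸ (𝔟 ⊔ mm p n ^ 2)) :=
    IsLocalRing.of_surjective' (Ideal.Quotient.mk _) Ideal.Quotient.mk_surjective
  have : CharP (LTRing p n ⧸ (𝔟 ⊔ mm p n ^ 2)) p := by
    rw [CharP.charP_iff_prime_eq_zero hpp, ← map_natCast (Ideal.Quotient.mk (𝔟 ⊔ mm p n ^ 2)),
      Ideal.Quotient.eq_zero_iff_mem]
    exact Ideal.mem_sup_left hp
  let r : (LTRing p n ⧸ (𝔟 ⊔ mm p n ^ 2)) →+* kk p n :=
    Ideal.Quotient.lift _ (LTRing.residue p n) fun a ha => hc ha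
  have hr : Function.Surjective r := fun c => by
    obtain ⟨a, ha⟩ := residue_surjective p n c
    exact ⟨Ideal.Quotient.mk _ a, ha⟩
  have hk := IsLocalRing.ker_eq_maximalIdeal r hr
  have hsq : IsLocalRing.maximalIdeal (LTRing p n ⧸ (𝔟 ⊔ mm p n ^ 2)) ^ 2 = ⊥ := by
    rw [← hk, sq (RingHom.ker r), eq_bot_iff, Ideal.mul_le]
    intro x hx y hy
    obtain ⟨x, rfl⟩ := Ideal.Quotient.mk_surjective x
    obtain ⟨y, rfl⟩ := Ideal.Quotient.mk_surjective y
    rw [← map_mul, Ideal.mem_bot, Ideal.Quotient.eq_zero_iff_mem]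
    refine Ideal.mem_sup_right ?_
    rw [sq]
    exact Ideal.mul_mem_mul hx hy
  have hra : r.comp (algebraMap (WW p n) (LTRing p n ⧸ (𝔟 ⊔ mm p n ^ 2))) =
      WittVector.constantCoeff := RingHom.ext fun w => residue_algebraMap p n w
  have key := LT2_frob_fix hn hΓ hH (LT2_complete _ hsq) r hr hk hra
    (Ideal.Quotient.mkₐ (WW p n) (𝔟 ⊔ mm p n ^ 2)) (RingHom.ext fun _ => rfl) M
    (fun d hd => Ideal.Quotient.eq_zero_iff_mem.2 (Ideal.mem_sup_left (h d hd)))
  refine Submodule.le_of_le_smul_of_le_jacobson_bot (I := mm p n) (IsNoetherian.noetherian _) ?_ ?_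
  · rw [IsLocalRing.jacobson_eq_maximalIdeal ⊥ bot_ne_top, mm_eq_maximalIdeal]
  · intro a ha
    rw [smul_eq_mul, ← sq, ← Ideal.Quotient.eq_zero_iff_mem]
    have h1 := key a
    rw [Ideal.Quotient.mkₐ_eq_mk] at h1
    rw [← h1, ← map_pow, Ideal.Quotient.eq_zero_iff_mem]
    refine Ideal.mem_sup_right (Ideal.pow_le_pow_right ?_ (Ideal.pow_mem_pow ha _))
    calc 2 ≤ p ^ 1 := by rw [pow_one]; exact hpp.two_le
      _ ≤ p ^ (n * M) := Nat.pow_le_pow_right hpp.pos (Nat.mul_pos hn hM)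

theorem vv_mem_mm {Γ : FormalGroup (kk p n)} (hΓ : mulSeries Γ p = PowerSeries.X ^ (p ^ n))
    {H : FormalGroup (LTRing p n)} (hH : H.map (LTRing.residue p n) = Γ) {h : ℕ} (hh : h < n) :
    vv p H h ∈ mm p n := by
  rw [mem_mm, ← vv_map, hH, vv, hΓ, PowerSeries.coeff_X_pow, if_neg]
  exact (Nat.pow_lt_pow_right (Fact.out : p.Prime).one_lt hh).ne

theorem hId_top (hn : 1 ≤ n) {Γ : FormalGroup (kk p n)} [Γ.IsComm]
    (hΓ : mulSeries Γ p = PowerSeries.X ^ (p ^ n)) {H : FormalGroup (LTRing p n)} [H.IsComm]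
    (hH : IsUniversalDeformation p n Γ H) : hId p H n = mm p n := by
  refine le_antisymm ((hId_le_iff p H n _).2 fun i hi => vv_mem_mm hΓ hH.1 hi) ?_
  refine rigid_of_universal hn hΓ hH 1 _ le_rfl ?_ ?_
  · rw [← vv_zero p H]; exact vv_mem_hId p H hn
  · simp only [pow_one]
    exact (hId_le_iff_coeff p H n _).1 le_rfl

theorem exists_stabilizerMap {Γ : FormalGroup (kk p n)} {H : FormalGroup (LTRing p n)}
    (hH : IsUniversalDeformation p n Γ H) {g : PowerSeries (kk p n)} (hg : IsFGAut Γ g) :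
    ∃ φ : LTRing p n →ₐ[WW p n] LTRing p n, IsStabilizerMap p n H g φ := by
  obtain ⟨g', hg0, hg'⟩ := exists_lift_series p n g hg.1.1
  have hu : IsUnit (PowerSeries.coeff 1 g') := by
    apply isUnit_of_residue_ne_zero
    rw [← PowerSeries.coeff_map, hg']
    exact hg.2.ne_zero
  obtain ⟨G, hG⟩ := exists_conj H hg0 hu
  have hGr : G.map (LTRing.residue p n) = Γ := by
    have h1 := hom_map hG (LTRing.residue p n)
    rw [hg', hH.1] at h1
    exact hom_source_unique h1 hg.1 hg.2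
  obtain ⟨φ, ⟨hφ, θ, hθ, hθr⟩, -⟩ := hH.2 (LTRing p n) (isAdicComplete_mm p n)
    (LTRing.residue p n) (residue_surjective p n) (mm_eq_maximalIdeal p n)
    (residue_comp_algebraMap p n) G hGr
  refine ⟨φ, hφ, _, hom_comp hθ hG, ?_⟩
  have h2 := PowerSeries.map_subst (hom_hasSubst hθ) (h := LTRing.residue p n) g'
  refine h2.trans ?_
  rw [hg']
  change PowerSeries.subst (PowerSeries.map (LTRing.residue p n) θ) g = g
  rw [hθr, PowerSeries.X_subst]

/-- A stabilizer map preserves the height ideals (no universality needed). -/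
theorem map_hId_of_stabilizerMap {H : FormalGroup (LTRing p n)} [H.IsComm]
    {g : PowerSeries (kk p n)} (hg : PowerSeries.coeff 1 g ≠ 0)
    {φ : LTRing p n →ₐ[WW p n] LTRing p n} (hφ : IsStabilizerMap p n H g φ) (h : ℕ) :
    (hId p H h).map φ.toRingHom = hId p H h := by
  obtain ⟨-, θ, hθ, hθr⟩ := hφ
  have hu : IsUnit (PowerSeries.coeff 1 θ) := by
    apply isUnit_of_residue_ne_zero
    rw [← PowerSeries.coeff_map, hθr]
    exact hg
  rw [← hId_map, hId_eq_of_iso p hθ hu]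

theorem hId_stable {Γ : FormalGroup (kk p n)} {H : FormalGroup (LTRing p n)} [H.IsComm]
    (hH : IsUniversalDeformation p n Γ H) (M h : ℕ) : IsStableIdeal p n Γ H M (hId p H h) := by
  intro g φ hg _ hφ
  have hg' : IsFGAut Γ (g.substInvOfIsUnit hg.2) :=
    ⟨hom_inv hg.1 hg.2, by rw [PowerSeries.coeff_one_substInvOfIsUnit]; exact Units.isUnit _⟩
  obtain ⟨φ', hφ'⟩ := exists_stabilizerMap hH hg'
  have m1 := map_hId_of_stabilizerMap hg.2.ne_zero hφ h
  have m2 := map_hId_of_stabilizerMap hg'.2.ne_zero hφ' h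
  obtain ⟨hr, θ, hθ, hθr⟩ := hφ
  obtain ⟨hr', θ', hθ', hθr'⟩ := hφ'
  have hcomp : φ'.comp φ = AlgHom.id _ _ := by
    have h1 := hom_comp (hom_map hθ φ'.toRingHom) hθ'
    rw [fg_map_map] at h1
    have e1 : (φ'.comp φ).toRingHom = φ'.toRingHom.comp φ.toRingHom := rfl
    have e2 : (AlgHom.id (WW p n) (LTRing p n)).toRingHom = RingHom.id _ := rfl
    refine eq_of_star_iso hH (isAdicComplete_mm p n) (LTRing.residue p n) (residue_surjective p n)
      (mm_eq_maximalIdeal p n) (residue_comp_algebraMap p n) _ _ ?_ ?_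
      (θ := PowerSeries.subst (PowerSeries.map φ'.toRingHom θ) θ') ?_ ?_
    · rw [e2, RingHom.comp_id]
    · rw [e1, ← RingHom.comp_assoc, hr', hr]
    · rw [e1, e2, fg_map_id]; exact h1
    · have h2 := PowerSeries.map_subst (hom_hasSubst (hom_map hθ φ'.toRingHom))
        (h := LTRing.residue p n) θ'
      refine h2.trans ?_
      rw [hθr']
      change PowerSeries.subst (PowerSeries.map (LTRing.residue p n)
        (PowerSeries.map φ'.toRingHom θ)) _ = _
      rw [← RingHom.comp_apply, ← PowerSeries.map_comp, hr', hθr]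
      exact PowerSeries.subst_substInvOfIsUnit_left g hg.1.1 hg.2
  refine le_antisymm (fun a ha => ?_) (Ideal.map_le_iff_le_comap.1 m1.le)
  have h3 : φ' (φ a) = a := congrArg (fun ψ : LTRing p n →ₐ[WW p n] LTRing p n => ψ a) hcomp
  rw [← h3, ← m2]
  exact Ideal.mem_map_of_mem _ ha

end Crest.Agent.R227
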