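import Crest.Agent.R227.Point1

/-!
# R227 / Point2: injective points with values in a complete algebraically closed field

Recipe.
* `isAlgClosed_of_denseRange` (any characteristic; no ultrametric hypothesis needed).  Let `P` be
  monic of degree `d ≥ 1` over `C`.  Choose monic `P_j` over `L` of degree `d` with coefficients
  `ε_j`-close to those of `P` (`Polynomial.exists_monic_and_natDegree_eq_and_norm_map_algebraMap_coeff_sub_lt`
  or by hand).  Roots of `P_j` are bounded by `B = 2 + ∑ ‖coeff P‖` (Cauchy bound; or avoid it by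
  using `Polynomial.exists_roots_norm_sub_lt_of_norm_coeff_sub_lt` in
  `Mathlib/Analysis/Normed/Field/Approximation.lean`).  Given a root `z_j` of `P_j`,
  `‖P_{j+1}(z_j)‖ ≤ 2 ε_j d B ^ d` and `P_{j+1}(z_j) = ∏ (z_j - root)`, so some root `z_{j+1}` of
  `P_{j+1}` is within `(2 ε_j d B ^ d) ^ (1/d)`; choose `ε_j` with this `≤ 2⁻¹ ^ j`; the limit
  (`cauchySeq_of_le_geometric_two`) is a root of `P`.  Conclude with `IsAlgClosed.of_exists_root`.
* `exists_point`: `L = AlgebraicClosure (FractionRing R)`, `N` from `Point1`,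
  `let := N.toNormedField` (or the type synonym `WithAbs N`), ultrametric by
  `IsUltrametricDist.isUltrametricDist_of_isNonarchimedean_norm`,
  `C = UniformSpace.Completion L` (`NormedField` instance in `Analysis/Normed/Module/Completion`,
  ultrametric by `UniformSpace.Completion.induction_on₂` or an existing instance),
  `x = coeRingHom ∘ algebraMap ∘ algebraMap`, `UniformSpace.Completion.norm_coe`.
-/

set_option autoImplicit false
noncomputable section

namespace Crest.Agent.R227

open Polynomial in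
theorem point2_eval_sub {C : Type*} [NormedField C] {P Q : C[X]} {d : ℕ} (hP : P.natDegree = d)
    (hQ : Q.natDegree = d) {ε B : ℝ} (hB : 1 ≤ B) (h : ∀ n, ‖Q.coeff n - P.coeff n‖ ≤ ε) {w : C}
    (hw : ‖w‖ ≤ B) : ‖Q.eval w - P.eval w‖ ≤ (d + 1) * B ^ d * ε := by
  rw [eval_eq_sum_range, eval_eq_sum_range, hP, hQ, ← Finset.sum_sub_distrib]
  refine (norm_sum_le _ _).trans ?_
  have h1 : ∀ i ∈ Finset.range (d + 1), ‖Q.coeff i * w ^ i - P.coeff i * w ^ i‖ ≤ B ^ d * ε := by
    intro i hi
    rw [← sub_mul, norm_mul, norm_pow, mul_comm]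
    refine mul_le_mul ((pow_le_pow_left₀ (norm_nonneg _) hw i).trans (pow_le_pow_right₀ hB ?_))
      (h i) (norm_nonneg _) (by positivity)
    exact Nat.lt_succ_iff.1 (Finset.mem_range.1 hi)
  refine (Finset.sum_le_sum h1).trans ?_
  rw [Finset.sum_const, Finset.card_range, nsmul_eq_mul, Nat.cast_succ, mul_assoc]

open Polynomial in
theorem point2_near {C : Type*} [NormedField C] {Q : C[X]} (hQ : Q.Monic) (hs : Q.Splits)
    (hd : Q.natDegree ≠ 0) (z : C) :
    ∃ b, Q.eval b = 0 ∧ ‖z - b‖ ^ Q.natDegree ≤ ‖Q.eval z‖ := by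
  classical
  have hc := hs.natDegree_eq_card_roots
  have hne : Q.roots.toFinset.Nonempty := by
    rw [Multiset.toFinset_nonempty, ← Multiset.card_pos, ← hc]
    exact Nat.pos_of_ne_zero hd
  obtain ⟨b, hb, hmin⟩ := Finset.exists_min_image _ (fun b => ‖z - b‖) hne
  refine ⟨b, (mem_roots hQ.ne_zero).1 (Multiset.mem_toFinset.1 hb), ?_⟩
  have h1 := Multiset.prod_map_le_prod_map₀ (s := Q.roots) (fun _ => ‖z - b‖) (fun b' => ‖z - b'‖)
    (fun _ _ => norm_nonneg _) fun b' hb' => hmin b' (Multiset.mem_toFinset.2 hb')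
  rw [Multiset.map_const', Multiset.prod_replicate, ← hc] at h1
  refine h1.trans_eq ?_
  rw [hs.eval_eq_prod_roots_of_monic hQ]
  exact (Q.roots.prod_hom' (normHom : C →*₀ ℝ) fun x => z - x)

open Polynomial in
theorem point2_step {L C : Type*} [Field L] [IsAlgClosed L] [NormedField C] (i : L →+* C)
    (hi : DenseRange i) {P : C[X]} (hP : P.Monic) (hd : P.natDegree ≠ 0) (z : C) {η : ℝ}
    (hη : 0 < η) : ∃ b, ‖z - b‖ ^ P.natDegree ≤ ‖P.eval z‖ + η ∧ ‖P.eval b‖ ≤ η := by
  let : Algebra L C := i.toAlgebra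
  set d := P.natDegree with hdd
  set B := ‖z‖ + (‖P.eval z‖ + η + 1) with hB
  have hB1 : 1 ≤ B := by
    have := norm_nonneg z
    have := norm_nonneg (P.eval z)
    linarith
  have hA : 0 < ((d : ℝ) + 1) * B ^ d := by positivity
  obtain ⟨g, hg, hgd, hgc⟩ := exists_monic_and_natDegree_eq_and_norm_map_algebraMap_coeff_sub_lt
    (K := L) hi hP (div_pos hη hA)
  have hQd : (g.map (algebraMap L C)).natDegree = d := by
    rw [hg.natDegree_map, ← hgd]
  have key : ∀ w : C, ‖w‖ ≤ B → ‖(g.map (algebraMap L C)).eval w - P.eval w‖ ≤ η := by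
    intro w hw
    have := point2_eval_sub rfl hQd hB1 (fun n => (hgc n).le) hw
    rwa [mul_div_cancel₀ _ hA.ne'] at this
  obtain ⟨b, hb, hzb⟩ := point2_near (hg.map (algebraMap L C)) ((IsAlgClosed.splits g).map _)
    (by rwa [hQd]) z
  rw [hQd] at hzb
  have h1 : ‖z - b‖ ^ d ≤ ‖P.eval z‖ + η := by
    have h2 := key z (by
      have := norm_nonneg (P.eval z)
      linarith)
    have h3 := norm_le_norm_add_norm_sub' ((g.map (algebraMap L C)).eval z) (P.eval z)
    linarith
  refine ⟨b, h1, ?_⟩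
  have h2 : ‖z - b‖ ≤ ‖P.eval z‖ + η + 1 := by
    rcases le_total ‖z - b‖ 1 with h | h
    · have := norm_nonneg (P.eval z)
      linarith
    · have := le_self_pow₀ h hd
      linarith
  have h3 : ‖b‖ ≤ B := by
    have := norm_le_norm_add_norm_sub z b
    linarith
  have h4 := key b h3
  rwa [hb, zero_sub, norm_neg] at h4

theorem isAlgClosed_of_denseRange {L C : Type*} [Field L] [IsAlgClosed L] [NormedField C]
    [CompleteSpace C] (i : L →+* C) (hi : DenseRange i) : IsAlgClosed C := by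
  refine IsAlgClosed.of_exists_root C fun P hP hirr => ?_
  have hd : P.natDegree ≠ 0 := hirr.natDegree_pos.ne'
  set d := P.natDegree with hdd
  have hη : ∀ n : ℕ, 0 < ((1 / 2 : ℝ) ^ n) ^ d / 2 := fun n => by positivity
  choose nx h1 h2 using fun (n : ℕ) (z : C) => point2_step i hi hP hd z (hη n)
  let y : ℕ → C := fun n => Nat.rec (nx 0 0) (fun n z => nx (n + 1) z) n
  have hy : ∀ n, ‖P.eval (y n)‖ ≤ ((1 / 2 : ℝ) ^ n) ^ d / 2 := by
    intro n
    cases n with
    | zero => exact h2 0 0
    | succ n => exact h2 (n + 1) (y n)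
  have hc : CauchySeq y := by
    refine cauchySeq_of_le_geometric (1 / 2) 1 (by norm_num) fun n => ?_
    rw [one_mul, dist_eq_norm]
    have h3 := h1 (n + 1) (y n)
    have h4 : ((1 / 2 : ℝ) ^ (n + 1)) ^ d ≤ ((1 / 2 : ℝ) ^ n) ^ d :=
      pow_le_pow_left₀ (by positivity)
        (pow_le_pow_of_le_one (by norm_num) (by norm_num) (Nat.le_succ n)) d
    refine le_of_pow_le_pow_left₀ hd (by positivity) ?_
    have h5 := hy n
    change ‖y n - nx (n + 1) (y n)‖ ^ d ≤ _
    linarith
  obtain ⟨z, hz⟩ := cauchySeq_tendsto_of_complete hc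
  refine ⟨z, ?_⟩
  have h3 : Filter.Tendsto (fun n => ‖P.eval (y n)‖) Filter.atTop (nhds ‖P.eval z‖) :=
    ((P.continuous.tendsto z).comp hz).norm
  have h4 : Filter.Tendsto (fun n : ℕ => ((1 / 2 : ℝ) ^ n) ^ d / 2) Filter.atTop (nhds 0) := by
    have := ((tendsto_pow_atTop_nhds_zero_of_lt_one (r := (1 / 2 : ℝ)) (by norm_num)
      (by norm_num)).pow d).div_const 2
    rwa [zero_pow hd, zero_div] at this
  exact norm_le_zero_iff.1 (le_of_tendsto_of_tendsto' h3 h4 hy)

theorem exists_point (R : Type) [CommRing R] [IsDomain R] [IsLocalRing R] [IsNoetherianRing R]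
    (hR : IsLocalRing.maximalIdeal R ≠ ⊥) :
    ∃ (C : Type) (_ : NormedField C) (_ : IsUltrametricDist C) (_ : CompleteSpace C)
      (_ : IsAlgClosed C) (x : R →+* C), Function.Injective x ∧ (∀ a, ‖x a‖ ≤ 1) ∧
      ∀ a ∈ IsLocalRing.maximalIdeal R, ‖x a‖ < 1 := by
  let L : Type := AlgebraicClosure (FractionRing R)
  obtain ⟨V, a, ha0, ha, h1, h2, h3, h4⟩ := exists_valuationSubring_arch R hR L
  obtain ⟨N, hN, hN1, hN2⟩ := exists_norm_of_arch V a ha0 ha h3 h4
  let : NormedField L := N.toNormedField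
  have : IsUltrametricDist L :=
    IsUltrametricDist.isUltrametricDist_of_isNonarchimedean_norm hN
  let j : L →+* UniformSpace.Completion L := UniformSpace.Completion.coeRingHom
  have hj : ∀ z : L, ‖j z‖ = N z := fun z => UniformSpace.Completion.norm_coe z
  have hU : IsUltrametricDist (UniformSpace.Completion L) := by
    refine ⟨fun x y z => ?_⟩
    refine UniformSpace.Completion.induction_on₃ x y z (isClosed_le (by fun_prop) (by fun_prop)) ?_
    intro a b c
    simp only [UniformSpace.Completion.dist_eq]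
    exact IsUltrametricDist.dist_triangle_max a b c
  refine ⟨UniformSpace.Completion L, inferInstance, hU, inferInstance,
    isAlgClosed_of_denseRange j UniformSpace.Completion.denseRange_coe,
    j.comp ((algebraMap (FractionRing R) L).comp (algebraMap R (FractionRing R))), ?_,
    fun r => ?_, fun r hr => ?_⟩
  · exact j.injective.comp ((algebraMap (FractionRing R) L).injective.comp
      (IsFractionRing.injective R (FractionRing R)))
  · exact (hj _).trans_le (hN1 _ (h1 r))
  · exact (hj _).trans_lt (hN2 _ (h2 r hr))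

/-- Version for a prime `P` strictly below the maximal ideal (apply `exists_point` to `R ⧸ P`). -/
theorem exists_point_prime (R : Type) [CommRing R] [IsLocalRing R] [IsNoetherianRing R]
    (P : Ideal R) [P.IsPrime] (hP : ∃ a ∈ IsLocalRing.maximalIdeal R, a ∉ P) :
    ∃ (C : Type) (_ : NormedField C) (_ : IsUltrametricDist C) (_ : CompleteSpace C)
      (_ : IsAlgClosed C) (x : R →+* C), (∀ a, x a = 0 ↔ a ∈ P) ∧ (∀ a, ‖x a‖ ≤ 1) ∧
      ∀ a ∈ IsLocalRing.maximalIdeal R, ‖x a‖ < 1 := by
  have : IsLocalRing (R ⧸ P) :=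
    IsLocalRing.of_surjective' (Ideal.Quotient.mk P) Ideal.Quotient.mk_surjective
  have : IsLocalHom (Ideal.Quotient.mk P) :=
    IsLocalHom.of_surjective _ Ideal.Quotient.mk_surjective
  have hm : ∀ a ∈ IsLocalRing.maximalIdeal R,
      Ideal.Quotient.mk P a ∈ IsLocalRing.maximalIdeal (R ⧸ P) := fun a ha =>
    map_nonunit (Ideal.Quotient.mk P) a ha
  obtain ⟨a, ha, haP⟩ := hP
  obtain ⟨C, i1, i2, i3, i4, x, hx, h1, h2⟩ := exists_point (R ⧸ P) fun h => by
    have := hm a ha
    rw [h, Ideal.mem_bot, Ideal.Quotient.eq_zero_iff_mem] at this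
    exact haP this
  refine ⟨C, i1, i2, i3, i4, x.comp (Ideal.Quotient.mk P), fun b => ?_, fun b => h1 _,
    fun b hb => h2 _ (hm b hb)⟩
  rw [RingHom.comp_apply, map_eq_zero_iff x hx, Ideal.Quotient.eq_zero_iff_mem]

end Crest.Agent.R227
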