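import Crest.Agent.R227.Eval
import Crest.Agent.R227.FG1b

/-!
# R227 / Pts: the monoid of points of norm `< 1` of a formal group law

Recipe.  `ev_subst'` is `ev_eq_of_ringHom` applied to `(evHom x hx z hz).comp (substAlgHom ha)`
(the constant coefficient of `a s` is nilpotent, so `x` kills it).  The monoid laws: evaluate
`F.assoc'`, `F.comm'`, `F.add_zero`, `F.zero_add` for variables `X 0, X 1, X 2` at the point
`![a, b, c]` with `ev_subst'`, `ev_X`.  `evPt` is additive by `ev_subst'`; all the remaining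
statements follow by writing `linS`, `gSer`, `mulSeries` as values of formal points and using
`map_sum`, `map_nsmul`, `map_add` of `evPt`.  `norm_add_sub_le`: `fg_subst_sub_dvd` for
`X 0, X 1`, `ev_mul`, `norm_ev_le_one`.  `ev1_inj`: evaluate `f⁻¹ ∘ f = X` (`ev_psubst`).
-/

set_option autoImplicit false
set_option linter.unusedSectionVars false
noncomputable section
open Crest.LubinTate

namespace Crest.Agent.R227

variable {R C : Type*} [CommRing R] [NormedField C] [IsUltrametricDist C] [CompleteSpace C]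

theorem pts_norm_lt {τ : Type*} [Fintype τ] (x : R →+* C) (hx : ∀ r, ‖x r‖ ≤ 1)
    (z : τ → C) (hz : ∀ i, ‖z i‖ < 1) {a : MvPowerSeries τ R}
    (ha : IsNilpotent (MvPowerSeries.constantCoeff a)) : ‖ev x z a‖ < 1 :=
  norm_ev_lt_one x hx z hz _ (by rw [(ha.map x).eq_zero, norm_zero]; exact one_pos)

theorem ev_subst' {σ τ : Type*} [Fintype σ] [Fintype τ] (x : R →+* C) (hx : ∀ r, ‖x r‖ ≤ 1)
    (z : τ → C) (hz : ∀ i, ‖z i‖ < 1) (a : σ → MvPowerSeries τ R)
    (ha : MvPowerSeries.HasSubst a) (f : MvPowerSeries σ R) :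
    ev x z (MvPowerSeries.subst a f) = ev x (fun s => ev x z (a s)) f := by
  let y : MvPowerSeries σ R →+* C :=
    (evHom x hx z hz).comp (MvPowerSeries.substAlgHom (R := R) ha).toRingHom
  have hy : ∀ g, y g = ev x z (MvPowerSeries.subst a g) := fun g => by
    simp [y]
  have hyX : ∀ s, y (MvPowerSeries.X s) = ev x z (a s) := fun s => by
    rw [hy, MvPowerSeries.subst_X ha]
  have hyC : y.comp MvPowerSeries.C = x := by
    ext r
    rw [RingHom.comp_apply, hy, MvPowerSeries.subst_C, ev_C]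
  have h := ev_eq_of_ringHom y (fun g => by rw [hy]; exact norm_ev_le_one x hx z hz _)
    (fun s => by
      rw [hyX]
      exact pts_norm_lt x hx z hz (ha.const_coeff s)) f
  rw [hy, hyC] at h
  simpa only [hyX] using h

theorem norm_ev_lt_one_of_hasSubst {τ : Type*} [Fintype τ] (x : R →+* C) (hx : ∀ r, ‖x r‖ ≤ 1)
    (z : τ → C) (hz : ∀ i, ‖z i‖ < 1) {a : MvPowerSeries τ R} (ha : PowerSeries.HasSubst a) :
    ‖ev x z a‖ < 1 := by
  exact pts_norm_lt x hx z hz ha

theorem pts_ev_two {τ : Type*} [Fintype τ] (x : R →+* C) (hx : ∀ r, ‖x r‖ ≤ 1)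
    (z : τ → C) (hz : ∀ i, ‖z i‖ < 1) {a b : MvPowerSeries τ R} (ha : PowerSeries.HasSubst a)
    (hb : PowerSeries.HasSubst b) (f : MvPowerSeries (Fin 2) R) :
    ev x z (f.subst ![a, b]) = ev x ![ev x z a, ev x z b] f := by
  rw [ev_subst' x hx z hz _ (fg1_hs2 ha hb)]
  congr 1
  funext s
  fin_cases s <;> rfl

theorem pts_ev_psubst {τ : Type*} [Fintype τ] (x : R →+* C) (hx : ∀ r, ‖x r‖ ≤ 1)
    (z : τ → C) (hz : ∀ i, ‖z i‖ < 1) {a : MvPowerSeries τ R} (ha : PowerSeries.HasSubst a)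
    (f : PowerSeries R) : ev x z (PowerSeries.subst a f) = ev1 x (ev x z a) f :=
  ev_subst' x hx z hz _ ha.const f

theorem pts_ev_zero {τ : Type*} [Fintype τ] (x : R →+* C) (z : τ → C) :
    ev x z (0 : MvPowerSeries τ R) = 0 := by
  simpa using ev_C x z 0

/-- Points of `F` with values in the maximal ideal of `C`, along `x`. -/
@[nolint unusedArguments]
def Pts (_F : FormalGroup R) (x : R →+* C) (_hx : ∀ r, ‖x r‖ ≤ 1) : Type _ := {z : C // ‖z‖ < 1}

namespace Pts

variable {F G : FormalGroup R} {x : R →+* C} {hx : ∀ r, ‖x r‖ ≤ 1}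

/-- The point with coordinate `z`. -/
def mk (F : FormalGroup R) (hx : ∀ r, ‖x r‖ ≤ 1) (z : C) (hz : ‖z‖ < 1) : Pts F x hx := ⟨z, hz⟩

@[simp] theorem mk_val (z : C) (hz : ‖z‖ < 1) : (mk F hx z hz).val = z := rfl

theorem ext {a b : Pts F x hx} (h : a.val = b.val) : a = b := Subtype.ext h

instance : Add (Pts F x hx) where
  add a b := ⟨ev x ![a.val, b.val] F.toPowerSeries,
    norm_ev_lt_one x hx _ (fun i => by fin_cases i; exacts [a.prop, b.prop]) _
      (by simp [F.zero_constantCoeff])⟩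

instance : Zero (Pts F x hx) where
  zero := ⟨0, by simp⟩

theorem add_val (a b : Pts F x hx) : (a + b).val = ev x ![a.val, b.val] F.toPowerSeries := rfl

@[simp] theorem zero_val : (0 : Pts F x hx).val = 0 := rfl

/-- evaluation of a formal point -/
def evP {τ : Type*} [Fintype τ] (z : τ → Pts F x hx) (a : F.Point τ) : Pts F x hx :=
  ⟨ev x (fun i => (z i).val) a.val,
    norm_ev_lt_one_of_hasSubst x hx _ (fun i => (z i).prop) a.prop⟩

theorem evP_add {τ : Type*} [Fintype τ] (z : τ → Pts F x hx) (a b : F.Point τ) :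
    evP z (a + b) = evP z a + evP z b :=
  ext (pts_ev_two x hx _ (fun i => (z i).prop) a.prop b.prop _)

theorem evP_zero {τ : Type*} [Fintype τ] (z : τ → Pts F x hx) : evP z 0 = 0 :=
  ext (pts_ev_zero x _)

theorem evP_var {τ : Type*} [Fintype τ] (z : τ → Pts F x hx) (i : τ) :
    evP z (varPt F i) = z i :=
  ext (ev_X x _ i)

instance : AddMonoid (Pts F x hx) where
  add_assoc a b c := by
    have h := congrArg (evP ![a, b, c]) (add_assoc (varPt F 0) (varPt F 1) (varPt F 2))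
    simp only [evP_add, evP_var] at h
    exact h
  zero_add a := by
    have h := congrArg (evP fun _ : Unit => a) (zero_add (varPt F ()))
    simpa only [evP_add, evP_var, evP_zero] using h
  add_zero a := by
    have h := congrArg (evP fun _ : Unit => a) (add_zero (varPt F ()))
    simpa only [evP_add, evP_var, evP_zero] using h
  nsmul := nsmulRec

instance [F.IsComm] : AddCommMonoid (Pts F x hx) where
  add_comm a b := by
    have h := congrArg (evP ![a, b]) (add_comm (varPt F 0) (varPt F 1))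
    simp only [evP_add, evP_var] at h
    exact h

theorem norm_add_sub_le (a b : Pts F x hx) :
    ‖(a + b).val - (a.val + b.val)‖ ≤ ‖a.val‖ * ‖b.val‖ := by
  have hz : ∀ i, ‖![a.val, b.val] i‖ < 1 := fun i => by fin_cases i; exacts [a.prop, b.prop]
  obtain ⟨g, hg⟩ := fg_subst_sub_dvd F (PowerSeries.HasSubst.X (S := R) (0 : Fin 2))
    (PowerSeries.HasSubst.X (1 : Fin 2))
  rw [fg1_subst_XX] at hg
  have h := congrArg (ev x ![a.val, b.val]) hg
  rw [ev_sub x hx _ hz, ev_add x hx _ hz, ev_mul x hx _ hz, ev_mul x hx _ hz, ev_X, ev_X] at h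
  rw [add_val]
  refine (congrArg norm h).le.trans ?_
  rw [norm_mul, norm_mul]
  exact mul_le_of_le_one_right (by positivity) (norm_ev_le_one x hx _ hz g)

theorem norm_add_le (a b : Pts F x hx) : ‖(a + b).val‖ ≤ max ‖a.val‖ ‖b.val‖ := by
  have h : (a + b).val = ((a + b).val - (a.val + b.val)) + (a.val + b.val) := by ring
  rw [h]
  refine (IsUltrametricDist.norm_add_le_max _ _).trans
    (max_le ?_ (IsUltrametricDist.norm_add_le_max _ _))
  exact (norm_add_sub_le a b).trans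
    ((mul_le_of_le_one_right (norm_nonneg _) b.prop.le).trans (le_max_left _ _))

theorem norm_nsmul_le (m : ℕ) (a : Pts F x hx) : ‖(m • a).val‖ ≤ ‖a.val‖ := by
  induction m with
  | zero => rw [zero_nsmul, zero_val, norm_zero]; exact norm_nonneg _
  | succ m ih => rw [succ_nsmul]; exact (norm_add_le _ _).trans (max_le ih le_rfl)

theorem norm_sum_le [F.IsComm] {ι : Type*} (s : Finset ι) (a : ι → Pts F x hx) {ρ : ℝ}
    (hρ : 0 ≤ ρ) (h : ∀ i ∈ s, ‖(a i).val‖ ≤ ρ) : ‖(∑ i ∈ s, a i).val‖ ≤ ρ := by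
  refine Finset.sum_induction a (fun t : Pts F x hx => ‖t.val‖ ≤ ρ) ?_ ?_ h
  · exact fun s t hs ht => (norm_add_le s t).trans (max_le hs ht)
  · rw [zero_val, norm_zero]; exact hρ

theorem nsmul_val (m : ℕ) (a : Pts F x hx) : (m • a).val = ev1 x a.val (mulSeries F m) := by
  induction m with
  | zero => rw [zero_nsmul, zero_val]; exact (pts_ev_zero x _).symm
  | succ m ih =>
    rw [succ_nsmul, add_val, ih, mulSeries]
    have h := pts_ev_two x hx (fun _ : Unit => a.val) (fun _ => a.prop)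
      (PowerSeries.HasSubst.of_constantCoeff_zero' (constantCoeff_mulSeries F m))
      PowerSeries.HasSubst.X' F.toPowerSeries
    rw [ev1, ev1, h]
    congr 2
    exact congrArg (fun t => ![t]) (ev1_X x a.val).symm

end Pts

variable {F G : FormalGroup R} {x : R →+* C}

/-- Evaluation of formal points. -/
def evPt (F : FormalGroup R) (hx : ∀ r, ‖x r‖ ≤ 1) {τ : Type*} [Fintype τ] (z : τ → C)
    (hz : ∀ i, ‖z i‖ < 1) : F.Point τ →+ Pts F x hx where
  toFun a := ⟨ev x z a.val, norm_ev_lt_one_of_hasSubst x hx z hz a.prop⟩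
  map_zero' := Pts.ext (pts_ev_zero x z)
  map_add' a b := Pts.ext (pts_ev_two x hx z hz a.prop b.prop _)

@[simp] theorem evPt_val (hx : ∀ r, ‖x r‖ ≤ 1) {τ : Type*} [Fintype τ] (z : τ → C)
    (hz : ∀ i, ‖z i‖ < 1) (a : F.Point τ) : (evPt F hx z hz a).val = ev x z a.val := rfl

theorem evPt_varPt (hx : ∀ r, ‖x r‖ ≤ 1) {τ : Type*} [Fintype τ] (z : τ → C)
    (hz : ∀ i, ‖z i‖ < 1) (i : τ) : evPt F hx z hz (varPt F i) = Pts.mk F hx (z i) (hz i) :=
  Pts.ext (ev_X x z i)

/-- Action of a homomorphism on points. -/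
def homAct (hx : ∀ r, ‖x r‖ ≤ 1) {f : PowerSeries R} (hf : IsFGHom F G f) :
    Pts F x hx →+ Pts G x hx where
  toFun a := ⟨ev1 x a.val f, lt_of_le_of_lt (norm_ev1_le_self x hx _ a.prop f hf.1) a.prop⟩
  map_zero' := Pts.ext (norm_le_zero_iff.1
    ((norm_ev1_le_self x hx 0 (by simp) f hf.1).trans norm_zero.le))
  map_add' a b := by
    have hz : ∀ i, ‖![a.val, b.val] i‖ < 1 := fun i => by fin_cases i; exacts [a.prop, b.prop]
    have h := congrArg (ev x ![a.val, b.val]) hf.2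
    rw [pts_ev_psubst x hx _ hz (fg1_hasSubst_fg F), pts_ev_two x hx _ hz
      (hasSubst_psubst (PowerSeries.HasSubst.X _) hf.1)
      (hasSubst_psubst (PowerSeries.HasSubst.X _) hf.1),
      pts_ev_psubst x hx _ hz (PowerSeries.HasSubst.X _),
      pts_ev_psubst x hx _ hz (PowerSeries.HasSubst.X _), ev_X, ev_X] at h
    exact Pts.ext h

@[simp] theorem homAct_val (hx : ∀ r, ‖x r‖ ≤ 1) {f : PowerSeries R} (hf : IsFGHom F G f)
    (a : Pts F x hx) : (homAct hx hf a).val = ev1 x a.val f := rfl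

theorem ev_linS [F.IsComm] (hx : ∀ r, ‖x r‖ ≤ 1) {r : ℕ} (w : Fin r → C) (hw : ∀ i, ‖w i‖ < 1)
    (α : Fin r → ℕ) : ev x w (linS F α) = (∑ i, α i • Pts.mk F hx (w i) (hw i)).val := by
  have h : evPt F hx w hw (∑ i, α i • varPt F i) = ∑ i, α i • Pts.mk F hx (w i) (hw i) := by
    simp only [map_sum, map_nsmul, evPt_varPt]
  rw [← h]
  rfl

theorem norm_ev_linS_le [F.IsComm] (hx : ∀ r, ‖x r‖ ≤ 1) {r : ℕ} (w : Fin r → C) {ρ : ℝ}
    (hρ0 : 0 ≤ ρ) (hρ1 : ρ < 1) (hw : ∀ i, ‖w i‖ ≤ ρ) (α : Fin r → ℕ) :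
    ‖ev x w (linS F α)‖ ≤ ρ := by
  rw [ev_linS hx w fun i => (hw i).trans_lt hρ1]
  exact Pts.norm_sum_le _ _ hρ0 fun i _ => (Pts.norm_nsmul_le _ _).trans (hw i)

theorem norm_mono_lt (hx : ∀ r, ‖x r‖ ≤ 1) {z : C} (hz : ‖z‖ < 1) (a : R) {e : ℕ} (he : e ≠ 0) :
    ‖x a * z ^ e‖ < 1 := by
  rw [norm_mul, norm_pow]
  exact (mul_le_of_le_one_left (by positivity) (hx a)).trans_lt
    (pow_lt_one₀ (norm_nonneg _) hz he)

theorem ev1_gSer [F.IsComm] (hx : ∀ r, ‖x r‖ ≤ 1) (p : ℕ) [Fact p.Prime] (i₀ : ℕ) {m : ℕ}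
    (b : Fin m → R) (z : C) (hz : ‖z‖ < 1) :
    ev1 x z (gSer F p i₀ b) = (Pts.mk F hx z hz + ∑ I : Fin m,
      Pts.mk F hx (x (b I) * z ^ (p ^ (i₀ + I)))
        (norm_mono_lt hx hz (b I) (pow_ne_zero _ (Fact.out : p.Prime).ne_zero))).val := by
  have hz' : ∀ _ : Unit, ‖z‖ < 1 := fun _ => hz
  have h1 : ∀ I : Fin m, evPt F hx (fun _ : Unit => z) hz' (monoPt F p (b I) (i₀ + I)) =
      Pts.mk F hx (x (b I) * z ^ (p ^ (i₀ + I)))
        (norm_mono_lt hx hz (b I) (pow_ne_zero _ (Fact.out : p.Prime).ne_zero)) := fun I => by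
    apply Pts.ext
    have e1 := ev_mul x hx (fun _ : Unit => z) hz' (PowerSeries.C (b I))
      (PowerSeries.X ^ (p ^ (i₀ + I)) : PowerSeries R)
    have e2 := ev_pow x hx (fun _ : Unit => z) hz' (PowerSeries.X : PowerSeries R) (p ^ (i₀ + I))
    have e3 : ev x (fun _ : Unit => z) (PowerSeries.X : PowerSeries R) = z := ev1_X x z
    have e4 : ev x (fun _ : Unit => z) (PowerSeries.C (b I)) = x (b I) := ev1_C x z _
    rw [e2, e3, e4] at e1
    exact e1
  have h := map_add (evPt F hx (fun _ : Unit => z) hz') (varPt F ())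
    (∑ I : Fin m, monoPt F p (b I) (i₀ + I))
  simp only [map_sum, h1, evPt_varPt] at h
  exact congrArg Subtype.val h

/-- Homomorphisms commute with linear combinations. -/
theorem ev1_ev_linS [F.IsComm] [G.IsComm] (hx : ∀ r, ‖x r‖ ≤ 1) {f : PowerSeries R}
    (hf : IsFGHom F G f) {r : ℕ} (w : Fin r → C) (hw : ∀ i, ‖w i‖ < 1) (α : Fin r → ℕ) :
    ev1 x (ev x w (linS F α)) f = ev x (fun i => ev1 x (w i) f) (linS G α) := by
  have hw' : ∀ i, ‖ev1 x (w i) f‖ < 1 := fun i =>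
    (norm_ev1_le_self x hx _ (hw i) f hf.1).trans_lt (hw i)
  rw [ev_linS hx w hw, ev_linS hx _ hw', ← homAct_val hx hf]
  simp only [map_sum, map_nsmul]
  rfl

theorem ev1_inj (hx : ∀ r, ‖x r‖ ≤ 1) {f : PowerSeries R}
    (hf0 : PowerSeries.constantCoeff f = 0) (hf : IsUnit (PowerSeries.coeff 1 f)) {z z' : C}
    (hz : ‖z‖ < 1) (hz' : ‖z'‖ < 1) (h : ev1 x z f = ev1 x z' f) : z = z' := by
  have key : ∀ {t : C}, ‖t‖ < 1 → ev1 x (ev1 x t f) (f.substInvOfIsUnit hf) = t := fun {t} ht => by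
    have h1 := PowerSeries.subst_substInvOfIsUnit_left f hf0 hf
    have h2 := pts_ev_psubst x hx (fun _ : Unit => t) (fun _ => ht)
      (PowerSeries.HasSubst.of_constantCoeff_zero' hf0) (f.substInvOfIsUnit hf)
    rw [h1] at h2
    exact h2.symm.trans (ev1_X x t)
  rw [← key hz, h, key hz']

end Crest.Agent.R227
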