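import Crest.Agent.R227.Weier
import Crest.Agent.R227.Pts

/-!
# R227 / Root: functions on the height `h` stratum as functions of a torsion basis

`norm_pow_lin_sub`: `ev y t (linS H α)` and `ev ι t (linS G α)` differ by at most `ρ`
(`norm_ev_sub_coeff`, `linS_map`, `S.redH`, `norm_sub_kmap_le`); raise to the power `p ^ e`
(`sub_pow_char_pow`), and `(ev ι t (linS G α)) ^ p ^ e = ev ι (t ^ p ^ e) (linS G α)` by `ev1_ev_linS`
for the endomorphism `monoPt G p 1 e` (`hom_monoPt`, `S.smul`, `S.frob`).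

`exists_phi`: `e = h M`, `D = p ^ ((n - h) M)`, `W` from `exists_weier`, `ω i = W.coeff i` (`i < D`),
`Ψ` from `exists_poly_approx` with `I = hId p H h`, `L = p ^ e`.  Let
`Ω = ∏ α : Fin r → Fin (p ^ M), (X - C (linS G α)) ∈ k[[X]][T]` and
`φ = MvPolynomial.eval₂ (MvPowerSeries.C.comp (resW p n)) (fun i => Ω.coeff i) Ψ`.
For a point `y` and a basis `t`: the `D` elements `s α = ev y t (linS H α) ^ p ^ e` are distinct
(Frobenius is injective) roots of `W.map y` (they are killed by `[p ^ M]`: `ev1_ev_linS` with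
`hom_mulSeries`, and `ev` at the point `0` of a series without constant term is `0`), so
`W.map y = ∏ (X - C (s α))` (monic of degree `D`; e.g. `Polynomial.eq_of_dvd_of_natDegree_le_of_leadingCoeff`,
`Polynomial.prod_X_sub_C_dvd_iff_le_roots`/`Finset.prod_dvd_of_coprime`).  `Ω.map (evHom ι ..)` is
`∏ (X - C (s' α))` with `‖s α - s' α‖ ≤ ρ ^ p ^ e`; `norm_coeff_prod_sub_le` compares coefficients,
`norm_eval₂_sub_le` the values of `Ψ`, and `‖y (f - aeval ω Ψ)‖ ≤ ρ ^ L`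
(`Submodule.mem_sup`, `norm_le_pow_of_mem_pow`).
-/

set_option autoImplicit false
noncomputable section
open Crest.LubinTate

namespace Crest.Agent.R227

section Aux
variable {C : Type*} [NormedField C] [IsUltrametricDist C]

/-- two elements of the unit ball at distance `≤ δ` -/
def RootClose (δ : ℝ) (x y : C) : Prop := ‖x‖ ≤ 1 ∧ ‖y‖ ≤ 1 ∧ ‖x - y‖ ≤ δ

omit [IsUltrametricDist C] in
theorem RootClose.refl {δ : ℝ} (hδ : 0 ≤ δ) {x : C} (hx : ‖x‖ ≤ 1) : RootClose δ x x :=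
  ⟨hx, hx, by simpa using hδ⟩

theorem RootClose.add {δ : ℝ} {x y x' y' : C} (h : RootClose δ x y) (h' : RootClose δ x' y') :
    RootClose δ (x + x') (y + y') := by
  refine ⟨(IsUltrametricDist.norm_add_le_max _ _).trans (max_le h.1 h'.1),
    (IsUltrametricDist.norm_add_le_max _ _).trans (max_le h.2.1 h'.2.1), ?_⟩
  rw [add_sub_add_comm]
  exact (IsUltrametricDist.norm_add_le_max _ _).trans (max_le h.2.2 h'.2.2)

omit [IsUltrametricDist C] in
theorem RootClose.neg {δ : ℝ} {x y : C} (h : RootClose δ x y) : RootClose δ (-x) (-y) := by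
  refine ⟨by simpa using h.1, by simpa using h.2.1, ?_⟩
  rw [neg_sub_neg, norm_sub_rev]
  exact h.2.2

theorem RootClose.mul {δ : ℝ} {x y x' y' : C} (h : RootClose δ x y) (h' : RootClose δ x' y') :
    RootClose δ (x * x') (y * y') := by
  have hδ : 0 ≤ δ := (norm_nonneg _).trans h.2.2
  refine ⟨?_, ?_, ?_⟩
  · rw [norm_mul]; exact mul_le_one₀ h.1 (norm_nonneg _) h'.1
  · rw [norm_mul]; exact mul_le_one₀ h.2.1 (norm_nonneg _) h'.2.1
  · have e : x * x' - y * y' = x * (x' - y') + (x - y) * y' := by ring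
    rw [e]
    refine (IsUltrametricDist.norm_add_le_max _ _).trans (max_le ?_ ?_)
    · rw [norm_mul]
      exact (mul_le_mul h.1 h'.2.2 (norm_nonneg _) zero_le_one).trans_eq (one_mul _)
    · rw [norm_mul]
      exact (mul_le_mul h.2.2 h'.2.1 (norm_nonneg _) hδ).trans_eq (mul_one _)

theorem root_close_prod {T : Type*} (s : Finset T) (a b : T → C) {δ : ℝ} (hδ : 0 ≤ δ)
    (hab : ∀ i ∈ s, RootClose δ (a i) (b i)) (d : ℕ) :
    RootClose δ ((∏ i ∈ s, (Polynomial.X - Polynomial.C (a i))).coeff d)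
      ((∏ i ∈ s, (Polynomial.X - Polynomial.C (b i))).coeff d) := by
  classical
  induction s using Finset.induction_on generalizing d with
  | empty =>
    refine RootClose.refl hδ ?_
    rw [Finset.prod_empty, Polynomial.coeff_one]
    split_ifs <;> simp
  | insert j s hj ih =>
    have ih' := ih fun i hi => hab i (Finset.mem_insert_of_mem hi)
    have hj' := hab j (Finset.mem_insert_self _ _)
    rw [Finset.prod_insert hj, Finset.prod_insert hj, sub_mul, sub_mul, Polynomial.coeff_sub,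
      Polynomial.coeff_sub, Polynomial.coeff_C_mul, Polynomial.coeff_C_mul, sub_eq_add_neg,
      sub_eq_add_neg]
    refine RootClose.add ?_ (hj'.mul (ih' d)).neg
    cases d with
    | zero =>
      rw [Polynomial.coeff_X_mul_zero, Polynomial.coeff_X_mul_zero]
      exact RootClose.refl hδ (by simp)
    | succ d =>
      rw [Polynomial.coeff_X_mul, Polynomial.coeff_X_mul]
      exact ih' d

theorem norm_coeff_prod_sub_le {T : Type*} (s : Finset T) (a b : T → C) {δ : ℝ} (hδ : 0 ≤ δ)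
    (ha : ∀ i ∈ s, ‖a i‖ ≤ 1) (hb : ∀ i ∈ s, ‖b i‖ ≤ 1) (hab : ∀ i ∈ s, ‖a i - b i‖ ≤ δ) (d : ℕ) :
    ‖(∏ i ∈ s, (Polynomial.X - Polynomial.C (a i))).coeff d‖ ≤ 1 ∧
    ‖(∏ i ∈ s, (Polynomial.X - Polynomial.C (a i))).coeff d -
      (∏ i ∈ s, (Polynomial.X - Polynomial.C (b i))).coeff d‖ ≤ δ := by
  have := root_close_prod s a b hδ (fun i hi => ⟨ha i hi, hb i hi, hab i hi⟩) d
  exact ⟨this.1, this.2.2⟩

theorem norm_eval₂_sub_le {A T : Type*} [CommRing A] (u : A →+* C) (hu : ∀ a, ‖u a‖ ≤ 1)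
    (a b : T → C) {δ : ℝ} (hδ : 0 ≤ δ) (ha : ∀ i, ‖a i‖ ≤ 1) (hb : ∀ i, ‖b i‖ ≤ 1)
    (hab : ∀ i, ‖a i - b i‖ ≤ δ) (Ψ : MvPolynomial T A) :
    ‖MvPolynomial.eval₂ u a Ψ‖ ≤ 1 ∧
      ‖MvPolynomial.eval₂ u a Ψ - MvPolynomial.eval₂ u b Ψ‖ ≤ δ := by
  have : RootClose δ (MvPolynomial.eval₂ u a Ψ) (MvPolynomial.eval₂ u b Ψ) := by
    induction Ψ using MvPolynomial.induction_on with
    | C c =>
      rw [MvPolynomial.eval₂_C, MvPolynomial.eval₂_C]
      exact RootClose.refl hδ (hu c)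
    | add P Q hP hQ =>
      rw [MvPolynomial.eval₂_add, MvPolynomial.eval₂_add]
      exact hP.add hQ
    | mul_X P i hP =>
      rw [MvPolynomial.eval₂_mul, MvPolynomial.eval₂_mul, MvPolynomial.eval₂_X,
        MvPolynomial.eval₂_X]
      exact hP.mul ⟨ha i, hb i, hab i⟩
  exact ⟨this.1, this.2.2⟩

end Aux

variable {p : ℕ} [Fact p.Prime] {n : ℕ}

theorem root_linS_congr {R : Type*} [CommRing R] {F G : FormalGroup R} [F.IsComm] [G.IsComm]
    (h : F = G) {r : ℕ} (α : Fin r → ℕ) : linS F α = linS G α := by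
  subst h
  rfl

theorem root_linS_G (S : Setup p n) {r : ℕ} (α : Fin r → ℕ) :
    linS S.G α = MvPowerSeries.map (LTRing.residue p n) (linS S.H α) := by
  rw [← linS_map]
  exact root_linS_congr S.redH.symm α

theorem norm_pow_lin_sub (S : Setup p n) {C : Type*} [NormedField C] [IsUltrametricDist C]
    [CompleteSpace C] [CharP C p] (y : LTRing p n →+* C) (hy : ∀ a, ‖y a‖ ≤ 1)
    (ι : kk p n →+* C)
    (hι : ∀ w : WW p n, y (algebraMap (WW p n) (LTRing p n) w) = ι (resW p n w)) {ρ : ℝ}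
    (hρ : ∀ a ∈ mm p n, ‖y a‖ ≤ ρ) {r : ℕ} (t : Fin r → C) (ht : ∀ i, ‖t i‖ < 1) (e : ℕ)
    (α : Fin r → ℕ) :
    ‖ev y t (linS S.H α) ^ (p ^ e) - ev ι (fun i => t i ^ (p ^ e)) (linS S.G α)‖ ≤ ρ ^ (p ^ e) := by
  have hι1 : ∀ a, ‖ι a‖ ≤ 1 := norm_kmap_le ι
  have h1 : ‖ev y t (linS S.H α) - ev ι t (linS S.G α)‖ ≤ ρ := by
    refine norm_ev_sub_coeff y hy ι hι1 t ht _ _ fun d => ?_
    rw [root_linS_G, MvPowerSeries.coeff_map]
    exact norm_sub_kmap_le y ι hι hρ _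
  have hmono : ∀ z : C, ‖z‖ < 1 → ev1 ι z (monoPt S.G p 1 e).val = z ^ (p ^ e) := by
    intro z hz
    have h3 := ev_pow ι hι1 (fun _ : Unit => z) (fun _ => hz)
      (PowerSeries.X : PowerSeries (kk p n)) (p ^ e)
    have h5 := ev1_X ι z
    unfold ev1 at h5
    rw [h5] at h3
    have h6 : (monoPt S.G p 1 e).val = (PowerSeries.X : PowerSeries (kk p n)) ^ (p ^ e) := by
      show (PowerSeries.C 1 * PowerSeries.X ^ (p ^ e) : PowerSeries (kk p n)) = _
      rw [map_one, one_mul]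
    rw [h6]
    exact h3
  have h2 := ev1_ev_linS hι1 (hom_monoPt S.G p 1 e (S.smul 1) S.frob) t ht α
  rw [hmono _ (norm_ev_lt_one ι hι1 t ht _ (by rw [constantCoeff_linS]; simp))] at h2
  have h3 : (fun i => ev1 ι (t i) (monoPt S.G p 1 e).val) = fun i => t i ^ (p ^ e) :=
    funext fun i => hmono _ (ht i)
  rw [h3] at h2
  rw [← h2, ← sub_pow_char_pow, norm_pow]
  exact pow_le_pow_left₀ (norm_nonneg _) h1 _

theorem exists_phi (S : Setup p n) {h : ℕ} (h1 : 1 ≤ h) (hn : h < n) {M : ℕ} (hM : 1 ≤ M)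
    (f : LTRing p n) :
    ∃ φ : MvPowerSeries (Fin (n - h)) (kk p n), ∀ {C : Type} [NormedField C] [IsUltrametricDist C]
      [CompleteSpace C] [CharP C p] (y : LTRing p n →+* C) (ι : kk p n →+* C) (ρ : ℝ)
      (t : Fin (n - h) → C), (∀ a, ‖y a‖ ≤ 1) →
      (∀ w : WW p n, y (algebraMap (WW p n) (LTRing p n) w) = ι (resW p n w)) → ρ < 1 →
      (∀ a ∈ mm p n, ‖y a‖ ≤ ρ) → (∀ a ∈ hId p S.H h, y a = 0) → (∀ i, ‖t i‖ < 1) →
      (∀ i, ev1 y (t i) (mulSeries S.H (p ^ M)) = 0) →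
      (Function.Injective fun α : Fin (n - h) → Fin (p ^ M) =>
        ev y t (linS S.H fun i => (α i : ℕ))) →
      ‖y f - ev ι (fun i => t i ^ (p ^ (h * M))) φ‖ ≤ ρ ^ (p ^ (h * M)) := by
  classical
  obtain ⟨W, hWm, hWd, hWc, hWgen, hW⟩ := exists_weier S h1 hn hM
  obtain ⟨Ψ, hΨ⟩ := exists_poly_approx p n (hId p S.H h)
    (fun i : Fin (p ^ ((n - h) * M)) => W.coeff i) (fun i => hWc i i.2) hWgen f (p ^ (h * M))
  set Ω : Polynomial (MvPowerSeries (Fin (n - h)) (kk p n)) :=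
    ∏ α : Fin (n - h) → Fin (p ^ M),
      (Polynomial.X - Polynomial.C (linS S.G fun i => (α i : ℕ))) with hΩ
  refine ⟨MvPolynomial.eval₂ (MvPowerSeries.C.comp (resW p n))
    (fun i : Fin (p ^ ((n - h) * M)) => Ω.coeff i) Ψ, ?_⟩
  intro C _ _ _ _ y ι ρ t hy hι hρ1 hρ hyI ht htor hinj
  have hι1 : ∀ a, ‖ι a‖ ≤ 1 := norm_kmap_le ι
  have hρ0 : 0 ≤ ρ := by simpa using hρ 0 (zero_mem _)
  have hδ : 0 ≤ ρ ^ (p ^ (h * M)) := pow_nonneg hρ0 _
  have hpe : p ^ (h * M) ≠ 0 := pow_ne_zero _ (Fact.out : p.Prime).ne_zero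
  obtain ⟨hroot, -, -⟩ := hW y hy (fun a ha => (hρ a ha).trans_lt hρ1) hyI
  set t' : Fin (n - h) → C := fun i => t i ^ (p ^ (h * M)) with ht'def
  have ht' : ∀ i, ‖t' i‖ < 1 := fun i => by
    rw [ht'def, norm_pow]
    exact pow_lt_one₀ (norm_nonneg _) (ht i) hpe
  set s : (Fin (n - h) → Fin (p ^ M)) → C :=
    fun α => ev y t (linS S.H fun i => (α i : ℕ)) ^ (p ^ (h * M)) with hs
  have hsinj : Function.Injective s := by
    intro α β hαβ
    apply hinj
    have : ExpChar C p := ExpChar.prime Fact.out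
    exact (iterateFrobenius C p (h * M)).injective hαβ
  have hsroot : ∀ α, (W.map y).IsRoot (s α) := by
    intro α
    have hz : ‖ev y t (linS S.H fun i => (α i : ℕ))‖ < 1 :=
      norm_ev_lt_one y hy t ht _ (by rw [constantCoeff_linS]; simp)
    refine (hroot _ hz).1 ?_
    rw [ev1_ev_linS hy (hom_mulSeries S.H (p ^ M)) t ht]
    have := norm_ev_linS_le (F := S.H) hy (fun i => ev1 y (t i) (mulSeries S.H (p ^ M))) le_rfl
      zero_lt_one (fun i => by rw [htor i, norm_zero]) fun i => (α i : ℕ)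
    exact norm_le_zero_iff.1 this
  have hWeq : W.map y = ∏ α, (Polynomial.X - Polynomial.C (s α)) := by
    refine Polynomial.eq_of_monic_of_dvd_of_natDegree_le (Polynomial.monic_prod_X_sub_C _ _)
      (hWm.map y) ?_ ?_
    · exact Finset.prod_dvd_of_coprime
        ((Polynomial.pairwise_coprime_X_sub_C hsinj).set_pairwise _)
        fun α _ => Polynomial.dvd_iff_isRoot.2 (hsroot α)
    · rw [hWm.natDegree_map, hWd, Polynomial.natDegree_finsetProd_X_sub_C_eq_card,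
        Finset.card_univ, Fintype.card_fun, Fintype.card_fin, Fintype.card_fin, ← pow_mul,
        mul_comm]
  have hΩeq : Ω.map (evHom ι hι1 t' ht') = ∏ α : Fin (n - h) → Fin (p ^ M),
      (Polynomial.X - Polynomial.C (ev ι t' (linS S.G fun i => (α i : ℕ)))) := by
    rw [hΩ, Polynomial.map_prod]
    refine Finset.prod_congr rfl fun α _ => ?_
    rw [Polynomial.map_sub, Polynomial.map_X, Polynomial.map_C, evHom_apply]
  have hcoef : ∀ d, ‖y (W.coeff d) - ev ι t' (Ω.coeff d)‖ ≤ ρ ^ (p ^ (h * M)) := by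
    intro d
    have := (norm_coeff_prod_sub_le Finset.univ s
      (fun α => ev ι t' (linS S.G fun i => (α i : ℕ))) hδ
      (fun α _ => by
        rw [hs, norm_pow]
        exact pow_le_one₀ (norm_nonneg _) (norm_ev_le_one y hy t ht _))
      (fun α _ => norm_ev_le_one ι hι1 t' ht' _)
      (fun α _ => norm_pow_lin_sub S y hy ι hι hρ t ht _ _) d).2
    rwa [← hWeq, ← hΩeq, Polynomial.coeff_map, Polynomial.coeff_map, evHom_apply] at this
  have e1 : y (MvPolynomial.aeval (fun i : Fin (p ^ ((n - h) * M)) => W.coeff i) Ψ) =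
      MvPolynomial.eval₂ (ι.comp (resW p n))
        (fun i : Fin (p ^ ((n - h) * M)) => y (W.coeff i)) Ψ := by
    rw [MvPolynomial.aeval_def, MvPolynomial.eval₂_comp_left]
    congr 1
    exact RingHom.ext hι
  have e2 : ev ι t' (MvPolynomial.eval₂ (MvPowerSeries.C.comp (resW p n))
      (fun i : Fin (p ^ ((n - h) * M)) => Ω.coeff i) Ψ) =
      MvPolynomial.eval₂ (ι.comp (resW p n))
        (fun i : Fin (p ^ ((n - h) * M)) => ev ι t' (Ω.coeff i)) Ψ := by
    rw [← evHom_apply ι hι1 t' ht', MvPolynomial.eval₂_comp_left]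
    congr 1
    exact RingHom.ext fun w => ev_C ι t' _
  have h2 := (norm_eval₂_sub_le (ι.comp (resW p n)) (fun a => hι1 _)
    (fun i : Fin (p ^ ((n - h) * M)) => y (W.coeff i))
    (fun i : Fin (p ^ ((n - h) * M)) => ev ι t' (Ω.coeff i)) hδ (fun i => hy _)
    (fun i => norm_ev_le_one ι hι1 t' ht' _) (fun i => hcoef i) Ψ).2
  rw [← e1, ← e2] at h2
  have h3 : ‖y f - y (MvPolynomial.aeval (fun i : Fin (p ^ ((n - h) * M)) => W.coeff i) Ψ)‖ ≤
      ρ ^ (p ^ (h * M)) := by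
    obtain ⟨u, hu, v, hv, huv⟩ := Submodule.mem_sup.1 hΨ
    rw [← map_sub, ← huv, map_add, hyI u hu, zero_add]
    exact norm_le_pow_of_mem_pow y hy hρ _ v hv
  have h4 := IsUltrametricDist.norm_add_le_max
    (y f - y (MvPolynomial.aeval (fun i : Fin (p ^ ((n - h) * M)) => W.coeff i) Ψ))
    (y (MvPolynomial.aeval (fun i : Fin (p ^ ((n - h) * M)) => W.coeff i) Ψ) -
      ev ι t' (MvPolynomial.eval₂ (MvPowerSeries.C.comp (resW p n))
        (fun i : Fin (p ^ ((n - h) * M)) => Ω.coeff i) Ψ))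
  rw [sub_add_sub_cancel] at h4
  exact h4.trans (max_le h3 h2)

end Crest.Agent.R227
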