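import Crest.Agent.R227.Weier
import Crest.Agent.R227.Pts

/-!
# R227 / Tors: a basis of the `p ^ M`-torsion and the norms of torsion points

`exists_basis_of_card`.  Let `T j = {a | p ^ j • a = 0}` (an `AddSubmonoid`; every element has the
inverse `(p ^ M - 1) • a`, so `T M` is a finite additive group: e.g. give the subtype
`AddCommMonoid.zmodModule` + `Module.addCommMonoidToAddCommGroup`, or `AddCommGroup` by hand;
`exists_basis_of_card_group` is the group version).  In a finite abelian group `A` with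
`card A[p ^ j] = p ^ (r j)`: multiplication by `p` maps `A[p ^ (j+1)]` to `A[p ^ j]` with kernel
`A[p]`, so it is onto by counting (`AddSubgroup.card_eq_card_quotient_mul_card_addSubgroup`,
`AddMonoidHom.range`, `Nat.card` and `AddSubgroup.eq_top_of_card_eq`); hence
`p ^ (M-1) • : A[p ^ M] → A[p]` is onto.  `A[p]` is a `ZMod p`-vector space of cardinality `p ^ r`,
so of dimension `r` (`Module.card_eq_pow_finrank`); lift a basis (`Module.finBasisOfFinrankEq`).
Injectivity on the box: if `α ≠ β`, put `γ = α + p ^ M - β`, `∑ γ i • t i = 0`, write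
`γ = p ^ v • γ'` with `γ'` primitive, `v < M`.

`norm_chain`: `nn j ≥ min (κ / ρ ^ (j - 1)) ρ` by induction (if `ρ * nn (j+1) < nn (j+1) ^ q` then
`ρ < nn (j+1) ^ (q-1) ≤ nn (j+1)`); pick `j₁ ≥ 1` with `ρ ^ j₁ ≤ κ`, so `nn j ≥ ρ` for `j ≥ j₁`; then
`nn j ≤ ρ * nn (j+1)` is impossible, so `nn j ≤ nn (j+1) ^ q` for `j ≥ j₁`.

`exists_torsion_basis`: `A = Pts S.H x hx` (`Pts.nsmul_val`, `card_torsion`, `ev_linS`).  `κ` = the
minimal norm of the finitely many nonzero points killed by `p` (`card_torsion` with `M = 1`,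
`Nat.finite_of_card_ne_zero`).  For `a` primitive apply `norm_chain` to
`nn j = ‖(p ^ (M - j) • a).val‖`, using `‖[p] z - z ^ q‖ ≤ ρ ‖z‖` (`norm_ev1_sub_le` between
`mulSeries S.H p` and `X ^ q` over `E₀`; `Setup.map_mulSeries`, the constant terms vanish).
Likewise `‖[p ^ M] z - z ^ q ^ M‖ ≤ ρ` gives `‖t i‖ ^ q ^ M ≤ ρ`.
-/

set_option autoImplicit false
noncomputable section
open Crest.LubinTate

namespace Crest.Agent.R227

theorem Tors_vec {V : Type*} [AddCommGroup V] (p : ℕ) [Fact p.Prime] [Module (ZMod p) V] (r : ℕ)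
    (hV : Nat.card V = p ^ r) :
    ∃ b : Fin r → V, ∀ α : Fin r → ℕ, ∑ i, α i • b i = 0 → ∀ i, p ∣ α i := by
  have hp : p.Prime := Fact.out
  have : Finite V := Nat.finite_of_card_ne_zero (by rw [hV]; exact pow_ne_zero _ hp.ne_zero)
  have hrank : Module.finrank (ZMod p) V = r := by
    have h1 := Module.natCard_eq_pow_finrank (K := ZMod p) (V := V)
    rw [hV, Nat.card_zmod] at h1
    exact (Nat.pow_right_injective hp.two_le h1).symm
  let b := Module.finBasisOfFinrankEq (ZMod p) V hrank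
  refine ⟨b, fun α h0 i => (ZMod.natCast_eq_zero_iff _ _).1
    (Fintype.linearIndependent_iff.1 b.linearIndependent (fun i => (α i : ZMod p)) ?_ i)⟩
  simpa only [Nat.cast_smul_eq_nsmul] using h0

theorem exists_basis_of_card_group {A : Type*} [AddCommGroup A] (p : ℕ) [Fact p.Prime]
    (r M : ℕ) (hM : 1 ≤ M) (h : ∀ j ≤ M, Nat.card {a : A // p ^ j • a = 0} = p ^ (r * j)) :
    ∃ t : Fin r → A, (∀ i, p ^ M • t i = 0) ∧
      ∀ α : Fin r → ℕ, (∃ i, ¬ p ∣ α i) → p ^ (M - 1) • ∑ i, α i • t i ≠ 0 := by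
  have hp : p.Prime := Fact.out
  let V : AddSubgroup A := (nsmulAddMonoidHom p : A →+ A).ker
  let U : AddSubgroup A := (nsmulAddMonoidHom (p ^ M) : A →+ A).ker
  have hV : Nat.card V = p ^ r := by
    have := h 1 hM
    rwa [pow_one, mul_one] at this
  have hU : Nat.card U = p ^ (r * M) := h M le_rfl
  have : Finite V := Nat.finite_of_card_ne_zero (by rw [hV]; exact pow_ne_zero _ hp.ne_zero)
  let f : U →+ A := (nsmulAddMonoidHom (p ^ (M - 1)) : A →+ A).comp U.subtype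
  have hpM : ∀ a : A, p • p ^ (M - 1) • a = p ^ M • a := fun a => by
    rw [smul_smul, ← pow_succ', Nat.sub_add_cancel hM]
  have hker : Nat.card f.ker = p ^ (r * (M - 1)) := by
    rw [← h (M - 1) (by omega)]
    exact Nat.card_congr
      { toFun := fun a => ⟨a.1.1, a.2⟩
        invFun := fun a => ⟨⟨a.1, show p ^ M • a.1 = 0 by rw [← hpM, a.2, smul_zero]⟩, a.2⟩
        left_inv := fun _ => rfl
        right_inv := fun _ => rfl }
  have hran : Nat.card f.range = p ^ r := by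
    have h1 := AddSubgroup.card_mul_index f.ker
    rw [AddSubgroup.index_ker, hker, hU] at h1
    refine Nat.eq_of_mul_eq_mul_left (pow_pos hp.pos (r * (M - 1))) ?_
    rw [h1, ← pow_add]
    congr 1
    obtain ⟨m, rfl⟩ : ∃ m, M = m + 1 := ⟨M - 1, by omega⟩
    rw [Nat.add_sub_cancel, Nat.mul_succ]
  have hle : f.range ≤ V := by
    rintro _ ⟨a, rfl⟩
    exact (hpM a.1).trans a.2
  have heq : f.range = V := AddSubgroup.eq_of_le_of_card_ge hle (by rw [hV, hran])
  obtain ⟨b, hb0⟩ := @Tors_vec V _ p _ (AddCommGroup.zmodModule fun v => Subtype.ext v.2) r hV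
  have hb : ∀ i, ∃ a : U, f a = b i := fun i => by
    have : (b i : A) ∈ f.range := by rw [heq]; exact (b i).2
    exact this
  choose t ht using hb
  refine ⟨fun i => t i, fun i => (t i).2, fun α ⟨i, hi⟩ h0 => hi (hb0 α ?_ i)⟩
  apply Subtype.ext
  rw [AddSubgroup.coe_zero, ← h0, Finset.smul_sum, AddSubgroup.val_finsetSum]
  refine Finset.sum_congr rfl fun j _ => ?_
  rw [AddSubgroup.coe_nsmul, ← ht j, smul_comm]
  rfl

theorem Tors_dvd {A : Type*} [AddCommMonoid A] (p : ℕ) {r M : ℕ} (hM : 1 ≤ M) (t : Fin r → A)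
    (h : ∀ α : Fin r → ℕ, (∃ i, ¬ p ∣ α i) → p ^ (M - 1) • ∑ i, α i • t i ≠ 0) (k : ℕ) (hk : k ≤ M)
    (γ : Fin r → ℕ) (h0 : p ^ (M - k) • ∑ i, γ i • t i = 0) (i : Fin r) : p ^ k ∣ γ i := by
  induction k generalizing γ with
  | zero => simp
  | succ k ih =>
    have h1 : ∀ j, p ∣ γ j := by
      by_contra h2
      refine h γ (not_forall.1 h2) ?_
      rw [show M - 1 = k + (M - (k + 1)) by omega, pow_add, mul_smul, h0, smul_zero]
    choose δ hδ using h1
    rw [hδ i, pow_succ']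
    refine Nat.mul_dvd_mul_left p (ih (by omega) δ ?_)
    rw [← h0, show M - k = M - (k + 1) + 1 by omega, pow_succ, mul_smul, Finset.smul_sum (r := p)]
    simp only [hδ, mul_smul]

theorem exists_basis_of_card {A : Type*} [AddCommMonoid A] (p : ℕ) [Fact p.Prime] (r M : ℕ)
    (hM : 1 ≤ M) (h : ∀ j ≤ M, Nat.card {a : A // p ^ j • a = 0} = p ^ (r * j)) :
    ∃ t : Fin r → A, (∀ i, p ^ M • t i = 0) ∧
      (∀ α : Fin r → ℕ, (∃ i, ¬ p ∣ α i) → p ^ (M - 1) • ∑ i, α i • t i ≠ 0) ∧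
      Function.Injective fun α : Fin r → Fin (p ^ M) => ∑ i, (α i : ℕ) • t i := by
  have hp : p.Prime := Fact.out
  let U : AddSubmonoid A := AddMonoidHom.mker (nsmulAddMonoidHom (p ^ M) : A →+ A)
  have : NeZero (p ^ M) := ⟨pow_ne_zero _ hp.ne_zero⟩
  let : Module (ZMod (p ^ M)) U := AddCommMonoid.zmodModule fun v => Subtype.ext v.2
  let : AddCommGroup U := Module.addCommMonoidToAddCommGroup (ZMod (p ^ M))
  obtain ⟨t, ht1, ht2⟩ := exists_basis_of_card_group (A := U) p r M hM fun j hj => by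
    rw [← h j hj]
    exact Nat.card_congr
      { toFun := fun a => ⟨a.1.1, congrArg Subtype.val a.2⟩
        invFun := fun a => ⟨⟨a.1, show p ^ M • a.1 = 0 by
          rw [← Nat.sub_add_cancel hj, pow_add, mul_smul, a.2, smul_zero]⟩, Subtype.ext a.2⟩
        left_inv := fun _ => rfl
        right_inv := fun _ => rfl }
  have h1 : ∀ i, p ^ M • (t i : A) = 0 := fun i => (t i).2
  have h2 : ∀ α : Fin r → ℕ, (∃ i, ¬ p ∣ α i) → p ^ (M - 1) • ∑ i, α i • (t i : A) ≠ 0 := by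
    intro α hα h0
    refine ht2 α hα (Subtype.ext ?_)
    have e := map_sum U.subtype (fun i => α i • t i) Finset.univ
    simp only [map_nsmul, AddSubmonoid.subtype_apply] at e
    rw [← e] at h0
    exact h0
  refine ⟨fun i => t i, h1, h2, fun α β hαβ => funext fun i => Fin.ext ?_⟩
  have h3 := Tors_dvd p hM (fun i => (t i : A)) h2 M le_rfl (fun i => α i + (p ^ M - β i)) (by
    simp only at hαβ
    rw [Nat.sub_self, pow_zero, one_smul]
    simp only [add_smul, Finset.sum_add_distrib]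
    rw [hαβ, ← Finset.sum_add_distrib]
    refine Finset.sum_eq_zero fun j _ => ?_
    rw [← add_smul, Nat.add_sub_cancel' (β j).2.le, h1]) i
  have h4 := (α i).2
  have h5 := (β i).2
  obtain ⟨c, hc⟩ := h3
  rcases c with _ | _ | c
  · omega
  · omega
  · have : p ^ M * (c + 1 + 1) = p ^ M * c + 2 * p ^ M := by ring
    omega

theorem norm_chain {ρ κ : ℝ} (hρ0 : 0 < ρ) (hρ1 : ρ < 1) (hκ : 0 < κ) {q : ℕ} (hq : 2 ≤ q) :
    ∃ j₁ : ℕ, 1 ≤ j₁ ∧ ∀ (M : ℕ) (nn : ℕ → ℝ), j₁ ≤ M → κ ≤ nn 1 → (∀ j, 0 ≤ nn j ∧ nn j < 1) →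
      (∀ j, 1 ≤ j → j < M → nn j ≤ max (nn (j + 1) ^ q) (ρ * nn (j + 1))) →
      ρ ≤ nn M ^ (q ^ (M - j₁)) := by
  obtain ⟨m, hm⟩ := exists_pow_lt_of_lt_one hκ hρ1
  refine ⟨m + 1, by omega, fun M nn hM h1 hb hs => ?_⟩
  have ha : ∀ j, j + 1 ≤ M → κ ≤ ρ ^ j * nn (j + 1) ∨ ρ ≤ nn (j + 1) := by
    intro j hj
    induction j with
    | zero => left; simpa using h1
    | succ j ih =>
      have h2 := hs (j + 1) (by omega) (by omega)
      obtain ⟨h3, h4⟩ := hb (j + 1 + 1)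
      rcases le_or_gt (nn (j + 1 + 1) ^ q) (ρ * nn (j + 1 + 1)) with h5 | h5
      · rw [max_eq_right h5] at h2
        rcases ih (by omega) with h6 | h6
        · left
          refine h6.trans ?_
          rw [pow_succ, mul_assoc]
          exact mul_le_mul_of_nonneg_left h2 (by positivity)
        · nlinarith
      · right
        have h6 : nn (j + 1 + 1) ^ q ≤ nn (j + 1 + 1) ^ 2 := pow_le_pow_of_le_one h3 h4.le hq
        by_contra h7
        nlinarith [not_le.1 h7]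
  have hc : ∀ k, m + 1 + k ≤ M → ρ ≤ nn (m + 1 + k) ^ (q ^ k) := by
    intro k hk
    induction k with
    | zero =>
      rw [pow_zero, pow_one]
      refine (ha m hM).resolve_left fun h2 => ?_
      have := mul_le_of_le_one_right (pow_pos hρ0 m).le (hb (m + 1)).2.le
      linarith
    | succ k ih =>
      have ih := ih (by omega)
      have h2 := hs (m + 1 + k) (by omega) (by omega)
      obtain ⟨h3, h4⟩ := hb (m + 1 + k)
      obtain ⟨h5, h6⟩ := hb (m + 1 + k + 1)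
      have h7 : ρ ≤ nn (m + 1 + k) :=
        ih.trans (pow_le_of_le_one h3 h4.le (pow_ne_zero _ (by omega)))
      have h8 : nn (m + 1 + k) ≤ nn (m + 1 + k + 1) ^ q :=
        (le_max_iff.1 h2).resolve_right fun h9 => by nlinarith
      rw [pow_succ', pow_mul]
      exact ih.trans (pow_le_pow_left₀ h3 h8 _)
  have := hc (M - (m + 1)) (by omega)
  rwa [Nat.add_sub_cancel' hM] at this

variable {p : ℕ} [Fact p.Prime] {n : ℕ}

theorem Tors_approx (S : Setup p n) {C : Type} [NormedField C] [IsUltrametricDist C]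
    [CompleteSpace C] (x : LTRing p n →+* C) (hx : ∀ a, ‖x a‖ ≤ 1) {ρ : ℝ} (hρ0 : 0 < ρ)
    (hρ : ∀ a ∈ mm p n, ‖x a‖ ≤ ρ) (M : ℕ) {z : C} (hz : ‖z‖ < 1) :
    ‖ev1 x z (mulSeries S.H (p ^ M)) - z ^ ((p ^ n) ^ M)‖ ≤ ρ * ‖z‖ := by
  have hp : p.Prime := Fact.out
  have e : ev1 x z ((PowerSeries.X : PowerSeries (LTRing p n)) ^ ((p ^ n) ^ M)) =
      z ^ ((p ^ n) ^ M) := by
    have := ev_pow x hx (fun _ : Unit => z) (fun _ => hz)
      (PowerSeries.X : PowerSeries (LTRing p n)) ((p ^ n) ^ M)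
    exact this.trans (congrArg (· ^ ((p ^ n) ^ M)) (ev1_X x z))
  rw [← e]
  refine norm_ev1_sub_le x hx x hx z hz _ _ (by positivity) fun d => ?_
  rcases eq_or_ne d 0 with rfl | hd
  · rw [PowerSeries.coeff_zero_eq_constantCoeff_apply, constantCoeff_mulSeries,
      PowerSeries.coeff_X_pow, if_neg (pow_pos (pow_pos hp.pos n) M).ne, sub_self, norm_zero, zero_mul]
    positivity
  · refine mul_le_mul ?_ (pow_le_of_le_one (norm_nonneg _) hz.le hd) (by positivity) hρ0.le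
    rw [← map_sub]
    refine hρ _ ?_
    rw [mm, RingHom.mem_ker, map_sub, ← PowerSeries.coeff_map, ← PowerSeries.coeff_map,
      S.map_mulSeries, map_pow (PowerSeries.map (LTRing.residue p n)), PowerSeries.map_X, sub_self]

theorem exists_torsion_basis (S : Setup p n) {h : ℕ} (h1 : 1 ≤ h) (hn : h < n) {C : Type}
    [NormedField C] [IsUltrametricDist C] [CompleteSpace C] [IsAlgClosed C] [CharP C p]
    (x : LTRing p n →+* C) (hx : ∀ a, ‖x a‖ ≤ 1) {ρ : ℝ} (hρ0 : 0 < ρ) (hρ1 : ρ < 1)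
    (hρ : ∀ a ∈ mm p n, ‖x a‖ ≤ ρ) (hI : ∀ a ∈ hId p S.H h, x a = 0) (hv : x (vv p S.H h) ≠ 0) :
    ∃ j₁ : ℕ, 1 ≤ j₁ ∧ ∀ M : ℕ, j₁ ≤ M → ∃ t : Fin (n - h) → C, (∀ i, ‖t i‖ < 1) ∧
      (∀ i, ev1 x (t i) (mulSeries S.H (p ^ M)) = 0) ∧ (∀ i, ‖t i‖ ^ ((p ^ n) ^ M) ≤ ρ) ∧
      (Function.Injective fun α : Fin (n - h) → Fin (p ^ M) =>
        ev x t (linS S.H fun i => (α i : ℕ))) ∧
      ∀ α : Fin (n - h) → ℕ, (∃ i, ¬ p ∣ α i) →
        ρ ≤ ‖ev x t (linS S.H α)‖ ^ ((p ^ n) ^ (M - j₁)) := by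
  have hp : p.Prime := Fact.out
  have hq : 2 ≤ p ^ n := hp.two_le.trans (Nat.le_self_pow (by omega) p)
  have hcard : ∀ j, Nat.card {a : Pts S.H x hx // p ^ j • a = 0} = p ^ ((n - h) * j) := fun j => by
    rw [← card_torsion S h1 hn x hx (fun a ha => (hρ a ha).trans_lt hρ1) hI hv j]
    exact Nat.card_congr
      { toFun := fun a => ⟨a.1.val, a.1.prop, (Pts.nsmul_val _ _).symm.trans (congrArg Subtype.val a.2)⟩
        invFun := fun z => ⟨Pts.mk S.H hx z.1 z.2.1, Pts.ext ((Pts.nsmul_val _ _).trans z.2.2)⟩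
        left_inv := fun _ => rfl
        right_inv := fun _ => rfl }
  obtain ⟨κ, hκ, hκ'⟩ : ∃ κ : ℝ, 0 < κ ∧ ∀ a : Pts S.H x hx, p ^ 1 • a = 0 → a ≠ 0 → κ ≤ ‖a.val‖ := by
    classical
    have : Finite {a : Pts S.H x hx // p ^ 1 • a = 0} :=
      Nat.finite_of_card_ne_zero (by rw [hcard]; exact pow_ne_zero _ hp.ne_zero)
    have : Nonempty {a : Pts S.H x hx // p ^ 1 • a = 0} := ⟨⟨0, smul_zero _⟩⟩
    obtain ⟨a₀, ha₀⟩ := Finite.exists_min fun a : {a : Pts S.H x hx // p ^ 1 • a = 0} =>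
      if a.1 = 0 then (1 : ℝ) else ‖a.1.val‖
    refine ⟨_, ?_, fun a ha ha0 => (ha₀ ⟨a, ha⟩).trans_eq (if_neg ha0)⟩
    split_ifs with h0
    · exact one_pos
    · exact norm_pos_iff.2 fun h2 => h0 (Pts.ext h2)
  obtain ⟨j₁, hj₁, hch⟩ := norm_chain hρ0 hρ1 hκ hq
  refine ⟨j₁, hj₁, fun M hM => ?_⟩
  obtain ⟨t, ht1, ht2, ht3⟩ := exists_basis_of_card (A := Pts S.H x hx) p (n - h) M (hj₁.trans hM)
    fun j _ => hcard j
  have hlin : ∀ α : Fin (n - h) → ℕ, ev x (fun i => (t i).val) (linS S.H α) = (∑ i, α i • t i).val :=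
    fun α => ev_linS hx _ (fun i => (t i).prop) α
  have hev : ∀ i, ev1 x (t i).val (mulSeries S.H (p ^ M)) = 0 := fun i =>
    (Pts.nsmul_val _ _).symm.trans (congrArg Subtype.val (ht1 i))
  refine ⟨fun i => (t i).val, fun i => (t i).prop, hev, fun i => ?_, fun α β hαβ => ?_,
    fun α hα => ?_⟩
  · have h2 := Tors_approx S x hx hρ0 hρ M (t i).prop
    rw [hev, zero_sub, norm_neg, norm_pow] at h2
    exact h2.trans (mul_le_of_le_one_right hρ0.le (t i).prop.le)
  · simp only [hlin] at hαβ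
    exact ht3 (Pts.ext hαβ)
  · set a := ∑ i, α i • t i with ha
    have h2 := hch M (fun j => ‖(p ^ (M - j) • a).val‖) hM (hκ' _ ?_ (ht2 α hα))
      (fun j => ⟨norm_nonneg _, (p ^ (M - j) • a).prop⟩) fun j _ hj => ?_
    · rw [hlin]
      simpa only [Nat.sub_self, pow_zero, one_smul] using h2
    · rw [smul_smul, ← pow_add, Nat.add_sub_cancel' (hj₁.trans hM), ha, Finset.smul_sum]
      exact Finset.sum_eq_zero fun i _ => by rw [smul_comm, ht1, smul_zero]
    · have e : p ^ (M - j) • a = p ^ 1 • p ^ (M - (j + 1)) • a := by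
        rw [smul_smul, ← pow_add]
        congr 2
        omega
      simp only [e]
      set z := p ^ (M - (j + 1)) • a
      have h3 := Tors_approx S x hx hρ0 hρ 1 z.prop
      rw [pow_one (p ^ n)] at h3
      rw [Pts.nsmul_val, ← add_sub_cancel (z.val ^ p ^ n) (ev1 x z.val _)]
      refine (IsUltrametricDist.norm_add_le_max _ _).trans (max_le_max (norm_pow _ _).le h3)

end Crest.Agent.R227
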