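import Crest.Agent.R227.Quant
import Crest.Agent.R227.Tors
import Crest.Agent.R227.Root
import Crest.Agent.R227.Point2
import Crest.Agent.R227.LT2

/-!
# R227 / MainPos: orbits of points of height `h`, `1 ≤ h < n`, are Zariski dense in `V(I_h)`

`r = n - h`, `q = p ^ n`, `e = h M`, so `q ^ M = p ^ e * p ^ (r M)`.

`phi_order` (test point).  Suppose `f ∉ I_h`.  If `f ∉ mm` it is a unit.  `exists_point_prime` for
`P = I_h` (needs `v_h ∉ I_h`, given by the point `x`) gives `y₀` with kernel `I_h`;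
`ρ₀` from `exists_rho`, `ι₀` from `exists_kmap`, `CharP` from `y₀ p = 0`; `E` with `ρ₀ ^ E < ‖y₀ f‖`.
For `M` large (`j₁ ≤ M`, `E ≤ p ^ e`) and `φ` as in `exists_phi`, `t₀` from `exists_torsion_basis`:
`‖ev ι₀ s₀ φ‖ = ‖y₀ f‖ > ρ₀ ^ E`, `s₀ = t₀ ^ p ^ e`, `‖s₀ i‖ ^ p ^ (r M) ≤ ρ₀`; if all coefficients of degree
`≤ Q = E p ^ (r M)` vanished, `norm_ev_le_pow` (with `ρ = max ‖s₀ i‖`, or `ρ₀ ^ (1 / p ^ (r M))`)
would give `‖ev‖ ≤ ρ₀ ^ E`.

`orbit_small`.  For the point `x` with torsion basis `t`, `s = t ^ p ^ e`, and `b : Fin m → k`: let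
`b' I` with `b' I ^ p ^ e = b I` (`k` perfect), `g = gSer G p i₀ b'` with `M₀ ≤ p ^ i₀`; apply `Orb` to
`g⁻¹ = g.substInvOfIsUnit` (`hom_inv`, `substInv_coeff`, `gSer_coeff`), get `φ_g`, `θ`; `θ' = θ⁻¹ :
H → H.map φ_g` reduces to `g` (both are inverse to `g⁻¹`).  `y = x ∘ φ_g` kills `I_h`
(`map_hId_of_stabilizerMap`), `t' i = ev1 x (t i) θ'` is a torsion basis for `y`
(`hom_mulSeries_comm`, `ev_psubst`, `ev1_ev_linS`, `ev1_inj`, `linS_map`, `mulSeries_map`,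
`ev_map`), so `‖ev ι (t' ^ p ^ e) φ‖ ≤ ρ ^ p ^ e` as `y f = 0`.  `‖t' i - ev1 ι (t i) g‖ ≤ ρ`
(`norm_ev_sub_coeff`, `norm_sub_kmap_le`), `(ev1 ι (t i) g) ^ p ^ e = ev1 ι (s i) (gSer G p i₀ b)`
(`ev1_gSer` and the additive map `homAct` of `monoPt G p 1 e`), `norm_ev_sub_point`.

`main_pos`: `ρ_s = ρ ^ (1 / p ^ (r M))` (`Real.rpow`, or any real with `ρ_s ^ p ^ (r M) = ρ`);
`‖s i‖ ≤ ρ_s`; for primitive `α`, `norm_pow_lin_sub` and `ρ ≤ ‖ev x t (linS H α)‖ ^ q ^ (M - j₁)` give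
`ρ_s ^ q ^ j₁ ≤ ‖ev ι s (linS G α)‖` (for `M > j₁` the main term dominates the error `ρ ^ p ^ e`);
`ρ ^ p ^ e = ρ_s ^ q ^ M`.  `quant` with `K = q ^ j₁`, `Q = E p ^ (r M)`, `L = q ^ M` gives
`p ^ (h M) ≤ C₀ E`, false for large `M`.
-/

set_option autoImplicit false
noncomputable section
open Crest.LubinTate

namespace Crest.Agent.R227

variable {p : ℕ} [Fact p.Prime] {n : ℕ}

/-- The property of `φ` provided by `exists_phi`. -/
def IsPhi (S : Setup p n) (h M : ℕ) (f : LTRing p n)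
    (φ : MvPowerSeries (Fin (n - h)) (kk p n)) : Prop :=
  ∀ {C : Type} [NormedField C] [IsUltrametricDist C] [CompleteSpace C] [CharP C p]
    (y : LTRing p n →+* C) (ι : kk p n →+* C) (ρ : ℝ) (t : Fin (n - h) → C), (∀ a, ‖y a‖ ≤ 1) →
    (∀ w : WW p n, y (algebraMap (WW p n) (LTRing p n) w) = ι (resW p n w)) → ρ < 1 →
    (∀ a ∈ mm p n, ‖y a‖ ≤ ρ) → (∀ a ∈ hId p S.H h, y a = 0) → (∀ i, ‖t i‖ < 1) →
    (∀ i, ev1 y (t i) (mulSeries S.H (p ^ M)) = 0) →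
    (Function.Injective fun α : Fin (n - h) → Fin (p ^ M) =>
      ev y t (linS S.H fun i => (α i : ℕ))) →
    ‖y f - ev ι (fun i => t i ^ (p ^ (h * M))) φ‖ ≤ ρ ^ (p ^ (h * M))

theorem MainPos_root {ρ : ℝ} (h0 : 0 < ρ) (h1 : ρ < 1) {N : ℕ} (hN : N ≠ 0) :
    ∃ σ : ℝ, 0 < σ ∧ σ < 1 ∧ σ ^ N = ρ :=
  ⟨ρ ^ ((N : ℝ)⁻¹), Real.rpow_pos_of_pos h0 _,
    Real.rpow_lt_one h0.le h1 (inv_pos.2 (Nat.cast_pos.2 (Nat.pos_of_ne_zero hN))),
    Real.rpow_inv_natCast_pow h0.le hN⟩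

theorem MainPos_ultra {C : Type*} [NormedField C] [IsUltrametricDist C] (a b : C) :
    ‖a‖ ≤ max ‖a - b‖ ‖b‖ := by
  simpa using IsUltrametricDist.norm_add_le_max (a - b) b

omit [Fact p.Prime] in
theorem MainPos_exp {h : ℕ} (hn : h ≤ n) (M : ℕ) :
    p ^ (h * M) * p ^ ((n - h) * M) = (p ^ n) ^ M := by
  rw [← pow_add, ← add_mul, Nat.add_sub_cancel' hn, pow_mul]

theorem MainPos_le {C : Type*} [NormedField C] {h M : ℕ} (hn : h ≤ n) {σ ρ : ℝ} (hσ0 : 0 < σ)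
    (hσ : σ ^ (p ^ ((n - h) * M)) = ρ) {z : C} (hz : ‖z‖ ^ ((p ^ n) ^ M) ≤ ρ) :
    ‖z ^ (p ^ (h * M))‖ ≤ σ := by
  rw [← pow_le_pow_iff_left₀ (norm_nonneg _) hσ0.le
    (pow_ne_zero ((n - h) * M) (Fact.out : p.Prime).ne_zero), norm_pow, ← pow_mul,
    MainPos_exp hn, hσ]
  exact hz

theorem MainPos_p (S : Setup p n) {h : ℕ} (h1 : 1 ≤ h) {C : Type*} [CommRing C]
    (x : LTRing p n →+* C) (hI : ∀ a ∈ hId p S.H h, x a = 0) : x p = 0 := by
  rw [← vv_zero p S.H]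
  exact hI _ (vv_mem_hId p S.H h1)

theorem MainPos_frob (S : Setup p n) {C : Type*} [NormedField C] [IsUltrametricDist C]
    [CompleteSpace C] (ι : kk p n →+* C) {z : C} (hz : ‖z‖ < 1) (i₀ e : ℕ) {m : ℕ}
    (b' b : Fin m → kk p n) (hb : ∀ I, b' I ^ (p ^ e) = b I) :
    ev1 ι z (gSer S.G p i₀ b') ^ (p ^ e) = ev1 ι (z ^ (p ^ e)) (gSer S.G p i₀ b) := by
  have hι1 : ∀ a, ‖ι a‖ ≤ 1 := norm_kmap_le ι
  have hpe : p ^ e ≠ 0 := pow_ne_zero _ (Fact.out : p.Prime).ne_zero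
  have hz' : ‖z ^ (p ^ e)‖ < 1 := by
    rw [norm_pow]
    exact pow_lt_one₀ (norm_nonneg _) hz hpe
  set Φ := homAct hι1 (hom_monoPt S.G p 1 e (S.smul 1) S.frob) with hΦ
  have hΦv : ∀ a, (Φ a).val = a.val ^ (p ^ e) := fun a => by
    rw [hΦ, homAct_val]
    have h1 : (monoPt S.G p 1 e).val = PowerSeries.X ^ (p ^ e) := by simp [monoPt]
    rw [h1]
    exact (ev_pow ι hι1 _ (fun _ => a.2) _ _).trans (congrArg (· ^ (p ^ e)) (ev1_X ι a.val))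
  rw [ev1_gSer hι1 p i₀ b' z hz, ev1_gSer hι1 p i₀ b _ hz', ← hΦv, map_add, map_sum]
  congr 2
  · exact Pts.ext (hΦv _)
  · refine Finset.sum_congr rfl fun I _ => Pts.ext ?_
    rw [hΦv, Pts.mk_val, Pts.mk_val, mul_pow, ← map_pow, hb, ← pow_mul, ← pow_mul, mul_comm (p ^ e)]

theorem phi_order (S : Setup p n) {h : ℕ} (h1 : 1 ≤ h) (hn : h < n)
    (hP : (hId p S.H h).IsPrime) (hv : vv p S.H h ∉ hId p S.H h) {f : LTRing p n}
    (hf : f ∉ hId p S.H h) :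
    ∃ E M₁ : ℕ, 1 ≤ E ∧ ∀ M, M₁ ≤ M → ∀ φ, IsPhi S h M f φ →
      ∃ d : Fin (n - h) →₀ ℕ, d.degree ≤ E * p ^ ((n - h) * M) ∧ MvPowerSeries.coeff d φ ≠ 0 := by
  have hp : p.Prime := Fact.out
  obtain ⟨C, _, _, _, _, y, hy0, hy, hym⟩ := exists_point_prime (LTRing p n) (hId p S.H h)
    ⟨vv p S.H h, mm_eq_maximalIdeal p n ▸ S.vv_mem_mm hn, hv⟩
  rw [← mm_eq_maximalIdeal] at hym
  have hI : ∀ a ∈ hId p S.H h, y a = 0 := fun a ha => (hy0 a).2 ha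
  have hyp : y p = 0 := MainPos_p S h1 y hI
  have : CharP C p := (CharP.charP_iff_prime_eq_zero hp).2 (by simpa using hyp)
  obtain ⟨ρ, hρ0, hρ1, hρ⟩ := exists_rho y hy hym
  obtain ⟨ι, hι⟩ := exists_kmap y hyp
  have hf0 : 0 < ‖y f‖ := norm_pos_iff.2 fun h0 => hf ((hy0 f).1 h0)
  obtain ⟨E₀, hE₀⟩ := exists_pow_lt_of_lt_one hf0 hρ1
  have hE : ρ ^ (E₀ + 1) < ‖y f‖ :=
    lt_of_le_of_lt (pow_le_pow_of_le_one hρ0.le hρ1.le (Nat.le_succ _)) hE₀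
  obtain ⟨j₁, -, hj⟩ := exists_torsion_basis S h1 hn y hy hρ0 hρ1 hρ hI fun h0 => hv ((hy0 _).1 h0)
  refine ⟨E₀ + 1, max j₁ (E₀ + 1), Nat.le_add_left _ _, fun M hM φ hφ => ?_⟩
  obtain ⟨t, ht, ht0, htq, hinj, -⟩ := hj M (le_of_max_le_left hM)
  have h2 := hφ y ι ρ t hy hι hρ1 hρ hI ht ht0 hinj
  have hEM : E₀ + 1 ≤ p ^ (h * M) :=
    (le_of_max_le_right hM).trans ((Nat.le_mul_of_pos_left M h1).trans
      (Nat.lt_pow_self hp.one_lt).le)
  have h3 := h2.trans (pow_le_pow_of_le_one hρ0.le hρ1.le hEM)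
  by_contra hc
  push Not at hc
  obtain ⟨σ, hσ0, hσ1, hσ⟩ := MainPos_root hρ0 hρ1 (pow_ne_zero ((n - h) * M) hp.ne_zero)
  have h4 := norm_ev_le_pow ι (norm_kmap_le ι) (fun i => t i ^ (p ^ (h * M))) hσ0.le hσ1.le
    (fun i => MainPos_le hn.le hσ0 hσ (htq i)) φ ((E₀ + 1) * p ^ ((n - h) * M))
    fun d hd => by rw [hc d hd.le, map_zero]
  rw [mul_comm (E₀ + 1), pow_mul σ, hσ] at h4
  have h5 := (MainPos_ultra (y f) _).trans (max_le h3 h4)
  exact absurd hE (not_lt.2 h5)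

theorem orbit_small (S : Setup p n) {h M₀ M i₀ : ℕ} (hM₀ : 2 ≤ M₀) (hi₀ : M₀ ≤ p ^ i₀) {C : Type}
    [NormedField C] [IsUltrametricDist C] [CompleteSpace C] [CharP C p] (x : LTRing p n →+* C)
    (hx : ∀ a, ‖x a‖ ≤ 1) (ι : kk p n →+* C)
    (hι : ∀ w : WW p n, x (algebraMap (WW p n) (LTRing p n) w) = ι (resW p n w)) {ρ : ℝ}
    (hρ1 : ρ < 1) (hρ : ∀ a ∈ mm p n, ‖x a‖ ≤ ρ) (hI : ∀ a ∈ hId p S.H h, x a = 0)
    {f : LTRing p n} (hf : Orb S M₀ x f) {φ : MvPowerSeries (Fin (n - h)) (kk p n)}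
    (hφ : IsPhi S h M f φ) (t : Fin (n - h) → C) (ht : ∀ i, ‖t i‖ < 1)
    (ht0 : ∀ i, ev1 x (t i) (mulSeries S.H (p ^ M)) = 0)
    (hinj : Function.Injective fun α : Fin (n - h) → Fin (p ^ M) =>
      ev x t (linS S.H fun i => (α i : ℕ))) (m : ℕ) (b : Fin m → kk p n) :
    ‖ev ι (fun i => ev1 ι (t i ^ (p ^ (h * M))) (gSer S.G p i₀ b)) φ‖ ≤ ρ ^ (p ^ (h * M)) := by
  have hp : p.Prime := Fact.out
  have hρ0 : 0 ≤ ρ := by simpa using hρ 0 (zero_mem _)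
  have hι1 : ∀ a, ‖ι a‖ ≤ 1 := norm_kmap_le ι
  choose b' hb' using fun I : Fin m => (bijective_iterateFrobenius (kk p n) p (h * M)).2 (b I)
  simp only [iterateFrobenius_def] at hb'
  set g := gSer S.G p i₀ b' with hgdef
  have hg : IsFGHom S.G S.G g := hom_gSer S.G p i₀ b' S.smul S.frob
  have hgc : ∀ i < M₀, PowerSeries.coeff i g = PowerSeries.coeff i PowerSeries.X :=
    fun i hi => gSer_coeff S.G p i₀ b' i (hi.trans_le hi₀)
  have hu : IsUnit (PowerSeries.coeff 1 g) := by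
    rw [hgc 1 hM₀, PowerSeries.coeff_one_X]
    exact isUnit_one
  have hgi := substInv_coeff hg.1 hu hgc
  have hgi1 : PowerSeries.coeff 1 (g.substInvOfIsUnit hu) ≠ 0 := by
    rw [hgi 1 hM₀, PowerSeries.coeff_one_X]
    exact one_ne_zero
  obtain ⟨ψ, hψ, hxf⟩ := hf _ (hom_inv hg hu) hgi
  have hmap := map_hId_of_stabilizerMap hgi1 hψ h
  obtain ⟨hres, θ, hθ, hθr⟩ := hψ
  have huθ : IsUnit (PowerSeries.coeff 1 θ) := by
    refine isUnit_of_residue_ne_zero p n ?_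
    rw [← PowerSeries.coeff_map, hθr]
    exact hgi1
  set θ' := θ.substInvOfIsUnit huθ with hθ'def
  have hθ' : IsFGHom S.H (S.H.map ψ.toRingHom) θ' := hom_inv hθ huθ
  have huθ' : IsUnit (PowerSeries.coeff 1 θ') := by
    rw [hθ'def, PowerSeries.coeff_one_substInvOfIsUnit]
    exact Units.isUnit _
  have hred : PowerSeries.map (LTRing.residue p n) θ' = g := by
    have h0 : PowerSeries.constantCoeff (PowerSeries.map (LTRing.residue p n) θ') = 0 := by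
      rw [← PowerSeries.coeff_zero_eq_constantCoeff_apply, PowerSeries.coeff_map,
        PowerSeries.coeff_zero_eq_constantCoeff_apply, hθ'.1, map_zero]
    have h1 : PowerSeries.subst θ' θ = PowerSeries.X :=
      PowerSeries.subst_substInvOfIsUnit_right θ hθ.1 huθ
    have h2 : PowerSeries.subst (PowerSeries.map (LTRing.residue p n) θ')
        (g.substInvOfIsUnit hu) = PowerSeries.X := by
      have h3 := PowerSeries.map_subst (h := LTRing.residue p n) (hom_hasSubst hθ') θ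
      rw [h1, hθr] at h3
      exact h3.symm.trans (PowerSeries.map_X _)
    have h4 := fg1_right_inv hg.1 hu (PowerSeries.HasSubst.of_constantCoeff_zero' h0)
    rw [h2, PowerSeries.X_subst] at h4
    exact h4.symm
  set y : LTRing p n →+* C := x.comp ψ.toRingHom with hydef
  set t' : Fin (n - h) → C := fun i => ev1 x (t i) θ' with ht'def
  have ht' : ∀ i, ‖t' i‖ < 1 := fun i =>
    (norm_ev1_le_self x hx (t i) (ht i) θ' hθ'.1).trans_lt (ht i)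
  have hlin : ∀ α : Fin (n - h) → ℕ, ‖ev x t (linS S.H α)‖ < 1 := fun α =>
    norm_ev_lt_one x hx t ht _ (by rw [constantCoeff_linS, map_zero, norm_zero]; exact one_pos)
  have key := hφ y ι ρ t' (fun a => hx _) (fun w => by
      rw [← hι w]
      exact congrArg x (ψ.commutes w)) hρ1 (fun a ha => hρ _ (by
      rw [mem_mm] at ha ⊢
      rw [← ha]
      exact RingHom.congr_fun hres a)) (fun a ha => hI _ (hmap ▸ Ideal.mem_map_of_mem _ ha)) ht'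
    (fun i => by
      have h1 : (p ^ M) • Pts.mk S.H hx (t i) (ht i) = 0 :=
        Pts.ext (by rw [Pts.nsmul_val, Pts.mk_val, ht0 i, Pts.zero_val])
      have h2 := congrArg Subtype.val (map_nsmul (homAct hx hθ') (p ^ M) (Pts.mk S.H hx (t i) (ht i)))
      rw [h1, map_zero, Pts.nsmul_val, homAct_val, Pts.mk_val, mulSeries_map, ev1_map,
        Pts.zero_val] at h2
      exact h2.symm)
    (fun α β hαβ => hinj (by
      have e : ∀ γ : Fin (n - h) → ℕ,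
          ev y t' (linS S.H γ) = ev1 x (ev x t (linS S.H γ)) θ' := fun γ => by
        rw [ev1_ev_linS hx hθ' t ht γ, linS_map, ev_map]
      simp only [e] at hαβ
      exact ev1_inj hx hθ'.1 huθ' (hlin _) (hlin _) hαβ))
  have hyf : y f = 0 := hxf
  rw [hyf, zero_sub, norm_neg] at key
  have hpe : p ^ (h * M) ≠ 0 := pow_ne_zero _ hp.ne_zero
  have hclose : ∀ i, ‖ev1 ι (t i ^ (p ^ (h * M))) (gSer S.G p i₀ b) - t' i ^ (p ^ (h * M))‖ ≤
      ρ ^ (p ^ (h * M)) := fun i => by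
    rw [← MainPos_frob S ι (ht i) i₀ (h * M) b' b hb', ← sub_pow_char_pow, norm_pow, norm_sub_rev]
    refine pow_le_pow_left₀ (norm_nonneg _) ?_ _
    refine norm_ev_sub_coeff x hx ι hι1 (fun _ : Unit => t i) (fun _ => ht i) θ' g fun d => ?_
    rw [← hred]
    exact norm_sub_kmap_le x ι hι hρ _
  have hs : ∀ i, ‖t i ^ (p ^ (h * M))‖ < 1 := fun i => by
    rw [norm_pow]
    exact pow_lt_one₀ (norm_nonneg _) (ht i) hpe
  have h3 := norm_ev_sub_point ι hι1 (fun i => ev1 ι (t i ^ (p ^ (h * M))) (gSer S.G p i₀ b))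
    (fun i => t' i ^ (p ^ (h * M)))
    (fun i => (norm_ev1_le_self ι hι1 _ (hs i) _ (hom_gSer S.G p i₀ b S.smul S.frob).1).trans_lt
      (hs i))
    (fun i => by
      rw [norm_pow]
      exact pow_lt_one₀ (norm_nonneg _) (ht' i) hpe) (pow_nonneg hρ0 _) hclose φ
  exact (MainPos_ultra _ _).trans (max_le h3 key)

theorem main_pos (S : Setup p n) {h : ℕ} (h1 : 1 ≤ h) (hn : h < n) (hP : (hId p S.H h).IsPrime)
    {M₀ : ℕ} (hM₀ : 2 ≤ M₀) {C : Type} [NormedField C] [IsUltrametricDist C] [CompleteSpace C]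
    [IsAlgClosed C] (x : LTRing p n →+* C) (hx : ∀ a, ‖x a‖ ≤ 1)
    (hxm : ∀ a ∈ mm p n, ‖x a‖ < 1) (hI : ∀ a ∈ hId p S.H h, x a = 0)
    (hv : x (vv p S.H h) ≠ 0) {f : LTRing p n} (hf : Orb S M₀ x f) : f ∈ hId p S.H h := by
  have hp : p.Prime := Fact.out
  by_contra hf'
  obtain ⟨E, M₁, hE, hord⟩ := phi_order S h1 hn hP (fun h0 => hv (hI _ h0)) hf'
  have hxp : x p = 0 := MainPos_p S h1 x hI
  have : CharP C p := (CharP.charP_iff_prime_eq_zero hp).2 (by simpa using hxp)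
  obtain ⟨ρ, hρ0, hρ1, hρ⟩ := exists_rho x hx hxm
  obtain ⟨ι, hι⟩ := exists_kmap x hxp
  obtain ⟨j₁, -, hj⟩ := exists_torsion_basis S h1 hn x hx hρ0 hρ1 hρ hI hv
  obtain ⟨C₀, hC₀⟩ := quant (p := p) (n := n) (r := n - h) (by omega) (by omega) ((p ^ n) ^ j₁) M₀
  set M := max (max M₁ (j₁ + 1)) (C₀ * E) with hM
  have hM₁ : M₁ ≤ M := (le_max_left _ _).trans (le_max_left _ _)
  have hMj : j₁ + 1 ≤ M := (le_max_right _ _).trans (le_max_left _ _)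
  have hMC : C₀ * E ≤ M := le_max_right _ _
  obtain ⟨φ, hφ'⟩ := exists_phi S h1 hn (M := M) (by omega) f
  have hφ : IsPhi S h M f φ := fun y ι ρ t => hφ' y ι ρ t
  obtain ⟨t, ht, ht0, htq, hinj, hprim⟩ := hj M (by omega)
  have hr0 : p ^ ((n - h) * M) ≠ 0 := pow_ne_zero _ hp.ne_zero
  obtain ⟨σ, hσ0, hσ1, hσ⟩ := MainPos_root hρ0 hρ1 hr0
  have hexp := MainPos_exp (p := p) hn.le M
  have hρσ : ρ ^ (p ^ (h * M)) = σ ^ ((p ^ n) ^ M) := by
    rw [← hσ, ← pow_mul, mul_comm, hexp]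
  have hq : 1 < p ^ n := Nat.one_lt_pow (by omega) hp.one_lt
  have hfin := hC₀ S.toHonda ι (fun i => t i ^ (p ^ (h * M))) σ hσ0 hσ1
    (fun i => MainPos_le hn.le hσ0 hσ (htq i)) (fun α hα => by
      have h2 := norm_pow_lin_sub S x hx ι hι hρ t ht (h * M) α
      have h3 : σ ^ ((p ^ n) ^ j₁) ≤ ‖ev x t (linS S.H α) ^ (p ^ (h * M))‖ := by
        rw [← pow_le_pow_iff_left₀ (by positivity) (norm_nonneg _) hr0, norm_pow, ← pow_mul σ,
          ← pow_mul ‖_‖, hexp, mul_comm, pow_mul σ, hσ]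
        have e : (p ^ n) ^ M = (p ^ n) ^ (M - j₁) * (p ^ n) ^ j₁ := by
          rw [← pow_add]
          congr 1
          omega
        rw [e, pow_mul ‖_‖]
        exact pow_le_pow_left₀ hρ0.le (hprim α hα) _
      have h4 : ρ ^ (p ^ (h * M)) < σ ^ ((p ^ n) ^ j₁) := by
        rw [hρσ]
        exact pow_lt_pow_right_of_lt_one₀ hσ0 hσ1 (Nat.pow_lt_pow_right hq (by omega))
      by_contra h5
      exact absurd ((MainPos_ultra _ _).trans_lt (max_lt (h2.trans_lt h4) (not_le.1 h5)))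
        (not_lt.2 h3))
    φ (E * p ^ ((n - h) * M)) ((p ^ n) ^ M) (Nat.mul_pos hE (Nat.pos_of_ne_zero hr0))
    (hord M hM₁ φ hφ) fun m b => by
      rw [← hρσ]
      exact orbit_small S hM₀ (Nat.lt_pow_self hp.one_lt).le x hx ι hι hρ1 hρ hI hf hφ t ht ht0
        hinj m b
  rw [← hexp, ← mul_assoc] at hfin
  have h6 : p ^ (h * M) ≤ C₀ * E := Nat.le_of_mul_le_mul_right hfin (Nat.pos_of_ne_zero hr0)
  have h7 : h * M < p ^ (h * M) := Nat.lt_pow_self hp.one_lt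
  have h8 : M ≤ h * M := Nat.le_mul_of_pos_left M h1
  omega

end Crest.Agent.R227
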