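import Crest.Agent.R227.Honda
import Crest.Agent.R227.LT2

/-!
# R227 / SetupEx: passing to Honda coordinates

`H₀ = H.map constantCoeff` over `W(k)` reduces to `Γ` (`fg_map_map`; `residue` is by definition
`resW ∘ constantCoeff`).  `exists_honda` gives `D`, `u : D.F → H₀`.  Let `uE = u.map algebraMap`,
`H'` from `exists_conj H uE`, commutative by `isComm_of_hom`; `ū = u.map resW : D.G → Γ`, and
`H'.map residue = D.G` by `hom_source_unique` (`hom_map`, `residue_algebraMap`).  `rigid` from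
`rigid_of_universal` and `mulSeries_coeff_transfer` (for the inverse of `uE`);
`hId_eq_of_iso`.  Orbits: for `g : G → G`, `g ≡ X mod X ^ max M 2`, let `g₁ = ū ∘ g ∘ ū⁻¹`, an automorphism
of `Γ`, `≡ X mod X ^ M` (`conj_coeff`, `hom_comp`, `hom_inv`); `φ, θ₁` from `exists_stabilizerMap`;
`θ = uE⁻¹ ∘ θ₁ ∘ uE : H'.map φ → H'` (`uE.map φ = uE` as `φ` is a `W`-algebra map) reduces to
`ū⁻¹ ∘ g₁ ∘ ū = g` (`map_subst`; `map residue uE⁻¹` is the inverse of `ū`).  Stability gives
`φ f ∈ J`.
-/

set_option autoImplicit false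
noncomputable section
open Crest.LubinTate

namespace Crest.Agent.R227

variable {p : ℕ} [Fact p.Prime] {n : ℕ}

theorem SetupEx_map_subst {R S : Type*} [CommRing R] [CommRing S] (ψ : R →+* S)
    {a : PowerSeries R} (ha : PowerSeries.HasSubst a) (f : PowerSeries R) :
    PowerSeries.map ψ (PowerSeries.subst a f) =
      PowerSeries.subst (PowerSeries.map ψ a) (PowerSeries.map ψ f) :=
  PowerSeries.map_subst ha f

theorem exists_setup (hn : 1 ≤ n) {Γ : FormalGroup (kk p n)} [Γ.IsComm]
    (hΓ : mulSeries Γ p = PowerSeries.X ^ (p ^ n)) {H : FormalGroup (LTRing p n)} [H.IsComm]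
    (hH : IsUniversalDeformation p n Γ H) :
    ∃ S : Setup p n, (∀ h, hId p S.H h = hId p H h) ∧
      ∀ (M : ℕ) (J : Ideal (LTRing p n)), IsStableIdeal p n Γ H M J →
        ∀ {C : Type} [CommRing C] (x : LTRing p n →+* C), (∀ a ∈ J, x a = 0) →
          ∀ f ∈ J, Orb S (max M 2) x f := by
  have hΓH : H.map (LTRing.residue p n) = Γ := hH.1
  have hH₀ : (H.map (MvPowerSeries.constantCoeff : LTRing p n →+* WW p n)).map (resW p n) = Γ := by
    rw [fg_map_map]
    exact hΓH
  obtain ⟨D, u, hu, hu1⟩ := exists_honda p n hn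
    (H.map (MvPowerSeries.constantCoeff : LTRing p n →+* WW p n)) (by rw [hH₀]; exact hΓ)
  obtain ⟨uE, huEdef⟩ : ∃ uE : PowerSeries (LTRing p n),
    uE = PowerSeries.map (algebraMap (WW p n) (LTRing p n)) u := ⟨_, rfl⟩
  have huE0 : PowerSeries.constantCoeff uE = 0 := by
    rw [huEdef, ← PowerSeries.coeff_zero_eq_constantCoeff_apply, PowerSeries.coeff_map,
      PowerSeries.coeff_zero_eq_constantCoeff_apply, hu.1, map_zero]
  have huE1 : IsUnit (PowerSeries.coeff 1 uE) := by
    rw [huEdef, PowerSeries.coeff_map, hu1, map_one]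
    exact isUnit_one
  obtain ⟨H', hH'⟩ := exists_conj H huE0 huE1
  have hc' : H'.IsComm := isComm_of_hom hH' huE1
  obtain ⟨vE, hvEdef⟩ : ∃ vE : PowerSeries (LTRing p n), vE = uE.substInvOfIsUnit huE1 := ⟨_, rfl⟩
  have hv : IsFGHom H H' vE := hvEdef ▸ hom_inv hH' huE1
  have hv1 : IsUnit (PowerSeries.coeff 1 vE) := by
    rw [hvEdef, PowerSeries.coeff_one_substInvOfIsUnit]
    exact Units.isUnit _
  have huv : PowerSeries.subst vE uE = PowerSeries.X :=
    hvEdef ▸ PowerSeries.subst_substInvOfIsUnit_right uE huE0 huE1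
  have hvu : PowerSeries.subst uE vE = PowerSeries.X :=
    hvEdef ▸ PowerSeries.subst_substInvOfIsUnit_left uE huE0 huE1
  obtain ⟨ub, hub⟩ : ∃ ub : PowerSeries (kk p n), ub = PowerSeries.map (LTRing.residue p n) uE :=
    ⟨_, rfl⟩
  obtain ⟨vb, hvb⟩ : ∃ vb : PowerSeries (kk p n), vb = PowerSeries.map (LTRing.residue p n) vE :=
    ⟨_, rfl⟩
  have hub' : ub = PowerSeries.map (resW p n) u := by
    rw [hub, huEdef]
    ext d
    simp only [PowerSeries.coeff_map, residue_algebraMap]
  have hubG : IsFGHom D.G Γ ub := by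
    have h := hom_map hu (resW p n)
    rwa [D.red, hH₀, ← hub'] at h
  have hub1 : IsUnit (PowerSeries.coeff 1 ub) := by
    rw [hub, PowerSeries.coeff_map]
    exact huE1.map _
  have hred : H'.map (LTRing.residue p n) = D.G := by
    have h := hom_map hH' (LTRing.residue p n)
    rw [hΓH, ← hub] at h
    exact hom_source_unique h hubG hub1
  have hvbG : IsFGHom Γ D.G vb := by
    have h := hom_map hv (LTRing.residue p n)
    rwa [hΓH, hred, ← hvb] at h
  have huvb : PowerSeries.subst vb ub = PowerSeries.X := by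
    rw [hub, hvb, ← SetupEx_map_subst _ (hom_hasSubst hv), huv, PowerSeries.map_X]
  have hvub : PowerSeries.subst ub vb = PowerSeries.X := by
    rw [hub, hvb, ← SetupEx_map_subst _ (hom_hasSubst hH'), hvu, PowerSeries.map_X]
  refine ⟨{ toHonda := D, H := H', commH := hc', redH := hred, rigid := ?_ },
    fun h => hId_eq_of_iso p hH' huE1 h, ?_⟩
  · intro M 𝔟 hM hp h
    exact rigid_of_universal hn hΓ hH M 𝔟 hM hp (mulSeries_coeff_transfer hv hv1 𝔟 _ _ h)
  · intro M J hJ C _ x hx f hf g hg hgX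
    replace hg : IsFGHom D.G D.G g := hg
    have hg₁ : IsFGHom Γ Γ (PowerSeries.subst (PowerSeries.subst vb g) ub) :=
      hom_comp (hom_comp hvbG hg) hubG
    have hg₁X := conj_coeff hg.1 hvbG.1 huvb hgX
    have haut : IsFGAut Γ (PowerSeries.subst (PowerSeries.subst vb g) ub) := by
      refine ⟨hg₁, ?_⟩
      rw [hg₁X 1 (lt_of_lt_of_le one_lt_two (le_max_right _ _)), PowerSeries.coeff_one_X]
      exact isUnit_one
    obtain ⟨φ, hφ⟩ := exists_stabilizerMap hH haut
    have hst := hJ _ φ haut (fun i hi => hg₁X i (lt_of_lt_of_le hi (le_max_left _ _))) hφ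
    obtain ⟨hφr, θ₁, hθ₁, hθ₁r⟩ := hφ
    have huφ : PowerSeries.map φ.toRingHom uE = uE := by
      rw [huEdef]
      refine PowerSeries.ext fun d => ?_
      simp only [PowerSeries.coeff_map]
      exact φ.commutes _
    have hh : IsFGHom (H'.map φ.toRingHom) (H.map φ.toRingHom) uE := by
      have h := hom_map hH' φ.toRingHom
      rwa [huφ] at h
    have hs1 := hom_hasSubst hubG
    have hs2 := hom_hasSubst hvbG
    have hs3 := hom_hasSubst hg
    refine ⟨φ, ⟨hφr, PowerSeries.subst (PowerSeries.subst uE θ₁) vE,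
      hom_comp (hom_comp hh hθ₁) hv, ?_⟩, hx _ ?_⟩
    · rw [SetupEx_map_subst _ (hom_hasSubst (hom_comp hh hθ₁)),
        SetupEx_map_subst _ (hom_hasSubst hh), ← hub, ← hvb, hθ₁r,
        PowerSeries.subst_comp_subst_apply (hom_hasSubst (hom_comp hvbG hg)) hs1,
        PowerSeries.subst_comp_subst_apply hs2 hs1, hvub, PowerSeries.X_subst,
        ← PowerSeries.subst_comp_subst_apply hs1 hs3, hvub, PowerSeries.subst_X hs3]
    · rw [← hst] at hf
      exact hf

end Crest.Agent.R227
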