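import Crest.Agent.R227.MainZero
import Crest.Agent.R227.MainPos
import Crest.Agent.R227.SetupEx
import Crest.Agent.R227.LT3

/-!
# R227 / Final: classification of stable radical ideals
-/

set_option autoImplicit false
noncomputable section
open Crest.LubinTate

namespace Crest.Agent.R227

variable {p : ℕ} [Fact p.Prime] {n : ℕ}

theorem hId_isPrime (hn : 1 ≤ n) {Γ : FormalGroup (kk p n)} [Γ.IsComm]
    (hΓ : mulSeries Γ p = PowerSeries.X ^ (p ^ n)) {H : FormalGroup (LTRing p n)} [H.IsComm]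
    (hH : IsUniversalDeformation p n Γ H) {h : ℕ} (hh : h ≤ n) : (hId p H h).IsPrime := by
  rw [hId_eq_span]
  refine isPrime_span_LT p n hn (vv p H) (vv_zero p H) ?_ h hh
  rw [← hId_eq_span, hId_top hn hΓ hH]

theorem stable_radical_eq (hn : 1 ≤ n) {Γ : FormalGroup (kk p n)} [Γ.IsComm]
    (hΓ : mulSeries Γ p = PowerSeries.X ^ (p ^ n)) {H : FormalGroup (LTRing p n)} [H.IsComm]
    (hH : IsUniversalDeformation p n Γ H) (M : ℕ) {J : Ideal (LTRing p n)} (hJ : J.IsRadical)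
    (hS : IsStableIdeal p n Γ H M J) (hJt : J ≠ ⊤) : ∃ h ≤ n, J = hId p H h := by
  classical
  obtain ⟨S, hSI, hSO⟩ := exists_setup hn hΓ hH
  have h0 : hId p S.H 0 ≤ J := bot_le
  set h := Nat.findGreatest (fun h => hId p S.H h ≤ J) n with hh
  have hle : h ≤ n := Nat.findGreatest_le n
  have hIJ : hId p S.H h ≤ J :=
    Nat.findGreatest_spec (P := fun h => hId p S.H h ≤ J) (Nat.zero_le n) h0
  refine ⟨h, hle, ?_⟩
  rw [← hSI h]
  refine le_antisymm ?_ hIJ
  rcases hle.eq_or_lt with heq | hlt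
  · rw [heq, hSI n, hId_top hn hΓ hH, mm_eq_maximalIdeal]
    exact IsLocalRing.le_maximalIdeal hJt
  · have hnot : ¬ hId p S.H (h + 1) ≤ J :=
      Nat.findGreatest_is_greatest (P := fun h => hId p S.H h ≤ J) (Nat.lt_succ_self h) hlt
    have hvJ : vv p S.H h ∉ J := by
      intro hv
      apply hnot
      rw [hId_le_iff]
      intro i hi
      rcases (Nat.lt_succ_iff.1 hi).eq_or_lt with rfl | hi'
      · exact hv
      · exact hIJ (vv_mem_hId p S.H hi')
    obtain ⟨P, hPJ, hPp, hvP⟩ : ∃ P : Ideal (LTRing p n), J ≤ P ∧ P.IsPrime ∧ vv p S.H h ∉ P := by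
      by_contra hcon
      push Not at hcon
      apply hvJ
      apply hJ
      rw [Ideal.radical_eq_sInf, Submodule.mem_sInf]
      rintro P ⟨h1, h2⟩
      exact hcon P h1 h2
    have hvm : vv p S.H h ∈ IsLocalRing.maximalIdeal (LTRing p n) := by
      rw [← mm_eq_maximalIdeal]; exact S.vv_mem_mm hlt
    obtain ⟨C, _, _, _, _, x, hker, hx, hxm⟩ := exists_point_prime (LTRing p n) P ⟨_, hvm, hvP⟩
    rw [← mm_eq_maximalIdeal] at hxm
    have hxJ : ∀ a ∈ J, x a = 0 := fun a ha => (hker a).2 (hPJ ha)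
    have hxv : x (vv p S.H h) ≠ 0 := fun h0 => hvP ((hker _).1 h0)
    intro f hf
    have horb := hSO M J hS x hxJ f hf
    rcases Nat.eq_zero_or_pos h with hz | hpos
    · have hp : x p ≠ 0 := by
        rw [hz, vv_zero] at hxv; exact hxv
      have := main_zero hn S (le_max_right M 2) x hx hxm hp horb
      rw [this]; exact zero_mem _
    · have hprime : (hId p S.H h).IsPrime := by
        rw [hSI h]; exact hId_isPrime hn hΓ hH hle
      exact main_pos S hpos hlt hprime (le_max_right M 2) x hx hxm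
        (fun a ha => hxJ a (hIJ ha)) hxv horb

theorem final (hn : 1 ≤ n) (Γ : FormalGroup (GaloisField p n)) [Γ.IsComm]
    (hΓ : mulSeries Γ p = PowerSeries.X ^ (p ^ n))
    (H : FormalGroup (LTRing p n)) [H.IsComm] (hH : IsUniversalDeformation p n Γ H) (M : ℕ) :
    (∀ P : Ideal (LTRing p n),
        (P.IsPrime ∧ IsStableIdeal p n Γ H M P) ↔ ∃ h : ℕ, h ≤ n ∧ P = heightIdeal p n H h) ∧
    (∀ J : Ideal (LTRing p n),
        (J.IsRadical ∧ IsStableIdeal p n Γ H M J) ↔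
          (∃ h : ℕ, h ≤ n ∧ J = heightIdeal p n H h) ∨ J = ⊤) := by
  refine ⟨fun P => ⟨?_, ?_⟩, fun J => ⟨?_, ?_⟩⟩
  · rintro ⟨hP, hS⟩
    obtain ⟨h, hh, rfl⟩ := stable_radical_eq hn hΓ hH M hP.isRadical hS hP.ne_top
    exact ⟨h, hh, (heightIdeal_eq_hId p n H h).symm⟩
  · rintro ⟨h, hh, rfl⟩
    rw [heightIdeal_eq_hId]
    exact ⟨hId_isPrime hn hΓ hH hh, hId_stable hH M h⟩
  · rintro ⟨hJ, hS⟩
    by_cases hJt : J = ⊤
    · exact Or.inr hJt
    · obtain ⟨h, hh, rfl⟩ := stable_radical_eq hn hΓ hH M hJ hS hJt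
      exact Or.inl ⟨h, hh, (heightIdeal_eq_hId p n H h).symm⟩
  · rintro (⟨h, hh, rfl⟩ | rfl)
    · rw [heightIdeal_eq_hId]
      exact ⟨(hId_isPrime hn hΓ hH hh).isRadical, hId_stable hH M h⟩
    · exact ⟨fun _ _ => Submodule.mem_top, fun _ _ _ _ _ => Ideal.comap_top⟩

end Crest.Agent.R227
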