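import Crest.Agent.R227.FG2

/-!
# R227 / Height: height ideals

Recipe.  `hId_le_iff` is an induction on `h`.  For `hId_le_iff_coeff` (`h ≥ 1`): if `I = ⊤` all is
trivial; otherwise `vv p F 0 = p ∈ I` (`coeff_one_mulSeries`), so `R ⧸ I` has characteristic `p`
(`CharP` from `(p : R ⧸ I) = 0` and nontriviality: `CharP.charP_iff_prime_eq_zero`);
apply `hom_frob_iter` to `[p]` of `F.map (Ideal.Quotient.mk I)` (`mulSeries_map`,
`hom_mulSeries`): it is `expand (p ^ h) V` with `V(0) = 0`, whose coefficients below `p ^ h`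
vanish (`coeff_expand`).
`mulSeries_coeff_transfer`: pass to `R ⧸ I` (`hom_map`); with `v` the inverse of `θ`,
`[m]_F = v ∘ θ ∘ [m]_F = v ∘ [m]_G ∘ θ` (`hom_mulSeries_comm`), and `X ^ N ∣ [m]_G` gives
`θ ^ N ∣ [m]_G ∘ θ` (`pow_dvd_psubst_sub` with `g' = 0`) and `a ∣ v(a)` (`sub_dvd_psubst_sub`, `b = 0`).
`exists_versch`: `[p] = expand (p ^ h) V₁` by `hom_frob_iter`.  Induct on `M`:
`[p ^ (M+1)] = [p] ∘ [p ^ M] = V₁ ((V_M (X ^ p^(hM))) ^ p^h)` and
`(V_M) ^ (p ^ h) = expand (p ^ h) (V_M.map (iterateFrobenius h))`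
(`MvPowerSeries.map_iterateFrobenius_expand`), so `V_{M+1} = V₁ ∘ (V_M.map (iterateFrobenius h))`;
`hom_map`, `hom_comp`, `coeff_one_psubst`.  Only `IsFGHom` and the shape `v_h ^ N` of the linear
coefficient are needed.
-/

set_option autoImplicit false
noncomputable section
open Crest.LubinTate

namespace Crest.Agent.R227

variable {R S : Type*} [CommRing R] [CommRing S]

theorem heightIdeal_eq_hId (p : ℕ) [Fact p.Prime] (n : ℕ) (H : FormalGroup (LTRing p n))
    (h : ℕ) : heightIdeal p n H h = hId p H h := by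
  induction h with
  | zero => rfl
  | succ h ih => simp only [heightIdeal, hId, ih]

theorem vv_zero (p : ℕ) (F : FormalGroup R) : vv p F 0 = (p : R) := by
  simp [vv, coeff_one_mulSeries]

theorem vv_map (p : ℕ) (F : FormalGroup R) (ψ : R →+* S) (h : ℕ) :
    vv p (F.map ψ) h = ψ (vv p F h) := by
  simp [vv, mulSeries_map]

theorem hId_le_iff (p : ℕ) (F : FormalGroup R) (h : ℕ) (I : Ideal R) :
    hId p F h ≤ I ↔ ∀ i < h, vv p F i ∈ I := by
  induction h with
  | zero => simp [hId]
  | succ h ih =>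
    rw [hId, sup_le_iff, ih, Ideal.span_singleton_le_iff_mem]
    constructor
    · rintro ⟨h1, h2⟩ i hi
      rcases (Nat.lt_succ_iff.1 hi).eq_or_lt with rfl | hi
      · exact h2
      · exact h1 i hi
    · intro h1
      exact ⟨fun i hi => h1 i (Nat.lt_succ_of_lt hi), h1 h (Nat.lt_succ_self h)⟩

theorem vv_mem_hId (p : ℕ) (F : FormalGroup R) {i h : ℕ} (hi : i < h) : vv p F i ∈ hId p F h :=
  (hId_le_iff p F h _).1 le_rfl i hi

theorem hId_mono (p : ℕ) (F : FormalGroup R) {h h' : ℕ} (hh : h ≤ h') :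
    hId p F h ≤ hId p F h' :=
  (hId_le_iff p F h _).2 fun _ hi => vv_mem_hId p F (lt_of_lt_of_le hi hh)

theorem hId_eq_span (p : ℕ) (F : FormalGroup R) (h : ℕ) :
    hId p F h = Ideal.span (Set.range fun i : Fin h => vv p F i) := by
  refine le_antisymm ((hId_le_iff p F h _).2 fun i hi => Ideal.subset_span ⟨⟨i, hi⟩, rfl⟩) ?_
  rw [Ideal.span_le]
  rintro _ ⟨i, rfl⟩
  exact vv_mem_hId p F i.2

theorem hId_map (p : ℕ) (F : FormalGroup R) (ψ : R →+* S) (h : ℕ) :
    hId p (F.map ψ) h = (hId p F h).map ψ := by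
  induction h with
  | zero => simp [hId]
  | succ h ih =>
    rw [hId, hId, ih, Ideal.map_sup, Ideal.map_span, Set.image_singleton, mulSeries_map,
      PowerSeries.coeff_map]

theorem hId_le_iff_coeff (p : ℕ) [Fact p.Prime] (F : FormalGroup R) [F.IsComm] (h : ℕ)
    (I : Ideal R) :
    hId p F h ≤ I ↔ ∀ d < p ^ h, PowerSeries.coeff d (mulSeries F p) ∈ I := by
  have hp : p.Prime := Fact.out
  rw [hId_le_iff]
  refine ⟨fun h1 d hd => ?_, fun h1 i hi => h1 _ (Nat.pow_lt_pow_right hp.one_lt hi)⟩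
  rcases Nat.eq_zero_or_pos d with rfl | hd0
  · rw [PowerSeries.coeff_zero_eq_constantCoeff_apply, constantCoeff_mulSeries]
    exact I.zero_mem
  have hh : 0 < h := by
    rcases Nat.eq_zero_or_pos h with rfl | hh
    · rw [pow_zero] at hd; omega
    · exact hh
  by_cases hI : I = ⊤
  · rw [hI]; trivial
  have : Nontrivial (R ⧸ I) := Ideal.Quotient.nontrivial_iff.2 hI
  have hp0 : (p : R ⧸ I) = 0 := by
    have h2 := h1 0 hh
    rw [vv_zero] at h2
    rw [← map_natCast (Ideal.Quotient.mk I)]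
    exact Ideal.Quotient.eq_zero_iff_mem.2 h2
  have : CharP (R ⧸ I) p := (CharP.charP_iff_prime_eq_zero hp).2 hp0
  obtain ⟨V, -, hV⟩ := hom_frob_iter p (hom_mulSeries (F.map (Ideal.Quotient.mk I)) p) h
    fun i hi => by
      rw [mulSeries_map, PowerSeries.coeff_map]
      exact Ideal.Quotient.eq_zero_iff_mem.2 (h1 i hi)
  rw [← Ideal.Quotient.eq_zero_iff_mem, ← PowerSeries.coeff_map, ← mulSeries_map, hV]
  exact PowerSeries.coeff_expand_of_not_dvd _ _ _ fun h2 => absurd (Nat.le_of_dvd hd0 h2) (by omega)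

theorem Height_transfer {F G : FormalGroup R} {θ : PowerSeries R} (hθ : IsFGHom F G θ)
    (hu : IsUnit (PowerSeries.coeff 1 θ)) (m N : ℕ)
    (h : PowerSeries.X ^ N ∣ mulSeries G m) : PowerSeries.X ^ N ∣ mulSeries F m := by
  have hs := hom_hasSubst hθ
  have hm : PowerSeries.HasSubst (mulSeries F m) :=
    PowerSeries.HasSubst.of_constantCoeff_zero' (constantCoeff_mulSeries F m)
  have e := fg1_left_inv hθ.1 hu hm
  rw [hom_mulSeries_comm hθ m] at e
  have h1 : θ ^ N ∣ PowerSeries.subst θ (mulSeries G m) := by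
    have := pow_dvd_psubst_sub hs (g := mulSeries G m) (g' := 0) (N := N) (by rwa [sub_zero])
    rwa [fg1_psubst_zero hs, sub_zero] at this
  have h2 := sub_dvd_psubst_sub (hasSubst_psubst hs (constantCoeff_mulSeries G m))
    PowerSeries.HasSubst.zero (θ.substInvOfIsUnit hu)
  rw [sub_zero, e, PowerSeries.subst_zero_of_constantCoeff_zero
    (PowerSeries.constantCoeff_substInvOfIsUnit θ hu), sub_zero] at h2
  exact ((pow_dvd_pow_of_dvd (PowerSeries.X_dvd_iff.2 hθ.1) N).trans h1).trans h2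

theorem mulSeries_coeff_transfer {F G : FormalGroup R} {θ : PowerSeries R} (hθ : IsFGHom F G θ)
    (hu : IsUnit (PowerSeries.coeff 1 θ)) (I : Ideal R) (m N : ℕ)
    (h : ∀ d < N, PowerSeries.coeff d (mulSeries G m) ∈ I) :
    ∀ d < N, PowerSeries.coeff d (mulSeries F m) ∈ I := by
  have h1 := Height_transfer (hom_map hθ (Ideal.Quotient.mk I))
    (by rw [PowerSeries.coeff_map]; exact hu.map _) m N (by
      rw [PowerSeries.X_pow_dvd_iff]
      intro d hd
      rw [mulSeries_map, PowerSeries.coeff_map]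
      exact Ideal.Quotient.eq_zero_iff_mem.2 (h d hd))
  rw [PowerSeries.X_pow_dvd_iff] at h1
  intro d hd
  rw [← Ideal.Quotient.eq_zero_iff_mem, ← PowerSeries.coeff_map, ← mulSeries_map]
  exact h1 d hd

theorem hId_eq_of_iso (p : ℕ) [Fact p.Prime] {F G : FormalGroup R} [F.IsComm] [G.IsComm]
    {θ : PowerSeries R} (hθ : IsFGHom F G θ) (hu : IsUnit (PowerSeries.coeff 1 θ)) (h : ℕ) :
    hId p F h = hId p G h := by
  refine le_antisymm ((hId_le_iff_coeff p F h _).2 (mulSeries_coeff_transfer hθ hu _ p _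
    ((hId_le_iff_coeff p G h _).1 le_rfl))) ?_
  refine (hId_le_iff_coeff p G h _).2 (mulSeries_coeff_transfer (hom_inv hθ hu) ?_ _ p _
    ((hId_le_iff_coeff p F h _).1 le_rfl))
  rw [PowerSeries.coeff_one_substInvOfIsUnit]
  exact Units.isUnit _

theorem Height_expand_congr {q q' : ℕ} (hq : q ≠ 0) (hq' : q' ≠ 0) (e : q = q')
    (V : PowerSeries R) : PowerSeries.expand q hq V = PowerSeries.expand q' hq' V := by
  subst e; rfl

/-- Iterated Verschiebung: over a ring of characteristic `p` where the height is `≥ h`,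
`[p ^ M] = V_M (X ^ p ^ (h M))` with `V_M` a homomorphism with linear coefficient a power of
`v_h`. -/
theorem exists_versch (p : ℕ) [Fact p.Prime] [CharP R p] (F : FormalGroup R) [F.IsComm] (h : ℕ)
    (hh : hId p F h = ⊥) (M : ℕ) :
    ∃ (V : PowerSeries R) (N : ℕ), IsFGHom (F.map (iterateFrobenius R p (h * M))) F V ∧
      mulSeries F (p ^ M) =
        PowerSeries.expand (p ^ (h * M)) (pow_ne_zero _ (Fact.out : p.Prime).ne_zero) V ∧
      PowerSeries.coeff 1 V = vv p F h ^ N := by
  have hp : p ≠ 0 := (Fact.out : p.Prime).ne_zero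
  obtain ⟨V₁, hV₁, e₁⟩ := hom_frob_iter p (hom_mulSeries F p) h fun i hi => by
    have := vv_mem_hId p F hi
    rwa [hh, Ideal.mem_bot] at this
  have c₁ : PowerSeries.coeff 1 V₁ = vv p F h := by
    rw [← PowerSeries.coeff_expand_mul (p ^ h) (pow_ne_zero h hp) V₁ 1, mul_one, ← e₁]
    rfl
  induction M with
  | zero =>
    refine ⟨PowerSeries.X, 0, ?_, ?_, by simp⟩
    · rw [mul_zero, iterateFrobenius_zero, fg_map_id]
      exact hom_X F
    · rw [PowerSeries.expand_X, mul_zero, pow_zero, pow_one, mulSeries_one]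
  | succ M ih =>
    obtain ⟨V, N, hV, e, c⟩ := ih
    have hW := hom_map hV (iterateFrobenius R p h)
    refine ⟨PowerSeries.subst (PowerSeries.map (iterateFrobenius R p h) V) V₁,
      N * p ^ h + 1, ?_, ?_, ?_⟩
    · have := hom_comp hW hV₁
      rwa [fg_map_map, ← iterateFrobenius_add, show h + h * M = h * (M + 1) by ring] at this
    · have hm : PowerSeries.HasSubst (mulSeries F (p ^ M)) :=
        PowerSeries.HasSubst.of_constantCoeff_zero' (constantCoeff_mulSeries F _)
      have e2 : mulSeries F (p ^ M) ^ p ^ h =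
          PowerSeries.expand (p ^ (h * (M + 1))) (pow_ne_zero _ hp)
            (PowerSeries.map (iterateFrobenius R p h) V) := by
        rw [← PowerSeries.map_expand, Height_expand_congr (pow_ne_zero _ hp)
          (Nat.mul_ne_zero (pow_ne_zero h hp) (pow_ne_zero (h * M) hp)) (by ring),
          PowerSeries.expand_mul _ (pow_ne_zero h hp) _ (pow_ne_zero (h * M) hp), ← e]
        exact (MvPowerSeries.map_iterateFrobenius_expand p hp (mulSeries F (p ^ M)) h).symm
      rw [pow_succ', mulSeries_mul, e₁, FG2_psubst_expand _ hm, e2]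
      exact (PowerSeries.expand_subst _ _ (hom_hasSubst hW) V₁).symm
    · rw [coeff_one_psubst hW.1, c₁, PowerSeries.coeff_map, c, iterateFrobenius_def]
      ring

end Crest.Agent.R227
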