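import Crest.Agent.R227.Cong

/-!
# R227 / Honda: Honda coordinates

`A = W(k)`, `K = FractionRing A` (characteristic zero), `j = algebraMap A K` (injective),
`lam = ∑ X ^ (q ^ i) / p ^ i ∈ K⟦X⟧` (coefficient `p⁻¹ ^ i` at `d = q ^ i`, `0` elsewhere), so
`lam = X + p⁻¹ lam(X ^ q)` and `d * lam_d ∈ j A`.

`exists_honda_coord`.  Let `h = logS j H₀`.  By `log_bdd` (`𝔞 = (p)`, `N = 0`, `a = [p]`,
`b = X ^ q`) and `logS_comp_hom`, `p h - h(X ^ q)` has coefficients in `p j(A)`, so
`h - p⁻¹ h(X ^ q)` is integral.  Let `ψ = lam⁻¹ ∘ h` (`substInvOfIsUnit`), so `lam(ψ) = h`,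
`ψ = h - p⁻¹ lam(ψ ^ q)`, `h(X ^ q) = lam(ψ(X ^ q))`, hence
`ψ = (h - p⁻¹ h(X ^ q)) + p⁻¹ (lam(ψ(X ^ q)) - lam(ψ ^ q))`.
Strong induction on the degree `N`: if the coefficients `< N` of `ψ` are integral, let `a ∈ A⟦X⟧`
with `X ^ N ∣ ψ - j a`; then modulo `X ^ (N+1)`, `ψ ^ q ≡ (j a) ^ q` and `ψ(X ^ q) ≡ (j a)(X ^ q)`
(`q ≥ 2`; `sub_dvd_psubst_sub`), and `a ^ q ≡ a(X ^ q)` mod `p` because `c ^ q = c` in `k`
(`MvPowerSeries.map_iterateFrobenius_expand`, `FiniteField.pow_card`, `GaloisField.card`;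
kernel of `resW` is `(p)`: `WittVector.ker_constantCoeff`), so `dlog_cong` applies.
Then `ψ = j ψ₀`, `ψ₀ = X + ⋯`; take `u = ψ₀⁻¹` and `F` from `exists_conj H₀ u`;
`lam(F(X,Y)) = h(H₀(u X, u Y)) = lam X + lam Y` by `hom_subst_add`, `logS_add`.
Multiply by `p ^ J` and cut at degree `q ^ (J+1)` to get `IsHonda`
(`p ^ J lam - PJ` is divisible by `X ^ (q ^ (J+1))`).

`honda_unique`: induction on the degree: if `a ≡ b` below degree `N ≥ 1` then
`a ^ (q ^ i) ≡ b ^ (q ^ i)` below degree `N + 1` for `i ≥ 1` (factor `a - b` out of the difference,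
the cofactor has no constant term; use `MvPowerSeries.order`, `le_order_mul`), so
`p ^ J (a_d - b_d) = 0` for `J` large.
`honda_smul`: with `ζ = teichmuller a`, `ζ ^ q = ζ`; compare `C ζ * F` and
`rescale (fun _ => ζ) F`.  `honda_frob`: compare `F` and `F.map WittVector.frobenius`; then reduce
(`WittVector.coeff_frobenius_charP`) and use `hom_X_pow_of_map_frobenius`.
`exists_honda`: `[p]_G = X ^ q` since `ū ∘ [p]_G = [p]_Γ ∘ ū = ū ^ q = ū (X ^ q)`, `ū` invertible.
-/

set_option autoImplicit false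
noncomputable section
open Crest.LubinTate

namespace Crest.Agent.R227

variable (p : ℕ) [Fact p.Prime] (n : ℕ)

theorem Honda_pow_card (hn : 1 ≤ n) (c : kk p n) : c ^ (p ^ n) = c := by
  have : Fintype (kk p n) := Fintype.ofFinite _
  have h := GaloisField.card p n (by omega)
  rw [Nat.card_eq_fintype_card] at h
  rw [← h]
  exact FiniteField.pow_card c

theorem Honda_two_le (hn : 1 ≤ n) : 2 ≤ p ^ n :=
  (Fact.out : p.Prime).two_le.trans (Nat.le_self_pow (by omega) p)

omit [Fact p.Prime] in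
theorem Honda_PJ_map {A B : Type*} [CommRing A] [CommRing B] (φ : A →+* B) (J : ℕ) (a : A) :
    φ (PJ p n J a) = PJ p n J (φ a) := by
  simp [PJ, map_sum]

omit [Fact p.Prime] in
theorem Honda_PJ_mul {A : Type*} [CommRing A] {z : A} (hz : z ^ (p ^ n) = z) (J : ℕ) (a : A) :
    PJ p n J (z * a) = z * PJ p n J a := by
  have h : ∀ i : ℕ, z ^ ((p ^ n) ^ i) = z := by
    intro i
    induction i with
    | zero => simp
    | succ i ih => rw [pow_succ, pow_mul, ih, hz]
  rw [PJ, PJ, Finset.mul_sum]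
  exact Finset.sum_congr rfl fun i _ => by rw [mul_pow, h]; ring

omit [Fact p.Prime] in
theorem Honda_PJ_succ {A : Type*} [CommRing A] (J : ℕ) (a : A) :
    PJ p n (J + 1) a = (p : A) ^ (J + 1) * a + PJ p n J (a ^ (p ^ n)) := by
  rw [PJ, PJ, Finset.sum_range_succ', add_comm]
  congr 1
  · simp
  · exact Finset.sum_congr rfl fun i _ => by
      rw [Nat.add_sub_add_right, pow_succ' (p ^ n), pow_mul a]

theorem Honda_pow_sub {A B : Type*} [CommRing A] [CommRing B] (φ : A →+* B) {a b : A}
    (ha : φ a = 0) (hb : φ b = 0) {m : ℕ} (hm : 2 ≤ m) :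
    ∃ c, a ^ m - b ^ m = c * (a - b) ∧ φ c = 0 := by
  refine ⟨∑ i ∈ Finset.range m, a ^ i * b ^ (m - 1 - i), (geom_sum₂_mul a b m).symm, ?_⟩
  rw [map_sum]
  refine Finset.sum_eq_zero fun i _ => ?_
  rw [map_mul, map_pow, map_pow, ha, hb]
  rcases Nat.eq_zero_or_pos i with rfl | hi
  · rw [zero_pow (n := m - 1 - 0) (by omega), mul_zero]
  · rw [zero_pow hi.ne', zero_mul]

/-- Over `k = 𝔽_q`, `f ^ q = f (X ^ q)`. -/
theorem pow_card_eq_expand (hn : 1 ≤ n) {σ : Type*} (f : MvPowerSeries σ (kk p n)) :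
    f ^ (p ^ n) = MvPowerSeries.expand (p ^ n) (pow_ne_zero _ (Fact.out : p.Prime).ne_zero) f := by
  have h := MvPowerSeries.map_iterateFrobenius_expand p (Fact.out : p.Prime).ne_zero f n
  have e : iterateFrobenius (kk p n) p n = RingHom.id _ := by
    ext c
    rw [iterateFrobenius_def, RingHom.id_apply, Honda_pow_card p n hn]
  rw [e, MvPowerSeries.map_id] at h
  exact h.symm

theorem isUnit_natCast_WW {d : ℕ} (hd : ¬ p ∣ d) : IsUnit (d : WW p n) := by
  refine WittVector.isUnit_of_coeff_zero_ne_zero _ ?_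
  have h : (d : WW p n).coeff 0 = (d : kk p n) := map_natCast (resW p n) d
  rw [h]
  exact fun h0 => hd ((CharP.cast_eq_zero_iff (kk p n) p d).1 h0)

theorem Honda_charZero : CharZero (WW p n) := by
  refine charZero_of_inj_zero fun d hd => ?_
  by_contra h0
  obtain ⟨e, d', hd', rfl⟩ := Nat.exists_eq_pow_mul_and_not_dvd h0 p (Fact.out : p.Prime).ne_one
  push_cast at hd
  rcases mul_eq_zero.1 hd with h | h
  · exact WittVector.p_nonzero p (kk p n) (eq_zero_of_pow_eq_zero h)
  · exact (isUnit_natCast_WW p n hd').ne_zero h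

/-- the Honda logarithm -/
def Honda_lam (K : Type*) [Field K] : PowerSeries K :=
  PowerSeries.mk fun d => if (p ^ n) ^ Nat.log (p ^ n) d = d then (p : K)⁻¹ ^ Nat.log (p ^ n) d else 0

section lam

variable {K : Type*} [Field K] [CharZero K]

omit [Fact p.Prime] [CharZero K] in
theorem Honda_lam_zero : PowerSeries.constantCoeff (Honda_lam p n K) = 0 := by
  rw [← PowerSeries.coeff_zero_eq_constantCoeff_apply]
  simp [Honda_lam]

omit [Fact p.Prime] [CharZero K] in
theorem Honda_lam_one : PowerSeries.coeff 1 (Honda_lam p n K) = 1 := by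
  simp [Honda_lam]

theorem Honda_lam_eq (hn : 1 ≤ n) :
    (p : PowerSeries K) * Honda_lam p n K = (p : PowerSeries K) * PowerSeries.X +
      PowerSeries.expand (p ^ n) (pow_ne_zero _ (Fact.out : p.Prime).ne_zero) (Honda_lam p n K) := by
  have hq := Honda_two_le p n hn
  have hp : (p : K) ≠ 0 := Nat.cast_ne_zero.2 (Fact.out : p.Prime).ne_zero
  ext d
  rw [← map_natCast (PowerSeries.C (R := K)) p, map_add, PowerSeries.coeff_C_mul,
    PowerSeries.coeff_C_mul, PowerSeries.coeff_X]
  by_cases hd : p ^ n ∣ d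
  · obtain ⟨e, rfl⟩ := hd
    rw [PowerSeries.coeff_expand_mul]
    have h1 : p ^ n * e ≠ 1 := fun h => by
      have := Nat.eq_one_of_mul_eq_one_right h
      omega
    rw [if_neg h1, mul_zero, zero_add]
    rcases Nat.eq_zero_or_pos e with rfl | he
    · simp [Honda_lam]
    · simp only [Honda_lam, PowerSeries.coeff_mk]
      rw [mul_comm (p ^ n) e, Nat.log_mul_base (by omega) he.ne', pow_succ, pow_succ]
      by_cases h2 : (p ^ n) ^ Nat.log (p ^ n) e = e
      · rw [if_pos h2, if_pos (by rw [h2])]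
        field_simp
      · rw [if_neg h2, if_neg (fun h => h2 (Nat.eq_of_mul_eq_mul_right (by omega) h)), mul_zero]
  · rw [PowerSeries.coeff_expand_of_not_dvd _ _ _ hd, add_zero]
    by_cases h1 : d = 1
    · rw [h1, Honda_lam_one, if_pos rfl]
    · rw [if_neg h1]
      simp only [Honda_lam, PowerSeries.coeff_mk]
      rw [if_neg]
      intro h2
      rcases Nat.eq_zero_or_pos (Nat.log (p ^ n) d) with h3 | h3
      · rw [h3, pow_zero] at h2
        exact h1 h2.symm
      · exact hd (h2 ▸ dvd_pow_self _ h3.ne')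

theorem Honda_lam_int (hn : 1 ≤ n) (d : ℕ) :
    ∃ c : ℕ, (d : K) * PowerSeries.coeff d (Honda_lam p n K) = c := by
  have hp : (p : K) ≠ 0 := Nat.cast_ne_zero.2 (Fact.out : p.Prime).ne_zero
  simp only [Honda_lam, PowerSeries.coeff_mk]
  by_cases h : (p ^ n) ^ Nat.log (p ^ n) d = d
  · rw [if_pos h]
    generalize Nat.log (p ^ n) d = i at h
    subst h
    obtain ⟨m, rfl⟩ := Nat.exists_eq_add_of_le hn
    refine ⟨(p ^ m) ^ i, ?_⟩
    push_cast
    rw [← mul_pow]
    congr 1
    rw [pow_add]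
    field_simp
  · exact ⟨0, by rw [if_neg h]; simp⟩

theorem Honda_lam_subst (hn : 1 ≤ n) {τ : Type*} {c : MvPowerSeries τ K}
    (hc : MvPowerSeries.constantCoeff c = 0) :
    (p : MvPowerSeries τ K) * PowerSeries.subst c (Honda_lam p n K) =
      (p : MvPowerSeries τ K) * c + PowerSeries.subst (c ^ (p ^ n)) (Honda_lam p n K) := by
  have hs := PowerSeries.HasSubst.of_constantCoeff_zero hc
  have h := congrArg (PowerSeries.substAlgHom (R := K) hs) (Honda_lam_eq p n (K := K) hn)
  rw [map_mul, map_add, map_mul, map_natCast, PowerSeries.coe_substAlgHom, PowerSeries.subst_X hs,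
    PowerSeries.expand_apply, PowerSeries.subst_comp_subst_apply
      (PowerSeries.HasSubst.X_pow (pow_ne_zero _ (Fact.out : p.Prime).ne_zero)) hs,
    PowerSeries.subst_pow hs, PowerSeries.subst_X hs] at h
  exact h

theorem Honda_lam_PJ (hn : 1 ≤ n) {τ : Type*} (J : ℕ) {c : MvPowerSeries τ K}
    (hc : MvPowerSeries.constantCoeff c = 0) :
    c ^ ((p ^ n) ^ (J + 1)) ∣
      (p : MvPowerSeries τ K) ^ J * PowerSeries.subst c (Honda_lam p n K) - PJ p n J c := by
  have hp : (p : K) ≠ 0 := Nat.cast_ne_zero.2 (Fact.out : p.Prime).ne_zero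
  have hq := Honda_two_le p n hn
  induction J generalizing c with
  | zero =>
    have hc' : MvPowerSeries.constantCoeff (c ^ (p ^ n)) = 0 := by
      rw [map_pow, hc, zero_pow (by omega)]
    have hs := PowerSeries.HasSubst.of_constantCoeff_zero hc'
    have h1 : c ^ (p ^ n) ∣ PowerSeries.subst (c ^ (p ^ n)) (Honda_lam p n K) := by
      have h2 := pow_dvd_psubst_sub hs (g := Honda_lam p n K) (g' := 0) (N := 1)
        (by simpa [PowerSeries.X_dvd_iff] using Honda_lam_zero p n (K := K))
      rwa [pow_one, fg1_psubst_zero hs, sub_zero] at h2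
    have hu : IsUnit (p : MvPowerSeries τ K) := by
      rw [← map_natCast (MvPowerSeries.C (σ := τ) (R := K)) p]
      exact (IsUnit.mk0 _ hp).map _
    rw [← hu.dvd_mul_left]
    have h3 := Honda_lam_subst p n hn hc
    have h4 : PJ p n 0 c = c := by simp [PJ]
    rw [h4, pow_zero, one_mul, mul_sub, h3, add_sub_cancel_left, zero_add, pow_one]
    exact h1
  | succ J ih =>
    have hc' : MvPowerSeries.constantCoeff (c ^ (p ^ n)) = 0 := by
      rw [map_pow, hc, zero_pow (by omega)]
    have h1 := ih hc'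
    rw [← pow_mul, ← pow_succ'] at h1
    rw [Honda_PJ_succ, pow_succ (p : MvPowerSeries τ K), mul_assoc, Honda_lam_subst p n hn hc]
    convert h1 using 1
    ring

theorem Honda_coeff_PJ (hn : 1 ≤ n) {τ : Type*} (J : ℕ) {c : MvPowerSeries τ K}
    (hc : MvPowerSeries.constantCoeff c = 0) (d : τ →₀ ℕ) (hd : d.degree < (p ^ n) ^ (J + 1)) :
    MvPowerSeries.coeff d (PJ p n J c) = MvPowerSeries.coeff d
      ((p : MvPowerSeries τ K) ^ J * PowerSeries.subst c (Honda_lam p n K)) := by
  obtain ⟨r, hr⟩ := Honda_lam_PJ p n hn J hc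
  have h1 : MvPowerSeries.coeff d (c ^ ((p ^ n) ^ (J + 1)) * r) = 0 := by
    apply MvPowerSeries.coeff_of_lt_order
    refine lt_of_lt_of_le ?_ MvPowerSeries.le_order_mul
    refine lt_of_lt_of_le ?_ le_self_add
    refine lt_of_lt_of_le ?_ (MvPowerSeries.le_order_pow_of_constantCoeff_eq_zero _ hc)
    exact_mod_cast hd
  rw [← hr, map_sub, sub_eq_zero] at h1
  exact h1.symm

/-- the functional equation lemma -/
theorem Honda_fe (hn : 1 ≤ n) {A : Type*} [CommRing A] (j : A →+* K) (hj : Function.Injective j)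
    (hA : ∀ d : ℕ, ¬ p ∣ d → IsUnit (d : A))
    (hfrob : ∀ a : PowerSeries A, PowerSeries.expand (p ^ n)
      (pow_ne_zero _ (Fact.out : p.Prime).ne_zero) a - a ^ (p ^ n) ∈ cI Unit (Ideal.span {(p : A)}))
    {h : PowerSeries K} (h0 : PowerSeries.constantCoeff h = 0) (h1 : PowerSeries.coeff 1 h = 1)
    (hint : ∀ d, ∃ c : A, PowerSeries.coeff d ((p : PowerSeries K) * h - PowerSeries.expand (p ^ n)
      (pow_ne_zero _ (Fact.out : p.Prime).ne_zero) h) = (p : K) * j c) :
    ∃ a : PowerSeries A, PowerSeries.constantCoeff a = 0 ∧ PowerSeries.coeff 1 a = 1 ∧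
      PowerSeries.subst (PowerSeries.map j a) (Honda_lam p n K) = h := by
  classical
  have hp : (p : K) ≠ 0 := Nat.cast_ne_zero.2 (Fact.out : p.Prime).ne_zero
  have hq := Honda_two_le p n hn
  have hq0 : p ^ n ≠ 0 := by omega
  have hu : IsUnit (PowerSeries.coeff 1 (Honda_lam p n K)) := by
    rw [Honda_lam_one]; exact isUnit_one
  have hh := PowerSeries.HasSubst.of_constantCoeff_zero' h0
  set ψ : PowerSeries K := PowerSeries.subst h ((Honda_lam p n K).substInvOfIsUnit hu) with hψ
  have e1 : PowerSeries.subst ψ (Honda_lam p n K) = h := fg1_right_inv (Honda_lam_zero p n) hu hh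
  have ψ0 : PowerSeries.constantCoeff ψ = 0 :=
    (constantCoeff_psubst (a := h) h0).trans (PowerSeries.constantCoeff_substInvOfIsUnit _ hu)
  have hsψ := PowerSeries.HasSubst.of_constantCoeff_zero' ψ0
  have ψ1 : PowerSeries.coeff 1 ψ = 1 := by
    have := coeff_one_psubst (g := Honda_lam p n K) ψ0
    rw [e1, h1, Honda_lam_one, one_mul] at this
    exact this.symm
  clear_value ψ
  have e2 : (p : PowerSeries K) * ψ = ((p : PowerSeries K) * h - PowerSeries.expand (p ^ n) hq0 h) +
      (PowerSeries.subst (PowerSeries.expand (p ^ n) hq0 ψ) (Honda_lam p n K) -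
        PowerSeries.subst (ψ ^ (p ^ n)) (Honda_lam p n K)) := by
    have e3 : (p : PowerSeries K) * PowerSeries.subst ψ (Honda_lam p n K) =
        (p : PowerSeries K) * ψ + PowerSeries.subst (ψ ^ (p ^ n)) (Honda_lam p n K) :=
      Honda_lam_subst p n hn (c := ψ) ψ0
    have e4 : PowerSeries.expand (p ^ n) hq0 (PowerSeries.subst ψ (Honda_lam p n K)) =
        PowerSeries.subst (PowerSeries.expand (p ^ n) hq0 ψ) (Honda_lam p n K) :=
      PowerSeries.expand_subst (p ^ n) hq0 hsψ _
    rw [e1] at e3 e4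
    rw [← e4, e3]
    ring
  let a : PowerSeries A := PowerSeries.mk fun i =>
    if H : ∃ c, PowerSeries.coeff i ψ = j c then H.choose else 0
  have ha : ∀ i, (∃ c, PowerSeries.coeff i ψ = j c) →
      PowerSeries.coeff i ψ = j (PowerSeries.coeff i a) := by
    intro i H
    simp only [a, PowerSeries.coeff_mk, dif_pos H]
    exact H.choose_spec
  have a0 : PowerSeries.constantCoeff a = 0 := by
    have := ha 0 ⟨0, by simp [ψ0]⟩
    rw [PowerSeries.coeff_zero_eq_constantCoeff_apply, PowerSeries.coeff_zero_eq_constantCoeff_apply,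
      ψ0] at this
    exact hj (by rw [← this, map_zero])
  clear_value a
  have ja0 : PowerSeries.constantCoeff (PowerSeries.map j a) = 0 := by
    rw [← PowerSeries.coeff_zero_eq_constantCoeff_apply, PowerSeries.coeff_map,
      PowerSeries.coeff_zero_eq_constantCoeff_apply, a0, map_zero]
  have key : ∀ N, PowerSeries.coeff N ψ = j (PowerSeries.coeff N a) := by
    intro N
    induction N using Nat.strong_induction_on with
    | _ N ih =>
    apply ha
    rcases Nat.eq_zero_or_pos N with rfl | hN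
    · exact ⟨0, by simp [ψ0]⟩
    have d1 : PowerSeries.X ^ N ∣ ψ - PowerSeries.map j a :=
      fg1b_dvd_iff.2 fun i hi => by rw [PowerSeries.coeff_map, ih i hi]
    have d2 : PowerSeries.X ^ (N + 1) ∣ ψ ^ (p ^ n) - PowerSeries.map j a ^ (p ^ n) := by
      obtain ⟨c, hc, hc0⟩ := Honda_pow_sub (PowerSeries.constantCoeff (R := K)) (a := ψ)
        (b := PowerSeries.map j a) ψ0 ja0 hq
      rw [hc, pow_succ']
      exact mul_dvd_mul (PowerSeries.X_dvd_iff.2 hc0) d1
    have d3 : PowerSeries.X ^ (N + 1) ∣ PowerSeries.expand (p ^ n) hq0 ψ -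
        PowerSeries.expand (p ^ n) hq0 (PowerSeries.map j a) := by
      have := map_dvd (PowerSeries.expand (R := K) (p ^ n) hq0) d1
      rw [map_sub, map_pow, PowerSeries.expand_X, ← pow_mul] at this
      exact (pow_dvd_pow _ (by nlinarith)).trans this
    have pw0 : ∀ b : PowerSeries K, PowerSeries.constantCoeff b = 0 →
        PowerSeries.HasSubst (b ^ (p ^ n)) := fun b hb =>
      PowerSeries.HasSubst.of_constantCoeff_zero' (by rw [map_pow, hb, zero_pow hq0])
    have ex0 : ∀ b : PowerSeries K, PowerSeries.constantCoeff b = 0 →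
        PowerSeries.HasSubst (PowerSeries.expand (p ^ n) hq0 b) := fun b hb =>
      PowerSeries.HasSubst.of_constantCoeff_zero' (by rw [PowerSeries.constantCoeff_expand, hb])
    have d4 := fg1b_dvd_iff.1 (d2.trans
      (sub_dvd_psubst_sub (pw0 _ ψ0) (pw0 _ ja0) (Honda_lam p n K))) N (Nat.lt_succ_self N)
    have d5 := fg1b_dvd_iff.1 (d3.trans
      (sub_dvd_psubst_sub (ex0 _ ψ0) (ex0 _ ja0) (Honda_lam p n K))) N (Nat.lt_succ_self N)
    obtain ⟨c₁, hc₁⟩ := hint N
    obtain ⟨c₂, hc₂⟩ := dlog_cong p j hA (IsUnit.mk0 _ hp) (Honda_lam p n K)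
      (fun d _ => by
        obtain ⟨c, hc⟩ := Honda_lam_int p n (K := K) hn d
        exact ⟨c, by rw [hc, map_natCast]⟩)
      (a := PowerSeries.expand (p ^ n) hq0 a) (b := a ^ (p ^ n))
      ((PowerSeries.constantCoeff_expand _ hq0 a).trans a0)
      (show PowerSeries.constantCoeff (a ^ (p ^ n)) = 0 by rw [map_pow, a0, zero_pow hq0])
      (hfrob a) (Finsupp.single () N)
    have hc₃ : PowerSeries.coeff N
        (PowerSeries.subst (PowerSeries.map j (PowerSeries.expand (p ^ n) hq0 a)) (Honda_lam p n K) -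
          PowerSeries.subst (PowerSeries.map j (a ^ (p ^ n))) (Honda_lam p n K)) = (p : K) * j c₂ :=
      hc₂
    rw [PowerSeries.map_expand, map_pow, map_sub, ← d4, ← d5] at hc₃
    have e5 := congrArg (PowerSeries.coeff N) e2
    rw [map_add, hc₁, map_sub, hc₃, ← map_natCast (PowerSeries.C (R := K)) p,
      PowerSeries.coeff_C_mul, ← mul_add] at e5
    exact ⟨c₁ + c₂, by rw [map_add]; exact mul_left_cancel₀ hp e5⟩
  have e6 : PowerSeries.map j a = ψ := by
    ext N
    rw [PowerSeries.coeff_map, key]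
  refine ⟨a, a0, hj ?_, by rw [e6, e1]⟩
  rw [← key, ψ1, map_one]

end lam

theorem Honda_mem_cI {σ : Type*} {f : MvPowerSeries σ (WW p n)}
    (h : MvPowerSeries.map (resW p n) f = 0) : f ∈ cI σ (Ideal.span {(p : WW p n)}) := by
  rw [mem_cI]
  intro d
  rw [← WittVector.ker_constantCoeff, RingHom.mem_ker]
  have := congrArg (MvPowerSeries.coeff d) h
  rwa [MvPowerSeries.coeff_map, map_zero] at this

theorem exists_honda_coord (hn : 1 ≤ n) (H₀ : FormalGroup (WW p n)) [H₀.IsComm]
    (hH : mulSeries (H₀.map (resW p n)) p = PowerSeries.X ^ (p ^ n)) :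
    ∃ (F : FormalGroup (WW p n)) (u : PowerSeries (WW p n)), IsHonda p n F ∧ IsFGHom F H₀ u ∧
      PowerSeries.coeff 1 u = 1 := by
  have := Honda_charZero p n
  let K := FractionRing (WW p n)
  let j : WW p n →+* K := algebraMap _ _
  have hj : Function.Injective j := IsFractionRing.injective _ _
  have : CharZero K := charZero_of_injective_algebraMap hj
  have hq := Honda_two_le p n hn
  have hq0 : p ^ n ≠ 0 := by omega
  have hA : ∀ d : ℕ, ¬ p ∣ d → IsUnit (d : WW p n) := fun d hd => isUnit_natCast_WW p n hd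
  have hF : mulSeries H₀ p - PowerSeries.X ^ (p ^ n) ∈ cI Unit (Ideal.span {(p : WW p n)}) := by
    apply Honda_mem_cI
    change PowerSeries.map (resW p n) (mulSeries H₀ p - PowerSeries.X ^ (p ^ n)) = 0
    rw [map_sub, ← mulSeries_map, hH, map_pow, PowerSeries.map_X, sub_self]
  obtain ⟨a, a0, a1, ha⟩ := Honda_fe p n hn j hj hA
    (fun a => by
      apply Honda_mem_cI
      change PowerSeries.map (resW p n) (PowerSeries.expand (p ^ n) hq0 a - a ^ (p ^ n)) = 0
      rw [map_sub, map_pow, PowerSeries.map_expand, sub_eq_zero]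
      exact (pow_card_eq_expand p n hn (σ := Unit) _).symm)
    (constantCoeff_logS j H₀) (coeff_one_logS j H₀)
    (fun d => by
      obtain ⟨c, hc⟩ := log_bdd p hn j hA H₀ hF (N := 0) (by simp)
        (a := mulSeries H₀ p) (b := (PowerSeries.X ^ (p ^ n) : PowerSeries (WW p n)))
        (constantCoeff_mulSeries H₀ p)
        (show PowerSeries.constantCoeff (PowerSeries.X ^ (p ^ n) : PowerSeries (WW p n)) = 0 by
          rw [map_pow, PowerSeries.constantCoeff_X, zero_pow hq0]) hF (Finsupp.single () d)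
      refine ⟨c, ?_⟩
      rw [pow_zero, one_mul] at hc
      have hc' : PowerSeries.coeff d
          (PowerSeries.subst (PowerSeries.map j (mulSeries H₀ p)) (logS j H₀) -
            PowerSeries.subst (PowerSeries.map j (PowerSeries.X ^ (p ^ n))) (logS j H₀)) =
          (p : K) * j c := hc
      rw [logS_comp_hom j (hom_mulSeries H₀ p), coeff_one_mulSeries, map_natCast, map_natCast,
        map_pow, PowerSeries.map_X, ← PowerSeries.expand_apply _ hq0] at hc'
      exact hc')
  have hu : IsUnit (PowerSeries.coeff 1 a) := by rw [a1]; exact isUnit_one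
  have hsa := PowerSeries.HasSubst.of_constantCoeff_zero' a0
  set u := a.substInvOfIsUnit hu with hu_def
  have u0 : PowerSeries.constantCoeff u = 0 := PowerSeries.constantCoeff_substInvOfIsUnit _ hu
  have hsu := PowerSeries.HasSubst.of_constantCoeff_zero' u0
  have e1 : PowerSeries.subst u a = PowerSeries.X := by
    have := fg1_right_inv a0 hu (c := (PowerSeries.X : PowerSeries (WW p n)))
      PowerSeries.HasSubst.X'
    rwa [PowerSeries.X_subst] at this
  have u1 : PowerSeries.coeff 1 u = 1 := by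
    have := coeff_one_psubst (g := a) u0
    rw [e1, a1, one_mul, PowerSeries.coeff_one_X] at this
    exact this.symm
  clear_value u
  obtain ⟨F, hFu⟩ := exists_conj H₀ u0 (by rw [u1]; exact isUnit_one)
  refine ⟨F, u, ?_, hFu, u1⟩
  have hju := hom_map hFu j
  have hsju := hom_hasSubst hju
  have hsja : PowerSeries.HasSubst (PowerSeries.map j a) :=
    PowerSeries.HasSubst.of_constantCoeff_zero' (by
      rw [← PowerSeries.coeff_zero_eq_constantCoeff_apply, PowerSeries.coeff_map,
        PowerSeries.coeff_zero_eq_constantCoeff_apply, a0, map_zero])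
  have e2 : PowerSeries.subst (PowerSeries.map j u) (logS j H₀) = Honda_lam p n K := by
    have e3 : PowerSeries.subst (PowerSeries.map j u) (PowerSeries.map j a) = PowerSeries.X := by
      have := PowerSeries.map_subst hsu (h := j) a
      rw [e1] at this
      exact this.symm.trans (PowerSeries.map_X j)
    rw [← ha, PowerSeries.subst_comp_subst_apply hsja hsju, e3, PowerSeries.X_subst]
  have e4 : PowerSeries.subst (F.map j).toPowerSeries (Honda_lam p n K) =
      PowerSeries.subst (MvPowerSeries.X 0 : MvPowerSeries (Fin 2) K) (Honda_lam p n K) +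
        PowerSeries.subst (MvPowerSeries.X 1 : MvPowerSeries (Fin 2) K) (Honda_lam p n K) := by
    rw [← e2, PowerSeries.subst_comp_subst_apply hsju (fg1_hasSubst_fg _),
      PowerSeries.subst_comp_subst_apply hsju (PowerSeries.HasSubst.X 0),
      PowerSeries.subst_comp_subst_apply hsju (PowerSeries.HasSubst.X 1), hju.2,
      logS_add j H₀ (hasSubst_psubst (PowerSeries.HasSubst.X 0) hju.1)
        (hasSubst_psubst (PowerSeries.HasSubst.X 1) hju.1)]
  intro J d hd
  apply hj
  rw [← MvPowerSeries.coeff_map, ← MvPowerSeries.coeff_map, map_add, Honda_PJ_map, Honda_PJ_map,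
    Honda_PJ_map, MvPowerSeries.map_X, MvPowerSeries.map_X, map_add,
    Honda_coeff_PJ p n hn J (MvPowerSeries.constantCoeff_X 0) d hd,
    Honda_coeff_PJ p n hn J (MvPowerSeries.constantCoeff_X 1) d hd, ← map_add, ← mul_add, ← e4]
  exact Honda_coeff_PJ p n hn J (F.map j).zero_constantCoeff d hd

theorem honda_unique (hn : 1 ≤ n) {σ : Type*} {a b : MvPowerSeries σ (WW p n)}
    (ha : MvPowerSeries.constantCoeff a = 0) (hb : MvPowerSeries.constantCoeff b = 0)
    (h : ∀ (J : ℕ) (d : σ →₀ ℕ), d.degree < (p ^ n) ^ (J + 1) →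
      MvPowerSeries.coeff d (PJ p n J a) = MvPowerSeries.coeff d (PJ p n J b)) : a = b := by
  by_contra hne
  have hq := Honda_two_le p n hn
  obtain ⟨d, hd, hdo⟩ := MvPowerSeries.exists_coeff_ne_zero_and_order
    (MvPowerSeries.ne_zero_iff_order_finite.1 (sub_ne_zero.2 hne))
  have h1 := h d.degree d (lt_of_lt_of_le (Nat.lt_pow_self (by omega))
    (Nat.pow_le_pow_right (by omega) (Nat.le_succ _)))
  generalize hJ : d.degree = J at h1
  rw [← sub_eq_zero, ← map_sub, PJ, PJ, ← Finset.sum_sub_distrib, map_sum,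
    Finset.sum_eq_single 0] at h1
  · rw [← mul_sub, pow_zero, pow_one, pow_one, ← map_natCast (MvPowerSeries.C (σ := σ)) p,
      ← map_pow, MvPowerSeries.coeff_C_mul] at h1
    rcases mul_eq_zero.1 h1 with h2 | h2
    · exact WittVector.p_nonzero p (kk p n) (eq_zero_of_pow_eq_zero h2)
    · exact hd h2
  · intro i _ hi
    have hm : 2 ≤ (p ^ n) ^ i := hq.trans (Nat.le_self_pow hi _)
    obtain ⟨c, hc, hc0⟩ := Honda_pow_sub (MvPowerSeries.constantCoeff (σ := σ) (R := WW p n)) (a := a)
      (b := b) ha hb hm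
    rw [← mul_sub, hc, ← mul_assoc]
    apply MvPowerSeries.coeff_of_lt_order
    refine lt_of_lt_of_le ?_ MvPowerSeries.le_order_mul
    have h3 : 1 ≤ ((p : MvPowerSeries σ (WW p n)) ^ (J - i) * c).order :=
      MvPowerSeries.one_le_order_iff_constCoeff_eq_zero.2 (by rw [map_mul, hc0, mul_zero])
    rw [← hdo]
    refine lt_of_lt_of_le ?_ (add_le_add_left h3 _)
    exact_mod_cast (by omega : d.degree < 1 + d.degree)
  · simp

theorem honda_smul (hn : 1 ≤ n) {F : FormalGroup (WW p n)} (hF : IsHonda p n F) (a : kk p n) :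
    IsFGHom (F.map (resW p n)) (F.map (resW p n)) (PowerSeries.C a * PowerSeries.X) := by
  set ζ : WW p n := WittVector.teichmuller p a with hζ
  have hz : ζ ^ (p ^ n) = ζ := by rw [hζ, ← map_pow, Honda_pow_card p n hn]
  have hz' : (MvPowerSeries.C ζ : MvPowerSeries (Fin 2) (WW p n)) ^ (p ^ n) = MvPowerSeries.C ζ := by
    rw [← map_pow, hz]
  have hX : ∀ i : Fin 2, MvPowerSeries.rescale (fun _ => ζ) (MvPowerSeries.X i) =
      (MvPowerSeries.C ζ * MvPowerSeries.X i : MvPowerSeries (Fin 2) (WW p n)) := by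
    intro i
    rw [MvPowerSeries.rescale_eq_subst, MvPowerSeries.subst_X (MvPowerSeries.HasSubst.smul_X _)]
    simp [MvPowerSeries.smul_eq_C_mul]
  have e1 : MvPowerSeries.C ζ * F.toPowerSeries =
      MvPowerSeries.rescale (fun _ => ζ) F.toPowerSeries := by
    refine honda_unique p n hn (by rw [map_mul, F.zero_constantCoeff, mul_zero]) ?_ fun J d hd => ?_
    · rw [← MvPowerSeries.coeff_zero_eq_constantCoeff_apply, MvPowerSeries.coeff_rescale,
        MvPowerSeries.coeff_zero_eq_constantCoeff_apply, F.zero_constantCoeff, mul_zero]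
    · rw [← Honda_PJ_map, MvPowerSeries.coeff_rescale, hF J d hd, ← MvPowerSeries.coeff_rescale,
        map_add (MvPowerSeries.rescale _), Honda_PJ_map, Honda_PJ_map, hX, hX,
        Honda_PJ_mul p n hz', Honda_PJ_mul p n hz', Honda_PJ_mul p n hz', ← mul_add,
        MvPowerSeries.coeff_C_mul, MvPowerSeries.coeff_C_mul, hF J d hd]
  have e2 : ∀ c : MvPowerSeries (Fin 2) (WW p n), PowerSeries.HasSubst c →
      PowerSeries.subst c (PowerSeries.C ζ * PowerSeries.X : PowerSeries (WW p n)) =
        MvPowerSeries.C ζ * c := fun c hc => by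
    rw [PowerSeries.subst_mul hc, PowerSeries.subst_C, PowerSeries.subst_X hc]
  have e3 : IsFGHom F F (PowerSeries.C ζ * PowerSeries.X) := by
    refine ⟨by simp, ?_⟩
    rw [e2 _ (fg1_hasSubst_fg F), e2 _ (PowerSeries.HasSubst.X 0), e2 _ (PowerSeries.HasSubst.X 1),
      e1, MvPowerSeries.rescale_eq_subst]
    congr 1
    funext i
    fin_cases i <;> simp [MvPowerSeries.smul_eq_C_mul]
  have e4 := hom_map e3 (resW p n)
  rw [map_mul, PowerSeries.map_C, PowerSeries.map_X] at e4
  have e5 : resW p n ζ = a := WittVector.teichmuller_coeff_zero p a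
  rwa [e5] at e4

theorem honda_frob (hn : 1 ≤ n) {F : FormalGroup (WW p n)} (hF : IsHonda p n F) :
    IsFGHom (F.map (resW p n)) (F.map (resW p n)) (PowerSeries.X ^ p) := by
  apply hom_X_pow_of_map_frobenius
  have e1 : F.map (WittVector.frobenius : WW p n →+* WW p n) = F := by
    ext1
    refine honda_unique p n hn (F.map _).zero_constantCoeff F.zero_constantCoeff fun J d hd => ?_
    rw [FormalGroup.map_toPowerSeries, ← Honda_PJ_map, MvPowerSeries.coeff_map, hF J d hd,
      ← MvPowerSeries.coeff_map, map_add (MvPowerSeries.map _), Honda_PJ_map, Honda_PJ_map,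
      MvPowerSeries.map_X, MvPowerSeries.map_X]
  have e2 : (frobenius (kk p n) p).comp (resW p n) =
      (resW p n).comp (WittVector.frobenius : WW p n →+* WW p n) := by
    ext x
    exact (WittVector.coeff_frobenius_charP p x 0).symm
  rw [fg_map_map, e2, ← fg_map_map, e1]

theorem exists_honda (hn : 1 ≤ n) (H₀ : FormalGroup (WW p n)) [H₀.IsComm]
    (hH : mulSeries (H₀.map (resW p n)) p = PowerSeries.X ^ (p ^ n)) :
    ∃ (D : Honda p n) (u : PowerSeries (WW p n)), IsFGHom D.F H₀ u ∧
      PowerSeries.coeff 1 u = 1 := by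
  obtain ⟨F, u, hF, hu, u1⟩ := exists_honda_coord p n hn H₀ hH
  have hq := Honda_two_le p n hn
  have hq0 : p ^ n ≠ 0 := by omega
  have hc : F.IsComm := isComm_of_hom hu (by rw [u1]; exact isUnit_one)
  have hb := hom_map hu (resW p n)
  have hb1 : IsUnit (PowerSeries.coeff 1 (PowerSeries.map (resW p n) u)) := by
    rw [PowerSeries.coeff_map, u1, map_one]; exact isUnit_one
  have hs := hom_hasSubst hb
  have pser : mulSeries (F.map (resW p n)) p = PowerSeries.X ^ (p ^ n) := by
    have e1 := hom_mulSeries_comm hb p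
    rw [hH, PowerSeries.subst_pow hs, PowerSeries.subst_X hs] at e1
    have e2 : PowerSeries.map (resW p n) u ^ (p ^ n) =
        PowerSeries.expand (p ^ n) hq0 (PowerSeries.map (resW p n) u) :=
      pow_card_eq_expand p n hn (σ := Unit) _
    rw [e2, PowerSeries.expand_apply] at e1
    have e3 := fg1_left_inv hb.1 hb1 (c := mulSeries (F.map (resW p n)) p)
      (PowerSeries.HasSubst.of_constantCoeff_zero' (constantCoeff_mulSeries _ _))
    have e4 := fg1_left_inv hb.1 hb1 (c := (PowerSeries.X ^ (p ^ n) : PowerSeries (kk p n)))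
      (PowerSeries.HasSubst.X_pow hq0)
    rw [← e3, e1, e4]
  exact ⟨⟨F, hc, hF, F.map (resW p n), inferInstance, rfl, pser, honda_smul p n hn hF,
    honda_frob p n hn hF⟩, u, hu, u1⟩

end Crest.Agent.R227
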