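import Crest.Agent.R227.Count

/-!
# R227 / Interp: a grid of `D ^ r` points cut out by `r + 1` bounded functions is Zariski dense

`norm_prod_sub_ge`: `∏_{b < D, b ≠ a} (a - b) = ± a! (D - 1 - a)!` and `‖N!‖ ≥ ‖p‖ ^ N`
(write `N! = p ^ v * u`, `p ∤ u`, `v ≤ N` by `padicValNat_factorial_le`-type lemmas or
`Nat.Prime.sub_one_mul_padicValNat_factorial`; `‖u‖ = 1` by `hC`).  One may also avoid the closed
form: `‖(a - b : C)‖ = ‖(|a - b| : ℕ)‖` and split the product at `a` (`Finset.prod_range_succ`,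
induction on `D`).

`interp_contra`: `τ = (‖c‖ ‖p‖) ^ r ∈ (0, 1]`, `K ≥ 1` with `ρ ^ K < τ` (if `r = 0`, `τ = 1`), `D` large.  Take
`η = τ ^ D`, `ε < η` so small that also `ε < ‖c‖ ‖p‖ ^ D`.  Put
`ℓ a = ∏ l, ∏ b ∈ (range D).erase (a l), (Ψ l - b * Ψ₀)`.  At `σ a'` the factor is within `ε` of
`c t (a' l - b)`.  For `a' = a` its norm is `‖c‖ ‖a l - b‖` (since `‖a l - b‖ ≥ ‖p‖ ^ D`), so
`‖ℓ a (σ a)‖ ≥ (‖c‖ ^ D ‖p‖ ^ D) ^ r = η` (`‖c‖ ≤ 1` as `Ψ₀` is bounded by `1`; or assume `hc1`).  For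
`a' ≠ a` the factor `(l, b = a' l)` has norm `≤ ε`, the others `≤ 1`.  `count_le` with `N = K D`
gives `D ^ r * (K D) ≤ Q (K D) ^ r`, i.e. `K D ≤ Q K ^ r`, false for `D > Q K ^ r`.
-/

set_option autoImplicit false
noncomputable section

namespace Crest.Agent.R227

variable {C : Type*} [NormedField C] [IsUltrametricDist C]

omit [IsUltrametricDist C] in
theorem Interp_fact (p : ℕ) [Fact p.Prime] (hC : ∀ u : ℕ, ¬ p ∣ u → ‖(u : C)‖ = 1)
    (hp1 : ‖(p : C)‖ ≤ 1) (N : ℕ) : ‖(p : C)‖ ^ N ≤ ‖(N.factorial : C)‖ := by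
  obtain ⟨e, u, hu, h⟩ := Nat.exists_eq_pow_mul_and_not_dvd N.factorial_ne_zero p
    (Fact.out : p.Prime).ne_one
  have he : e ≤ N := ((padicValNat_dvd_iff_le N.factorial_ne_zero).1 ⟨u, h⟩).trans
    (padicValNat_factorial_le p N)
  rw [h, Nat.cast_mul, Nat.cast_pow, norm_mul, norm_pow, hC u hu, mul_one]
  exact pow_le_pow_of_le_one (norm_nonneg _) hp1 he

omit [IsUltrametricDist C] in
theorem Interp_prod (a k : ℕ) : ∏ b ∈ (Finset.range (a + 1 + k)).erase a, ‖(a : C) - (b : C)‖ =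
    ‖(a.factorial : C)‖ * ‖(k.factorial : C)‖ := by
  induction k with
  | zero =>
    rw [add_zero, Finset.range_add_one, Finset.erase_insert Finset.notMem_range_self,
      ← Nat.descFactorial_self, Nat.descFactorial_eq_prod_range, Nat.cast_prod, norm_prod]
    simp only [Nat.factorial_zero, Nat.cast_one, norm_one, mul_one]
    exact Finset.prod_congr rfl fun b hb => by rw [Nat.cast_sub (Finset.mem_range.1 hb).le]
  | succ k ih =>
    rw [← add_assoc, Finset.range_add_one, Finset.erase_insert_of_ne (by omega),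
      Finset.prod_insert (fun h => Finset.notMem_range_self (Finset.mem_of_mem_erase h)), ih,
      Nat.factorial_succ, Nat.cast_mul, norm_mul, norm_sub_rev]
    have : ((a + 1 + k : ℕ) : C) - a = ((k + 1 : ℕ) : C) := by
      push_cast
      ring
    rw [this]
    ring

theorem Interp_prod_le {ι : Type*} {s : Finset ι} {f : ι → ℝ} (h0 : ∀ i, 0 ≤ f i)
    (h1 : ∀ i, f i ≤ 1) {i : ι} (hi : i ∈ s) : ∏ j ∈ s, f j ≤ f i := by
  classical
  rw [← Finset.mul_prod_erase _ _ hi]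
  exact mul_le_of_le_one_right (h0 i) (Finset.prod_le_one (fun j _ => h0 j) fun j _ => h1 j)

omit [IsUltrametricDist C] in
theorem norm_prod_sub_ge (p : ℕ) [Fact p.Prime] (hC : ∀ u : ℕ, ¬ p ∣ u → ‖(u : C)‖ = 1)
    (hp1 : ‖(p : C)‖ ≤ 1) {D a : ℕ} (ha : a < D) :
    ‖(p : C)‖ ^ D ≤ ∏ b ∈ (Finset.range D).erase a, ‖(a : C) - (b : C)‖ := by
  obtain ⟨k, rfl⟩ : ∃ k, D = a + 1 + k := ⟨D - (a + 1), by omega⟩
  rw [Interp_prod]
  calc ‖(p : C)‖ ^ (a + 1 + k) ≤ ‖(p : C)‖ ^ (a + k) :=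
        pow_le_pow_of_le_one (norm_nonneg _) hp1 (by omega)
    _ ≤ _ := by
        rw [pow_add]
        exact mul_le_mul (Interp_fact p hC hp1 a) (Interp_fact p hC hp1 k) (by positivity)
          (norm_nonneg _)

theorem interp_contra [CompleteSpace C] (p : ℕ) [Fact p.Prime]
    (hC : ∀ u : ℕ, ¬ p ∣ u → ‖(u : C)‖ = 1) (hp0 : (p : C) ≠ 0) (hp1 : ‖(p : C)‖ ≤ 1) {r : ℕ}
    {ρ : ℝ} (hρ0 : 0 ≤ ρ) (hρ1 : ρ < 1) (φ : MvPowerSeries (Fin r) (Ob C)) (d : Fin r →₀ ℕ)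
    (hφ : ‖((MvPowerSeries.coeff d φ : Ob C) : C)‖ = 1) (c : C) (hc0 : c ≠ 0) (hc1 : ‖c‖ ≤ 1)
    (h : ∀ (D : ℕ) (ε : ℝ), 0 < ε → ∃ (σ : (Fin r → Fin D) → Fin r → C)
      (Ψ₀ : MvPowerSeries (Fin r) (Ob C)) (Ψ : Fin r → MvPowerSeries (Fin r) (Ob C))
      (t : (Fin r → Fin D) → C), (∀ a i, ‖σ a i‖ ≤ ρ) ∧ (∀ a, ‖t a‖ = 1) ∧
      (∀ a, ev (Ob C).subtype (σ a) φ = 0) ∧
      (∀ a, ‖ev (Ob C).subtype (σ a) Ψ₀ - c * t a‖ ≤ ε) ∧
      ∀ a l, ‖ev (Ob C).subtype (σ a) (Ψ l) - c * t a * ((a l : ℕ) : C)‖ ≤ ε) : False := by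
  have hγ : 0 < ‖c‖ := norm_pos_iff.2 hc0
  have hπ : 0 < ‖(p : C)‖ := norm_pos_iff.2 hp0
  obtain ⟨K₀, hK₀⟩ := exists_pow_lt_of_lt_one (show 0 < (‖c‖ * ‖(p : C)‖) ^ r by positivity) hρ1
  have hK : ρ ^ (K₀ + 1) < (‖c‖ * ‖(p : C)‖) ^ r :=
    (pow_le_pow_of_le_one hρ0 hρ1.le (Nat.le_succ _)).trans_lt hK₀
  obtain ⟨D, hD⟩ : ∃ D, D = d.degree * (K₀ + 1) ^ r + 1 := ⟨_, rfl⟩
  have hD0 : D ≠ 0 := by omega
  obtain ⟨η, hη⟩ : ∃ η, η = ((‖c‖ * ‖(p : C)‖) ^ r) ^ D := ⟨_, rfl⟩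
  have hη0 : 0 < η := by rw [hη]; positivity
  obtain ⟨ε, hε0, hε1, hε2⟩ : ∃ ε : ℝ, 0 < ε ∧ ε < η ∧ ε < ‖c‖ * ‖(p : C)‖ ^ D := by
    obtain ⟨ε, h1, h2⟩ := exists_between (lt_min hη0 (show 0 < ‖c‖ * ‖(p : C)‖ ^ D by positivity))
    exact ⟨ε, h1, h2.trans_le (min_le_left _ _), h2.trans_le (min_le_right _ _)⟩
  obtain ⟨σ, Ψ₀, Ψ, t, hσ, ht, hφ0, h0, h1⟩ := h D ε hε0
  have hσ1 : ∀ a i, ‖σ a i‖ < 1 := fun a i => (hσ a i).trans_lt hρ1
  have hnat : ∀ a b : ℕ, ‖(a : C) - (b : C)‖ ≤ 1 := fun a b => by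
    rw [sub_eq_add_neg]
    refine (IsUltrametricDist.norm_add_le_max _ _).trans (max_le ?_ ?_)
    · exact IsUltrametricDist.norm_natCast_le_one C a
    · rw [norm_neg]
      exact IsUltrametricDist.norm_natCast_le_one C b
  have hfac : ∀ (a : Fin r → Fin D) (l : Fin r) (b : ℕ),
      ‖ev (Ob C).subtype (σ a) (Ψ l - b * Ψ₀) - c * t a * (((a l : ℕ) : C) - b)‖ ≤ ε := by
    intro a l b
    have e : ev (Ob C).subtype (σ a) (Ψ l - b * Ψ₀) =
        ev (Ob C).subtype (σ a) (Ψ l) - b * ev (Ob C).subtype (σ a) Ψ₀ := by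
      rw [← evHom_apply _ Ob_le_one _ (hσ1 a), map_sub, map_mul, map_natCast]
      rfl
    have e' : ev (Ob C).subtype (σ a) (Ψ l) - b * ev (Ob C).subtype (σ a) Ψ₀ -
        c * t a * (((a l : ℕ) : C) - b) =
        (ev (Ob C).subtype (σ a) (Ψ l) - c * t a * ((a l : ℕ) : C)) +
          -(b * (ev (Ob C).subtype (σ a) Ψ₀ - c * t a)) := by ring
    rw [e, e']
    refine (IsUltrametricDist.norm_add_le_max _ _).trans (max_le (h1 a l) ?_)
    rw [norm_neg, norm_mul]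
    exact (mul_le_of_le_one_left (norm_nonneg _)
      (IsUltrametricDist.norm_natCast_le_one C b)).trans (h0 a)
  have hev : ∀ a a' : Fin r → Fin D, ‖ev (Ob C).subtype (σ a')
      (∏ l, ∏ b ∈ (Finset.range D).erase (a l), (Ψ l - b * Ψ₀))‖ =
      ∏ l, ∏ b ∈ (Finset.range D).erase (a l), ‖ev (Ob C).subtype (σ a') (Ψ l - b * Ψ₀)‖ := by
    intro a a'
    rw [← evHom_apply _ Ob_le_one _ (hσ1 a')]
    simp only [map_prod, norm_prod, evHom_apply]
  have hℓ : ∀ a : Fin r → Fin D, η ≤ ‖ev (Ob C).subtype (σ a)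
      (∏ l, ∏ b ∈ (Finset.range D).erase (a l), (Ψ l - b * Ψ₀))‖ := by
    intro a
    have e : η = ∏ _l : Fin r, ‖c‖ ^ D * ‖(p : C)‖ ^ D := by
      rw [Finset.prod_const, Finset.card_univ, Fintype.card_fin, hη, ← mul_pow, ← pow_mul,
        ← pow_mul, mul_comm r D]
    rw [hev, e]
    refine Finset.prod_le_prod (fun _ _ => by positivity) fun l _ => ?_
    have hP := norm_prod_sub_ge p hC hp1 (a l).isLt
    calc ‖c‖ ^ D * ‖(p : C)‖ ^ D
        ≤ ‖c‖ ^ ((Finset.range D).erase (a l)).card *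
            ∏ b ∈ (Finset.range D).erase (a l), ‖((a l : ℕ) : C) - (b : C)‖ := by
          refine mul_le_mul (pow_le_pow_of_le_one hγ.le hc1 ?_) hP (by positivity) (by positivity)
          exact Finset.card_erase_le.trans_eq (Finset.card_range D)
      _ = ∏ b ∈ (Finset.range D).erase (a l), ‖c‖ * ‖((a l : ℕ) : C) - (b : C)‖ := by
          rw [Finset.prod_mul_distrib, Finset.prod_const]
      _ ≤ _ := by
          refine Finset.prod_le_prod (fun _ _ => by positivity) fun b hb => ?_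
          have h2 : ‖(p : C)‖ ^ D ≤ ‖((a l : ℕ) : C) - (b : C)‖ :=
            hP.trans (Interp_prod_le (f := fun b : ℕ => ‖((a l : ℕ) : C) - (b : C)‖)
              (fun _ => norm_nonneg _) (fun _ => hnat _ _) hb)
          have h3 : ‖c * t a * (((a l : ℕ) : C) - b)‖ = ‖c‖ * ‖((a l : ℕ) : C) - (b : C)‖ := by
            rw [norm_mul, norm_mul, ht, mul_one]
          have h4 := IsUltrametricDist.norm_add_le_max (ev (Ob C).subtype (σ a) (Ψ l - b * Ψ₀))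
            (-(ev (Ob C).subtype (σ a) (Ψ l - b * Ψ₀) - c * t a * (((a l : ℕ) : C) - b)))
          rw [norm_neg, neg_sub, add_sub_cancel, h3] at h4
          have h5 := (hfac a l b).trans_lt (hε2.trans_le (mul_le_mul_of_nonneg_left h2 hγ.le))
          exact (le_max_iff.1 h4).resolve_right (not_le.2 h5)
  have hcount := count_le (Ob C).subtype Ob_le_one (Ob C).subtype Ob_le_one σ hρ0 hρ1 hσ φ d.degree
    ⟨d, le_rfl, hφ⟩ (fun a => by rw [hφ0, norm_zero]; exact hη0) _ hℓ (fun a a' ha => by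
      refine lt_of_le_of_lt ?_ (hε1.trans_le (hℓ a))
      obtain ⟨l, hl⟩ := Function.ne_iff.1 ha
      have hone : ∀ (l : Fin r) (b : ℕ), ‖ev (Ob C).subtype (σ a') (Ψ l - b * Ψ₀)‖ ≤ 1 :=
        fun l b => norm_ev_le_one _ Ob_le_one _ (hσ1 a') _
      rw [hev]
      refine (Interp_prod_le (fun l => Finset.prod_nonneg fun _ _ => norm_nonneg _)
        (fun l => Finset.prod_le_one (fun _ _ => norm_nonneg _) fun b _ => hone l b)
        (Finset.mem_univ l)).trans ((Interp_prod_le (fun _ => norm_nonneg _) (hone l)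
          (i := (a' l : ℕ)) (Finset.mem_erase.2 ⟨fun h => hl (Fin.ext h),
            Finset.mem_range.2 (a' l).isLt⟩)).trans ?_)
      simpa using hfac a' l (a' l)) ((K₀ + 1) * D) (by
      rw [hη, pow_mul]
      exact pow_lt_pow_left₀ hK (by positivity) hD0)
  rw [Fintype.card_fun, Fintype.card_fin, Fintype.card_fin, mul_pow, ← mul_assoc d.degree,
    mul_comm (D ^ r)] at hcount
  have h6 := Nat.le_of_mul_le_mul_right hcount (pow_pos (Nat.pos_of_ne_zero hD0) r)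
  have h7 : D ≤ (K₀ + 1) * D := Nat.le_mul_of_pos_left _ (Nat.succ_pos _)
  omega

end Crest.Agent.R227
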