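import Crest.Agent.R227.Periods
import Crest.Agent.R227.Chart
import Crest.Agent.R227.Interp

/-!
# R227 / MainZero: orbits of points of characteristic zero are Zariski dense

`C` has characteristic zero (`x p ≠ 0`; integers prime to `p` are units of `E₀`, so have norm `1`).
Suppose `f ≠ 0`.  `ρ` from `exists_rho`; pick
`ϖ ∈ O` with `‖p‖ ≤ ρ < ‖ϖ‖ < 1` (`C` algebraically closed:
`IsAlgClosed.exists_pow_nat_eq`, choose `N` with `ρ ^ N < ‖p‖`, `ϖ ^ N = p`), `ρ' = ρ / ‖ϖ‖`.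
`φ, c₀, d` from `exists_chart_normalise`; periods from `exists_periods`; `e i` from
`exists_chart_log` for `α = α₀ p ^ i`, `e = ∑ e i` (multiply `b` by `p ^ (e - e i)`); `e'` with
`p ^ e' ψ₀ i`, `p ^ e' ψ l i ∈ O`; `j` with `M ≤ q ^ j`.  Apply `interp_contra` with
`c = p ^ (e + e' + j)`.  Given `D, ε` pick `m` with `‖p‖ ^ m B ≤ ε`.  For `a : Fin (n-1) → Fin D` let
`g a = idEnd + ∑ l, (p ^ j * a l) • ξ l ∈ homs G G`; it is `≡ X mod X ^ M`
(`X_pow_dvd_add_sub`; `(p ^ j • η).val = η.val ^ q ^ j` by `nsmul_val`, `mulSeries_pow_of_eq`).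
`Orb` gives `φ_a`, `θ_a`; `y_a = x ∘ φ_a` (it maps `mm` to norm `≤ ρ` since `φ_a` preserves
`residue`), `σ a` from `exists_chart_point`, `ev (σ a) φ = 0` since `c₀ * ev = y_a f = 0`.
`logS_comp_hom` and `logS_map`: `lz θ_a = C s * logS y_a H`, `s = x (coeff 1 θ_a)` of norm `1`
(unit of `E₀`; `2 ≤ M`), `t a = s⁻¹`.  So `ev (σ a) (b m i)` is within `‖p‖ ^ m B` of
`p ^ e t a Z i (g a)`; `Ψ₀ = ∑ i, C (p ^ (e' + j) ψ₀ i) * b m i`, `Ψ l = ∑ i, C (p ^ e' ψ l i) * b m i`, and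
`Z i (g a) = Z i idEnd + ∑ l, p ^ j * a l * Z i (ξ l)` (`map_add`, `map_sum`, `map_nsmul`).
-/

set_option autoImplicit false
noncomputable section
open Crest.LubinTate

namespace Crest.Agent.R227

variable {p : ℕ} [Fact p.Prime] {n : ℕ}

theorem MainZero_cong (hn : 1 ≤ n) (D : Honda p n) (M : ℕ) {r : ℕ} (ξ : Fin r → homs D.G D.G)
    (a : Fin r → ℕ) (i : ℕ) (hi : i < M) :
    PowerSeries.coeff i (idEnd D + ∑ l, (p ^ M * a l) • ξ l : homs D.G D.G).val.val =
      PowerSeries.coeff i PowerSeries.X := by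
  have hp := (Fact.out : p.Prime)
  have hq : 1 < p ^ n := Nat.one_lt_pow (by omega) hp.one_lt
  have h1 : (PowerSeries.X : PowerSeries (kk p n)) ^ M ∣
      (∑ l, (p ^ M * a l) • ξ l : homs D.G D.G).val.val := by
    refine Finset.sum_induction _
      (fun η : homs D.G D.G => (PowerSeries.X : PowerSeries (kk p n)) ^ M ∣ η.val.val)
      (fun u v hu hv => ?_) (dvd_zero _) fun l _ => ?_
    · have := dvd_add (X_pow_dvd_add_sub D.G u.val v.val hv) hu
      rwa [sub_add_cancel] at this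
    · rw [mul_smul]
      generalize a l • ξ l = η
      have e : ((p ^ M • η : homs D.G D.G) : D.G.Point Unit) = p ^ M • (η : D.G.Point Unit) := rfl
      rw [e, nsmul_val, mulSeries_pow_of_eq D.G (by omega) D.pser,
        PowerSeries.subst_pow η.val.prop, PowerSeries.subst_X η.val.prop]
      exact (pow_dvd_pow _ (Nat.lt_pow_self hq).le).trans
        (pow_dvd_pow_of_dvd (PowerSeries.X_dvd_iff.2 (mem_homs.1 η.prop).1) _)
  have h2 := PowerSeries.X_pow_dvd_iff.1 (X_pow_dvd_add_sub D.G (idEnd D).val _ h1) i hi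
  rw [map_sub, sub_eq_zero] at h2
  exact h2

theorem MainZero_scale {C : Type*} [NormedField C] {π : C} (hπ : ‖π‖ < 1) {ι : Type*} [Finite ι]
    (w : ι → C) : ∃ e : ℕ, ∀ i, ‖π ^ e * w i‖ ≤ 1 := by
  have h : ∀ i, ∀ᶠ e : ℕ in Filter.atTop, ‖π ^ e * w i‖ ≤ 1 := fun i => by
    have := (tendsto_pow_atTop_nhds_zero_of_lt_one (norm_nonneg π) hπ).mul_const ‖w i‖
    rw [zero_mul] at this
    filter_upwards [this.eventually (ge_mem_nhds one_pos)] with e he
    rwa [norm_mul, norm_pow]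
  exact (Filter.eventually_all.2 h).exists

theorem main_zero (hn : 1 ≤ n) (S : Setup p n) {M : ℕ} (hM : 2 ≤ M) {C : Type} [NormedField C]
    [IsUltrametricDist C] [CompleteSpace C] [IsAlgClosed C] (x : LTRing p n →+* C)
    (hx : ∀ a, ‖x a‖ ≤ 1) (hxm : ∀ a ∈ mm p n, ‖x a‖ < 1) (hp : x p ≠ 0) {f : LTRing p n}
    (hf : Orb S M x f) : f = 0 := by
  by_contra hf0
  have hpp := (Fact.out : p.Prime)
  have hunit : ∀ a, IsUnit a → ‖x a‖ = 1 := by
    intro a ha
    obtain ⟨b, hb⟩ := ha.exists_right_inv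
    have h1 : ‖x a‖ * ‖x b‖ = 1 := by rw [← norm_mul, ← map_mul, hb, map_one, norm_one]
    refine le_antisymm (hx a) ?_
    rw [← h1]
    exact mul_le_of_le_one_right (norm_nonneg _) (hx b)
  have hC : ∀ u : ℕ, ¬ p ∣ u → ‖(u : C)‖ = 1 := fun u hu => by
    rw [← map_natCast x u]
    exact hunit _ (isUnit_natCast_LT p n hu)
  have hp0 : (p : C) ≠ 0 := by rwa [map_natCast] at hp
  have : CharZero C := charZero_of_inj_zero fun u hu => by
    by_contra h0
    obtain ⟨k, v, hv, rfl⟩ := Nat.exists_eq_pow_mul_and_not_dvd h0 p hpp.ne_one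
    rw [Nat.cast_mul, Nat.cast_pow, mul_eq_zero] at hu
    rcases hu with hu | hu
    · exact pow_ne_zero k hp0 hu
    · have := hC v hv
      rw [hu, norm_zero] at this
      exact zero_ne_one this
  obtain ⟨ρ, hρ0, hρ1, hρ⟩ := exists_rho x hx hxm
  have hpρ : ‖(p : C)‖ ≤ ρ := by
    rw [← map_natCast x p]
    exact hρ _ (natCast_mem_mm p n)
  have hp1 : ‖(p : C)‖ < 1 := hpρ.trans_lt hρ1
  obtain ⟨N, hN⟩ := exists_pow_lt_of_lt_one (norm_pos_iff.2 hp0) hρ1
  have hN0 : 0 < N := Nat.pos_of_ne_zero fun h => by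
    rw [h, pow_zero] at hN
    linarith
  obtain ⟨π, hπ⟩ := IsAlgClosed.exists_pow_nat_eq (p : C) hN0
  have hπN : ‖π‖ ^ N = ‖(p : C)‖ := by rw [← norm_pow, hπ]
  have hπ1 : ‖π‖ < 1 := (pow_lt_one_iff_of_nonneg (norm_nonneg π) hN0.ne').1 (hπN ▸ hp1)
  have hρπ : ρ < ‖π‖ := lt_of_pow_lt_pow_left₀ N (norm_nonneg π) (hπN ▸ hN)
  have hπ0 : 0 < ‖π‖ := hρ0.trans hρπ
  set ϖ : Ob C := ⟨π, hπ1.le⟩ with hϖ
  have hϖ0 : ϖ ≠ 0 := fun h => by
    have : π = 0 := congrArg Subtype.val h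
    rw [this, norm_zero] at hπ0
    exact lt_irrefl _ hπ0
  have hρ'1 : ρ / ‖π‖ < 1 := (div_lt_one hπ0).2 hρπ
  obtain ⟨φ, c₀, d, hc₀, hφ, hd⟩ := exists_chart_normalise x hx ϖ hϖ0 hπ1 hf0
  obtain ⟨α₀, B, Z, ξ, ψ₀, ψ, hα₀, hB, hZ, d1, d2, d3, d4⟩ := exists_periods hn S x hx hxm
  choose e he using fun i : Fin n => exists_chart_log hn S x hx ϖ hπ1 (hpρ.trans hρπ.le)
    (α := α₀ * p ^ (i : ℕ)) (mul_ne_zero hα₀ (pow_ne_zero _ hpp.ne_zero))
  choose b hb using he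
  obtain ⟨e', he'⟩ := MainZero_scale hp1 (fun z : Option (Fin (n - 1)) × Fin n =>
    z.1.elim (ψ₀ z.2) fun l => ψ l z.2)
  set E := ∑ i, e i with hE
  have hpk : ∀ k : ℕ, ‖(p : C) ^ k‖ ≤ 1 := fun k => by
    rw [norm_pow]
    exact pow_le_one₀ (norm_nonneg _) hp1.le
  refine interp_contra p hC hp0 hp1.le (ρ := ρ / ‖π‖) (by positivity) hρ'1 φ d hd
    ((p : C) ^ (E + e' + M)) (pow_ne_zero _ hp0) (hpk _) fun D ε hε => ?_
  obtain ⟨m, hm⟩ : ∃ m : ℕ, ‖(p : C)‖ ^ m * B ≤ ε := by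
    have := (tendsto_pow_atTop_nhds_zero_of_lt_one (norm_nonneg _) hp1).mul_const B
    rw [zero_mul] at this
    exact (this.eventually (ge_mem_nhds hε)).exists
  set g : (Fin (n - 1) → Fin D) → homs S.G S.G := fun a =>
    idEnd S.toHonda + ∑ l, (p ^ M * (a l : ℕ)) • ξ l with hg
  have hZg : ∀ a (w : Fin n → C), ∑ i, w i * Z i (g a) = ∑ i, w i * Z i (idEnd S.toHonda) +
      ∑ l, (p : C) ^ M * ((a l : ℕ) : C) * ∑ i, w i * Z i (ξ l) := by
    intro a w
    simp only [hg, map_add, map_sum, map_nsmul, nsmul_eq_mul, mul_add, Finset.sum_add_distrib,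
      Finset.mul_sum, Nat.cast_mul, Nat.cast_pow]
    rw [Finset.sum_comm]
    congr 1
    exact Finset.sum_congr rfl fun l _ => Finset.sum_congr rfl fun i _ => by ring
  have main : ∀ a, ∃ (σ : Fin (n - 1) → C) (t : C), (∀ i, ‖σ i‖ ≤ ρ / ‖π‖) ∧ ‖t‖ = 1 ∧
      ev (Ob C).subtype σ φ = 0 ∧ ∀ w : Fin n → Ob C,
        ‖ev (Ob C).subtype σ (∑ i, MvPowerSeries.C (w i * (p : Ob C) ^ (E - e i)) * b i m) -
          (p : C) ^ E * t * ∑ i, (w i : C) * Z i (g a)‖ ≤ ε := by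
    intro a
    have hga := MainZero_cong hn S.toHonda M ξ fun l => (a l : ℕ)
    obtain ⟨φa, ⟨hres, θ, hθ, hθg⟩, hφa⟩ := hf (g a).val.val (mem_homs.1 (g a).prop) hga
    set y : LTRing p n →+* C := x.comp φa.toRingHom with hy
    obtain ⟨σ, hσ, hev⟩ := exists_chart_point x hx ϖ hϖ0 hρ'1 y (fun c => hx _)
      (fun c hc => by
        rw [show ‖(ϖ : C)‖ = ‖π‖ from rfl, div_mul_cancel₀ _ hπ0.ne']
        refine hρ _ ?_
        rw [mem_mm] at hc ⊢
        exact (RingHom.congr_fun hres c).trans hc)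
      (fun w => congrArg x (φa.commutes w))
    have hσ1 : ∀ i, ‖σ i‖ < 1 := fun i => (hσ i).trans_lt hρ'1
    set s := x (PowerSeries.coeff 1 θ) with hs
    have hs1 : ‖s‖ = 1 := by
      refine hunit _ (isUnit_of_residue_ne_zero p n ?_)
      rw [← PowerSeries.coeff_map, hθg, hga 1 (by omega), PowerSeries.coeff_one_X]
      exact one_ne_zero
    have hs0 : s ≠ 0 := norm_ne_zero_iff.1 (by rw [hs1]; exact one_ne_zero)
    have hlz : lz S x θ = PowerSeries.C s * logS y S.H := by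
      rw [lz, logS_comp_hom x hθ, logS_map]
    refine ⟨σ, s⁻¹, hσ, by rw [norm_inv, hs1, inv_one], ?_, fun w => ?_⟩
    · have h1 := hev f
      rw [hφ, ev_mul _ Ob_le_one _ hσ1, ev_C] at h1
      exact (mul_eq_zero.1 (h1.trans hφa)).resolve_left fun h => hc₀ (Subtype.ext h)
    · have e1 : ev (Ob C).subtype σ
          (∑ i, MvPowerSeries.C (w i * (p : Ob C) ^ (E - e i)) * b i m) =
          ∑ i, ev (Ob C).subtype σ (MvPowerSeries.C (w i * (p : Ob C) ^ (E - e i)) * b i m) :=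
        map_sum (evHom _ Ob_le_one σ hσ1) _ _
      rw [e1, Finset.mul_sum, ← Finset.sum_sub_distrib]
      refine IsUltrametricDist.norm_sum_le_of_forall_le_of_nonneg hε.le fun i _ => ?_
      have h1 := (hZ i (g a) θ hθ.1 hθg m).trans hm
      rw [hlz, PowerSeries.coeff_C_mul] at h1
      have hei : E - e i + e i = E :=
        Nat.sub_add_cancel (Finset.single_le_sum (fun _ _ => Nat.zero_le _) (Finset.mem_univ i))
      rw [ev_mul _ Ob_le_one _ hσ1, ev_C, hb i m σ hσ1 y hev, map_mul, map_pow, map_natCast,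
        Subring.subtype_apply]
      generalize PowerSeries.coeff ((p ^ n) ^ m * (α₀ * p ^ (i : ℕ))) (logS y S.H) = L at h1 ⊢
      have e2 : (w i : C) * (p : C) ^ (E - e i) * ((p : C) ^ e i * ((p : C) ^ m * L)) -
          (p : C) ^ E * s⁻¹ * ((w i : C) * Z i (g a)) =
          (p : C) ^ E * (w i : C) * s⁻¹ * ((p : C) ^ m * (s * L) - Z i (g a)) := by
        rw [mul_assoc (w i : C), ← mul_assoc ((p : C) ^ (E - e i)), ← pow_add, hei]
        field_simp
      rw [e2, norm_mul, norm_mul, norm_mul, norm_inv, hs1, inv_one, mul_one]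
      exact (mul_le_of_le_one_left (norm_nonneg _)
        (mul_le_one₀ (hpk E) (norm_nonneg _) (w i).prop)).trans h1
  choose σ t h1 h2 h3 h4 using main
  set w₀ : Fin n → Ob C := fun i => (p : Ob C) ^ M * ⟨(p : C) ^ e' * ψ₀ i, he' (none, i)⟩ with hw₀
  set w : Fin (n - 1) → Fin n → Ob C := fun l i => ⟨(p : C) ^ e' * ψ l i, he' (some l, i)⟩ with hw
  refine ⟨σ, ∑ i, MvPowerSeries.C (w₀ i * (p : Ob C) ^ (E - e i)) * b i m,
    fun l => ∑ i, MvPowerSeries.C (w l i * (p : Ob C) ^ (E - e i)) * b i m, t, h1, h2, h3,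
    fun a => ?_, fun a l => ?_⟩
  · have e1 : ∑ i, (w₀ i : C) * Z i (g a) = (p : C) ^ M * (p : C) ^ e' * ∑ i, ψ₀ i * Z i (g a) := by
      rw [Finset.mul_sum]
      refine Finset.sum_congr rfl fun i _ => ?_
      simp only [hw₀, MulMemClass.coe_mul, SubmonoidClass.coe_pow, SubringClass.coe_natCast]
      ring
    have h := h4 a w₀
    rw [e1, hZg, d1] at h
    simp only [d2, mul_zero, Finset.sum_const_zero, add_zero] at h
    convert h using 3
    ring
  · have e1 : ∑ i, (w l i : C) * Z i (g a) = (p : C) ^ e' * ∑ i, ψ l i * Z i (g a) := by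
      rw [Finset.mul_sum]
      exact Finset.sum_congr rfl fun i _ => mul_assoc _ _ _
    have h := h4 a (w l)
    rw [e1, hZg, d3] at h
    simp only [d4, mul_ite, mul_one, mul_zero, Finset.sum_ite_eq, Finset.mem_univ, if_true,
      zero_add] at h
    convert h using 3
    ring

end Crest.Agent.R227
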