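import Crest.Agent.R227.Defs

/-!
# R227 / Orth: large orthogonal families in a "lattice" of points

`t α` is the point `α₁ w₁ +_Γ ⋯ +_Γ α_r w_r`; only `hadd`, `hpow`, `hgen` are used.

Recipe.  From `hadd` and `‖t _‖ ≤ ρ < 1`: `‖t (α + β)‖ ≤ max`, with equality to `‖t β‖` when
`‖t α‖ < ‖t β‖`; and `‖t (α + ∑ c j • α j) - (t α + ∑ c j * t (α j))‖ ≤ ρ * Rr` when all the norms
involved (those with `c j ≠ 0`) are `≤ Rr` (induction).
* `orth_snoc`: call `z` reducible if `‖z + ∑ c j * ε j‖ < ‖z‖` for some `c`.  If `z` is not reducible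
  then `Fin.snoc ε z` is orthogonal (for a coefficient `c ≠ 0` in characteristic `p`, `‖c‖ = 1` and
  `c⁻¹ = c ^ (p - 2)` is again a natural number; use `Fin.sum_univ_castSucc`).
* `exists_reduce`: suppose every `t β` with `‖t β‖ ≥ κ'` is reducible.  Then for each `β` there
  is `c : Fin s → Fin p`, supported on `{j | ‖ε j‖ ≤ ‖t β‖}`, with `‖t (β + ∑ c j • α j)‖ < κ'`:
  strong induction on `card {j | ‖ε j‖ ≤ ‖t β‖}` (reduce `c` mod `p`, drop the `j` with
  `‖ε j‖ < ‖t β‖`; orthogonality shows `‖ε j‖ ≤ ‖t β‖` on the support; the new point has smaller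
  norm, and the supports of the two steps are disjoint).
* counting: `β ↦ c β` is injective on `Fin r → Fin (p ^ N)` when `κ' = κ ^ (q ^ (N - 1))`: if
  `c β = c β'`, put `γ = β + p ^ N' • 1 - β'` (`N'` huge, so that `‖t (p ^ N' • 1)‖ ≤ ρ ^ (q ^ N') < κ'`),
  `β' + e + γ = β + e + p ^ N' • 1`; the right side has norm `< κ'`, the left side has norm
  `‖t γ‖ ≥ κ'` since `γ = p ^ v • γ'`, `v < N`, `γ'` primitive.  Hence `p ^ (r N) ≤ p ^ s`.
* So an orthogonal family of size `s` extends by an element of norm `≥ κ ^ (q ^ (s / r))`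
  (`N = s / r + 1`, `s < r N`).  Induct, then sort with `Tuple.sort` (`orth_comp_perm`,
  `sorted_bound`).
-/

set_option autoImplicit false
noncomputable section

namespace Crest.Agent.R227

variable {C : Type*} [NormedField C] [IsUltrametricDist C]

omit [IsUltrametricDist C] in
theorem orth_comp_perm {s : ℕ} {ε : Fin s → C} (h : Orth ε) (σ : Equiv.Perm (Fin s)) :
    Orth (ε ∘ σ) := by
  intro c t ht
  have h1 := h (c ∘ σ.symm) (σ t) (by simpa using ht)
  rw [← Equiv.sum_comp σ] at h1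
  simpa using h1

/-- If `b` is antitone and `b j ≤ f j`, the decreasing rearrangement of `f` still dominates `b`. -/
theorem sorted_bound {s : ℕ} (f b : Fin s → ℝ) (hb : Antitone b) (h : ∀ j, b j ≤ f j) :
    ∃ σ : Equiv.Perm (Fin s), Antitone (f ∘ σ) ∧ ∀ j, b j ≤ f (σ j) := by
  have hm := Tuple.monotone_sort (fun j => -f j)
  set σ := Tuple.sort (fun j => -f j)
  have ha : Antitone (f ∘ σ) := fun i j hij => by
    have := hm hij
    simp only [Function.comp] at this ⊢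
    linarith
  refine ⟨σ, ha, fun j => ?_⟩
  by_contra hc
  push Not at hc
  have h1 : ∀ i ∈ Finset.Ici j, σ i ∈ Finset.Ioi j := fun i hi => by
    rw [Finset.mem_Ioi]
    by_contra hk
    push Not at hk
    have h2 := hb hk
    have h3 := h (σ i)
    have h4 : f (σ i) ≤ f (σ j) := ha (Finset.mem_Ici.1 hi)
    linarith
  have h2 := Finset.card_le_card_of_injOn σ (s := Finset.Ici j) (t := Finset.Ioi j)
    (fun i hi => h1 i hi) σ.injective.injOn
  have h3 : (Finset.Ioi j).card < (Finset.Ici j).card :=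
    Finset.card_lt_card (Finset.ssubset_iff_subset_ne.2 ⟨Finset.Ioi_subset_Ici_self, fun e => by
      have : j ∈ Finset.Ioi j := e ▸ Finset.mem_Ici.2 le_rfl
      simp at this⟩)
  omega

omit [IsUltrametricDist C] in
theorem orth_inv (p : ℕ) [Fact p.Prime] [CharP C p] {c : ℕ} (h : (c : C) ≠ 0) :
    ∃ d : ℕ, (d : C) * c = 1 := by
  have hp := (Fact.out : p.Prime)
  have h1 : ¬ p ∣ c := fun hd => h ((CharP.cast_eq_zero_iff C p c).2 hd)
  obtain ⟨d, hd⟩ := Nat.exists_mul_mod_eq_one_of_coprime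
    ((Nat.Prime.coprime_iff_not_dvd hp).2 h1).symm hp.one_lt
  refine ⟨d, ?_⟩
  have h2 := CharP.cast_eq_mod C p (c * d)
  rw [hd.2] at h2
  push_cast at h2
  rw [mul_comm, h2]

theorem orth_snoc (p : ℕ) [Fact p.Prime] [CharP C p] {s : ℕ} {ε : Fin s → C} (h : Orth ε) (z : C)
    (hz : ∀ c : Fin s → ℕ, ‖z‖ ≤ ‖z + ∑ j, (c j : C) * ε j‖) :
    Orth (Fin.snoc ε z : Fin (s + 1) → C) := by
  intro c t ht
  rw [Fin.sum_univ_castSucc]
  simp only [Fin.snoc_castSucc, Fin.snoc_last]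
  set S := ∑ j : Fin s, (c j.castSucc : C) * ε j with hS
  by_cases h0 : (c (Fin.last s) : C) = 0
  · rw [h0, zero_mul, add_zero]
    induction t using Fin.lastCases with
    | last => exact absurd h0 ht
    | cast t =>
      rw [Fin.snoc_castSucc]
      exact h (fun j => c j.castSucc) t ht
  · obtain ⟨d, hd⟩ := orth_inv p h0
    have h1 : ‖z‖ ≤ ‖S + c (Fin.last s) * z‖ := by
      refine (hz fun j => d * c j.castSucc).trans ?_
      have e : z + ∑ j : Fin s, ((d * c j.castSucc : ℕ) : C) * ε j =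
          d * (S + c (Fin.last s) * z) := by
        rw [mul_add, ← mul_assoc, hd, one_mul, add_comm, hS, Finset.mul_sum]
        congr 1
        exact Finset.sum_congr rfl fun j _ => by push_cast; ring
      rw [e, norm_mul]
      exact mul_le_of_le_one_left (norm_nonneg _) (IsUltrametricDist.norm_natCast_le_one C d)
    induction t using Fin.lastCases with
    | last =>
      rw [Fin.snoc_last]
      exact h1
    | cast t =>
      rw [Fin.snoc_castSucc]
      refine (h (fun j => c j.castSucc) t ht).trans ?_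
      have e : S = (S + c (Fin.last s) * z) + -(c (Fin.last s) * z) := by ring
      change ‖S‖ ≤ _
      conv_lhs => rw [e]
      refine (IsUltrametricDist.norm_add_le_max _ _).trans (max_le le_rfl ?_)
      rw [norm_neg, norm_mul]
      exact (mul_le_of_le_one_left (norm_nonneg _)
        (IsUltrametricDist.norm_natCast_le_one C _)).trans h1

omit [IsUltrametricDist C] in
/-- Frobenius preserves orthogonality. -/
theorem orth_pow (p : ℕ) [Fact p.Prime] [CharP C p] {s : ℕ} {ε : Fin s → C} (h : Orth ε) (e : ℕ) :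
    Orth (fun j => ε j ^ (p ^ e)) := by
  intro c t ht
  have e1 : ∑ j, (c j : C) * ε j ^ (p ^ e) = (∑ j, (c j : C) * ε j) ^ (p ^ e) := by
    rw [← iterateFrobenius_def, map_sum]
    exact Finset.sum_congr rfl fun j _ => by rw [map_mul, map_natCast, iterateFrobenius_def]
  rw [e1, norm_pow, norm_pow]
  exact pow_le_pow_left₀ (norm_nonneg _) (h c t ht) _

section extend

variable {r : ℕ} {t : (Fin r → ℕ) → C} {ρ : ℝ}

theorem orth_add_le (hρ : ρ < 1) (ht : ∀ α, ‖t α‖ ≤ ρ)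
    (hadd : ∀ α β, ‖t (α + β) - (t α + t β)‖ ≤ ‖t α‖ * ‖t β‖) (α β : Fin r → ℕ) :
    ‖t (α + β)‖ ≤ max ‖t α‖ ‖t β‖ := by
  have e : t (α + β) = (t (α + β) - (t α + t β)) + (t α + t β) := by ring
  rw [e]
  refine (IsUltrametricDist.norm_add_le_max _ _).trans
    (max_le ?_ (IsUltrametricDist.norm_add_le_max _ _))
  exact (hadd α β).trans ((mul_le_of_le_one_right (norm_nonneg _) ((ht β).trans hρ.le)).trans
    (le_max_left _ _))

theorem orth_le_add (hρ : ρ < 1) (ht : ∀ α, ‖t α‖ ≤ ρ)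
    (hadd : ∀ α β, ‖t (α + β) - (t α + t β)‖ ≤ ‖t α‖ * ‖t β‖) {α β : Fin r → ℕ}
    (h : ‖t α‖ < ‖t β‖) : ‖t β‖ ≤ ‖t (α + β)‖ := by
  by_contra hc
  push Not at hc
  have e : t β = t (α + β) + (-(t (α + β) - (t α + t β)) + -t α) := by ring
  have h1 : ‖t (α + β) - (t α + t β)‖ < ‖t β‖ :=
    lt_of_le_of_lt ((hadd α β).trans
      (mul_le_of_le_one_right (norm_nonneg _) ((ht β).trans hρ.le))) h
  have h2 : ‖t (α + β) + (-(t (α + β) - (t α + t β)) + -t α)‖ < ‖t β‖ := by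
    refine lt_of_le_of_lt (IsUltrametricDist.norm_add_le_max _ _) (max_lt hc ?_)
    refine lt_of_le_of_lt (IsUltrametricDist.norm_add_le_max _ _) (max_lt ?_ ?_)
    · rwa [norm_neg]
    · rwa [norm_neg]
  rw [← e] at h2
  exact lt_irrefl _ h2

/-- `t γ` is small and close to `z`. -/
def OrthNear (t : (Fin r → ℕ) → C) (ρ R : ℝ) (γ : Fin r → ℕ) (z : C) : Prop :=
  ‖t γ‖ ≤ R ∧ ‖t γ - z‖ ≤ ρ * R

theorem OrthNear.add (hρ : ρ < 1) (ht : ∀ α, ‖t α‖ ≤ ρ)
    (hadd : ∀ α β, ‖t (α + β) - (t α + t β)‖ ≤ ‖t α‖ * ‖t β‖) {R : ℝ} {γ γ' : Fin r → ℕ}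
    {z z' : C} (h : OrthNear t ρ R γ z) (h' : OrthNear t ρ R γ' z') :
    OrthNear t ρ R (γ + γ') (z + z') := by
  refine ⟨(orth_add_le hρ ht hadd γ γ').trans (max_le h.1 h'.1), ?_⟩
  have e : t (γ + γ') - (z + z') =
      (t (γ + γ') - (t γ + t γ')) + ((t γ - z) + (t γ' - z')) := by ring
  rw [e]
  refine (IsUltrametricDist.norm_add_le_max _ _).trans (max_le ?_
    ((IsUltrametricDist.norm_add_le_max _ _).trans (max_le h.2 h'.2)))
  exact (hadd γ γ').trans (mul_le_mul (ht γ) h'.1 (norm_nonneg _) ((norm_nonneg _).trans (ht γ)))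

omit [IsUltrametricDist C] in
theorem OrthNear.self (ht : ∀ α, ‖t α‖ ≤ ρ) {R : ℝ} {γ : Fin r → ℕ} (h : ‖t γ‖ ≤ R) :
    OrthNear t ρ R γ (t γ) :=
  ⟨h, by
    rw [sub_self, norm_zero]
    exact mul_nonneg ((norm_nonneg _).trans (ht γ)) ((norm_nonneg _).trans h)⟩

theorem orth_near_sum (hρ : ρ < 1) (ht : ∀ α, ‖t α‖ ≤ ρ) (h0 : t 0 = 0)
    (hadd : ∀ α β, ‖t (α + β) - (t α + t β)‖ ≤ ‖t α‖ * ‖t β‖) {s : ℕ} (α : Fin s → Fin r → ℕ)
    (c : Fin s → ℕ) {R : ℝ} (hR : 0 ≤ R) (hc : ∀ j, c j ≠ 0 → ‖t (α j)‖ ≤ R) :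
    OrthNear t ρ R (∑ j, c j • α j) (∑ j, (c j : C) * t (α j)) := by
  have z0 : OrthNear t ρ R 0 0 := by
    have := OrthNear.self ht (γ := 0) (R := R) (by rw [h0, norm_zero]; exact hR)
    rwa [h0] at this
  have h1 : ∀ j, OrthNear t ρ R (c j • α j) ((c j : C) * t (α j)) := fun j => by
    by_cases hj : c j = 0
    · rw [hj]
      simpa using z0
    · have h2 := OrthNear.self ht (hc j hj)
      generalize c j = n
      induction n with
      | zero => simpa using z0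
      | succ n ih =>
        rw [succ_nsmul, Nat.cast_succ, add_mul, one_mul]
        exact ih.add hρ ht hadd h2
  have h2 : ∀ S : Finset (Fin s),
      OrthNear t ρ R (∑ j ∈ S, c j • α j) (∑ j ∈ S, (c j : C) * t (α j)) := by
    intro S
    induction S using Finset.induction_on with
    | empty => simpa using z0
    | insert a S ha ih =>
      rw [Finset.sum_insert ha, Finset.sum_insert ha]
      exact (h1 a).add hρ ht hadd ih
  exact h2 _

theorem orth_sum_lt {s : ℕ} {f : Fin s → C} {R : ℝ} (hR : 0 < R) (h : ∀ j, ‖f j‖ < R) :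
    ‖∑ j, f j‖ < R := by
  have h2 : ∀ S : Finset (Fin s), ‖∑ j ∈ S, f j‖ < R := by
    intro S
    induction S using Finset.induction_on with
    | empty => simpa using hR
    | insert a S ha ih =>
      rw [Finset.sum_insert ha]
      exact lt_of_le_of_lt (IsUltrametricDist.norm_add_le_max _ _) (max_lt (h a) ih)
  exact h2 _

/-- one reduction step -/
theorem orth_step (p : ℕ) [Fact p.Prime] [CharP C p] (hρ : ρ < 1) (ht : ∀ α, ‖t α‖ ≤ ρ)
    (h0 : t 0 = 0) (hadd : ∀ α β, ‖t (α + β) - (t α + t β)‖ ≤ ‖t α‖ * ‖t β‖) {s : ℕ}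
    {α : Fin s → Fin r → ℕ} (hα : Orth fun j => t (α j)) {β : Fin r → ℕ} {c : Fin s → ℕ}
    (hc : ‖t β + ∑ j, (c j : C) * t (α j)‖ < ‖t β‖) :
    ∃ c' : Fin s → ℕ, (∀ j, c' j < p ∧ (c' j ≠ 0 → ‖t (α j)‖ = ‖t β‖)) ∧
      ‖t (β + ∑ j, c' j • α j)‖ < ‖t β‖ := by
  have hp := (Fact.out : p.Prime)
  have hpos : 0 < ‖t β‖ := lt_of_le_of_lt (norm_nonneg _) hc
  have h1 : ‖∑ j, (c j : C) * t (α j)‖ ≤ ‖t β‖ := by
    have e : ∑ j, (c j : C) * t (α j) = (t β + ∑ j, (c j : C) * t (α j)) + -t β := by ring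
    rw [e]
    exact (IsUltrametricDist.norm_add_le_max _ _).trans (max_le hc.le (by rw [norm_neg]))
  set c' : Fin s → ℕ := fun j => if ‖t (α j)‖ < ‖t β‖ then 0 else c j % p with hc'
  have h2 : ∀ j, c' j ≠ 0 → ‖t (α j)‖ = ‖t β‖ := fun j hj => by
    by_cases hlt : ‖t (α j)‖ < ‖t β‖
    · simp [hc', hlt] at hj
    · have h3 : (c j : C) ≠ 0 := fun h => hj (by
        simp only [hc', if_neg hlt]
        exact Nat.mod_eq_zero_of_dvd ((CharP.cast_eq_zero_iff C p _).1 h))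
      exact le_antisymm ((hα c j h3).trans h1) (not_lt.1 hlt)
  refine ⟨c', fun j => ⟨?_, h2 j⟩, ?_⟩
  · simp only [hc']
    split_ifs
    · exact hp.pos
    · exact Nat.mod_lt _ hp.pos
  · have h3 := (OrthNear.self ht (le_refl ‖t β‖)).add hρ ht hadd
      (orth_near_sum hρ ht h0 hadd α c' hpos.le fun j hj => (h2 j hj).le)
    have h4 : ‖∑ j, ((c' j : C) - c j) * t (α j)‖ < ‖t β‖ := orth_sum_lt hpos fun j => by
      by_cases hlt : ‖t (α j)‖ < ‖t β‖
      · simp only [hc', if_pos hlt, Nat.cast_zero, zero_sub, neg_mul, norm_neg, norm_mul]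
        exact lt_of_le_of_lt (mul_le_of_le_one_left (norm_nonneg _)
          (IsUltrametricDist.norm_natCast_le_one C _)) hlt
      · simp only [hc', if_neg hlt]
        rw [← CharP.cast_eq_mod C p (c j), sub_self, zero_mul, norm_zero]
        exact hpos
    have e : t (β + ∑ j, c' j • α j) =
        (t (β + ∑ j, c' j • α j) - (t β + ∑ j, (c' j : C) * t (α j))) +
          ((t β + ∑ j, (c j : C) * t (α j)) + ∑ j, ((c' j : C) - c j) * t (α j)) := by
      simp only [sub_mul, Finset.sum_sub_distrib]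
      ring
    rw [e]
    refine lt_of_le_of_lt (IsUltrametricDist.norm_add_le_max _ _) (max_lt ?_
      (lt_of_le_of_lt (IsUltrametricDist.norm_add_le_max _ _) (max_lt hc h4)))
    exact lt_of_le_of_lt h3.2 (mul_lt_of_lt_one_left hpos hρ)

theorem orth_reduce (p : ℕ) [Fact p.Prime] [CharP C p] (hρ : ρ < 1) (ht : ∀ α, ‖t α‖ ≤ ρ)
    (h0 : t 0 = 0) (hadd : ∀ α β, ‖t (α + β) - (t α + t β)‖ ≤ ‖t α‖ * ‖t β‖) {s : ℕ}
    {α : Fin s → Fin r → ℕ} (hα : Orth fun j => t (α j)) {κ' : ℝ}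
    (hred : ∀ β, κ' ≤ ‖t β‖ → ∃ c : Fin s → ℕ, ‖t β + ∑ j, (c j : C) * t (α j)‖ < ‖t β‖)
    (β : Fin r → ℕ) : ∃ c : Fin s → ℕ, (∀ j, c j < p ∧ (c j ≠ 0 → ‖t (α j)‖ ≤ ‖t β‖)) ∧
      ‖t (β + ∑ j, c j • α j)‖ < κ' := by
  have hp := (Fact.out : p.Prime)
  induction hn : (Finset.univ.filter fun j => ‖t (α j)‖ ≤ ‖t β‖).card using Nat.strong_induction_on
    generalizing β with
  | _ n ih =>
    by_cases hβ : ‖t β‖ < κ'
    · exact ⟨0, fun j => ⟨hp.pos, fun h => absurd rfl h⟩, by simpa using hβ⟩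
    obtain ⟨c, hc⟩ := hred β (not_lt.1 hβ)
    obtain ⟨c', hc', hlt⟩ := orth_step p hρ ht h0 hadd hα hc
    obtain ⟨j₀, hj₀⟩ : ∃ j, c' j ≠ 0 := by
      by_contra hcon
      push Not at hcon
      simp [hcon] at hlt
    obtain ⟨c'', hc'', hfin⟩ := ih _ (by
      rw [← hn]
      refine Finset.card_lt_card (Finset.ssubset_iff_of_subset (fun j hj => ?_) |>.2 ⟨j₀, ?_, ?_⟩)
      · rw [Finset.mem_filter] at hj ⊢
        exact ⟨hj.1, hj.2.trans hlt.le⟩
      · exact Finset.mem_filter.2 ⟨Finset.mem_univ _, ((hc' j₀).2 hj₀).le⟩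
      · rw [Finset.mem_filter, (hc' j₀).2 hj₀]
        exact fun h => absurd h.2 (not_le.2 hlt)) (β + ∑ j, c' j • α j) rfl
    refine ⟨c' + c'', fun j => ?_, ?_⟩
    · by_cases h1 : c' j = 0
      · rw [Pi.add_apply, h1, zero_add]
        exact ⟨(hc'' j).1, fun h => ((hc'' j).2 h).trans hlt.le⟩
      · have h2 := (hc' j).2 h1
        have h3 : c'' j = 0 := by
          by_contra h
          have := (hc'' j).2 h
          linarith
        rw [Pi.add_apply, h3, add_zero]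
        exact ⟨(hc' j).1, fun _ => h2.le⟩
    · simp only [Pi.add_apply, add_nsmul, Finset.sum_add_distrib]
      rwa [← add_assoc]

omit [IsUltrametricDist C] in
theorem orth_lower {p q : ℕ} (hq : 1 < q) {κ : ℝ} (hρ : ρ < 1) (hκ : 0 < κ) (ht : ∀ α, ‖t α‖ ≤ ρ)
    (hpow : ∀ α, ‖t (p • α)‖ = ‖t α‖ ^ q) (hgen : ∀ α, (∃ i, ¬ p ∣ α i) → κ ≤ ‖t α‖) (v : ℕ)
    (γ : Fin r → ℕ) (h : ∃ i, ¬ p ^ (v + 1) ∣ γ i) : κ ^ (q ^ v) ≤ ‖t γ‖ := by
  induction v generalizing γ with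
  | zero => simpa using hgen γ (by simpa using h)
  | succ v ih =>
    by_cases h1 : ∃ i, ¬ p ∣ γ i
    · have h2 := hgen γ h1
      have h3 := ht γ
      exact (pow_le_of_le_one hκ.le (by linarith) (pow_pos (by omega) _).ne').trans h2
    · push Not at h1
      choose γ' hγ' using h1
      obtain ⟨i, hi⟩ := h
      have e : γ = p • γ' := funext fun i => hγ' i
      have h2 := ih γ' ⟨i, fun hd => hi (by
        rw [hγ' i, pow_succ' p (v + 1)]
        exact Nat.mul_dvd_mul_left p hd)⟩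
      rw [e, hpow, pow_succ q v, pow_mul]
      exact pow_le_pow_left₀ (by positivity) h2 q

theorem orth_extend (p : ℕ) [Fact p.Prime] [CharP C p] (hr : 1 ≤ r) {q : ℕ} (hq : 1 < q)
    (t : (Fin r → ℕ) → C) {κ : ℝ} (hρ : ρ < 1) (hκ : 0 < κ) (ht : ∀ α, ‖t α‖ ≤ ρ)
    (h0 : t 0 = 0) (hadd : ∀ α β, ‖t (α + β) - (t α + t β)‖ ≤ ‖t α‖ * ‖t β‖)
    (hpow : ∀ α, ‖t (p • α)‖ = ‖t α‖ ^ q) (hgen : ∀ α, (∃ i, ¬ p ∣ α i) → κ ≤ ‖t α‖) {s : ℕ}
    (α : Fin s → Fin r → ℕ) (hα : Orth fun j => t (α j)) :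
    ∃ β, κ ^ (q ^ (s / r)) ≤ ‖t β‖ ∧
      ∀ c : Fin s → ℕ, ‖t β‖ ≤ ‖t β + ∑ j, (c j : C) * t (α j)‖ := by
  have hp := (Fact.out : p.Prime)
  by_contra hcon
  push Not at hcon
  set κ' := κ ^ (q ^ (s / r)) with hκ'
  have hκ'0 : 0 < κ' := by positivity
  choose c hc hc' using orth_reduce p hρ ht h0 hadd hα hcon
  set N := s / r + 1 with hN
  have hρ0 : 0 ≤ ρ := (norm_nonneg _).trans (ht 0)
  -- a small point
  have hP : ∀ n : ℕ, ‖t fun _ => p ^ n‖ ≤ ρ ^ (n + 1) := by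
    intro n
    induction n with
    | zero => simpa using ht _
    | succ n ih =>
      have e : (fun _ : Fin r => p ^ (n + 1)) = p • fun _ : Fin r => p ^ n :=
        funext fun _ => by simp [pow_succ']
      rw [e, hpow]
      refine (pow_le_pow_left₀ (norm_nonneg _) ih q).trans ?_
      rw [← pow_mul]
      exact pow_le_pow_of_le_one hρ0 hρ.le (by nlinarith)
  obtain ⟨n₀, hn₀⟩ := exists_pow_lt_of_lt_one hκ'0 hρ
  have hsmall : ‖t fun _ => p ^ (N + n₀)‖ < κ' :=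
    lt_of_le_of_lt ((hP _).trans (pow_le_pow_of_le_one hρ0 hρ.le
      ((Nat.le_add_left n₀ N).trans (Nat.le_succ _)))) hn₀
  let F : (Fin r → Fin (p ^ N)) → Fin s → Fin p := fun β j =>
    ⟨c (fun i => β i) j, (hc _ j).1⟩
  have hF : Function.Injective F := by
    intro β β' hββ'
    by_contra hne
    obtain ⟨i, hi⟩ := Function.ne_iff.1 hne
    have hcc : c (fun i => β' i) = c fun i => β i :=
      funext fun j => (congrArg Fin.val (congrFun hββ' j)).symm
    have h1 := hc' fun i => β i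
    have h2 := hc' fun i => β' i
    rw [hcc] at h2
    set e := ∑ j, c (fun i => β i) j • α j
    have hle : p ^ N ≤ p ^ (N + n₀) := Nat.pow_le_pow_right hp.pos (by omega)
    set γ : Fin r → ℕ := fun i => β i + p ^ (N + n₀) - β' i with hγ
    have e1 : ((fun i => (β' i : ℕ)) + e) + γ = ((fun i => (β i : ℕ)) + e) + fun _ => p ^ (N + n₀) := by
      funext i
      have := (β' i).2
      simp only [hγ, Pi.add_apply]
      omega
    have h3 : κ' ≤ ‖t γ‖ := by
      refine orth_lower hq hρ hκ ht hpow hgen _ γ ⟨i, fun hd => hi (Fin.ext ?_)⟩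
      have h4 : γ i + β' i = β i + p ^ (N + n₀) := by
        have := (β' i).2
        simp only [hγ]
        omega
      have h5 : (β' i : ℕ) ≡ β i [MOD p ^ N] := by
        have h6 : γ i + β' i ≡ 0 + β' i [MOD p ^ N] :=
          Nat.ModEq.add_right _ ((Nat.modEq_zero_iff_dvd).2 hd)
        have h7 : β i + p ^ (N + n₀) ≡ β i + 0 [MOD p ^ N] :=
          Nat.ModEq.add_left _ ((Nat.modEq_zero_iff_dvd).2 (pow_dvd_pow p (by omega)))
        rw [h4, zero_add] at h6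
        rw [add_zero] at h7
        exact h6.symm.trans h7
      exact (Nat.ModEq.eq_of_lt_of_lt h5 (β' i).2 (β i).2).symm
    have h4 := orth_le_add hρ ht hadd (lt_of_lt_of_le h2 h3)
    rw [e1] at h4
    have h5 := orth_add_le hρ ht hadd ((fun i => (β i : ℕ)) + e) fun _ => p ^ (N + n₀)
    have h6 := max_lt h1 hsmall
    linarith
  have h1 := Fintype.card_le_of_injective F hF
  simp only [Fintype.card_fun, Fintype.card_fin] at h1
  rw [← pow_mul] at h1
  have h2 := (Nat.pow_le_pow_iff_right hp.one_lt).1 h1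
  have h3 := Nat.lt_mul_div_succ s (show 0 < r by omega)
  rw [hN, mul_comm] at h2
  omega

end extend

theorem exists_orth (p : ℕ) [Fact p.Prime] [CharP C p] {r : ℕ} (hr : 1 ≤ r) {q : ℕ} (hq : 1 < q)
    (t : (Fin r → ℕ) → C) {ρ κ : ℝ} (hρ : ρ < 1) (hκ : 0 < κ) (ht : ∀ α, ‖t α‖ ≤ ρ)
    (h0 : t 0 = 0) (hadd : ∀ α β, ‖t (α + β) - (t α + t β)‖ ≤ ‖t α‖ * ‖t β‖)
    (hpow : ∀ α, ‖t (p • α)‖ = ‖t α‖ ^ q) (hgen : ∀ α, (∃ i, ¬ p ∣ α i) → κ ≤ ‖t α‖) (m : ℕ) :
    ∃ α : Fin m → Fin r → ℕ, Orth (fun j => t (α j)) ∧ Antitone (fun j => ‖t (α j)‖) ∧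
      ∀ j : Fin m, κ ^ (q ^ ((j : ℕ) / r)) ≤ ‖t (α j)‖ := by
  have hp := (Fact.out : p.Prime)
  have hκ1 : κ ≤ 1 := by
    have h1 := hgen (fun _ => 1) ⟨⟨0, hr⟩, fun h => hp.one_lt.ne' (Nat.dvd_one.1 h)⟩
    have h2 := ht fun _ => 1
    linarith
  have key : ∀ m : ℕ, ∃ α : Fin m → Fin r → ℕ, Orth (fun j => t (α j)) ∧
      ∀ j : Fin m, κ ^ (q ^ ((j : ℕ) / r)) ≤ ‖t (α j)‖ := by
    intro m
    induction m with
    | zero => exact ⟨Fin.elim0, fun _ t => t.elim0, fun j => j.elim0⟩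
    | succ s ih =>
      obtain ⟨α, hα, hb⟩ := ih
      obtain ⟨β, hβ, hβ'⟩ := orth_extend p hr hq t hρ hκ ht h0 hadd hpow hgen α hα
      refine ⟨Fin.snoc α β, ?_, fun j => ?_⟩
      · have e : (fun j => t ((Fin.snoc α β : Fin (s + 1) → Fin r → ℕ) j)) =
            (Fin.snoc (fun j => t (α j)) (t β) : Fin (s + 1) → C) := by
          funext j
          induction j using Fin.lastCases with
          | last => simp
          | cast j => simp
        rw [e]
        exact orth_snoc p hα _ hβ'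
      · induction j using Fin.lastCases with
        | last => simpa using hβ
        | cast j => simpa using hb j
  obtain ⟨α, hα, hb⟩ := key m
  obtain ⟨σ, h1, h2⟩ := sorted_bound (fun j => ‖t (α j)‖) (fun j : Fin m => κ ^ (q ^ ((j : ℕ) / r)))
    (fun i j hij => pow_le_pow_of_le_one hκ.le hκ1
      (Nat.pow_le_pow_right (by omega) (Nat.div_le_div_right hij))) hb
  exact ⟨α ∘ σ, orth_comp_perm hα σ, h1, h2⟩

end Crest.Agent.R227
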