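import Crest.Agent.R227.Zfun

/-!
# R227 / Periods: the period vectors and a dual family

Take `B, Z` from `exists_Z` and apply `span_eq_top` to `E = homs G G`.  All identities are proved
with the uniqueness principle `(∀ m, ‖u - v‖ ≤ ‖p‖ ^ m * B') → u = v` (`‖p‖ < 1` as `p ∈ mm`) and a
lift `z` of `ξ` (`exists_lift_series`):
* `τ a = x (algebraMap (teichmuller p a))`, a monoid hom, `τ a ^ q = τ a`, `‖τ a‖ = 1` for `a ≠ 0`
  (a unit with `‖x ·‖ ≤ 1` on it and on its inverse);
* `Rr a ξ = ξ ∘ (C a * X)` with the lift `PowerSeries.rescale [a] z` (`rescale_eq_subst`,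
  `coeff_rescale`; `lz (rescale c z) = rescale (x c) (lz z)` by `subst_comp_subst_apply`,
  `map_subst`); `P ξ = ξ ∘ X ^ p` with the lift `expand p z` (`PowerSeries.expand_subst`,
  `map_expand`, `coeff_expand_mul`).  They are additive maps on `homs G G`
  (`MvPowerSeries.subst_comp_subst_apply`, `hom_comp`, `S.smul`, `S.frob`);
* `lin ξ = coeff 1 ξ` is additive by `fg_subst_sub_dvd` (`X ^ 2 ∣ a * b`); `hlin` is `hom_frob_step`
  + `map_frobenius_eq_of_hom`; `hZq` is a shift of `m`;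
* boundedness: `‖Z α ξ‖ ≤ max ‖coeff α (lz z)‖ B` (`m = 0`) and for `α ≠ 0`, `α * coeff α (lz z)` is the
  image under `x` of a coefficient of `ω(z) z'` (`PowerSeries.derivative_subst`, `derivative_logS`,
  `coeff_derivative`), so `‖coeff α (lz z)‖ ≤ ‖(α : C)‖⁻¹`; for `α = 0` it is `0`;
* `exists_Z_ne_zero` with `z = X` (`lz X = logS`, `PowerSeries.X_subst`) gives `α₀`; `α₀ ≠ 0` because
  the constant coefficient vanishes.  Finish with `exists_dual_family`.
-/

set_option autoImplicit false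
set_option linter.unusedSectionVars false
noncomputable section
open Crest.LubinTate

namespace Crest.Agent.R227

variable {p : ℕ} [Fact p.Prime] {n : ℕ} {C : Type*} [NormedField C] [IsUltrametricDist C]
  [CompleteSpace C] [CharZero C]

section Aux

variable {R : Type*} [CommRing R]

/-- Precomposition with an endomorphism. -/
def Per_pre (G : FormalGroup R) [G.IsComm] {u : PowerSeries R} (hu : IsFGHom G G u) :
    homs G G →+ homs G G where
  toFun ξ := ⟨⟨PowerSeries.subst u (ξ.val.val : PowerSeries R), hom_hasSubst (hom_comp hu ξ.2)⟩,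
    hom_comp hu ξ.2⟩
  map_zero' := Subtype.ext (Subtype.ext (fg1_psubst_zero (hom_hasSubst hu)))
  map_add' a b := Subtype.ext (Subtype.ext (fg1_p_2 (hom_hasSubst hu) a.val.prop b.val.prop _))

theorem Per_pre_val (G : FormalGroup R) [G.IsComm] {u : PowerSeries R} (hu : IsFGHom G G u)
    (ξ : homs G G) :
    (Per_pre G hu ξ).val.val = PowerSeries.subst u (ξ.val.val : PowerSeries R) := rfl

theorem Per_coeff_one_add (G : FormalGroup R) {a b : PowerSeries R}
    (ha : PowerSeries.constantCoeff a = 0) (hb : PowerSeries.constantCoeff b = 0) :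
    PowerSeries.coeff 1 (G.toPowerSeries.subst ![a, b] : PowerSeries R) =
      PowerSeries.coeff 1 a + PowerSeries.coeff 1 b := by
  obtain ⟨c, hc⟩ := fg_subst_sub_dvd G (τ := Unit) (a := a) (b := b)
    (.of_constantCoeff_zero' ha) (.of_constantCoeff_zero' hb)
  obtain ⟨a', rfl⟩ : PowerSeries.X ∣ a := by rwa [PowerSeries.X_dvd_iff]
  obtain ⟨b', rfl⟩ : PowerSeries.X ∣ b := by rwa [PowerSeries.X_dvd_iff]
  have h1 : (G.toPowerSeries.subst ![PowerSeries.X * a', PowerSeries.X * b'] : PowerSeries R) =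
      PowerSeries.X * a' + PowerSeries.X * b' + PowerSeries.X ^ 2 * (a' * b' * c) := by
    have h2 : (G.toPowerSeries.subst ![PowerSeries.X * a', PowerSeries.X * b'] : PowerSeries R) -
      (PowerSeries.X * a' + PowerSeries.X * b') =
        PowerSeries.X * a' * (PowerSeries.X * b') * (c : PowerSeries R) := hc
    linear_combination h2
  rw [h1, map_add, map_add, PowerSeries.coeff_X_pow_mul', if_neg (by omega), add_zero]

/-- The linear coefficient. -/
def Per_lin (G : FormalGroup R) [G.IsComm] : homs G G →+ R where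
  toFun ξ := PowerSeries.coeff 1 (ξ.val.val : PowerSeries R)
  map_zero' := map_zero _
  map_add' a b := Per_coeff_one_add G a.2.1 b.2.1

theorem Per_lin_apply (G : FormalGroup R) [G.IsComm] (ξ : homs G G) :
    Per_lin G ξ = PowerSeries.coeff 1 (ξ.val.val : PowerSeries R) := rfl

theorem Per_rescale (r : R) (f : PowerSeries R) :
    PowerSeries.rescale r f = PowerSeries.subst (PowerSeries.C r * PowerSeries.X) f := by
  rw [PowerSeries.rescale_eq_subst, PowerSeries.smul_eq_C_mul]

theorem Per_hasSubst_CX (r : R) :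
    PowerSeries.HasSubst (PowerSeries.C r * PowerSeries.X : PowerSeries R) :=
  .of_constantCoeff_zero' (by simp)

theorem Per_eq {K : Type*} [NormedField K] {ρ B : ℝ} (h0 : 0 ≤ ρ) (h1 : ρ < 1) {u v : K}
    (w : ℕ → K) (hu : ∀ m, ‖w m - u‖ ≤ ρ ^ m * B) (hv : ∀ m, ‖w m - v‖ ≤ ρ ^ m * B) : u = v := by
  have ht : Filter.Tendsto (fun m : ℕ => ρ ^ m * B) Filter.atTop (nhds 0) := by
    simpa using (tendsto_pow_atTop_nhds_zero_of_lt_one h0 h1).mul_const B
  have key : ∀ y : K, (∀ m, ‖w m - y‖ ≤ ρ ^ m * B) → Filter.Tendsto w Filter.atTop (nhds y) :=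
    fun y hy => tendsto_iff_norm_sub_tendsto_zero.2
      (squeeze_zero (fun _ => norm_nonneg _) hy ht)
  exact tendsto_nhds_unique (key u hu) (key v hv)

end Aux

theorem Per_hasSubst_map (x : LTRing p n →+* C) {z : PowerSeries (LTRing p n)}
    (hz : PowerSeries.constantCoeff z = 0) : PowerSeries.HasSubst (PowerSeries.map x z) :=
  .of_constantCoeff_zero' (by
    rw [← PowerSeries.coeff_zero_eq_constantCoeff_apply, PowerSeries.coeff_map,
      PowerSeries.coeff_zero_eq_constantCoeff_apply, hz, map_zero])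

theorem Per_lz_rescale (S : Setup p n) (x : LTRing p n →+* C) {z : PowerSeries (LTRing p n)}
    (hz : PowerSeries.constantCoeff z = 0) (c : LTRing p n) :
    lz S x (PowerSeries.rescale c z) = PowerSeries.rescale (x c) (lz S x z) := by
  rw [lz, lz, ← PowerSeries.rescale_map, Per_rescale, Per_rescale,
    PowerSeries.subst_comp_subst_apply (Per_hasSubst_map x hz) (Per_hasSubst_CX _)]

theorem Per_lz_expand (S : Setup p n) (x : LTRing p n →+* C) {z : PowerSeries (LTRing p n)}
    (hz : PowerSeries.constantCoeff z = 0) {q : ℕ} (hq : q ≠ 0) :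
    lz S x (PowerSeries.expand q hq z) = PowerSeries.expand q hq (lz S x z) := by
  rw [lz, lz, PowerSeries.map_expand, PowerSeries.expand_apply, PowerSeries.expand_apply,
    PowerSeries.subst_comp_subst_apply (Per_hasSubst_map x hz) (.X_pow hq)]

theorem Per_lz_zero (S : Setup p n) (x : LTRing p n →+* C) {z : PowerSeries (LTRing p n)}
    (hz : PowerSeries.constantCoeff z = 0) : PowerSeries.coeff 0 (lz S x z) = 0 := by
  rw [PowerSeries.coeff_zero_eq_constantCoeff_apply]
  refine (constantCoeff_psubst (τ := Unit) (a := PowerSeries.map x z) ?_).trans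
    (constantCoeff_logS x S.H)
  change PowerSeries.constantCoeff (PowerSeries.map x z) = 0
  rw [← PowerSeries.coeff_zero_eq_constantCoeff_apply, PowerSeries.coeff_map,
    PowerSeries.coeff_zero_eq_constantCoeff_apply, hz, map_zero]

theorem Per_lz_coeff (S : Setup p n) (x : LTRing p n →+* C) (hx : ∀ a, ‖x a‖ ≤ 1)
    {z : PowerSeries (LTRing p n)} (hz : PowerSeries.constantCoeff z = 0) (α : ℕ) :
    ‖PowerSeries.coeff α (lz S x z)‖ ≤ ‖(α : C)‖⁻¹ := by
  rcases α with _ | α
  · rw [Per_lz_zero S x hz]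
    simp
  have hz' : PowerSeries.HasSubst z := .of_constantCoeff_zero' hz
  have h1 : PowerSeries.derivative C (lz S x z) = PowerSeries.map x
      (PowerSeries.subst z (omega S.H) * PowerSeries.derivative (LTRing p n) z) := by
    rw [lz, PowerSeries.derivative_subst (Per_hasSubst_map x hz), derivative_logS, map_mul]
    congr 1
    · exact (PowerSeries.map_subst (τ := Unit) hz' (h := x) (omega S.H)).symm
    · ext k
      simp [PowerSeries.coeff_derivative]
  have h2 := congrArg (PowerSeries.coeff α) h1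
  rw [PowerSeries.coeff_derivative, PowerSeries.coeff_map] at h2
  have h3 : ‖PowerSeries.coeff (α + 1) (lz S x z)‖ * ‖((α + 1 : ℕ) : C)‖ ≤ 1 := by
    rw [← norm_mul, Nat.cast_succ, h2]
    exact hx _
  have h4 : 0 < ‖((α + 1 : ℕ) : C)‖ := norm_pos_iff.2 (Nat.cast_ne_zero.2 (Nat.succ_ne_zero α))
  rw [← one_div, le_div_iff₀ h4]
  exact h3

theorem exists_periods (hn : 1 ≤ n) (S : Setup p n) (x : LTRing p n →+* C) (hx : ∀ a, ‖x a‖ ≤ 1)
    (hxm : ∀ a ∈ mm p n, ‖x a‖ < 1) :
    ∃ (α₀ : ℕ) (B : ℝ) (Z : Fin n → homs S.G S.G →+ C) (ξ : Fin (n - 1) → homs S.G S.G)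
      (ψ₀ : Fin n → C) (ψ : Fin (n - 1) → Fin n → C), α₀ ≠ 0 ∧ 0 ≤ B ∧
      (∀ (i : Fin n) (g : homs S.G S.G) (z : PowerSeries (LTRing p n)),
        PowerSeries.constantCoeff z = 0 → PowerSeries.map (LTRing.residue p n) z = g.val.val →
        ∀ m : ℕ, ‖(p : C) ^ m * PowerSeries.coeff ((p ^ n) ^ m * (α₀ * p ^ (i : ℕ))) (lz S x z) -
          Z i g‖ ≤ ‖(p : C)‖ ^ m * B) ∧
      ∑ i, ψ₀ i * Z i (idEnd S.toHonda) = 1 ∧ (∀ l, ∑ i, ψ₀ i * Z i (ξ l) = 0) ∧
      (∀ l, ∑ i, ψ l i * Z i (idEnd S.toHonda) = 0) ∧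
      ∀ l l', ∑ i, ψ l i * Z i (ξ l') = if l = l' then 1 else 0 := by
  classical
  have hp0 : p ≠ 0 := (Fact.out : p.Prime).ne_zero
  obtain ⟨B, Z, hB0, hZ⟩ := exists_Z hn S x hx hxm
  have hp : ‖(p : C)‖ < 1 := by
    rw [← map_natCast x]
    exact hxm _ (natCast_mem_mm p n)
  have hpn : 0 ≤ ‖(p : C)‖ := norm_nonneg _
  let t : kk p n →* LTRing p n :=
    (algebraMap (WW p n) (LTRing p n)).toMonoidHom.comp (WittVector.teichmuller p)
  have ht : ∀ a, LTRing.residue p n (t a) = a := fun a => by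
    change LTRing.residue p n (algebraMap (WW p n) (LTRing p n) (WittVector.teichmuller p a)) = a
    rw [residue_algebraMap]
    simp
  let τ : kk p n →* C := x.toMonoidHom.comp t
  have hτx : ∀ a, τ a = x (t a) := fun a => rfl
  have hτ1 : ∀ a, ‖τ a‖ ≤ 1 := fun a => hx _
  have hτ : ∀ a, a ≠ 0 → ‖τ a‖ = 1 := fun a ha => by
    have h1 : ‖τ a‖ * ‖τ a⁻¹‖ = 1 := by
      rw [← norm_mul, ← map_mul, mul_inv_cancel₀ ha, map_one, norm_one]
    refine le_antisymm (hτ1 a) ?_
    calc (1 : ℝ) = ‖τ a‖ * ‖τ a⁻¹‖ := h1.symm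
      _ ≤ ‖τ a‖ * 1 := mul_le_mul_of_nonneg_left (hτ1 _) (norm_nonneg _)
      _ = _ := mul_one _
  have hτq : ∀ a (m : ℕ), τ a ^ ((p ^ n) ^ m) = τ a := fun a m => by
    induction m with
    | zero => simp
    | succ m ih => rw [pow_succ, pow_mul, ih, ← map_pow, Honda_pow_card p n hn]
  have hlift : ∀ ξ : homs S.G S.G, ∃ z : PowerSeries (LTRing p n),
      PowerSeries.constantCoeff z = 0 ∧ PowerSeries.map (LTRing.residue p n) z = ξ.val.val :=
    fun ξ => exists_lift_series p n ξ.val.val ξ.2.1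
  obtain ⟨α₀, hα₀⟩ := exists_Z_ne_zero hn S x hx hxm B (fun α => Z α (idEnd S.toHonda))
    (fun α m => by
      have h := hZ α (idEnd S.toHonda) PowerSeries.X (by simp) (PowerSeries.map_X _) m
      rwa [lz, PowerSeries.map_X, PowerSeries.X_subst] at h)
  have hα0 : α₀ ≠ 0 := by
    rintro rfl
    refine hα₀ (Per_eq hpn hp (fun _ => (0 : C)) (B := B) (fun m => ?_) (fun m => ?_))
    · have h := hZ 0 (idEnd S.toHonda) PowerSeries.X (by simp) (PowerSeries.map_X _) m
      rwa [mul_zero, Per_lz_zero S x (by simp), mul_zero] at h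
    · rw [sub_zero, norm_zero]
      positivity
  have hspan := span_eq_top hn τ hτ hp (fun a => Per_pre S.G (S.smul a)) (Per_pre S.G S.frob)
    (Per_lin S.G) ?hRP ?hlinR ?hlin Z ?hZR ?hZP ?hZq ?hB (idEnd S.toHonda) α₀ hα₀
  case hRP =>
    intro a ξ
    refine Subtype.ext (Subtype.ext ?_)
    rw [Per_pre_val, Per_pre_val, Per_pre_val, Per_pre_val,
      PowerSeries.subst_comp_subst_apply (.X_pow hp0) (Per_hasSubst_CX a),
      PowerSeries.subst_comp_subst_apply (Per_hasSubst_CX _) (.X_pow hp0),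
      PowerSeries.subst_pow (Per_hasSubst_CX a), PowerSeries.subst_X (Per_hasSubst_CX a),
      PowerSeries.subst_mul (.X_pow hp0), PowerSeries.subst_X (.X_pow hp0), PowerSeries.subst_C,
      mul_pow, ← map_pow]
    rfl
  case hlinR =>
    intro a ξ
    rw [Per_lin_apply, Per_lin_apply, Per_pre_val, coeff_one_psubst (by simp), mul_comm]
    simp
  case hlin =>
    intro ξ h
    obtain ⟨f', hf', he⟩ := hom_frob_step p ξ.2 h
    rw [map_frobenius_eq_of_hom p S.G S.frob] at hf'
    refine ⟨⟨⟨f', hom_hasSubst hf'⟩, hf'⟩, Subtype.ext (Subtype.ext ?_)⟩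
    rw [Per_pre_val, ← PowerSeries.expand_apply p hp0]
    exact he
  case hZR =>
    intro α a ξ
    obtain ⟨z, hz0, hz⟩ := hlift ξ
    refine Per_eq hpn hp (fun m => τ a ^ α *
      ((p : C) ^ m * PowerSeries.coeff ((p ^ n) ^ m * α) (lz S x z))) (B := B) (fun m => ?_)
      (fun m => ?_)
    · have h := hZ α (Per_pre S.G (S.smul a) ξ) (PowerSeries.rescale (t a) z)
        (by rw [← PowerSeries.coeff_zero_eq_constantCoeff_apply, PowerSeries.coeff_rescale,
          PowerSeries.coeff_zero_eq_constantCoeff_apply, hz0, mul_zero])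
        (by rw [← PowerSeries.rescale_map, ht, hz, Per_rescale, Per_pre_val]) m
      rw [Per_lz_rescale S x hz0, PowerSeries.coeff_rescale, ← hτx, pow_mul, hτq,
        mul_left_comm] at h
      exact h
    · rw [← mul_sub, norm_mul, norm_pow]
      exact (mul_le_of_le_one_left (norm_nonneg _) (pow_le_one₀ (norm_nonneg _) (hτ1 a))).trans
        (hZ α ξ z hz0 hz m)
  case hZP =>
    intro α ξ
    obtain ⟨z, hz0, hz⟩ := hlift ξ
    refine Per_eq hpn hp (fun m => (p : C) ^ m * PowerSeries.coeff ((p ^ n) ^ m * α) (lz S x z))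
      (B := B) (fun m => ?_) (hZ α ξ z hz0 hz)
    have h := hZ (p * α) (Per_pre S.G S.frob ξ) (PowerSeries.expand p hp0 z)
      ((PowerSeries.constantCoeff_expand _ hp0 z).trans hz0)
      (by rw [PowerSeries.map_expand, hz, Per_pre_val, PowerSeries.expand_apply]) m
    rwa [Per_lz_expand S x hz0, mul_left_comm ((p ^ n) ^ m), PowerSeries.coeff_expand_mul] at h
  case hZq =>
    intro α ξ
    obtain ⟨z, hz0, hz⟩ := hlift ξ
    refine Per_eq hpn hp
      (fun m => (p : C) ^ (m + 1) * PowerSeries.coeff ((p ^ n) ^ (m + 1) * α) (lz S x z))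
      (B := ‖(p : C)‖ * B) (fun m => ?_) (fun m => ?_)
    · have h := hZ (p ^ n * α) ξ z hz0 hz m
      rw [pow_succ' (p : C), mul_assoc, ← mul_sub, norm_mul, pow_succ (p ^ n), mul_assoc,
        mul_left_comm (‖(p : C)‖ ^ m)]
      exact mul_le_mul_of_nonneg_left h hpn
    · have h := hZ α ξ z hz0 hz (m + 1)
      rwa [pow_succ ‖(p : C)‖, mul_assoc] at h
  case hB =>
    intro α
    refine ⟨‖(α : C)‖⁻¹ + B, fun ξ => ?_⟩
    obtain ⟨z, hz0, hz⟩ := hlift ξ
    have h := hZ α ξ z hz0 hz 0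
    rw [pow_zero, pow_zero, pow_zero, one_mul, one_mul, one_mul] at h
    calc ‖Z α ξ‖ = ‖PowerSeries.coeff α (lz S x z) -
          (PowerSeries.coeff α (lz S x z) - Z α ξ)‖ := by rw [sub_sub_cancel]
      _ ≤ _ := (norm_sub_le _ _).trans (add_le_add (Per_lz_coeff S x hx hz0 α) h)
  obtain ⟨ξ, ψ₀, ψ, h1, h2, h3, h4⟩ := exists_dual_family _ hspan (idEnd S.toHonda) (fun h => by
    have h0 := congrFun h ⟨0, hn⟩
    simp only [pow_zero, mul_one, Pi.zero_apply] at h0
    exact hα₀ h0)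
  exact ⟨α₀, B, fun i => Z (α₀ * p ^ (i : ℕ)), ξ, ψ₀, ψ, hα0, hB0,
    fun i g z hz0 hz m => hZ _ g z hz0 hz m, h1, h2, h3, h4⟩

end Crest.Agent.R227
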