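import Crest.Agent.R227.Defs

/-!
# R227 / Point1: a rank one valuation centred at the maximal ideal of a Noetherian local domain

Recipe.  `K = FractionRing R`.
* `exists_dim_one`: take a valuation subring `V₀` of `K` dominating `R`
  (`IsLocalRing.exists_factor_valuationRing`), generators `a₁..a_s` of `𝔪` and `a` among the nonzero
  ones with the largest value `V₀.valuation`.  `A = Algebra.adjoin R {a_i / a}` (as a `Subring K`) is
  Noetherian (finite type over `R`), contained in `V₀`, so `a` is not a unit of `A`; take `𝔮` a minimal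
  prime over `span {a}` (`Ideal.exists_minimalPrimes_le`, or `nonempty_minimalPrimes`); height
  `≤ 1` by `Ideal.height_le_one_of_isPrincipal_of_mem_minimalPrimes`; `𝔪 A ≤ span {a} ≤ 𝔮`.
  For `b ≠ 0` in `A`: in `D = Localization.AtPrime 𝔮` every prime containing `b` is nonzero, so it is
  the maximal ideal (height `≤ 1`, `⊥` prime), so `a ∈ radical (span {b})`
  (`Ideal.radical_eq_sInf`/`mem_radical_iff`): `s * a ^ j = b * c`, `s ∉ 𝔮`.  (One can avoid the
  localisation: if the submonoid generated by `a` and `𝔮.primeCompl` misses `span {b}`, there is a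
  prime `P ⊇ span {b}` missing it, `Ideal.exists_le_prime_disjoint`; then `⊥ < P < 𝔮`.)
* `exists_valuationSubring_arch`: view `A` inside `L`, take a valuation subring `V₁` of `L`
  dominating `LocalSubring.ofPrime A' 𝔮'` (`LocalSubring.exists_le_valuationSubring`), or apply
  `IsLocalRing.exists_factor_valuationRing` to `Localization.AtPrime 𝔮 →+* L`.  Then for `b ≠ 0` in
  `K`, some `v(a) ^ j ≤ v(b)`; for `b ≠ 0` algebraic over `K`, a relation `∑ c_i b ^ i = 0` with
  `c_0 ≠ 0` has another term with `v(c_0) ≤ v(c_i b ^ i)`, `i ≥ 1`, whence the same for `b`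
  (if `v b ≥ 1` trivial, else `v(c_0 / c_i) ≤ v(b) ^ i ≤ v(b)`).  Finally replace `V₁` by
  `V₁.ofPrime P`, `P = radical (span {a})` (prime in a valuation ring: if `(x y) ^ j ∈ (a)` and
  `x ∣ y` then `y ^ (2 j) ∈ (a)`), whose non-units are exactly the elements of `P`
  (`ValuationSubring.ofPrime_valuation_eq_one_iff_mem_primeCompl`, `idealOfLE_ofPrime`).
* `exists_norm_of_arch`: the value group is `MulArchimedean`, so
  `Valuation.nonempty_rankOne_iff_mulArchimedean` gives `RankOne`; then
  `Valued.mk' V.valuation`, `Valued.toNormedField` (lemmas `Valued.toNormedField.norm_le_one_iff`,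
  `norm_lt_one_iff`, instance `IsUltrametricDist`).
-/

set_option autoImplicit false
noncomputable section

namespace Crest.Agent.R227

/-- strong form of `exists_dim_one`: `a` divides every element of the maximal ideal -/
theorem Point1_dim_one (R : Type) [CommRing R] [IsDomain R] [IsLocalRing R] [IsNoetherianRing R]
    (hR : IsLocalRing.maximalIdeal R ≠ ⊥) :
    ∃ (A : Subring (FractionRing R)) (𝔮 : Ideal A) (a : A), 𝔮.IsPrime ∧ a ∈ 𝔮 ∧ a ≠ 0 ∧
      (∀ r : R, algebraMap R (FractionRing R) r ∈ A) ∧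
      (∀ r ∈ IsLocalRing.maximalIdeal R, ∀ h : algebraMap R (FractionRing R) r ∈ A,
        a ∣ (⟨_, h⟩ : A)) ∧
      ∀ b : A, b ≠ 0 → ∃ (j : ℕ) (s : A), s ∉ 𝔮 ∧ b ∣ s * a ^ j := by
  classical
  set K := FractionRing R
  obtain ⟨V, hV, hloc⟩ := IsLocalRing.exists_factor_valuationRing (algebraMap R K)
  obtain ⟨T, hT⟩ : (IsLocalRing.maximalIdeal R).FG := IsNoetherian.noetherian _
  have hTne : T.Nonempty := by
    rcases T.eq_empty_or_nonempty with h | h
    · exfalso
      apply hR
      rw [← hT, h]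
      simp
    · exact h
  obtain ⟨a, haT, hmax⟩ := T.exists_max_image (fun t => V.valuation (algebraMap R K t)) hTne
  have hinj : Function.Injective (algebraMap R K) := IsFractionRing.injective R K
  have ham : a ∈ IsLocalRing.maximalIdeal R := hT ▸ Ideal.subset_span haT
  have ha0 : algebraMap R K a ≠ 0 := by
    intro h
    apply hR
    rw [← hT, Ideal.span_eq_bot]
    intro t ht
    have h1 := hmax t ht
    rw [h, map_zero, le_zero_iff, Valuation.zero_iff] at h1
    exact hinj (by rw [h1, map_zero])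
  set B : Subalgebra R K :=
    Algebra.adjoin R ((T.image fun t => algebraMap R K t / algebraMap R K a : Finset K) : Set K)
    with hB
  have hBfg : B.FG := ⟨_, rfl⟩
  have hN : IsNoetherianRing B.toSubring := isNoetherianRing_of_fg hBfg
  have hBV : ∀ x ∈ B, x ∈ V := by
    let V' : Subalgebra R K := { V.toSubring with algebraMap_mem' := hV }
    have : B ≤ V' := by
      refine Algebra.adjoin_le fun x hx => ?_
      simp only [Finset.coe_image, Set.mem_image, Finset.mem_coe] at hx
      obtain ⟨t, ht, rfl⟩ := hx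
      change algebraMap R K t / algebraMap R K a ∈ V
      rw [← V.valuation_le_one_iff, map_div₀]
      exact div_le_one_of_le₀ (hmax t ht) zero_le
    exact fun x hx => this hx
  have hRB : ∀ r : R, algebraMap R K r ∈ B.toSubring := fun r => B.algebraMap_mem r
  set a' : B.toSubring := ⟨algebraMap R K a, hRB a⟩ with ha'
  have ha'0 : a' ≠ 0 := fun h => ha0 (congrArg Subtype.val h)
  have hnu : Ideal.span {a'} ≠ ⊤ := by
    rw [Ne, Ideal.span_singleton_eq_top]
    intro hu
    obtain ⟨c, hc⟩ := hu.exists_right_inv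
    have hc' : algebraMap R K a * c.1 = 1 := congrArg Subtype.val hc
    have h1 : IsUnit ((algebraMap R K).codRestrict V.toSubring hV a) :=
      IsUnit.of_mul_eq_one ⟨c.1, hBV _ c.2⟩ (Subtype.ext hc')
    exact ham (hloc.map_nonunit a h1)
  obtain ⟨𝔮, h𝔮⟩ := Ideal.nonempty_minimalPrimes hnu
  have hq : 𝔮.IsPrime := h𝔮.1.1
  have haq : a' ∈ 𝔮 := h𝔮.1.2 (Ideal.subset_span rfl)
  have hht : 𝔮.height ≤ 1 := Ideal.height_le_one_of_isPrincipal_of_mem_minimalPrimes _ _ h𝔮
  refine ⟨B.toSubring, 𝔮, a', hq, haq, ha'0, hRB, ?_, ?_⟩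
  · intro r hr
    rw [← hT] at hr
    induction hr using Submodule.span_induction with
    | mem t ht =>
      intro h
      refine ⟨⟨algebraMap R K t / algebraMap R K a, Algebra.subset_adjoin ?_⟩, Subtype.ext ?_⟩
      · simp only [Finset.coe_image, Set.mem_image, Finset.mem_coe]
        exact ⟨t, ht, rfl⟩
      · change algebraMap R K t = algebraMap R K a * (algebraMap R K t / algebraMap R K a)
        rw [mul_div_cancel₀ _ ha0]
    | zero =>
      intro h
      exact ⟨0, Subtype.ext (by simp)⟩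
    | add x y _ _ hx hy =>
      intro h
      have := dvd_add (hx (hRB x)) (hy (hRB y))
      convert this using 1
      exact Subtype.ext (by simp)
    | smul c x _ hx =>
      intro h
      have := (hx (hRB x)).mul_left ⟨_, hRB c⟩
      convert this using 1
      exact Subtype.ext (map_mul (algebraMap R K) c x)
  · intro b hb
    by_contra hcon
    push Not at hcon
    let S : Submonoid B.toSubring :=
      { carrier := {x | ∃ (j : ℕ) (s : B.toSubring), s ∉ 𝔮 ∧ x = s * a' ^ j}
        mul_mem' := by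
          rintro _ _ ⟨j, s, hs, rfl⟩ ⟨j', s', hs', rfl⟩
          refine ⟨j + j', s * s', fun h => ?_, by ring⟩
          rcases hq.mem_or_mem h with h | h
          exacts [hs h, hs' h]
        one_mem' := ⟨0, 1, fun h => hq.ne_top ((Ideal.eq_top_iff_one _).2 h), by simp⟩ }
    have hdis : Disjoint (Ideal.span {b} : Set B.toSubring) S := by
      rw [Set.disjoint_left]
      rintro _ hx ⟨j, s, hs, rfl⟩
      exact hcon j s hs (Ideal.mem_span_singleton.1 hx)
    obtain ⟨P, hP, hbP, hPS⟩ := Ideal.exists_le_prime_disjoint _ S hdis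
    rw [Set.disjoint_left] at hPS
    have h1 : (⊥ : Ideal B.toSubring) < P := by
      refine bot_lt_iff_ne_bot.2 fun h => hb ?_
      have := hbP (Ideal.subset_span (Set.mem_singleton b))
      rwa [h, Ideal.mem_bot] at this
    have h2 : P < 𝔮 := by
      refine lt_of_le_of_ne (fun x hx => ?_) fun h => ?_
      · by_contra hx'
        exact hPS hx ⟨0, x, hx', by simp⟩
      · exact hPS (a := a') (by rw [h]; exact haq)
          ⟨1, 1, fun h => hq.ne_top ((Ideal.eq_top_iff_one _).2 h), by simp⟩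
    have h3 := Ideal.height_add_one_le_of_lt_of_isPrime h1
    have h4 := Ideal.height_add_one_le_of_lt_of_isPrime h2
    rw [Ideal.height_bot, zero_add] at h3
    have h5 : (1 : ℕ∞) + 1 ≤ 1 := (add_le_add_left h3 1).trans (h4.trans hht)
    exact absurd h5 (by decide)

theorem exists_dim_one (R : Type) [CommRing R] [IsDomain R] [IsLocalRing R] [IsNoetherianRing R]
    (hR : IsLocalRing.maximalIdeal R ≠ ⊥) :
    ∃ (A : Subring (FractionRing R)) (𝔮 : Ideal A) (a : A), 𝔮.IsPrime ∧ a ∈ 𝔮 ∧ a ≠ 0 ∧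
      (∀ r : R, algebraMap R (FractionRing R) r ∈ A) ∧
      (∀ r ∈ IsLocalRing.maximalIdeal R, ∀ h : algebraMap R (FractionRing R) r ∈ A,
        (⟨_, h⟩ : A) ∈ 𝔮) ∧
      ∀ b : A, b ≠ 0 → ∃ (j : ℕ) (s : A), s ∉ 𝔮 ∧ b ∣ s * a ^ j := by
  obtain ⟨A, 𝔮, a, h1, h2, h3, h4, h5, h6⟩ := Point1_dim_one R hR
  exact ⟨A, 𝔮, a, h1, h2, h3, h4, fun r hr h => Ideal.mem_of_dvd _ (h5 r hr h) h2, h6⟩

/-- the radical of a proper principal ideal of a valuation ring is prime -/
theorem Point1_radical_prime {V : Type} [CommRing V] [IsDomain V] [ValuationRing V] {a : V}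
    (ha : ¬ IsUnit a) : (Ideal.span {a}).radical.IsPrime := by
  refine ⟨fun h => ha ?_, fun {x y} h => ?_⟩
  · rwa [Ideal.radical_eq_top, Ideal.span_singleton_eq_top] at h
  · obtain ⟨j, hj⟩ := h
    rw [Ideal.mem_span_singleton] at hj
    rcases ValuationRing.dvd_total x y with ⟨c, rfl⟩ | ⟨c, rfl⟩
    · refine Or.inr ⟨2 * j, Ideal.mem_span_singleton.2 (hj.trans ⟨c ^ j, by ring⟩)⟩
    · refine Or.inl ⟨2 * j, Ideal.mem_span_singleton.2 (hj.trans ⟨c ^ j, by ring⟩)⟩

/-- coarsening of a valuation subring to the prime `√a` -/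
theorem Point1_coarsen {L : Type} [Field L] (V₁ : ValuationSubring L) (a : L)
    (ha : V₁.valuation a < 1) :
    ∃ V : ValuationSubring L, V.valuation a < 1 ∧
      (∀ x y, V₁.valuation x ≤ V₁.valuation y → V.valuation x ≤ V.valuation y) ∧
      ∀ z : L, V.valuation z < 1 → ∃ i : ℕ, V.valuation z ^ i ≤ V.valuation a := by
  have haV : a ∈ V₁ := V₁.mem_of_valuation_le_one a ha.le
  have hnu : ¬ IsUnit (⟨a, haV⟩ : V₁) := fun h => ha.ne ((V₁.valuation_eq_one_iff _).1 h)
  have hP := Point1_radical_prime hnu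
  set P : Ideal V₁ := (Ideal.span {(⟨a, haV⟩ : V₁)}).radical with hPdef
  have hle : V₁ ≤ V₁.ofPrime P := V₁.le_ofPrime P
  have hmono : ∀ x y, V₁.valuation x ≤ V₁.valuation y →
      (V₁.ofPrime P).valuation x ≤ (V₁.ofPrime P).valuation y := fun x y h => by
    have := ValuationSubring.monotone_mapOfLE _ _ hle h
    rwa [ValuationSubring.mapOfLE_valuation_apply, ValuationSubring.mapOfLE_valuation_apply]
      at this
  refine ⟨V₁.ofPrime P, ?_, hmono, fun z hz => ?_⟩
  · refine lt_of_le_of_ne ((ValuationSubring.valuation_le_one_iff _ _).2 (hle haV)) fun h => ?_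
    have := (V₁.ofPrime_valuation_eq_one_iff_mem_primeCompl P ⟨a, haV⟩).1 h
    exact this (Ideal.le_radical (Ideal.subset_span rfl))
  · have hzV : z ∈ V₁ :=
      V₁.nonunits_subset (ValuationSubring.nonunits_le_nonunits.2 hle
        ((V₁.ofPrime P).mem_nonunits_iff.2 hz))
    have hzP : (⟨z, hzV⟩ : V₁) ∈ P := by
      by_contra h
      exact hz.ne ((V₁.ofPrime_valuation_eq_one_iff_mem_primeCompl P ⟨z, hzV⟩).2 h)
    obtain ⟨i, hi⟩ := hzP
    obtain ⟨c, hc⟩ := Ideal.mem_span_singleton'.1 hi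
    refine ⟨i, ?_⟩
    rw [← map_pow]
    exact hmono _ _ ((V₁.valuation_le_iff _ _).2 ⟨c, congrArg Subtype.val hc⟩)

theorem exists_valuationSubring_arch (R : Type) [CommRing R] [IsDomain R] [IsLocalRing R]
    [IsNoetherianRing R] (hR : IsLocalRing.maximalIdeal R ≠ ⊥) (L : Type) [Field L]
    [Algebra (FractionRing R) L] [Algebra.IsAlgebraic (FractionRing R) L] :
    ∃ (V : ValuationSubring L) (a : L), a ≠ 0 ∧ V.valuation a < 1 ∧
      (∀ r : R, V.valuation (algebraMap (FractionRing R) L (algebraMap R _ r)) ≤ 1) ∧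
      (∀ r ∈ IsLocalRing.maximalIdeal R,
        V.valuation (algebraMap (FractionRing R) L (algebraMap R _ r)) < 1) ∧
      (∀ b : L, b ≠ 0 → ∃ j : ℕ, V.valuation a ^ j ≤ V.valuation b) ∧
      ∀ z : L, V.valuation z < 1 → ∃ i : ℕ, V.valuation z ^ i ≤ V.valuation a := by
  obtain ⟨A, 𝔮, a, hq, haq, ha0, hRA, hdvd, hb⟩ := Point1_dim_one R hR
  let g : A →+* L := (algebraMap (FractionRing R) L).comp A.subtype
  have hginj : Function.Injective g :=
    (algebraMap (FractionRing R) L).injective.comp Subtype.val_injective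
  have hg : ∀ y : 𝔮.primeCompl, IsUnit (g y) := fun y => by
    refine IsUnit.mk0 _ fun h => y.2 ?_
    have : (y : A) = 0 := hginj (by rw [h, map_zero])
    rw [this]
    exact 𝔮.zero_mem
  let f : Localization.AtPrime 𝔮 →+* L := IsLocalization.lift hg
  have hf : ∀ x : A, f (algebraMap A _ x) = g x := fun x => IsLocalization.lift_eq hg x
  obtain ⟨V₁, hV, hloc⟩ := IsLocalRing.exists_factor_valuationRing f
  have hgV : ∀ x : A, g x ∈ V₁ := fun x => hf x ▸ hV _
  have hle : ∀ x : A, V₁.valuation (g x) ≤ 1 := fun x => (V₁.valuation_le_one_iff _).2 (hgV x)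
  have hiff : ∀ x : A, V₁.valuation (g x) = 1 ↔ x ∈ 𝔮.primeCompl := fun x => by
    rw [← IsLocalization.AtPrime.isUnit_to_map_iff (Localization.AtPrime 𝔮) 𝔮 x,
      ← isUnit_map_iff (f.codRestrict V₁.toSubring hV), ← hf]
    exact (V₁.valuation_eq_one_iff ⟨_, hV _⟩).symm
  have hdv : ∀ x y : A, x ∣ y → V₁.valuation (g y) ≤ V₁.valuation (g x) := by
    rintro x _ ⟨c, rfl⟩
    rw [map_mul, map_mul]
    exact mul_le_of_le_one_right' (hle c)
  have ha1 : V₁.valuation (g a) < 1 := lt_of_le_of_ne (hle a) fun h => (hiff a).1 h haq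
  have hA : ∀ b : A, b ≠ 0 → ∃ j : ℕ, V₁.valuation (g a ^ j) ≤ V₁.valuation (g b) := by
    intro b hb0
    obtain ⟨j, s, hs, h⟩ := hb b hb0
    refine ⟨j, ?_⟩
    have h1 := hdv _ _ h
    rwa [map_mul, map_mul, (hiff s).2 hs, one_mul, map_pow g] at h1
  have hL : ∀ b : L, b ≠ 0 → ∃ j : ℕ, V₁.valuation (g a ^ j) ≤ V₁.valuation b := by
    intro b hb0
    rcases le_total (V₁.valuation b) 1 with h1 | h1
    · let : Algebra R L :=
        ((algebraMap (FractionRing R) L).comp (algebraMap R (FractionRing R))).toAlgebra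
      have : IsScalarTower R (FractionRing R) L := IsScalarTower.of_algebraMap_eq fun _ => rfl
      have halg : IsAlgebraic R b :=
        (IsFractionRing.isAlgebraic_iff R (FractionRing R) L).2 (Algebra.IsAlgebraic.isAlgebraic b)
      obtain ⟨t, ht, r, hr, hrt⟩ :=
        halg.exists_nonzero_eq_adjoin_mul (mem_nonZeroDivisors_of_ne_zero hb0)
      let V' : Subalgebra R L :=
        { V₁.toSubring with algebraMap_mem' := fun r => hgV ⟨_, hRA r⟩ }
      have hV' : Algebra.adjoin R {b} ≤ V' :=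
        Algebra.adjoin_le (Set.singleton_subset_iff.2 ((V₁.valuation_le_one_iff b).1 h1))
      have ht1 : V₁.valuation t ≤ 1 := (V₁.valuation_le_one_iff t).2 (hV' ht)
      obtain ⟨j, hj⟩ := hA ⟨_, hRA r⟩ fun h => hr (IsFractionRing.injective R (FractionRing R) (by
        rw [map_zero]
        exact congrArg Subtype.val h))
      refine ⟨j, hj.trans ?_⟩
      change V₁.valuation (algebraMap R L r) ≤ _
      rw [← hrt, map_mul]
      exact mul_le_of_le_one_right' ht1
    · exact ⟨0, by rwa [pow_zero, map_one]⟩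
  obtain ⟨V, h1, h2, h3⟩ := Point1_coarsen V₁ (g a) ha1
  refine ⟨V, g a, fun h => ha0 (hginj (by rw [h, map_zero])), h1, fun r => ?_, fun r hr => ?_,
    fun b hb0 => ?_, h3⟩
  · have := h2 (g ⟨_, hRA r⟩) 1 (by rw [map_one]; exact hle _)
    rwa [map_one] at this
  · exact lt_of_le_of_lt (h2 (g ⟨_, hRA r⟩) (g a) (hdv _ _ (hdvd r hr _))) h1
  · obtain ⟨j, hj⟩ := hL b hb0
    exact ⟨j, by rw [← map_pow]; exact h2 _ _ hj⟩

theorem exists_norm_of_arch {L : Type} [Field L] (V : ValuationSubring L) (a : L) (ha0 : a ≠ 0)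
    (ha : V.valuation a < 1) (h₁ : ∀ b : L, b ≠ 0 → ∃ j : ℕ, V.valuation a ^ j ≤ V.valuation b)
    (h₂ : ∀ z : L, V.valuation z < 1 → ∃ i : ℕ, V.valuation z ^ i ≤ V.valuation a) :
    ∃ N : AbsoluteValue L ℝ, IsNonarchimedean N ∧ (∀ z, V.valuation z ≤ 1 → N z ≤ 1) ∧
      ∀ z, V.valuation z < 1 → N z < 1 := by
  have harch : MulArchimedean V.ValueGroup := ⟨fun x y hy => by
    obtain ⟨b, rfl⟩ := V.valuation_surjective x
    obtain ⟨c, rfl⟩ := V.valuation_surjective y
    rcases eq_or_ne b 0 with rfl | hb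
    · exact ⟨0, by simp⟩
    obtain ⟨j, hj⟩ := h₁ b⁻¹ (inv_ne_zero hb)
    have hc0 : 0 < V.valuation c := zero_lt_one.trans hy
    obtain ⟨i, hi⟩ := h₂ c⁻¹ (by rw [map_inv₀]; exact inv_lt_one_of_one_lt₀ hy)
    refine ⟨i * j, ?_⟩
    have h3 : (V.valuation c⁻¹ ^ i) ^ j ≤ V.valuation b⁻¹ :=
      (pow_le_pow_left₀ zero_le hi j).trans hj
    rw [map_inv₀, map_inv₀, ← pow_mul, inv_pow] at h3
    have hb0 : 0 < V.valuation b := zero_lt_iff.2 ((Valuation.ne_zero_iff _).2 hb)
    exact (inv_le_inv₀ (pow_pos hc0 _) hb0).1 h3⟩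
  have hnt : V.valuation.IsNontrivial := ⟨⟨a, (Valuation.ne_zero_iff _).2 ha0, ha.ne⟩⟩
  obtain ⟨hr⟩ := (Valuation.nonempty_rankOne_iff_mulArchimedean (v := V.valuation)).2
    (MulArchimedean.comap MonoidWithZeroHom.ValueGroup₀.embedding.toMonoidHom
      MonoidWithZeroHom.ValueGroup₀.embedding_strictMono)
  have hsm := Valuation.RankOne.strictMono V.valuation
  set φ := Valuation.RankOne.hom V.valuation with hφ
  have hna : ∀ x y : L, (φ (V.valuation.restrict (x + y)) : ℝ)
      ≤ max (φ (V.valuation.restrict x) : ℝ) (φ (V.valuation.restrict y)) := fun x y => by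
    rcases le_max_iff.1 (V.valuation.restrict.map_add x y) with h | h
    · exact le_max_of_le_left (by exact_mod_cast hsm.monotone h)
    · exact le_max_of_le_right (by exact_mod_cast hsm.monotone h)
  refine ⟨{ toFun := fun z => (φ (V.valuation.restrict z) : ℝ)
            map_mul' := fun x y => by simp
            nonneg' := fun x => NNReal.coe_nonneg _
            eq_zero' := fun x => by
              simp [hφ]
            add_le' := fun x y => (hna x y).trans
              (max_le_add_of_nonneg (NNReal.coe_nonneg _) (NNReal.coe_nonneg _)) },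
    hna, fun z hz => ?_, fun z hz => ?_⟩
  · have := hsm.monotone (V.valuation.restrict_le_one_iff.2 hz)
    rw [map_one] at this
    exact_mod_cast this
  · have := hsm (V.valuation.restrict_lt_one_iff.2 hz)
    rw [map_one] at this
    exact_mod_cast this

end Crest.Agent.R227
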