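import Crest.Agent.R227.Digit
import Crest.Agent.R227.Orth
import Crest.Agent.R227.Count

/-!
# R227 / Quant: a linear (Izumi type) bound on the orbit

`exists_sum_bound`: with `a i = ∑_{t ≤ i} q ^ (t / r) * p ^ (i - t)` one has `a i ≤ 2 r p ^ r q ^ (i / r)`
by strong induction (`a i = p ^ r * a (i - r) + (at most r terms, each ≤ p ^ r q ^ (i / r))`,
`2 p ^ r ≤ q`), and `∑_{i < r m'} q ^ (i / r) = r ∑_{j < m'} q ^ j ≤ r q ^ m'`.

`exists_separators`: `t α = ev ι w (linS G α)` satisfies the hypotheses of `exists_orth` with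
`κ = ρ ^ K` (`ev_linS`, `Pts.norm_add_sub_le`, `Pts.nsmul_val`, `D.pser`, `norm_ev_linS_le`).  Take the
family `α : Fin m → _`; for each digit `i < m` restrict it to `Fin (i+1)` (`Fin.castLE`; `Orth` of
a subfamily: extend the coefficients by `0`), apply `orth_pow` and `exists_digit`: functions
`Y i a` with cost `c i`, `‖c i‖ ≥ ρ ^ (K p ^ i₀ a i)`, `‖c i‖ ≤ 1`.  Put
`ℓ a = ∏ i, (C (c i) ^ (q - 1) - Y i a ^ (q - 1))`.  At `σ a` each factor has norm `‖c i‖ ^ (q-1)`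
(`‖Y‖ < ‖c‖`); at `σ b`, `b ≠ a`, every factor has norm `≤ ‖c i‖ ^ (q-1)`, strictly at the first
index `i` where `b i ≠ a i` (there `u = Y / c i` has `‖u - ι (b i - a i)‖ < 1` and
`ι (b i - a i) ^ (q - 1) = 1`, `FiniteField.pow_card_sub_one_eq_one`).

`quant`: `D' = C₁ q ^ m'` with `C₁ = K p ^ i₀ (q - 1) C₀ + 1`; if `L > D'`, `count_le` with `S = Fin (r m') → k`
(`card = q ^ (r m')`), `η = ρ ^ D'`, `N = D' + 1 ≤ 2 C₁ q ^ m'` gives
`q ^ (r m') ≤ Q (2 C₁ q ^ m') ^ (r - 1)`, so `q ^ m' ≤ Q (2 C₁) ^ (r-1)`.  Choose `m'` minimal with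
`q ^ m' > Q (2 C₁) ^ (r-1)`; then `q ^ m' ≤ q Q (2 C₁) ^ (r-1)` and `L ≤ D' ≤ C₁ q (2 C₁) ^ (r-1) Q`.
-/

set_option autoImplicit false
noncomputable section
open Crest.LubinTate

namespace Crest.Agent.R227

theorem exists_sum_bound (p q r : ℕ) (hp : 1 ≤ p) (hr : 1 ≤ r) (h : 2 * p ^ r ≤ q) :
    ∃ C₀ : ℕ, ∀ m' : ℕ, ∑ i ∈ Finset.range (r * m'), ∑ t ∈ Finset.range (i + 1),
      q ^ (t / r) * p ^ (i - t) ≤ C₀ * q ^ m' := by
  have hpr : 1 ≤ p ^ r := Nat.one_le_pow _ _ hp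
  have hb : ∀ m : ℕ, ∑ t ∈ Finset.range (r * m), q ^ (t / r) * p ^ (r * m - t) ≤ r * q ^ m := by
    intro m
    induction m with
    | zero => simp
    | succ m ih =>
      rw [Nat.mul_succ, Finset.sum_range_add]
      have h1 : ∑ t ∈ Finset.range (r * m), q ^ (t / r) * p ^ (r * m + r - t) ≤ p ^ r * (r * q ^ m) := by
        refine le_trans (le_of_eq ?_) (Nat.mul_le_mul_left _ ih)
        rw [Finset.mul_sum]
        refine Finset.sum_congr rfl fun t ht => ?_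
        have := Finset.mem_range.mp ht
        rw [show r * m + r - t = r + (r * m - t) by omega, pow_add]
        ring
      have h2 : ∑ s ∈ Finset.range r, q ^ ((r * m + s) / r) * p ^ (r * m + r - (r * m + s)) ≤
          r * (q ^ m * p ^ r) := by
        refine (Finset.sum_le_card_nsmul _ _ (q ^ m * p ^ r) fun s hs => ?_).trans (by simp)
        have hs' := Finset.mem_range.mp hs
        rw [Nat.mul_add_div hr, Nat.div_eq_of_lt hs', Nat.add_zero]
        exact Nat.mul_le_mul_left _ (Nat.pow_le_pow_right hp (by omega))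
      calc _ ≤ p ^ r * (r * q ^ m) + r * (q ^ m * p ^ r) := Nat.add_le_add h1 h2
        _ = r * q ^ m * (2 * p ^ r) := by ring
        _ ≤ r * q ^ m * q := Nat.mul_le_mul_left _ h
        _ = r * q ^ (m + 1) := by ring
  have ha : ∀ m i : ℕ, i < r * m →
      ∑ t ∈ Finset.range (i + 1), q ^ (t / r) * p ^ (i - t) ≤ r * q ^ m := by
    intro m i hi
    refine le_trans ?_ (hb m)
    refine (Finset.sum_le_sum fun t _ => Nat.mul_le_mul_left _
      (Nat.pow_le_pow_right hp (show i - t ≤ r * m - t by omega))).trans ?_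
    exact Finset.sum_le_sum_of_subset (Finset.range_mono hi)
  refine ⟨2 * r * r, fun m => ?_⟩
  induction m with
  | zero => simp
  | succ m ih =>
    rw [Nat.mul_succ, Finset.sum_range_add]
    have h2 : ∑ s ∈ Finset.range r, ∑ t ∈ Finset.range (r * m + s + 1),
        q ^ (t / r) * p ^ (r * m + s - t) ≤ r * (r * q ^ (m + 1)) := by
      refine (Finset.sum_le_card_nsmul _ _ (r * q ^ (m + 1)) fun s hs => ?_).trans (by simp)
      have hs' := Finset.mem_range.mp hs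
      exact ha (m + 1) _ (by rw [Nat.mul_succ]; omega)
    have h3 : 2 * r * r * q ^ m ≤ r * (r * q ^ (m + 1)) := by
      calc 2 * r * r * q ^ m = r * r * q ^ m * 2 := by ring
        _ ≤ r * r * q ^ m * q := Nat.mul_le_mul_left _ (by omega)
        _ = r * (r * q ^ (m + 1)) := by ring
    calc _ ≤ r * (r * q ^ (m + 1)) + r * (r * q ^ (m + 1)) := Nat.add_le_add (ih.trans h3) h2
      _ = 2 * r * r * q ^ (m + 1) := by ring

theorem Quant_orth_sub {C : Type*} [NormedField C] {s k : ℕ} {ε : Fin s → C} (h : Orth ε)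
    (e : Fin k → Fin s) (he : Function.Injective e) : Orth fun j => ε (e j) := by
  intro c t hc
  have h1 := h (Function.extend e c 0) (e t) (by rwa [he.extend_apply])
  have h2 : ∑ j, (c j : C) * ε (e j) = ∑ j, ((Function.extend e c 0 j : ℕ) : C) * ε j := by
    refine Fintype.sum_of_injective e he _ _ (fun i hi => ?_) fun i => ?_
    · rw [Function.extend_apply' _ _ _ hi]
      simp
    · rw [he.extend_apply]
  rw [h2]
  exact h1

theorem Quant_pow_sub {C : Type*} [NormedField C] [IsUltrametricDist C] [CompleteSpace C] {c y u : C}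
    (hc : c ≠ 0) (hy : ‖y‖ ≤ ‖c‖) (hu : ‖u‖ ≤ 1) (e : ℕ) (h : ‖y - c * u‖ < ‖c‖) :
    ‖y ^ e - (c * u) ^ e‖ < ‖c‖ ^ e := by
  have h0 : 0 < ‖c‖ := norm_pos_iff.mpr hc
  have h1 := Eval_prod_sub (Finset.range e) (fun _ => y / c) (fun _ => u) (δ := ‖y / c - u‖)
    (norm_nonneg _) (fun _ => by rw [norm_div, div_le_one h0]; exact hy) (fun _ => hu) fun _ => le_rfl
  rw [Finset.prod_const, Finset.prod_const, Finset.card_range] at h1
  have h2 : ‖y / c - u‖ < 1 := by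
    rw [show y / c - u = (y - c * u) / c by field_simp, norm_div, div_lt_one h0]
    exact h
  rw [show y ^ e - (c * u) ^ e = c ^ e * ((y / c) ^ e - u ^ e) by rw [div_pow, mul_pow]; field_simp,
    norm_mul, norm_pow]
  exact mul_lt_of_lt_one_right (pow_pos h0 e) (h1.trans_lt h2)

theorem Quant_sub_le {C : Type*} [NormedField C] [IsUltrametricDist C] {c y : C} (hy : ‖y‖ ≤ ‖c‖)
    (e : ℕ) : ‖c ^ e - y ^ e‖ ≤ ‖c‖ ^ e := by
  rw [sub_eq_add_neg]
  refine (IsUltrametricDist.norm_add_le_max _ _).trans (max_le (norm_pow _ _).le ?_)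
  rw [norm_neg, norm_pow]
  exact pow_le_pow_left₀ (norm_nonneg _) hy e

theorem Quant_sub_eq {C : Type*} [NormedField C] [IsUltrametricDist C] {c y : C} (hy : ‖y‖ < ‖c‖)
    {e : ℕ} (he : e ≠ 0) : ‖c ^ e - y ^ e‖ = ‖c‖ ^ e := by
  have h : ‖-y ^ e‖ < ‖c ^ e‖ := by
    rw [norm_neg, norm_pow, norm_pow]
    exact pow_lt_pow_left₀ hy (norm_nonneg _) he
  rw [sub_eq_add_neg, IsUltrametricDist.norm_add_eq_max_of_norm_ne_norm h.ne', max_eq_left h.le,
    norm_pow]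

variable {p : ℕ} [Fact p.Prime] {n : ℕ}

theorem Quant_norm_sigma {C : Type*} [NormedField C] [IsUltrametricDist C] [CompleteSpace C]
    (D : Honda p n) (ι : kk p n →+* C) (i₀ : ℕ) {m : ℕ} (b : Fin m → kk p n) {z : C} {ρ : ℝ}
    (hρ1 : ρ < 1) (hz : ‖z‖ ≤ ρ) : ‖ev1 ι z (gSer D.G p i₀ b)‖ ≤ ρ := by
  refine (norm_ev1_le_self ι (norm_kmap_le ι) z (hz.trans_lt hρ1) _ ?_).trans hz
  have := gSer_coeff D.G p i₀ b 0 (pow_pos (Fact.out : p.Prime).pos _)
  simpa using this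

theorem exists_separators {C : Type*} [NormedField C] [IsUltrametricDist C] [CompleteSpace C]
    [IsAlgClosed C] [CharP C p] (hn : 1 ≤ n) (D : Honda p n) (ι : kk p n →+* C) {r : ℕ}
    (hr : 1 ≤ r) (K i₀ : ℕ) (w : Fin r → C) {ρ : ℝ} (hρ0 : 0 < ρ) (hρ1 : ρ < 1)
    (hw : ∀ i, ‖w i‖ ≤ ρ)
    (hgen : ∀ α : Fin r → ℕ, (∃ i, ¬ p ∣ α i) → ρ ^ K ≤ ‖ev ι w (linS D.G α)‖) (m : ℕ) :
    ∃ ℓ : (Fin m → kk p n) → MvPowerSeries (Fin r) (Ob C),
      (∀ a, ρ ^ (K * p ^ i₀ * (p ^ n - 1) * ∑ i ∈ Finset.range m, ∑ t ∈ Finset.range (i + 1),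
          (p ^ n) ^ (t / r) * p ^ (i - t)) ≤
        ‖ev (Ob C).subtype (fun i => ev1 ι (w i) (gSer D.G p i₀ a)) (ℓ a)‖) ∧
      ∀ a b, b ≠ a → ‖ev (Ob C).subtype (fun i => ev1 ι (w i) (gSer D.G p i₀ b)) (ℓ a)‖ <
        ‖ev (Ob C).subtype (fun i => ev1 ι (w i) (gSer D.G p i₀ a)) (ℓ a)‖ := by
  classical
  have hp : p.Prime := Fact.out
  have hι := norm_kmap_le ι
  have hw1 : ∀ i, ‖w i‖ < 1 := fun i => (hw i).trans_lt hρ1
  have hq : 1 < p ^ n := Nat.one_lt_pow (by omega) hp.one_lt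
  have ht := norm_ev_linS_le (F := D.G) hι w hρ0.le hρ1 hw
  obtain ⟨α, hO, hanti, hlow⟩ := exists_orth p hr hq (fun α => ev ι w (linS D.G α)) hρ1
    (pow_pos hρ0 K) ht (by simp [ev_linS hι w hw1])
    (fun α β => by
      simp only [ev_linS hι w hw1, Pi.add_apply, add_smul, Finset.sum_add_distrib]
      exact Pts.norm_add_sub_le _ _)
    (fun α => by
      simp only [ev_linS hι w hw1, Pi.smul_apply, smul_eq_mul, mul_smul, ← Finset.smul_sum]
      rw [Pts.nsmul_val, D.pser, ← norm_pow]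
      congr 1
      exact (ev_pow ι hι _ (fun _ => (∑ x, α x • Pts.mk D.G hι (w x) (hw1 x)).prop) _ _).trans (by rw [← ev1, ev1_X]))
    hgen m
  have hne : ∀ j, ev ι w (linS D.G (α j)) ≠ 0 := fun j =>
    norm_pos_iff.mp (lt_of_lt_of_le (by positivity) (hlow j))
  obtain ⟨c, hc⟩ : ∃ c : Fin m → C, c = fun i : Fin m => ∏ t : Fin ((i : ℕ) + 1),
      (ev ι w (linS D.G (α (Fin.castLE i.2 t))) ^ (p ^ i₀)) ^ (p ^ ((i : ℕ) - (t : ℕ))) := ⟨_, rfl⟩
  have hc0 : ∀ i, c i ≠ 0 := by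
    intro i
    rw [hc]
    exact Finset.prod_ne_zero_iff.mpr fun t _ => pow_ne_zero _ (pow_ne_zero _ (hne _))
  have hc1 : ∀ i, ‖c i‖ ≤ 1 := by
    intro i
    rw [hc]
    simp only [norm_prod, norm_pow]
    exact Finset.prod_le_one (fun t _ => by positivity) fun t _ =>
      pow_le_one₀ (by positivity) (pow_le_one₀ (norm_nonneg _) ((ht _).trans hρ1.le))
  have hc2 : ∀ i : Fin m, ρ ^ (K * p ^ i₀ * ∑ t ∈ Finset.range (i + 1),
      (p ^ n) ^ (t / r) * p ^ ((i : ℕ) - t)) ≤ ‖c i‖ := by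
    intro i
    rw [hc, Finset.mul_sum, ← Finset.prod_pow_eq_pow_sum, Finset.prod_range]
    simp only [norm_prod, norm_pow]
    refine Finset.prod_le_prod (fun t _ => by positivity) fun t _ => ?_
    have h1 := hlow (Fin.castLE i.2 t)
    rw [Fin.val_castLE] at h1
    refine le_trans (le_of_eq ?_)
      (pow_le_pow_left₀ (by positivity) (pow_le_pow_left₀ (by positivity) h1 _) _)
    simp only [← pow_mul]
    congr 1
    ring
  have hY : ∀ (a : Fin m → kk p n) (i : Fin m), ∃ Y : MvPowerSeries (Fin r) (Ob C),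
      ∀ b : Fin m → kk p n,
        ‖ev (Ob C).subtype (fun i => ev1 ι (w i) (gSer D.G p i₀ b)) Y‖ ≤ ‖c i‖ ∧
        ((∀ I : Fin m, (I : ℕ) < i → b I = a I) →
          ‖ev (Ob C).subtype (fun i => ev1 ι (w i) (gSer D.G p i₀ b)) Y -
            c i * ι (b i - a i)‖ < ‖c i‖) := by
    intro a i
    refine exists_digit hn D ι w hw1 i₀ i.2 (fun t => α (Fin.castLE i.2 t))
      (orth_pow p (Quant_orth_sub hO _ (Fin.castLE_injective i.2)) i₀) ?_ (fun t => hne _) a _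
      (by rw [hc])
    intro t t' htt'
    simp only [norm_pow]
    exact pow_le_pow_left₀ (norm_nonneg _) (hanti (by simpa using htt')) _
  choose Y hY using hY
  have hev : ∀ a b : Fin m → kk p n, ‖ev (Ob C).subtype (fun i => ev1 ι (w i) (gSer D.G p i₀ b))
      (∏ i, (MvPowerSeries.C (⟨c i, hc1 i⟩ : Ob C) ^ (p ^ n - 1) - Y a i ^ (p ^ n - 1)))‖ =
      ∏ i, ‖c i ^ (p ^ n - 1) -
        ev (Ob C).subtype (fun i => ev1 ι (w i) (gSer D.G p i₀ b)) (Y a i) ^ (p ^ n - 1)‖ := by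
    intro a b
    rw [← evHom_apply _ Ob_le_one _ fun i => (Quant_norm_sigma D ι i₀ b hρ1 (hw i)).trans_lt hρ1,
      map_prod, norm_prod]
    refine Finset.prod_congr rfl fun i _ => ?_
    rw [map_sub, map_pow, map_pow, evHom_apply, evHom_apply, ev_C]
    rfl
  have hself : ∀ a : Fin m → kk p n, ‖ev (Ob C).subtype (fun i => ev1 ι (w i) (gSer D.G p i₀ a))
      (∏ i, (MvPowerSeries.C (⟨c i, hc1 i⟩ : Ob C) ^ (p ^ n - 1) - Y a i ^ (p ^ n - 1)))‖ =
      ∏ i, ‖c i‖ ^ (p ^ n - 1) := by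
    intro a
    rw [hev]
    refine Finset.prod_congr rfl fun i _ => Quant_sub_eq ?_ (by omega)
    simpa using (hY a i a).2 fun _ _ => rfl
  refine ⟨fun a => ∏ i, (MvPowerSeries.C (⟨c i, hc1 i⟩ : Ob C) ^ (p ^ n - 1) - Y a i ^ (p ^ n - 1)),
    fun a => ?_, fun a b hab => ?_⟩
  · rw [hself, Finset.mul_sum, ← Finset.prod_pow_eq_pow_sum, Finset.prod_range]
    refine Finset.prod_le_prod (fun i _ => by positivity) fun i _ => ?_
    refine le_trans (le_of_eq ?_) (pow_le_pow_left₀ (by positivity) (hc2 i) _)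
    rw [← pow_mul]
    congr 1
    ring
  · rw [hself, hev]
    obtain ⟨i, hi, hmin⟩ := (Finset.univ.filter fun i => b i ≠ a i).exists_min_image id (by
      by_contra hcon
      rw [Finset.not_nonempty_iff_eq_empty, Finset.filter_eq_empty_iff] at hcon
      exact hab (funext fun i => not_not.mp (hcon (Finset.mem_univ i))))
    have hi' : b i - a i ≠ 0 := sub_ne_zero.mpr (Finset.mem_filter.mp hi).2
    have h1 := (hY a i b).2 fun I hI => by
      by_contra hcon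
      exact absurd (hmin I (Finset.mem_filter.mpr ⟨Finset.mem_univ _, hcon⟩)) (not_le.mpr hI)
    have h2 := Quant_pow_sub (hc0 i) (hY a i b).1 (hι _) (p ^ n - 1) h1
    have h3 : ι (b i - a i) ^ (p ^ n - 1) = 1 := by
      let _ := Fintype.ofFinite (kk p n)
      rw [← map_pow, ← GaloisField.card p n (by omega), Nat.card_eq_fintype_card,
        FiniteField.pow_card_sub_one_eq_one _ hi', map_one]
    rw [mul_pow, h3, mul_one, norm_sub_rev] at h2
    rw [← Finset.mul_prod_erase _ _ (Finset.mem_univ i), ← Finset.mul_prod_erase _ _ (Finset.mem_univ i)]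
    refine lt_of_le_of_lt (mul_le_mul_of_nonneg_left (Finset.prod_le_prod (fun j _ => norm_nonneg _)
      fun j _ => Quant_sub_le (hY a j b).1 _) (norm_nonneg _)) ?_
    exact mul_lt_mul_of_pos_right h2 (Finset.prod_pos fun j _ => pow_pos (norm_pos_iff.mpr (hc0 j)) _)

theorem quant {r : ℕ} (hr : 1 ≤ r) (hrn : r < n) (K i₀ : ℕ) :
    ∃ C₀ : ℕ, ∀ {C : Type} [NormedField C] [IsUltrametricDist C] [CompleteSpace C]
      [IsAlgClosed C] [CharP C p] (D : Honda p n) (ι : kk p n →+* C) (w : Fin r → C) (ρ : ℝ),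
      0 < ρ → ρ < 1 → (∀ i, ‖w i‖ ≤ ρ) →
      (∀ α : Fin r → ℕ, (∃ i, ¬ p ∣ α i) → ρ ^ K ≤ ‖ev ι w (linS D.G α)‖) →
      ∀ (φ : MvPowerSeries (Fin r) (kk p n)) (Q L : ℕ), 1 ≤ Q →
      (∃ d : Fin r →₀ ℕ, d.degree ≤ Q ∧ MvPowerSeries.coeff d φ ≠ 0) →
      (∀ (m : ℕ) (b : Fin m → kk p n),
        ‖ev ι (fun i => ev1 ι (w i) (gSer D.G p i₀ b)) φ‖ ≤ ρ ^ L) → L ≤ C₀ * Q := by
  have hp : p.Prime := Fact.out
  have hq : 1 < p ^ n := Nat.one_lt_pow (by omega) hp.one_lt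
  obtain ⟨C₀, hC₀⟩ := exists_sum_bound p (p ^ n) r hp.pos hr (by
    calc 2 * p ^ r ≤ p * p ^ r := Nat.mul_le_mul_right _ hp.two_le
      _ = p ^ (r + 1) := by ring
      _ ≤ p ^ n := Nat.pow_le_pow_right hp.pos hrn)
  obtain ⟨C₁, hC₁⟩ : ∃ C₁, C₁ = K * p ^ i₀ * (p ^ n - 1) * C₀ + 1 := ⟨_, rfl⟩
  obtain ⟨r', rfl⟩ : ∃ r', r = r' + 1 := ⟨r - 1, by omega⟩
  refine ⟨C₁ * p ^ n * (2 * C₁) ^ r', ?_⟩
  intro C _ _ _ _ _ D ι w ρ hρ0 hρ1 hw hgen φ Q L hQ hφ hL
  have hT : 0 < Q * (2 * C₁) ^ r' := Nat.mul_pos hQ (pow_pos (by omega) _)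
  obtain ⟨m', h1, h2⟩ : ∃ m', Q * (2 * C₁) ^ r' < (p ^ n) ^ m' ∧
      (p ^ n) ^ m' ≤ p ^ n * (Q * (2 * C₁) ^ r') :=
    ⟨Nat.log (p ^ n) (Q * (2 * C₁) ^ r') + 1, Nat.lt_pow_succ_log_self hq _, by
      rw [pow_succ']
      exact Nat.mul_le_mul_left _ (Nat.pow_log_le_self _ hT.ne')⟩
  obtain ⟨u, hu⟩ : ∃ u, u = (p ^ n) ^ m' := ⟨_, rfl⟩
  have hu0 : 0 < u := by rw [hu]; positivity
  have hLD : L ≤ C₁ * u := by
    by_contra hcon
    obtain ⟨ℓ, hℓ, hℓ'⟩ := exists_separators (by omega) D ι hr K i₀ w hρ0 hρ1 hw hgen ((r' + 1) * m')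
    let _ := Fintype.ofFinite (kk p n)
    have key := count_le ι (norm_kmap_le ι) (Ob C).subtype Ob_le_one
      (fun (b : Fin ((r' + 1) * m') → kk p n) i => ev1 ι (w i) (gSer D.G p i₀ b)) (η := ρ ^ (C₁ * u))
      hρ0.le hρ1 (fun b i => Quant_norm_sigma D ι i₀ b hρ1 (hw i)) φ Q
      (by
        obtain ⟨d, hd, hd'⟩ := hφ
        exact ⟨d, hd, norm_kmap_eq ι hd'⟩)
      (fun b => (hL _ b).trans_lt (pow_lt_pow_right_of_lt_one₀ hρ0 hρ1 (not_le.mp hcon))) ℓ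
      (fun b => by
        refine le_trans (pow_le_pow_of_le_one hρ0.le hρ1.le ?_) (hℓ b)
        refine (Nat.mul_le_mul_left _ (hC₀ m')).trans ?_
        rw [← hu, ← mul_assoc]
        exact Nat.mul_le_mul_right _ (by omega))
      hℓ' (C₁ * u + 1) (pow_lt_pow_right_of_lt_one₀ hρ0 hρ1 (Nat.lt_succ_self _))
    rw [Fintype.card_fun, Fintype.card_fin, ← Nat.card_eq_fintype_card, GaloisField.card p n (by omega),
      mul_comm (r' + 1), pow_mul, ← hu, pow_succ (C₁ * u + 1), ← mul_assoc] at key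
    have k1 := Nat.le_of_mul_le_mul_right key (Nat.succ_pos _)
    have k2 : C₁ * u + 1 ≤ 2 * C₁ * u := by
      have : 0 < C₁ * u := Nat.mul_pos (by omega) hu0
      rw [mul_assoc]
      omega
    have k3 : u * u ^ r' ≤ Q * (2 * C₁) ^ r' * u ^ r' := by
      calc u * u ^ r' = u ^ (r' + 1) := by ring
        _ ≤ Q * (C₁ * u + 1) ^ r' := k1
        _ ≤ Q * (2 * C₁ * u) ^ r' := Nat.mul_le_mul_left _ (Nat.pow_le_pow_left k2 _)
        _ = Q * (2 * C₁) ^ r' * u ^ r' := by ring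
    have k4 := Nat.le_of_mul_le_mul_right k3 (pow_pos hu0 _)
    omega
  calc L ≤ C₁ * u := hLD
    _ ≤ C₁ * (p ^ n * (Q * (2 * C₁) ^ r')) := Nat.mul_le_mul_left _ (hu ▸ h2)
    _ = C₁ * p ^ n * (2 * C₁) ^ r' * Q := by ring

end Crest.Agent.R227
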