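import Crest.Agent.R227.Defs

/-!
# R227 / Span: the period vectors span `C ^ n` (abstract form)

`E` is the monoid of endomorphisms of the Honda law, `Rr a ξ = ξ ∘ (a X)`, `P ξ = ξ ∘ X ^ p`,
`lin` the linear coefficient, `Z α` the period attached to the exponent `α`.

`teich_pow_inj`: suppose `τ a ^ α₀ = 1`, `a ≠ 0, 1`; let `b = (a - 1)⁻¹` and
`T ξ = ξ + Rr b ξ + (p - 1) • Rr (a * b) ξ`.  Then `Z α₀ (T ξ) = (1 + p * τ b ^ α₀) * Z α₀ ξ`, a factor of
norm `1`.  By induction `T^[N] e = P^[N] ξ_N`: `Rr c (P^[j] ξ) = P^[j] (Rr (c ^ p ^ j) ξ)`, and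
`lin (ξ + Rr (b ^ p ^ j) ξ + (p-1) • Rr ((a b) ^ p ^ j) ξ) = (1 + b - a b) ^ p ^ j * lin ξ = 0`
(characteristic `p`).  Also `Z α (P^[n] ξ) = p * Z α ξ` (`hZP` iterated and `hZq`).  So
`‖Z α₀ e‖ = ‖Z α₀ (T^[n N] e)‖ ≤ ‖p‖ ^ N * B → 0`.

`span_eq_top`: if a linear form `∑ i, lam i * Z (α₀ p ^ i) ξ` vanishes for all `ξ`, apply it to `Rr a ξ`:
the characters `χ i : kˣ →* C`, `a ↦ τ a ^ (α₀ p ^ i)` are pairwise distinct (for a generator `a` of
the cyclic group `kˣ`, of order `p ^ n - 1`: `teich_pow_inj` gives `a ^ (p ^ i - p ^ j) = 1` with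
`0 < p ^ i - p ^ j < p ^ n - 1`), hence linearly independent (`linearIndependent_monoidHom`), so
`lam i * Z (α₀ p ^ i) ξ = 0` for all `ξ`; take `ξ = P^[i] e`.  A proper subspace of `Fin n → C` is
killed by a nonzero linear form (`Submodule.exists_le_ker_of_lt_top`, `LinearMap.pi_apply_eq_sum_univ`).

`exists_dual_family`: extend `{v e}` to a basis inside `range v`
(`exists_linearIndepOn_extension` / `Module.Basis.extendLe`), count with `finrank`, take the
coordinate forms.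
-/

set_option autoImplicit false
noncomputable section

namespace Crest.Agent.R227

theorem exists_dual_family {C E : Type*} [Field C] {n : ℕ} (v : E → Fin n → C)
    (hv : Submodule.span C (Set.range v) = ⊤) (e : E) (he : v e ≠ 0) :
    ∃ (ξ : Fin (n - 1) → E) (ψ₀ : Fin n → C) (ψ : Fin (n - 1) → Fin n → C),
      ∑ i, ψ₀ i * v e i = 1 ∧ (∀ l, ∑ i, ψ₀ i * v (ξ l) i = 0) ∧
      (∀ l, ∑ i, ψ l i * v e i = 0) ∧
      ∀ l l', ∑ i, ψ l i * v (ξ l') i = if l = l' then 1 else 0 := by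
  classical
  obtain ⟨b, -, heb, hsp, hli⟩ := exists_linearIndepOn_extension (K := C) (v := v) (s := {e})
    (t := Set.univ) (LinearIndepOn.singleton he) (Set.subset_univ _)
  have heb' : e ∈ b := heb rfl
  have hli' : LinearIndependent C (fun x : b => v x) := hli
  have hsp' : ⊤ ≤ Submodule.span C (Set.range fun x : b => v x) := by
    rw [← hv, Submodule.span_le, ← Set.image_univ, ← Set.image_eq_range]
    exact hsp
  let B := Module.Basis.mk hli' hsp'
  have hfin : Finite b := hli'.finite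
  let _ := Fintype.ofFinite b
  have hcard : Fintype.card b = n := by
    rw [← Module.finrank_eq_card_basis B]; simp
  have hcard' : Fintype.card {x : b // x ≠ ⟨e, heb'⟩} = n - 1 := by
    rw [Fintype.card_subtype_compl, hcard, Fintype.card_subtype_eq]
  let σ := (Fintype.equivFinOfCardEq hcard').symm
  have hco : ∀ (x : b) (w : Fin n → C),
      ∑ i, B.coord x (fun j => if i = j then 1 else 0) * w i = B.coord x w := by
    intro x w
    rw [LinearMap.pi_apply_eq_sum_univ (B.coord x) w]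
    simp only [smul_eq_mul, mul_comm]
  have hB : ∀ x y : b, B.coord x (v y) = if y = x then 1 else 0 := by
    intro x y
    have : v y = B y := by simp [B]
    rw [this, Module.Basis.coord_apply, B.repr_self, Finsupp.single_apply]
  refine ⟨fun l => (σ l).1.1, fun i => B.coord ⟨e, heb'⟩ fun j => if i = j then 1 else 0,
    fun l i => B.coord (σ l).1 fun j => if i = j then 1 else 0, ?_, fun l => ?_, fun l => ?_,
    fun l l' => ?_⟩
  · rw [hco, hB ⟨e, heb'⟩ ⟨e, heb'⟩, if_pos rfl]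
  · rw [hco, hB, if_neg (σ l).2]
  · rw [hco, hB _ ⟨e, heb'⟩, if_neg (σ l).2.symm]
  · rw [hco, hB]
    by_cases h : l = l'
    · simp [h]
    · rw [if_neg h, if_neg]
      intro h'
      exact h (σ.injective (Subtype.ext h')).symm

variable {p : ℕ} [Fact p.Prime] {n : ℕ} {E C : Type*} [AddCommMonoid E] [NormedField C]
  [IsUltrametricDist C]

omit [Fact p.Prime] [IsUltrametricDist C] in
theorem Span_iter (P : E →+ E) (Z : ℕ → E →+ C) (hZP : ∀ α ξ, Z (p * α) (P ξ) = Z α ξ) (j α : ℕ)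
    (ξ : E) : Z (p ^ j * α) (P^[j] ξ) = Z α ξ := by
  induction j with
  | zero => simp
  | succ j ih => rw [Function.iterate_succ_apply', pow_succ', mul_assoc, hZP, ih]

theorem teich_pow_inj (hn : 1 ≤ n) (τ : kk p n →* C) (hτ : ∀ a, a ≠ 0 → ‖τ a‖ = 1)
    (hp : ‖(p : C)‖ < 1) (Rr : kk p n → E →+ E) (P : E →+ E) (lin : E →+ kk p n)
    (hRP : ∀ a ξ, Rr a (P ξ) = P (Rr (a ^ p) ξ)) (hlinR : ∀ a ξ, lin (Rr a ξ) = a * lin ξ)
    (hlin : ∀ ξ, lin ξ = 0 → ∃ ξ', ξ = P ξ') (Z : ℕ → E →+ C)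
    (hZR : ∀ α a ξ, Z α (Rr a ξ) = τ a ^ α * Z α ξ) (hZP : ∀ α ξ, Z (p * α) (P ξ) = Z α ξ)
    (hZq : ∀ α ξ, (p : C) * Z (p ^ n * α) ξ = Z α ξ) (hB : ∀ α, ∃ B : ℝ, ∀ ξ, ‖Z α ξ‖ ≤ B)
    (e : E) (α₀ : ℕ) (he : Z α₀ e ≠ 0) {a : kk p n} (ha : a ≠ 0) (h : τ a ^ α₀ = 1) : a = 1 := by
  by_contra ha1
  have ha1' : a - 1 ≠ 0 := sub_ne_zero.2 ha1
  obtain ⟨b, hb⟩ : ∃ b, b = (a - 1)⁻¹ := ⟨_, rfl⟩
  have hb0 : b ≠ 0 := hb ▸ inv_ne_zero ha1'
  have hab : 1 + b - a * b = 0 := by rw [hb]; field_simp; ring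
  have hp1 : 1 ≤ p := (Fact.out : p.Prime).one_le
  have hRP' : ∀ (j : ℕ) (c : kk p n) (ξ : E), Rr c (P^[j] ξ) = P^[j] (Rr (c ^ p ^ j) ξ) := by
    intro j
    induction j with
    | zero => simp
    | succ j ih =>
      intro c ξ
      rw [Function.iterate_succ_apply', hRP, ih, Function.iterate_succ_apply', ← pow_mul,
        ← pow_succ']
  have hfac : ‖1 + (p : C) * τ b ^ α₀‖ = 1 := by
    have h1 : ‖(p : C) * τ b ^ α₀‖ < 1 := by
      rwa [norm_mul, norm_pow, hτ b hb0, one_pow, mul_one]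
    rw [IsUltrametricDist.norm_add_eq_max_of_norm_ne_norm (by rw [norm_one]; exact h1.ne'),
      norm_one, max_eq_left h1.le]
  have hstep : ∀ N : ℕ, ∃ ξ, ‖Z α₀ (P^[N] ξ)‖ = ‖Z α₀ e‖ := by
    intro N
    induction N with
    | zero => exact ⟨e, rfl⟩
    | succ N ih =>
      obtain ⟨ξ, hξ⟩ := ih
      obtain ⟨ξ', hξ'⟩ := hlin (ξ + Rr (b ^ p ^ N) ξ + (p - 1) • Rr ((a * b) ^ p ^ N) ξ) (by
        have h1 : (1 : kk p n) + b ^ p ^ N - (a * b) ^ p ^ N = 0 := by
          have := congrArg (· ^ p ^ N) hab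
          simp only [sub_pow_char_pow, add_pow_char_pow, one_pow] at this
          rw [this, zero_pow (pow_pos (by omega) N).ne']
        rw [map_add, map_add, map_nsmul, hlinR, hlinR, nsmul_eq_mul, Nat.cast_sub hp1,
          CharP.cast_eq_zero, Nat.cast_one]
        linear_combination lin ξ * h1)
      refine ⟨ξ', ?_⟩
      rw [Function.iterate_succ_apply, ← hξ', iterate_map_add, iterate_map_add, iterate_map_nsmul,
        ← hRP', ← hRP', map_add, map_add, map_nsmul, hZR, hZR, map_mul, mul_pow, h, nsmul_eq_mul,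
        Nat.cast_sub hp1, Nat.cast_one, ← hξ]
      have : Z α₀ (P^[N] ξ) + τ b ^ α₀ * Z α₀ (P^[N] ξ) +
          ((p : C) - 1) * (1 * τ b ^ α₀ * Z α₀ (P^[N] ξ)) =
          (1 + (p : C) * τ b ^ α₀) * Z α₀ (P^[N] ξ) := by ring
      rw [this, norm_mul, hfac, one_mul]
  have hPn : ∀ (N : ℕ) (ξ : E), Z α₀ (P^[n * N] ξ) = (p : C) ^ N * Z α₀ ξ := by
    intro N
    induction N with
    | zero => simp
    | succ N ih =>
      intro ξ
      rw [Nat.mul_succ, add_comm, Function.iterate_add_apply, ← hZq, Span_iter P Z hZP, ih, pow_succ']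
      ring
  obtain ⟨B, hB⟩ := hB α₀
  have hle : ∀ N : ℕ, ‖Z α₀ e‖ ≤ ‖(p : C)‖ ^ N * B := by
    intro N
    obtain ⟨ξ, hξ⟩ := hstep (n * N)
    rw [← hξ, hPn, norm_mul, norm_pow]
    exact mul_le_mul_of_nonneg_left (hB ξ) (by positivity)
  have hlim := (tendsto_pow_atTop_nhds_zero_of_lt_one (norm_nonneg (p : C)) hp).mul_const B
  rw [zero_mul] at hlim
  exact he (norm_le_zero_iff.1 (ge_of_tendsto' hlim hle))

theorem span_eq_top (hn : 1 ≤ n) (τ : kk p n →* C) (hτ : ∀ a, a ≠ 0 → ‖τ a‖ = 1)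
    (hp : ‖(p : C)‖ < 1) (Rr : kk p n → E →+ E) (P : E →+ E) (lin : E →+ kk p n)
    (hRP : ∀ a ξ, Rr a (P ξ) = P (Rr (a ^ p) ξ)) (hlinR : ∀ a ξ, lin (Rr a ξ) = a * lin ξ)
    (hlin : ∀ ξ, lin ξ = 0 → ∃ ξ', ξ = P ξ') (Z : ℕ → E →+ C)
    (hZR : ∀ α a ξ, Z α (Rr a ξ) = τ a ^ α * Z α ξ) (hZP : ∀ α ξ, Z (p * α) (P ξ) = Z α ξ)
    (hZq : ∀ α ξ, (p : C) * Z (p ^ n * α) ξ = Z α ξ) (hB : ∀ α, ∃ B : ℝ, ∀ ξ, ‖Z α ξ‖ ≤ B)
    (e : E) (α₀ : ℕ) (he : Z α₀ e ≠ 0) :
    Submodule.span C (Set.range fun ξ : E => fun i : Fin n => Z (α₀ * p ^ (i : ℕ)) ξ) = ⊤ := by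
  classical
  by_contra hne
  obtain ⟨f, hf0, hf⟩ := Submodule.exists_le_ker_of_lt_top _ (lt_top_iff_ne_top.2 hne)
  have hp1 : 1 < p := (Fact.out : p.Prime).one_lt
  let χ : Fin n → ((kk p n)ˣ →* C) := fun i =>
    (powMonoidHom (α₀ * p ^ (i : ℕ))).comp (τ.comp (Units.coeHom (kk p n)))
  obtain ⟨g, hg⟩ := IsCyclic.exists_ofOrder_eq_natCard (α := (kk p n)ˣ)
  rw [Nat.card_units, GaloisField.card p n (by omega)] at hg
  have hlt : ∀ i j : Fin n, j < i → χ i ≠ χ j := by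
    intro i j hij hχ
    have h1 : τ g ^ (α₀ * p ^ (i : ℕ)) = τ g ^ (α₀ * p ^ (j : ℕ)) := DFunLike.congr_fun hχ g
    have h2 : p ^ (j : ℕ) < p ^ (i : ℕ) := Nat.pow_lt_pow_right hp1 hij
    have h3 : p ^ (i : ℕ) < p ^ n := Nat.pow_lt_pow_right hp1 i.2
    have h4 : 0 < p ^ (j : ℕ) := pow_pos (by omega) _
    have hτ0 : τ g ≠ 0 := by
      intro h0
      have := hτ g g.ne_zero
      rw [h0, norm_zero] at this
      exact zero_ne_one this
    obtain ⟨d, hd⟩ := Nat.exists_eq_add_of_lt h2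
    have h5 : τ ((g : kk p n) ^ (d + 1)) ^ α₀ = 1 := by
      rw [hd, add_assoc, mul_add, pow_add] at h1
      have := mul_left_cancel₀ (pow_ne_zero _ hτ0) (h1.trans (mul_one _).symm)
      rw [map_pow, ← pow_mul, mul_comm, this]
    have h6 := teich_pow_inj hn τ hτ hp Rr P lin hRP hlinR hlin Z hZR hZP hZq hB e α₀ he
      (pow_ne_zero _ g.ne_zero) h5
    have h7 : g ^ (d + 1) = 1 := Units.ext (by simpa using h6)
    have h8 := Nat.le_of_dvd (Nat.succ_pos d) (orderOf_dvd_of_pow_eq_one h7)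
    omega
  have hinj : Function.Injective χ := by
    intro i j hij
    rcases lt_trichotomy i j with h | h | h
    · exact absurd hij.symm (hlt j i h)
    · exact h
    · exact absurd hij (hlt i j h)
  have hli := Fintype.linearIndependent_iff.1
    ((linearIndependent_monoidHom (kk p n)ˣ C).comp χ hinj)
  have hsum : ∀ ξ, ∑ i : Fin n, Z (α₀ * p ^ (i : ℕ)) ξ * f (fun j => if i = j then 1 else 0) = 0 := by
    intro ξ
    have := hf (Submodule.subset_span ⟨ξ, rfl⟩)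
    rw [LinearMap.mem_ker, LinearMap.pi_apply_eq_sum_univ] at this
    simpa only [smul_eq_mul] using this
  have hzero : ∀ i : Fin n, f (fun j => if i = j then 1 else 0) = 0 := by
    intro i
    have := hli (fun k => Z (α₀ * p ^ (k : ℕ)) (P^[i] e) * f (fun j => if k = j then 1 else 0)) (by
      funext a
      have h1 := hsum (Rr a (P^[i] e))
      simp only [hZR] at h1
      rw [Finset.sum_apply, Pi.zero_apply]
      refine Eq.trans (Finset.sum_congr rfl fun k _ => ?_) h1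
      simp [χ]
      ring) i
    rw [mul_comm α₀, Span_iter P Z hZP] at this
    exact (mul_eq_zero.1 this).resolve_left he
  refine hf0 (LinearMap.ext fun x => ?_)
  rw [LinearMap.pi_apply_eq_sum_univ]
  simp [hzero]

end Crest.Agent.R227
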