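import Crest.Agent.R227.Pts
import Crest.Agent.R227.Moore
import Crest.Agent.R227.LT1

/-!
# R227 / Theta: the Honda group linearised in Witt vectors

`Theta n J z = ∑_{i ≤ J} p ^ (J - i) [z ^ (q ^ i)]` is additive on points of the Honda law modulo
`([c ^ q ^ (J+1)], p ^ (J+1))`; `thetaF` is a "`p ^ J`-th root" of it defined over any ring.

Recipe.
* `frobenius_iter_thetaF`: `frobenius` commutes with `verschiebung` in characteristic `p`
  (`WittVector.verschiebung_frobenius_comm`), `frobenius [z] = [z ^ p]` (ext, `coeff_frobenius_charP`),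
  `iterate_verschiebung_iterate_frobenius`.
* `coeff_teich_mul`: write `y ≡ ∑_{i ≤ J} [y_i ^ (1/p^i)] p ^ i` mod `p ^ (J+1)`
  (`WittVector.dvd_sub_sum_teichmuller_iterateFrobeniusEquiv_coeff`), multiply by `[c]`, and read
  the coefficient with `sum_coeff_eq_coeff_sum`, `teichmuller_mul_pow_coeff(_of_ne)`;
  `coeff_add_of_dvd` from `le_coeff_eq_iff_le_sub_coeff_eq_zero`, `mul_pow_charP_coeff_zero`.
* `dvd_coeff_add_teich_mul`: apply `WittVector.map (Ideal.Quotient.mk (span {d}))`.
* `Theta_add`: `N = q ^ (J+1)`, `FN = truncTotal N D.F` (a polynomial).  The polynomial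
  `P = PJ FN - (PJ (X 0) + PJ (X 1))` has no coefficient in degree `< N` (`D.honda`; `FN ≡ F` below
  degree `N`, so `PJ FN ≡ PJ F`: `PJ_sub_dvd` and orders).  With `jW = WittVector.map ιO`,
  `a = c a₁`, `b = c b₁` (`dvd_of_norm_le`), each monomial of `P` evaluated at `[a], [b]` is divisible
  by `[c] ^ N`.  `A = eval₂ jW ![[a],[b]] FN` has `constantCoeff A = eval₂ ιO ![a,b] (FN mod p)`, which
  differs from `(a + b).val = ev ι ![a,b] D.G` by `c ^ N * e`, `e ∈ O` (`ev_coe`, `ev_sub`,
  `norm_ev_le_pow` with `ρ = ‖c‖`, `D.red`).  So `p ∣ [(a+b).val] - (A + [c ^ N] * [e])`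
  (`WittVector.mem_span_p_iff_coeff_zero_eq_zero`), then `PJ_cong`, `PJ_sub_dvd`.
* `Theta_sum`: induction on the finset with `Pts.norm_sum_le`.
-/

set_option autoImplicit false
set_option linter.unusedSectionVars false
noncomputable section
open Crest.LubinTate

namespace Crest.Agent.R227

variable (p : ℕ) [Fact p.Prime]

section Formal
variable {A B : Type*} [CommRing A] [CommRing B]

/-- `p ^ J` times the truncated Honda logarithm of the Teichmüller lift. -/
def Theta (n J : ℕ) (z : A) : WittVector p A := PJ p n J (WittVector.teichmuller p z)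

/-- The Witt vector `∑_{i ≤ J} V ^ (J - i) [z ^ ((q / p) ^ i)]`. -/
def thetaF (n J : ℕ) (z : A) : WittVector p A :=
  ∑ i ∈ Finset.range (J + 1),
    (WittVector.verschiebung : WittVector p A → WittVector p A)^[J - i]
      (WittVector.teichmuller p (z ^ ((p ^ (n - 1)) ^ i)))

theorem Theta_map_iter_versch (f : A →+* B) (m : ℕ) (x : WittVector p A) :
    WittVector.map f ((WittVector.verschiebung : WittVector p A → WittVector p A)^[m] x) =
      (WittVector.verschiebung : WittVector p B → WittVector p B)^[m] (WittVector.map f x) := by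
  induction m with
  | zero => rfl
  | succ m ih =>
    rw [Function.iterate_succ_apply', Function.iterate_succ_apply', WittVector.map_verschiebung, ih]

theorem Theta_frob_teich [CharP A p] (z : A) :
    WittVector.frobenius (WittVector.teichmuller p z) = WittVector.teichmuller p (z ^ p) := by
  ext i
  rw [WittVector.coeff_frobenius_charP]
  rcases i with _ | i
  · rfl
  · rw [WittVector.teichmuller_coeff_pos _ _ _ i.succ_pos,
      WittVector.teichmuller_coeff_pos _ _ _ i.succ_pos, zero_pow (Fact.out : p.Prime).ne_zero]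

theorem Theta_frob_iter_teich [CharP A p] (m : ℕ) (z : A) :
    (WittVector.frobenius : WittVector p A → WittVector p A)^[m] (WittVector.teichmuller p z) =
      WittVector.teichmuller p (z ^ p ^ m) := by
  induction m with
  | zero => simp
  | succ m ih => rw [Function.iterate_succ_apply', ih, Theta_frob_teich, ← pow_mul, ← pow_succ]

theorem Theta_frob_iter_sum (m : ℕ) {T : Type*} (s : Finset T) (x : T → WittVector p A) :
    (WittVector.frobenius : WittVector p A → WittVector p A)^[m] (∑ i ∈ s, x i) =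
      ∑ i ∈ s, (WittVector.frobenius : WittVector p A → WittVector p A)^[m] (x i) := by
  induction m with
  | zero => rfl
  | succ m ih => simp only [Function.iterate_succ_apply', ih, map_sum]

omit [Fact p.Prime] in
theorem Theta_map_PJ (f : A →+* B) (n J : ℕ) (a : A) : f (PJ p n J a) = PJ p n J (f a) := by
  simp [PJ]

theorem map_thetaF (f : A →+* B) (n J : ℕ) (z : A) :
    WittVector.map f (thetaF p n J z) = thetaF p n J (f z) := by
  simp only [thetaF, map_sum, Theta_map_iter_versch, WittVector.map_teichmuller, map_pow f]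

theorem Theta_eq (n J : ℕ) (z : A) : Theta p n J z =
    ∑ i ∈ Finset.range (J + 1),
      (p : WittVector p A) ^ (J - i) * WittVector.teichmuller p (z ^ (p ^ (n * i))) := by
  simp only [Theta, PJ, map_pow, pow_mul p]

theorem frobenius_iter_thetaF [CharP A p] {n : ℕ} (hn : 1 ≤ n) (J : ℕ) (z : A) :
    (WittVector.frobenius : WittVector p A → WittVector p A)^[J] (thetaF p n J z) =
      Theta p n J z := by
  rw [Theta_eq, thetaF, Theta_frob_iter_sum]
  refine Finset.sum_congr rfl fun i hi => ?_
  have hi' : i ≤ J := Nat.lt_succ_iff.1 (Finset.mem_range.1 hi)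
  have hc := (WittVector.verschiebung_frobenius_comm (p := p) (R := A)).iterate_iterate (J - i) J
  rw [← hc.eq]
  have e : J = (J - i) + i := by omega
  have e2 : (WittVector.frobenius : WittVector p A → WittVector p A)^[J] =
      (WittVector.frobenius : WittVector p A → WittVector p A)^[J - i] ∘
        (WittVector.frobenius : WittVector p A → WittVector p A)^[i] := by
    rw [← Function.iterate_add, ← e]
  rw [e2, Function.comp_apply, WittVector.iterate_verschiebung_iterate_frobenius,
    Theta_frob_iter_teich, mul_comm, ← pow_mul, ← pow_mul, ← pow_add]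
  congr 4
  obtain ⟨m, rfl⟩ : ∃ m, n = m + 1 := ⟨n - 1, by omega⟩
  rw [Nat.add_sub_cancel]
  ring

theorem Theta_zero (n J : ℕ) : Theta p n J (0 : A) = 0 := by
  rw [Theta_eq]
  refine Finset.sum_eq_zero fun i _ => ?_
  rw [zero_pow (pow_ne_zero _ (Fact.out : p.Prime).ne_zero), WittVector.teichmuller_zero, mul_zero]

theorem Theta_smul (n J : ℕ) {a : A} (ha : a ^ (p ^ n) = a) (z : A) :
    Theta p n J (a * z) = WittVector.teichmuller p a * Theta p n J z := by
  have h : ∀ i : ℕ, a ^ (p ^ (n * i)) = a := fun i => by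
    induction i with
    | zero => simp
    | succ i ih => rw [Nat.mul_succ, pow_add, pow_mul, ih, ha]
  rw [Theta_eq, Theta_eq, Finset.mul_sum]
  refine Finset.sum_congr rfl fun i _ => ?_
  rw [mul_pow, h, map_mul]
  ring

omit [Fact p.Prime] in
theorem PJ_sub_dvd (n J : ℕ) (a b : A) : a - b ∣ PJ p n J a - PJ p n J b := by
  rw [PJ, PJ, ← Finset.sum_sub_distrib]
  refine Finset.dvd_sum fun i _ => ?_
  rw [← mul_sub]
  exact Dvd.dvd.mul_left (sub_dvd_pow_sub_pow _ _ _) _

omit [Fact p.Prime] in
theorem PJ_cong {n : ℕ} (hn : 1 ≤ n) (J : ℕ) {a b : A} (h : (p : A) ∣ a - b) :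
    (p : A) ^ (J + 1) ∣ PJ p n J a - PJ p n J b := by
  rw [PJ, PJ, ← Finset.sum_sub_distrib]
  refine Finset.dvd_sum fun i hi => ?_
  have hi' : i ≤ J := Nat.lt_succ_iff.1 (Finset.mem_range.1 hi)
  rw [← mul_sub, ← pow_mul]
  have h1 := dvd_sub_pow_of_dvd_sub h (n * i)
  have h2 : (p : A) ^ (i + 1) ∣ (p : A) ^ (n * i + 1) :=
    pow_dvd_pow _ (by nlinarith)
  have e : J + 1 = (J - i) + (i + 1) := by omega
  rw [e, pow_add]
  exact mul_dvd_mul_left _ (h2.trans h1)

theorem coeff_add_of_dvd [CharP A p] (x y : WittVector p A) (J : ℕ)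
    (h : (p : WittVector p A) ^ (J + 1) ∣ y) : (x + y).coeff J = x.coeff J := by
  obtain ⟨u, rfl⟩ := h
  refine (WittVector.le_coeff_eq_iff_le_sub_coeff_eq_zero (n := J + 1)).2 (fun i hi => ?_) J
    (Nat.lt_succ_self J)
  rw [add_sub_cancel_left, mul_comm]
  exact WittVector.mul_pow_charP_coeff_zero u hi

theorem Theta_coeff_teich_add (c : A) (w : WittVector p A) (i : ℕ) :
    (WittVector.teichmuller p c + WittVector.verschiebung w).coeff (i + 1) = w.coeff i := by
  rw [WittVector.coeff_add_of_disjoint, WittVector.teichmuller_coeff_pos _ _ _ i.succ_pos, zero_add,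
    WittVector.verschiebung_coeff_add_one]
  rintro (_ | j)
  · exact Or.inr rfl
  · exact Or.inl (WittVector.teichmuller_coeff_pos _ _ _ j.succ_pos)

theorem Theta_decomp (y : WittVector p A) : ∃ w : WittVector p A,
    y = WittVector.teichmuller p (y.coeff 0) + WittVector.verschiebung w := by
  refine ⟨WittVector.mk p fun i => y.coeff (i + 1), ?_⟩
  ext i
  rcases i with _ | i
  · rw [WittVector.add_coeff_zero, WittVector.teichmuller_coeff_zero,
      WittVector.verschiebung_coeff_zero, add_zero]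
  · rw [Theta_coeff_teich_add]
    rfl

theorem coeff_teich_mul [CharP A p] [PerfectRing A p] (c : A) (y : WittVector p A) (J : ℕ) :
    (WittVector.teichmuller p c * y).coeff J = c ^ (p ^ J) * y.coeff J := by
  induction J generalizing c y with
  | zero => rw [WittVector.mul_coeff_zero, WittVector.teichmuller_coeff_zero, pow_zero, pow_one]
  | succ J ih =>
    obtain ⟨w, hw⟩ := Theta_decomp p y
    have h1 : y.coeff (J + 1) = w.coeff J := by
      conv_lhs => rw [hw]
      exact Theta_coeff_teich_add p _ w J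
    have h2 : WittVector.teichmuller p c * y = WittVector.teichmuller p (c * y.coeff 0) +
        WittVector.verschiebung (WittVector.teichmuller p (c ^ p) * w) := by
      conv_lhs => rw [hw]
      rw [mul_add, map_mul, ← Theta_frob_teich, mul_comm (WittVector.frobenius _),
        WittVector.verschiebung_mul_frobenius, mul_comm (WittVector.verschiebung w)]
    rw [h2, Theta_coeff_teich_add, ih, h1, ← pow_mul, ← pow_succ']

theorem coeff_p_pow_mul [CharP A p] (u : WittVector p A) (J : ℕ) :
    ((p : WittVector p A) ^ J * u).coeff J = u.coeff 0 ^ (p ^ J) := by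
  have h := WittVector.mul_pow_charP_coeff_succ u (m := 0) (n := J)
  rwa [zero_add, mul_comm] at h

theorem dvd_coeff_add_teich_mul (x y : WittVector p A) (d : A) (J : ℕ) :
    d ∣ (x + WittVector.teichmuller p d * y).coeff J - x.coeff J := by
  rw [← Ideal.mem_span_singleton, ← Ideal.Quotient.eq, ← WittVector.map_coeff,
    ← WittVector.map_coeff, map_add, map_mul, WittVector.map_teichmuller,
    Ideal.Quotient.eq_zero_iff_mem.2 (Ideal.mem_span_singleton_self d),
    WittVector.teichmuller_zero, zero_mul, add_zero]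

end Formal

variable {C : Type*} [NormedField C] [IsUltrametricDist C] [CompleteSpace C] [IsAlgClosed C]
  [CharP C p]

instance perfectRing_Ob : PerfectRing (Ob C) p := by
  have hp : p.Prime := Fact.out
  refine ⟨fun a b h => ?_, fun a => ?_⟩
  · have h1 : (a : C) ^ p = (b : C) ^ p := by exact_mod_cast congrArg Subtype.val h
    exact Subtype.ext (frobenius_inj C p h1)
  · obtain ⟨z, hz⟩ := IsAlgClosed.exists_pow_nat_eq (a : C) hp.pos
    have h1 : ‖z‖ ≤ 1 := by
      have h2 : ‖z‖ ^ p ≤ 1 := by rw [← norm_pow, hz]; exact a.2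
      exact (pow_le_one_iff_of_nonneg (norm_nonneg _) hp.ne_zero).1 h2
    exact ⟨⟨z, h1⟩, Subtype.ext hz⟩

/-- A point as an element of the unit ball. -/
def Pts.toO {R : Type*} [CommRing R] {F : FormalGroup R} {x : R →+* C} {hx : ∀ r, ‖x r‖ ≤ 1}
    (a : Pts F x hx) : Ob C := ⟨a.val, a.prop.le⟩

@[simp] theorem Pts.coe_toO {R : Type*} [CommRing R] {F : FormalGroup R} {x : R →+* C}
    {hx : ∀ r, ‖x r‖ ≤ 1} (a : Pts F x hx) : (a.toO : C) = a.val := rfl

variable {p} {n : ℕ}

/-- The truncation of a Honda law is additive for `PJ` below degree `q ^ (J+1)`. -/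
theorem Theta_trunc_mem (D : Honda p n) (J : ℕ) :
    PJ p n J (MvPowerSeries.truncTotal ((p ^ n) ^ (J + 1)) D.F.toPowerSeries) -
      (PJ p n J (MvPolynomial.X 0 : MvPolynomial (Fin 2) (WW p n)) + PJ p n J (MvPolynomial.X 1)) ∈
      MvPolynomial.idealOfVars (Fin 2) (WW p n) ^ ((p ^ n) ^ (J + 1)) := by
  set N := (p ^ n) ^ (J + 1) with hN
  let φ := (MvPowerSeries.truncTotalAlgHom (Fin 2) (WW p n) N).toRingHom
  let π := Ideal.Quotient.mk (MvPolynomial.idealOfVars (Fin 2) (WW p n) ^ N)
  have hφ : ∀ f, φ f = π (MvPowerSeries.truncTotal N f) := fun f => rfl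
  have hX : ∀ i, φ (MvPowerSeries.X i) = π (MvPolynomial.X i) := fun i => by
    rw [hφ, Ideal.Quotient.eq, MvPolynomial.mem_pow_idealOfVars_iff']
    intro d hd
    rw [MvPolynomial.coeff_sub, MvPowerSeries.coeff_truncTotal _ hd, ← MvPolynomial.coe_X,
      MvPolynomial.coeff_coe, sub_self]
  have h1 : φ (PJ p n J D.F.toPowerSeries) =
      φ (PJ p n J (MvPowerSeries.X 0) + PJ p n J (MvPowerSeries.X 1)) := by
    rw [hφ, hφ, Ideal.Quotient.eq, MvPolynomial.mem_pow_idealOfVars_iff']
    intro d hd
    rw [MvPolynomial.coeff_sub, MvPowerSeries.coeff_truncTotal _ hd,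
      MvPowerSeries.coeff_truncTotal _ hd, D.honda J d hd, sub_self]
  rw [map_add, Theta_map_PJ, Theta_map_PJ, Theta_map_PJ, hX, hX, hφ, ← Theta_map_PJ,
    ← Theta_map_PJ, ← Theta_map_PJ, ← map_add] at h1
  exact Ideal.Quotient.eq.1 h1

theorem Theta_add (hn : 1 ≤ n) (D : Honda p n) (ι : kk p n →+* C) (J : ℕ) (c : Ob C)
    (a b : Pts D.G ι (norm_kmap_le ι)) (ha : ‖a.val‖ ≤ ‖(c : C)‖) (hb : ‖b.val‖ ≤ ‖(c : C)‖) :
    Theta p n J (a + b).toO - (Theta p n J a.toO + Theta p n J b.toO) ∈
      Ideal.span {WittVector.teichmuller p (c ^ ((p ^ n) ^ (J + 1))),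
        (p : WittVector p (Ob C)) ^ (J + 1)} := by
  set N := (p ^ n) ^ (J + 1) with hN
  let ιO : kk p n →+* Ob C := ι.codRestrict (Ob C) (norm_kmap_le ι)
  let jW : WW p n →+* WittVector p (Ob C) := WittVector.map ιO
  let v : Fin 2 → Ob C := ![a.toO, b.toO]
  let E : MvPolynomial (Fin 2) (WW p n) →+* WittVector p (Ob C) :=
    MvPolynomial.eval₂Hom jW fun i => WittVector.teichmuller p (v i)
  have hEX : ∀ i, E (MvPolynomial.X i) = WittVector.teichmuller p (v i) := fun i =>
    MvPolynomial.eval₂Hom_X' _ _ _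
  have hv : ∀ i, ‖(v i : C)‖ ≤ ‖(c : C)‖ := fun i => by fin_cases i; exacts [ha, hb]
  have hv1 : ∀ i, ‖(v i : C)‖ < 1 := fun i => by fin_cases i; exacts [a.prop, b.prop]
  set FN := MvPowerSeries.truncTotal N D.F.toPowerSeries with hFN
  -- step 1: additivity on the truncation
  have hI : Ideal.map E (MvPolynomial.idealOfVars (Fin 2) (WW p n)) ≤
      Ideal.span {WittVector.teichmuller p c} := by
    rw [Ideal.map_span, Ideal.span_le]
    rintro _ ⟨_, ⟨i, rfl⟩, rfl⟩
    obtain ⟨e, he⟩ := dvd_of_norm_le (hv i)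
    rw [SetLike.mem_coe, hEX, he, map_mul, Ideal.mem_span_singleton]
    exact dvd_mul_right _ _
  have h1 : WittVector.teichmuller p (c ^ N) ∣
      PJ p n J (E FN) - (Theta p n J a.toO + Theta p n J b.toO) := by
    have h := Ideal.mem_map_of_mem E (Theta_trunc_mem D J)
    rw [Ideal.map_pow] at h
    have h' := Ideal.pow_right_mono hI N h
    rw [Ideal.span_singleton_pow, Ideal.mem_span_singleton, map_sub, map_add, Theta_map_PJ,
      Theta_map_PJ, Theta_map_PJ, hEX, hEX] at h'
    rw [map_pow]
    exact h'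
  -- step 2: the constant coefficient
  have hx : ∀ r, ‖(ι.comp (resW p n)) r‖ ≤ 1 := fun r => norm_kmap_le ι _
  have hcomp : (Ob C).subtype.comp (WittVector.constantCoeff.comp E) =
      MvPolynomial.eval₂Hom (ι.comp (resW p n)) fun i => (v i : C) := by
    refine MvPolynomial.ringHom_ext (fun r => ?_) (fun i => ?_)
    · simp only [RingHom.comp_apply, E, MvPolynomial.eval₂Hom_C]
      rfl
    · simp only [RingHom.comp_apply, hEX, MvPolynomial.eval₂Hom_X']
      rfl
  have h2 : (((E FN).coeff 0 : Ob C) : C) =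
      ev (ι.comp (resW p n)) (fun i => (v i : C)) (FN : MvPowerSeries (Fin 2) (WW p n)) := by
    rw [ev_coe]
    exact RingHom.congr_fun hcomp FN
  have h3 : (a + b).val = ev (ι.comp (resW p n)) (fun i => (v i : C)) D.F.toPowerSeries := by
    rw [Pts.add_val, ← ev_map]
    congr 1
    · funext i
      fin_cases i <;> rfl
    · rw [← D.red]
      rfl
  have h4 : c ^ N ∣ (a + b).toO - (E FN).coeff 0 := by
    refine dvd_of_norm_le ?_
    have h := Eval_trunc (ι.comp (resW p n)) hx (fun i => (v i : C)) hv1 (norm_nonneg _) c.2 hv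
      D.F.toPowerSeries N
    rw [← h2, ← h3] at h
    simpa using h
  obtain ⟨e, he⟩ := h4
  have h5 : (p : WittVector p (Ob C)) ∣ WittVector.teichmuller p (a + b).toO -
      (E FN + WittVector.teichmuller p (c ^ N) * WittVector.teichmuller p e) := by
    rw [← Ideal.mem_span_singleton, ← WittVector.ker_constantCoeff, RingHom.mem_ker, map_sub,
      map_add, map_mul]
    change (a + b).toO - ((E FN).coeff 0 + c ^ N * e) = 0
    rw [← he]
    ring
  have h6 := PJ_cong p hn J h5
  have h7 := PJ_sub_dvd p n J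
    (E FN + WittVector.teichmuller p (c ^ N) * WittVector.teichmuller p e) (E FN)
  rw [add_sub_cancel_left] at h7
  have h8 := (dvd_mul_right _ _).trans h7
  obtain ⟨u1, hu1⟩ := h1
  obtain ⟨u2, hu2⟩ := h6
  obtain ⟨u3, hu3⟩ := h8
  rw [Ideal.mem_span_pair]
  refine ⟨u1 + u3, u2, ?_⟩
  rw [Theta]
  linear_combination -hu1 - hu2 - hu3

theorem Theta_sum (hn : 1 ≤ n) (D : Honda p n) (ι : kk p n →+* C) (J : ℕ) (c : Ob C)
    {T : Type*} (s : Finset T) (a : T → Pts D.G ι (norm_kmap_le ι))
    (ha : ∀ i ∈ s, ‖(a i).val‖ ≤ ‖(c : C)‖) :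
    Theta p n J (∑ i ∈ s, a i).toO - ∑ i ∈ s, Theta p n J (a i).toO ∈
      Ideal.span {WittVector.teichmuller p (c ^ ((p ^ n) ^ (J + 1))),
        (p : WittVector p (Ob C)) ^ (J + 1)} := by
  classical
  induction s using Finset.induction_on with
  | empty =>
    have h0 : (0 : Pts D.G ι (norm_kmap_le ι)).toO = 0 := rfl
    rw [Finset.sum_empty, Finset.sum_empty, h0, Theta_zero, sub_zero]
    exact Ideal.zero_mem _
  | insert i s hi ih =>
    have hs : ∀ j ∈ s, ‖(a j).val‖ ≤ ‖(c : C)‖ := fun j hj => ha j (Finset.mem_insert_of_mem hj)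
    have h1 := Theta_add hn D ι J c (a i) (∑ j ∈ s, a j) (ha i (Finset.mem_insert_self _ _))
      (Pts.norm_sum_le s a (norm_nonneg _) hs)
    have h2 := Ideal.add_mem _ h1 (ih hs)
    rw [Finset.sum_insert hi, Finset.sum_insert hi]
    convert h2 using 1
    ring

end Crest.Agent.R227
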