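import Crest.Agent.R227.Span
import Crest.Agent.R227.Honda
import Crest.Agent.R227.Weier
import Crest.Agent.R227.Moore

/-!
# R227 / Zfun: Gross–Hopkins periods at a point of characteristic zero

`lz z = (logS x H) (x z)` for `z ∈ E₀⟦X⟧` without constant term.

`log_est`: work over `A = Ob C`, `K = C`, `j = subtype`, `F = H.map xO` (`xO = x.codRestrict`),
`logS j F = logS x H` (`logS_map`), `𝔞 = {a | ‖a‖ ≤ ρ}` (an ideal; `ρ` from `exists_rho`;
`‖a‖ ≤ ρ ^ (N+1)` on `𝔞 ^ (N+1)` by `norm_le_pow_of_mem_pow`), `N` with `ρ ^ (N+1) ≤ ‖p‖`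
(`dvd_of_norm_le`), `B = ‖p‖⁻¹ ^ N`.  Integers prime to `p` are units of `A` because they are units
of `E₀` (`isUnit_natCast_LT`).  First part: `log_bdd`; second part: `log_coeff_step` with
`pow_card_eq_expand` (reduce along `residue`: `z ^ q - expand q z ∈ cI mm`).

`exists_Z`: for `ξ` choose a lift `z` (`exists_lift_series`); `s m = p ^ m * coeff (q ^ m α) (lz z)` has
`‖s (m+1) - s m‖ ≤ ‖p‖ ^ m B`, so it converges (`cauchySeq_of_le_geometric`), to a limit `Z α ξ` with
`‖s m - Z α ξ‖ ≤ ‖p‖ ^ m B` (ultrametric: `‖s m' - s m‖ ≤ ‖p‖ ^ m B` for `m' ≥ m`); the estimate holds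
for every other lift by the first part of `log_est`.  Additivity: use the lift
`H(z, z')` (`logS_add`, `map_subst`, `S.redH`) and the uniqueness principle
`(∀ m, ‖u - v‖ ≤ ‖p‖ ^ m B') → u = v`.
Non-vanishing: if `Z α X = 0` for all `α` then all coefficients of `l = logS x H` have norm `≤ B`;
let `μ` be the supremum of their norms (`≥ 1`).  `l([p]) = p l` (`logS_comp_hom`), and
`[p] = X ^ q + r` with `‖r_i‖ ≤ ρ`, so the coefficients of `l([p]) - l(X ^ q)`, finite sums of
`l_d * coeff ([p] ^ d - (X ^ q) ^ d)`, have norm `≤ μ ρ`; hence `‖l_d‖ ≤ max (‖p‖ μ) (μ ρ)` for all `d`,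
contradicting `‖p‖, ρ < 1`.
-/

set_option autoImplicit false
set_option linter.unusedSectionVars false
set_option linter.unusedVariables false
noncomputable section
open Crest.LubinTate

namespace Crest.Agent.R227

variable {p : ℕ} [Fact p.Prime] {n : ℕ} {C : Type*} [NormedField C] [IsUltrametricDist C]
  [CompleteSpace C] [CharZero C]

/-- `log_{H_x} (x z)`. -/
def lz (S : Setup p n) (x : LTRing p n →+* C) (z : PowerSeries (LTRing p n)) : PowerSeries C :=
  PowerSeries.subst (PowerSeries.map x z) (logS x S.H)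

/-- The identity endomorphism. -/
def idEnd (D : Honda p n) : homs D.G D.G := ⟨varPt D.G (), hom_X D.G⟩

theorem zf_coeff_mem {z z' : PowerSeries (LTRing p n)}
    (h : PowerSeries.map (LTRing.residue p n) z = PowerSeries.map (LTRing.residue p n) z')
    (d : Unit →₀ ℕ) : MvPowerSeries.coeff d (z - z') ∈ mm p n := by
  have h1 : PowerSeries.map (LTRing.residue p n) (z - z') = 0 := by rw [map_sub, h, sub_self]
  exact congrArg (MvPowerSeries.coeff d) h1

theorem zf_pser (S : Setup p n) : PowerSeries.map (LTRing.residue p n) (mulSeries S.H p) =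
    PowerSeries.map (LTRing.residue p n) (PowerSeries.X ^ (p ^ n)) := by
  rw [← mulSeries_map, S.redH, S.pser, map_pow, PowerSeries.map_X]

theorem zf_tri {a b c : C} {r : ℝ} (h1 : ‖a - b‖ ≤ r) (h2 : ‖b - c‖ ≤ r) : ‖a - c‖ ≤ r := by
  rw [← sub_add_sub_cancel a b c]
  exact (IsUltrametricDist.norm_add_le_max _ _).trans (max_le h1 h2)

theorem zf_lim {s : ℕ → C} {r B : ℝ} (h0 : 0 ≤ r) (h1 : r < 1) (hB : 0 ≤ B)
    (h : ∀ m, ‖s (m + 1) - s m‖ ≤ r ^ m * B) : ∃ y, ∀ m, ‖s m - y‖ ≤ r ^ m * B := by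
  obtain ⟨y, hy⟩ := cauchySeq_tendsto_of_complete
    (cauchySeq_of_le_geometric r B h1 (f := s) fun m => by
      rw [dist_comm, dist_eq_norm, mul_comm]
      exact h m)
  refine ⟨y, fun m => le_of_tendsto (hy.const_sub (s m)).norm
    (Filter.eventually_atTop.2 ⟨m, fun k hk => ?_⟩)⟩
  induction k, hk using Nat.le_induction with
  | base => simpa using by positivity
  | succ k hk ih =>
    exact zf_tri ih ((norm_sub_rev _ _).trans_le ((h k).trans
      (mul_le_mul_of_nonneg_right (pow_le_pow_of_le_one h0 h1.le hk) hB)))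

theorem log_est (hn : 1 ≤ n) (S : Setup p n) (x : LTRing p n →+* C) (hx : ∀ a, ‖x a‖ ≤ 1)
    (hxm : ∀ a ∈ mm p n, ‖x a‖ < 1) :
    ∃ B : ℝ, 0 ≤ B ∧
      (∀ z z' : PowerSeries (LTRing p n), PowerSeries.constantCoeff z = 0 →
        PowerSeries.constantCoeff z' = 0 →
        PowerSeries.map (LTRing.residue p n) z = PowerSeries.map (LTRing.residue p n) z' →
        ∀ d, ‖PowerSeries.coeff d (lz S x z) - PowerSeries.coeff d (lz S x z')‖ ≤ B) ∧
      ∀ z : PowerSeries (LTRing p n), PowerSeries.constantCoeff z = 0 → ∀ d,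
        ‖(p : C) * PowerSeries.coeff (p ^ n * d) (lz S x z) - PowerSeries.coeff d (lz S x z)‖ ≤
          B := by
  obtain ⟨ρ, hρ0, hρ1, hρ⟩ := exists_rho x hx hxm
  have hp0 : 0 < ‖(p : C)‖ := norm_pos_iff.2 (Nat.cast_ne_zero.2 (Fact.out : p.Prime).ne_zero)
  obtain ⟨N, hN⟩ := exists_pow_lt_of_lt_one hp0 hρ1
  let xO : LTRing p n →+* Ob C := x.codRestrict (Ob C) fun a => hx a
  have hxO : (Ob C).subtype.comp xO = x := RingHom.ext fun _ => rfl
  let 𝔞 : Ideal (Ob C) :=
    { carrier := {a | ‖(a : C)‖ ≤ ρ}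
      add_mem' := fun {a b} ha hb => (IsUltrametricDist.norm_add_le_max (a : C) b).trans (max_le ha hb)
      zero_mem' := by simpa using hρ0.le
      smul_mem' := fun c a ha => by
        change ‖(c : C) * a‖ ≤ ρ
        rw [norm_mul]
        exact (mul_le_of_le_one_left (norm_nonneg _) c.2).trans ha }
  have hc : ∀ z z' : PowerSeries (LTRing p n),
      PowerSeries.map (LTRing.residue p n) z = PowerSeries.map (LTRing.residue p n) z' →
      PowerSeries.map xO z - PowerSeries.map xO z' ∈ cI Unit 𝔞 := fun z z' h => by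
    rw [← map_sub]
    exact mem_cI.2 fun d => hρ _ (zf_coeff_mem h d)
  have hA : ∀ d : ℕ, ¬ p ∣ d → IsUnit (d : Ob C) := fun d hd => by
    simpa using (isUnit_natCast_LT p n hd).map xO
  have hF : mulSeries (S.H.map xO) p - PowerSeries.X ^ (p ^ n) ∈ cI Unit 𝔞 := by
    have := hc _ _ (zf_pser S)
    rwa [← mulSeries_map, map_pow, PowerSeries.map_X] at this
  have h𝔞 : 𝔞 ^ (N + 1) ≤ Ideal.span {(p : Ob C)} := fun a ha => by
    have h1 := norm_le_pow_of_mem_pow (Ob C).subtype Ob_le_one (I := 𝔞) (ρ := ρ) (fun _ h => h) _ a ha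
    refine Ideal.mem_span_singleton.2 (dvd_of_norm_le (h1.trans ?_))
    exact (pow_le_pow_of_le_one hρ0.le hρ1.le (Nat.le_succ N)).trans hN.le
  have hb : ∀ (y : C) (c : Ob C), (p : C) ^ N * y = (p : C) * (Ob C).subtype c →
      ‖y‖ ≤ ‖(p : C)‖ / ‖(p : C)‖ ^ N := fun y c h => by
    have h1 := congrArg norm h
    rw [norm_mul, norm_mul, norm_pow] at h1
    rw [le_div_iff₀' (by positivity), h1]
    exact mul_le_of_le_one_right hp0.le (Ob_le_one c)
  have hl : ∀ z, lz S x z = PowerSeries.subst (PowerSeries.map (Ob C).subtype (PowerSeries.map xO z))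
      (logS (Ob C).subtype (S.H.map xO)) := fun z => by
    rw [logS_map, hxO]
    rfl
  have h0 : ∀ z : PowerSeries (LTRing p n), PowerSeries.constantCoeff z = 0 →
      PowerSeries.constantCoeff (PowerSeries.map xO z) = 0 := fun z hz => by
    rw [← PowerSeries.coeff_zero_eq_constantCoeff_apply, PowerSeries.coeff_map,
      PowerSeries.coeff_zero_eq_constantCoeff_apply, hz, map_zero]
  refine ⟨‖(p : C)‖ / ‖(p : C)‖ ^ N, by positivity, fun z z' hz hz' h d => ?_, fun z hz d => ?_⟩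
  · obtain ⟨c, e⟩ := log_bdd p hn (Ob C).subtype hA (S.H.map xO) hF h𝔞 (h0 z hz) (h0 z' hz')
      (hc z z' h) (Finsupp.single () d)
    rw [hl, hl, ← map_sub]
    exact hb _ c e
  · obtain ⟨c, e⟩ := log_coeff_step p hn (Ob C).subtype hA (S.H.map xO) hF h𝔞 (h0 z hz) (by
      rw [← map_pow, ← PowerSeries.map_expand]
      refine hc _ _ ?_
      rw [map_pow, PowerSeries.map_expand]
      exact pow_card_eq_expand p n hn _) d
    rw [hl]
    exact hb _ c e

theorem exists_Z (hn : 1 ≤ n) (S : Setup p n) (x : LTRing p n →+* C) (hx : ∀ a, ‖x a‖ ≤ 1)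
    (hxm : ∀ a ∈ mm p n, ‖x a‖ < 1) :
    ∃ (B : ℝ) (Z : ℕ → homs S.G S.G →+ C), 0 ≤ B ∧
      ∀ (α : ℕ) (ξ : homs S.G S.G) (z : PowerSeries (LTRing p n)),
        PowerSeries.constantCoeff z = 0 → PowerSeries.map (LTRing.residue p n) z = ξ.val.val →
        ∀ m : ℕ, ‖(p : C) ^ m * PowerSeries.coeff ((p ^ n) ^ m * α) (lz S x z) - Z α ξ‖ ≤
          ‖(p : C)‖ ^ m * B := by
  obtain ⟨B, hB, h1, h2⟩ := log_est hn S x hx hxm
  have hp : ‖(p : C)‖ < 1 := by simpa using hxm _ (natCast_mem_mm p n)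
  choose L hL0 hL using fun ξ : homs S.G S.G => exists_lift_series p n ξ.val.val ξ.2.1
  have hlim : ∀ (α : ℕ) (ξ : homs S.G S.G), ∃ y : C, ∀ m : ℕ,
      ‖(p : C) ^ m * PowerSeries.coeff ((p ^ n) ^ m * α) (lz S x (L ξ)) - y‖ ≤ ‖(p : C)‖ ^ m * B :=
    fun α ξ => zf_lim (norm_nonneg _) hp hB fun m => by
      rw [pow_succ, mul_assoc, ← mul_sub, norm_mul, norm_pow, pow_succ', mul_assoc]
      exact mul_le_mul_of_nonneg_left (h2 _ (hL0 ξ) _) (by positivity)
  choose Z hZ using hlim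
  have key : ∀ (α : ℕ) (ξ : homs S.G S.G) (z : PowerSeries (LTRing p n)),
      PowerSeries.constantCoeff z = 0 → PowerSeries.map (LTRing.residue p n) z = ξ.val.val →
      ∀ m : ℕ, ‖(p : C) ^ m * PowerSeries.coeff ((p ^ n) ^ m * α) (lz S x z) - Z α ξ‖ ≤
        ‖(p : C)‖ ^ m * B := fun α ξ z hz hz' m => by
    refine zf_tri ?_ (hZ α ξ m)
    rw [← mul_sub, norm_mul, norm_pow]
    exact mul_le_mul_of_nonneg_left (h1 _ _ hz (hL0 ξ) (hz'.trans (hL ξ).symm) _) (by positivity)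
  refine ⟨B, fun α => AddMonoidHom.mk' (Z α) fun ξ η => ?_, hB, key⟩
  have s1 := PowerSeries.HasSubst.of_constantCoeff_zero' (hL0 ξ)
  have s2 := PowerSeries.HasSubst.of_constantCoeff_zero' (hL0 η)
  have e : lz S x (S.H.toPowerSeries.subst ![L ξ, L η]) = lz S x (L ξ) + lz S x (L η) :=
    (congrArg (fun a => PowerSeries.subst a (logS x S.H)) (fg1b_map_subst S.H x s1 s2)).trans
      (logS_add x S.H (s1.map x) (s2.map x))
  have h3 := key α (ξ + η) (S.H.toPowerSeries.subst ![L ξ, L η])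
    (constantCoeff_fg_subst S.H (hL0 ξ) (hL0 η)) (by
      refine (fg1b_map_subst S.H (LTRing.residue p n) s1 s2).trans ?_
      rw [S.redH]
      exact congrArg₂ (fun a b => S.G.toPowerSeries.subst ![a, b]) (hL ξ) (hL η))
  have h4 : ∀ m : ℕ, ‖Z α (ξ + η) - (Z α ξ + Z α η)‖ ≤ ‖(p : C)‖ ^ m * B := fun m => by
    refine zf_tri ((norm_sub_rev _ _).trans_le (h3 m)) ?_
    rw [e, map_add, mul_add, add_sub_add_comm]
    exact (IsUltrametricDist.norm_add_le_max _ _).trans (max_le (hZ α ξ m) (hZ α η m))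
  have h5 := (tendsto_pow_atTop_nhds_zero_of_lt_one (norm_nonneg _) hp).mul_const B
  rw [zero_mul] at h5
  exact sub_eq_zero.1 (norm_le_zero_iff.1 (ge_of_tendsto' h5 h4))

theorem exists_Z_ne_zero (hn : 1 ≤ n) (S : Setup p n) (x : LTRing p n →+* C)
    (hx : ∀ a, ‖x a‖ ≤ 1) (hxm : ∀ a ∈ mm p n, ‖x a‖ < 1) (B : ℝ) (Z : ℕ → C)
    (hZ : ∀ α m : ℕ, ‖(p : C) ^ m * PowerSeries.coeff ((p ^ n) ^ m * α) (logS x S.H) - Z α‖ ≤
      ‖(p : C)‖ ^ m * B) : ∃ α, Z α ≠ 0 := by
  by_contra h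
  push Not at h
  obtain ⟨ρ, hρ0, hρ1, hρ⟩ := exists_rho x hx hxm
  have hp : ‖(p : C)‖ ≤ ρ := by simpa using hρ _ (natCast_mem_mm p n)
  have hq : p ^ n ≠ 0 := pow_ne_zero _ (Fact.out : p.Prime).ne_zero
  have hbdd : BddAbove (Set.range fun d => ‖PowerSeries.coeff d (logS x S.H)‖) :=
    ⟨B, by
      rintro _ ⟨d, rfl⟩
      simpa [h d] using hZ d 0⟩
  set μ := ⨆ d, ‖PowerSeries.coeff d (logS x S.H)‖ with hμ
  have hle : ∀ d, ‖PowerSeries.coeff d (logS x S.H)‖ ≤ μ := le_ciSup hbdd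
  have h1 : 1 ≤ μ := by simpa [coeff_one_logS] using hle 1
  have hμ0 : 0 ≤ μ := zero_le_one.trans h1
  let T : AddSubgroup C :=
    { carrier := {y | ‖y‖ ≤ μ * ρ}
      add_mem' := fun {a b} ha hb => (IsUltrametricDist.norm_add_le_max a b).trans (max_le ha hb)
      zero_mem' := by simpa using mul_nonneg hμ0 hρ0.le
      neg_mem' := fun {a} ha => by simpa using ha }
  have key : ∀ d, ‖PowerSeries.coeff d (logS x S.H)‖ ≤ μ * ρ := fun d => by
    have h2 := coeff_psubst_sub_mem T (a := PowerSeries.map x (mulSeries S.H p))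
      (b := (PowerSeries.X ^ (p ^ n) : PowerSeries C))
      ((hom_hasSubst (hom_mulSeries S.H p)).map x) (PowerSeries.HasSubst.X_pow hq) (logS x S.H)
      (Finsupp.single () (p ^ n * d)) fun e => by
        have h3 : (PowerSeries.map x (mulSeries S.H p)) ^ e - (PowerSeries.X ^ (p ^ n)) ^ e =
            PowerSeries.map x (mulSeries S.H p ^ e - (PowerSeries.X ^ (p ^ n)) ^ e) := by simp
        have h4 := hρ _ (zf_coeff_mem (z := mulSeries S.H p ^ e) (z' := (PowerSeries.X ^ (p ^ n)) ^ e)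
          (by rw [map_pow, zf_pser, ← map_pow]) (Finsupp.single () (p ^ n * d)))
        change ‖_ * MvPowerSeries.coeff _ ((PowerSeries.map x (mulSeries S.H p)) ^ e -
          (PowerSeries.X ^ (p ^ n)) ^ e : PowerSeries C)‖ ≤ _
        rw [h3, norm_mul]
        exact mul_le_mul (hle e) h4 (norm_nonneg _) hμ0
    change ‖PowerSeries.coeff (p ^ n * d) (PowerSeries.subst (PowerSeries.map x (mulSeries S.H p))
      (logS x S.H) - PowerSeries.subst (PowerSeries.X ^ (p ^ n) : PowerSeries C) (logS x S.H))‖ ≤ _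
      at h2
    rw [logS_comp_hom x (hom_mulSeries S.H p), ← PowerSeries.expand_apply _ hq, map_sub,
      PowerSeries.coeff_expand_mul, PowerSeries.coeff_C_mul, coeff_one_mulSeries, map_natCast] at h2
    have h5 := zf_tri (b := (p : C) * PowerSeries.coeff (p ^ n * d) (logS x S.H)) (c := 0)
      ((norm_sub_rev _ _).trans_le h2) (by
        rw [sub_zero, norm_mul, mul_comm]
        exact mul_le_mul (hle _) hp (norm_nonneg _) hμ0)
    rwa [sub_zero] at h5
  have h6 : μ ≤ μ * ρ := ciSup_le key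
  nlinarith

end Crest.Agent.R227
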